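import Vale.Agent.Lib.P073.Defs

/-!
# P073: common helper lemmas (integrability, smooth inverses, Jensen for fibre averages)
-/

section
/-!
# P073: basic integrability helpers
-/

namespace Vale.Agent.Lib.P073

open MeasureTheory Filter Topology Set
open scoped ContDiff ENNReal

/-- A continuous function with compact support inside `Ω`, times a function which is locally
integrable on `Ω`, is integrable. -/
theorem integrable_smul_of_tsupport_subset {E F : Type*} [TopologicalSpace E] [MeasurableSpace E]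
    [OpensMeasurableSpace E] [T2Space E]
    [NormedAddCommGroup F] [NormedSpace ℝ F] {μ : Measure E} {Ω : Set E} {u : E → F}
    (hu : LocallyIntegrableOn u Ω μ) {ψ : E → ℝ} (hψc : Continuous ψ) (hψs : HasCompactSupport ψ)
    (hsub : tsupport ψ ⊆ Ω) : Integrable (fun x => ψ x • u x) μ := by
  have h1 : IntegrableOn u (tsupport ψ) μ := hu.integrableOn_compact_subset hsub hψs
  have h2 : IntegrableOn (fun x => ψ x • u x) (tsupport ψ) μ :=
    h1.continuousOn_smul hψc.continuousOn hψs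
  refine (integrableOn_iff_integrable_of_support_subset ?_).1 h2
  intro x hx
  have : ψ x ≠ 0 := fun h0 => hx (by simp [h0])
  exact subset_tsupport _ this

end Vale.Agent.Lib.P073
end

section
namespace Vale.Agent.Lib.P073

open MeasureTheory Filter Topology Set
open scoped ContDiff ENNReal

/-- If `A` is smooth and injective on an open set `Ω` of a Banach space and its derivative is
invertible at every point of `Ω`, then the inverse of `A` is smooth on `A '' Ω`. -/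
theorem contDiffOn_invFunOn {E : Type*} [NormedAddCommGroup E] [NormedSpace ℝ E] [CompleteSpace E]
    {A : E → E} {Ω : Set E} (hΩ : IsOpen Ω) (hA : ContDiffOn ℝ ∞ A Ω) (hinj : InjOn A Ω)
    (hder : ∀ x ∈ Ω, ∃ f' : E ≃L[ℝ] E, HasFDerivAt A (f' : E →L[ℝ] E) x) :
    ContDiffOn ℝ ∞ (Function.invFunOn A Ω) (A '' Ω) := by
  rintro y ⟨x₀, hx₀, rfl⟩
  obtain ⟨f', hf'⟩ := hder x₀ hx₀
  have hf : ContDiffAt ℝ ∞ A x₀ := hA.contDiffAt (hΩ.mem_nhds hx₀)
  have hn : (∞ : WithTop ℕ∞) ≠ 0 := by simp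
  have h1 : ContDiffAt ℝ ∞ (hf.localInverse hf' hn) (A x₀) := hf.to_localInverse hf' hn
  have h2 : hf.localInverse hf' hn (A x₀) = x₀ := hf.localInverse_apply_image hf' hn
  have h3 : ∀ᶠ y in 𝓝 (A x₀), hf.localInverse hf' hn y ∈ Ω := by
    have : Ω ∈ 𝓝 (hf.localInverse hf' hn (A x₀)) := by rw [h2]; exact hΩ.mem_nhds hx₀
    exact h1.continuousAt.eventually this
  have h4 : ∀ᶠ y in 𝓝 (A x₀), y ∈ (hf.toOpenPartialHomeomorph A hf' hn).target :=
    (hf.toOpenPartialHomeomorph A hf' hn).open_target.mem_nhds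
      (hf.image_mem_toOpenPartialHomeomorph_target hf' hn)
  have h5 : Function.invFunOn A Ω =ᶠ[𝓝 (A x₀)] hf.localInverse hf' hn := by
    filter_upwards [h3, h4] with y hy1 hy2
    have hy3 : A (hf.localInverse hf' hn y) = y :=
      (hf.toOpenPartialHomeomorph A hf' hn).right_inv hy2
    have hex : ∃ x ∈ Ω, A x = y := ⟨_, hy1, hy3⟩
    exact hinj (Function.invFunOn_mem hex) hy1 ((Function.invFunOn_eq hex).trans hy3.symm)
  exact (h1.congr_of_eventuallyEq h5).contDiffWithinAt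

/-- Jensen for fibre averages: the `L^p` norm of the average over a probability measure in the
second variable is at most the `L^p` norm on the product (strongly measurable case). -/
theorem descent_eLpNorm_integral_le_of_stronglyMeasurable {α β G : Type*} [MeasurableSpace α]
    [MeasurableSpace β] {μ : Measure α} {ν : Measure β} [SFinite μ] [IsProbabilityMeasure ν]
    [NormedAddCommGroup G] [NormedSpace ℝ G] {p : ℝ≥0∞} (hp : 1 ≤ p) (hp' : p ≠ ⊤)
    {K : α × β → G} (hK : StronglyMeasurable K) :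
    eLpNorm (fun a => ∫ b, K (a, b) ∂ν) p μ ≤ eLpNorm K p (μ.prod ν) := by
  have hp0 : p ≠ 0 := (lt_of_lt_of_le zero_lt_one hp).ne'
  have hq1 : 1 ≤ p.toReal := by
    have := ENNReal.toReal_mono hp' hp
    simpa using this
  have hq0 : 0 < p.toReal := lt_of_lt_of_le zero_lt_one hq1
  have hKm : Measurable fun z : α × β => ‖K z‖ₑ ^ p.toReal := hK.enorm.pow_const _
  have key : ∀ a : α, ‖∫ b, K (a, b) ∂ν‖ₑ ^ p.toReal ≤ ∫⁻ b, ‖K (a, b)‖ₑ ^ p.toReal ∂ν := by
    intro a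
    have hKa : StronglyMeasurable fun b : β => K (a, b) := hK.comp_measurable measurable_prodMk_left
    have h1 : ‖∫ b, K (a, b) ∂ν‖ₑ ≤ ∫⁻ b, ‖K (a, b)‖ₑ ∂ν := enorm_integral_le_lintegral_enorm _
    have h2 : ∫⁻ b, ‖K (a, b)‖ₑ ∂ν ≤ (∫⁻ b, ‖K (a, b)‖ₑ ^ p.toReal ∂ν) ^ (1 / p.toReal) := by
      have := eLpNorm_le_eLpNorm_of_exponent_le (μ := ν) hp hKa.aestronglyMeasurable
      rwa [eLpNorm_one_eq_lintegral_enorm, eLpNorm_eq_lintegral_rpow_enorm_toReal hp0 hp'] at this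
    calc ‖∫ b, K (a, b) ∂ν‖ₑ ^ p.toReal
        ≤ ((∫⁻ b, ‖K (a, b)‖ₑ ^ p.toReal ∂ν) ^ (1 / p.toReal)) ^ p.toReal :=
          ENNReal.rpow_le_rpow (h1.trans h2) hq0.le
      _ = ∫⁻ b, ‖K (a, b)‖ₑ ^ p.toReal ∂ν := by
          rw [← ENNReal.rpow_mul, one_div, inv_mul_cancel₀ hq0.ne', ENNReal.rpow_one]
  rw [eLpNorm_eq_lintegral_rpow_enorm_toReal hp0 hp', eLpNorm_eq_lintegral_rpow_enorm_toReal hp0 hp']
  refine ENNReal.rpow_le_rpow ?_ (by positivity)
  calc ∫⁻ a, ‖∫ b, K (a, b) ∂ν‖ₑ ^ p.toReal ∂μ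
      ≤ ∫⁻ a, ∫⁻ b, ‖K (a, b)‖ₑ ^ p.toReal ∂ν ∂μ := lintegral_mono key
    _ = ∫⁻ z, ‖K z‖ₑ ^ p.toReal ∂μ.prod ν := (lintegral_prod _ hKm.aemeasurable).symm

/-- Jensen for fibre averages, almost everywhere strongly measurable case. -/
theorem descent_eLpNorm_integral_le {α β G : Type*} [MeasurableSpace α]
    [MeasurableSpace β] {μ : Measure α} {ν : Measure β} [SFinite μ] [IsProbabilityMeasure ν]
    [NormedAddCommGroup G] [NormedSpace ℝ G] {p : ℝ≥0∞} (hp : 1 ≤ p) (hp' : p ≠ ⊤)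
    {K : α × β → G} (hK : AEStronglyMeasurable K (μ.prod ν)) :
    eLpNorm (fun a => ∫ b, K (a, b) ∂ν) p μ ≤ eLpNorm K p (μ.prod ν) := by
  have hae : K =ᵐ[μ.prod ν] hK.mk K := hK.ae_eq_mk
  have hae' : ∀ᵐ a ∂μ, ∀ᵐ b ∂ν, K (a, b) = hK.mk K (a, b) := Measure.ae_ae_of_ae_prod hae
  have e1 : (fun a => ∫ b, K (a, b) ∂ν) =ᵐ[μ] fun a => ∫ b, hK.mk K (a, b) ∂ν := by
    filter_upwards [hae'] with a ha
    exact integral_congr_ae ha
  rw [eLpNorm_congr_ae e1, eLpNorm_congr_ae hae]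
  exact descent_eLpNorm_integral_le_of_stronglyMeasurable hp hp' hK.stronglyMeasurable_mk

end Vale.Agent.Lib.P073
end
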