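import Mathlib

/-!
# P073: Sobolev maps, weak derivatives and diffeomorphic approximation -- definitions
-/

namespace Vale.Agent.Lib.P073

open MeasureTheory Filter Topology Set
open scoped ContDiff ENNReal

variable {E : Type*} [NormedAddCommGroup E] [NormedSpace ℝ E] [MeasureSpace E]
  {F : Type*} [NormedAddCommGroup F] [NormedSpace ℝ F]

/-- `G` is a weak (distributional) derivative of `f` on `Ω`: both are locally integrable on `Ω`
and `∫_Ω (∂_v φ) f = - ∫_Ω φ (G v)` for every smooth compactly supported test function `φ` with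
support in `Ω` and every direction `v`. -/
def IsWeakDeriv (Ω : Set E) (f : E → F) (G : E → E →L[ℝ] F) : Prop :=
  LocallyIntegrableOn f Ω ∧ LocallyIntegrableOn G Ω ∧
  ∀ φ : E → ℝ, ContDiff ℝ ∞ φ → HasCompactSupport φ → tsupport φ ⊆ Ω →
    ∀ v : E, ∫ x in Ω, (fderiv ℝ φ x v) • f x = - ∫ x in Ω, φ x • G x v

/-- `f` belongs to the Sobolev space `W^{1,p}(Ω)` and `G` is its weak derivative. -/
def IsSobolevWith (p : ℝ≥0∞) (Ω : Set E) (f : E → F) (G : E → E →L[ℝ] F) : Prop :=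
  IsWeakDeriv Ω f G ∧ MemLp f p (volume.restrict Ω) ∧ MemLp G p (volume.restrict Ω)

/-- `g` is a `C^∞` diffeomorphism of `Ω` onto `Λ`: smooth on `Ω`, a bijection of `Ω` onto `Λ`,
with an inverse that is smooth on `Λ`. -/
def IsSmoothDiffeo (g : E → E) (Ω Λ : Set E) : Prop :=
  ContDiffOn ℝ ∞ g Ω ∧ BijOn g Ω Λ ∧ ∃ h : E → E, ContDiffOn ℝ ∞ h Λ ∧ ∀ x ∈ Ω, h (g x) = x

/-- `f` is diffeomorphically approximable in `W^{1,p}` as a map from `Ω` to `Λ`: `f` lies in
`W^{1,p}(Ω)` with weak derivative `G`, and there are `C^∞` diffeomorphisms `F j` of `Ω` onto the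
same `Λ`, each in `W^{1,p}(Ω)` (with its classical derivative), such that
`‖F j - f‖_{L^p(Ω)} + ‖D(F j) - G‖_{L^p(Ω)} → 0`. -/
def IsDiffeoApproximable (p : ℝ≥0∞) (Ω Λ : Set E) (f : E → E) : Prop :=
  ∃ G : E → E →L[ℝ] E, IsSobolevWith p Ω f G ∧
    ∃ F : ℕ → E → E,
      (∀ j, IsSmoothDiffeo (F j) Ω Λ ∧ MemLp (F j) p (volume.restrict Ω) ∧
        MemLp (fderiv ℝ (F j)) p (volume.restrict Ω)) ∧
      Tendsto (fun j => eLpNorm (fun x => F j x - f x) p (volume.restrict Ω)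
        + eLpNorm (fun x => fderiv ℝ (F j) x - G x) p (volume.restrict Ω)) atTop (𝓝 0)

end Vale.Agent.Lib.P073
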