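import Vale.Agent.Lib.P073.FibreTools

/-!
# P073: merged module Fibre (parts: FibreA, FibreB, FibreC, FibreD, FibreE, FibreF, FibreG, FibreH)
-/

section -- part FibreA

/-!
# P073: weak derivatives of smooth functions, and mollification
-/

set_option linter.unusedSectionVars false

namespace Vale.Agent.Lib.P073

open MeasureTheory Filter Topology Set
open scoped ContDiff ENNReal

section weak

variable {E : Type*} [NormedAddCommGroup E] [NormedSpace ℝ E] [MeasureSpace E] [BorelSpace E]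
  [FiniteDimensional ℝ E] [(volume : Measure E).IsAddHaarMeasure]

/-- A smooth function has its classical derivative as weak derivative on every set. -/
theorem isWeakDeriv_of_contDiff (Ω : Set E) {u : E → ℝ} (hu : ContDiff ℝ ∞ u) :
    IsWeakDeriv Ω u (fderiv ℝ u) := by
  have hu' : Continuous (fderiv ℝ u) := hu.continuous_fderiv (by simp)
  refine ⟨hu.continuous.locallyIntegrable.locallyIntegrableOn Ω,
    hu'.locallyIntegrable.locallyIntegrableOn Ω, ?_⟩
  intro φ hφ hφs hsub v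
  have e1 : ∫ x in Ω, (fderiv ℝ φ x v) • u x = ∫ x, (fderiv ℝ φ x v) • u x := by
    apply setIntegral_eq_integral_of_forall_compl_eq_zero
    intro x hx
    have h0 : fderiv ℝ φ x = 0 := fderiv_of_notMem_tsupport (𝕜 := ℝ) (fun h => hx (hsub h))
    simp [h0]
  have e2 : ∫ x in Ω, φ x • fderiv ℝ u x v = ∫ x, φ x • fderiv ℝ u x v := by
    apply setIntegral_eq_integral_of_forall_compl_eq_zero
    intro x hx
    have h0 : φ x = 0 := image_eq_zero_of_notMem_tsupport (fun h => hx (hsub h))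
    simp [h0]
  rw [e1, e2]
  have hφc : Continuous φ := hφ.continuous
  have hdφ : Continuous (fun y => fderiv ℝ φ y v) :=
    (hφ.continuous_fderiv (by simp)).clm_apply continuous_const
  have hdφs : HasCompactSupport (fun y => fderiv ℝ φ y v) := hφs.fderiv_apply (𝕜 := ℝ) v
  have hdu : Continuous (fun y => fderiv ℝ u y v) := hu'.clm_apply continuous_const
  have key := integral_mul_fderiv_eq_neg_fderiv_mul_of_integrable (μ := (volume : Measure E))
    (f := u) (g := φ) (v := v)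
    ((hdu.mul hφc).integrable_of_hasCompactSupport hφs.mul_left)
    ((hu.continuous.mul hdφ).integrable_of_hasCompactSupport hdφs.mul_left)
    ((hu.continuous.mul hφc).integrable_of_hasCompactSupport hφs.mul_left)
    (fun x _ => hu.differentiable (by simp) x)
    (fun x _ => hφ.differentiable (by simp) x)
  simp only [smul_eq_mul]
  have e3 : (fun x => fderiv ℝ φ x v * u x) = fun x => u x * fderiv ℝ φ x v :=
    funext fun x => mul_comm _ _
  have e4 : (fun x => φ x * fderiv ℝ u x v) = fun x => fderiv ℝ u x v * φ x :=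
    funext fun x => mul_comm _ _
  rw [e3, e4, key]

end weak

section congr

variable {E : Type*} [NormedAddCommGroup E] [NormedSpace ℝ E] [MeasureSpace E] [BorelSpace E]
  {F : Type*} [NormedAddCommGroup F] [NormedSpace ℝ F] [CompleteSpace F]

theorem IsWeakDeriv.sub {Ω : Set E} {u u' : E → F} {H H' : E → E →L[ℝ] F}
    (h : IsWeakDeriv Ω u H) (h' : IsWeakDeriv Ω u' H') :
    IsWeakDeriv Ω (fun z => u z - u' z) (fun z => H z - H' z) := by
  have := h.add (IsWeakDeriv.neg h')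
  simpa only [sub_eq_add_neg] using this

/-- Changing the weak derivative on the complement of `Ω` (and keeping local integrability). -/
theorem IsWeakDeriv.congr_right {Ω : Set E} (hΩ : MeasurableSet Ω) {u : E → F}
    {H H' : E → E →L[ℝ] F} (h : IsWeakDeriv Ω u H) (hH' : LocallyIntegrableOn H' Ω)
    (heq : ∀ x ∈ Ω, H x = H' x) : IsWeakDeriv Ω u H' := by
  refine ⟨h.1, hH', ?_⟩
  intro φ hφ hφs hsub v
  rw [h.2.2 φ hφ hφs hsub v]
  congr 1
  exact setIntegral_congr_fun hΩ fun x hx => by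
    show φ x • H x v = φ x • H' x v
    rw [heq x hx]

end congr

section mol

variable {E : Type*} [NormedAddCommGroup E] [NormedSpace ℝ E] [MeasureSpace E] [BorelSpace E]
  [FiniteDimensional ℝ E] [(volume : Measure E).IsAddHaarMeasure]
  {F : Type*} [NormedAddCommGroup F] [NormedSpace ℝ F] [CompleteSpace F]

/-- The mollification `x ↦ ∫ ρ (x - y) • h y dy`. -/
noncomputable def mol (ρ : E → ℝ) (h : E → F) (x : E) : F := ∫ y, ρ (x - y) • h y

theorem mol_eq_convolution (ρ : E → ℝ) (h : E → F) :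
    mol ρ h = convolution h ρ (ContinuousLinearMap.lsmul ℝ ℝ).flip volume := by
  funext x
  rfl

theorem mol_integrable {ρ : E → ℝ} (hρc : Continuous ρ) (hρs : HasCompactSupport ρ) {h : E → F}
    (hh : LocallyIntegrable h) (x : E) : Integrable (fun y => ρ (x - y) • h y) := by
  have hc : Continuous (fun y => ρ (x - y)) := hρc.comp (continuous_const.sub continuous_id)
  have hs : HasCompactSupport (fun y => ρ (x - y)) := hρs.comp_homeomorph (Homeomorph.subLeft x)
  exact integrable_smul_of_tsupport_subset (hh.locallyIntegrableOn univ) hc hs (subset_univ _)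

theorem mol_eq_integral_sub (ρ : E → ℝ) (h : E → F) (x : E) :
    mol ρ h x = ∫ t, ρ t • h (x - t) := by
  unfold mol
  rw [← integral_sub_left_eq_self (fun t => ρ t • h (x - t)) volume x]
  simp

theorem mol_integrable' {ρ : E → ℝ} (hρc : Continuous ρ) (hρs : HasCompactSupport ρ) {h : E → F}
    (hh : LocallyIntegrable h) (x : E) : Integrable (fun t => ρ t • h (x - t)) := by
  have := (mol_integrable hρc hρs hh x).comp_sub_left x
  simpa using this

theorem mol_contDiff {ρ : E → ℝ} (hρ : ContDiff ℝ ∞ ρ) (hρs : HasCompactSupport ρ) {h : E → F}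
    (hh : LocallyIntegrable h) : ContDiff ℝ ∞ (mol ρ h) := by
  rw [mol_eq_convolution]
  exact hρs.contDiff_convolution_right _ hh hρ

theorem mol_fderiv_apply {ρ : E → ℝ} (hρ : ContDiff ℝ ∞ ρ) (hρs : HasCompactSupport ρ) {h : E → F}
    (hh : LocallyIntegrable h) (x v : E) :
    fderiv ℝ (mol ρ h) x v = ∫ y, (fderiv ℝ ρ (x - y) v) • h y := by
  have h1 := hρs.hasFDerivAt_convolution_right (ContinuousLinearMap.lsmul ℝ ℝ).flip hh
    (hρ.of_le (by simp)) x
  rw [mol_eq_convolution, h1.fderiv,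
    convolution_precompR_apply _ hh (hρs.fderiv ℝ) (hρ.continuous_fderiv (by simp))]
  rfl

/-- If `ρ` has integral one and `h` equals the constant `a` wherever `ρ (x - ·)` does not vanish,
then the mollification of `h` at `x` equals `a`. -/
theorem mol_eq_of_eq_on {ρ : E → ℝ} (hρ1 : ∫ x, ρ x = 1) {h : E → F} {x : E} {a : F}
    (hx : ∀ y, ρ (x - y) ≠ 0 → h y = a) : mol ρ h x = a := by
  have e : (fun y => ρ (x - y) • h y) = fun y => ρ (x - y) • a := by
    funext y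
    by_cases hy : ρ (x - y) = 0
    · simp [hy]
    · rw [hx y hy]
  unfold mol
  rw [e, integral_smul_const, integral_sub_left_eq_self (fun t => ρ t) volume x, hρ1, one_smul]

/-- Monotonicity of the mollification of a real function along a direction in which the function
is monotone. -/
theorem mol_le_mol {ρ : E → ℝ} (hρc : Continuous ρ) (hρs : HasCompactSupport ρ)
    (hρ0 : ∀ x, 0 ≤ ρ x) {h : E → ℝ} (hh : LocallyIntegrable h) {x x' : E}
    (hle : ∀ t, h (x - t) ≤ h (x' - t)) : mol ρ h x ≤ mol ρ h x' := by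
  rw [mol_eq_integral_sub, mol_eq_integral_sub]
  refine integral_mono (mol_integrable' hρc hρs hh x) (mol_integrable' hρc hρs hh x') ?_
  intro t
  exact mul_le_mul_of_nonneg_left (hle t) (hρ0 t)

/-- The gradient of a mollification of a weakly differentiable function is the mollification of
the weak derivative, at points where the mollifier sees only the domain of weak
differentiability. -/
theorem mol_fderiv_eq_of_isWeakDeriv {ρ : E → ℝ} (hρ : ContDiff ℝ ∞ ρ)
    (hρs : HasCompactSupport ρ) {h : E → ℝ} {G : E → E →L[ℝ] ℝ} (hh : LocallyIntegrable h)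
    {Ω : Set E} (hw : IsWeakDeriv Ω h G) {x : E} (hx : ∀ y, x - y ∈ tsupport ρ → y ∈ Ω) :
    fderiv ℝ (mol ρ h) x = ∫ y in Ω, ρ (x - y) • G y := by
  have hψ : ContDiff ℝ ∞ (fun y => ρ (x - y)) := hρ.comp (contDiff_const.sub contDiff_id)
  have hψs : HasCompactSupport (fun y => ρ (x - y)) :=
    hρs.comp_homeomorph (Homeomorph.subLeft x)
  have hψsub : tsupport (fun y => ρ (x - y)) ⊆ Ω := by
    intro y hy
    apply hx
    have hcl : IsClosed ((fun y => x - y) ⁻¹' tsupport ρ) :=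
      (isClosed_tsupport ρ).preimage (continuous_const.sub continuous_id)
    have hsub : Function.support (fun y => ρ (x - y)) ⊆ (fun y => x - y) ⁻¹' tsupport ρ := by
      intro z hz
      exact subset_tsupport ρ hz
    exact closure_minimal hsub hcl hy
  have hGi : Integrable (fun y => ρ (x - y) • G y) (volume.restrict Ω) :=
    (integrable_smul_of_tsupport_subset hw.2.1 hψ.continuous hψs hψsub).integrableOn
  ext v
  rw [mol_fderiv_apply hρ hρs hh, ContinuousLinearMap.integral_apply hGi]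
  have hweak := hw.2.2 _ hψ hψs hψsub v
  have e1 : ∀ y, fderiv ℝ (fun y => ρ (x - y)) y v = - fderiv ℝ ρ (x - y) v := by
    intro y
    have hd : HasFDerivAt ρ (fderiv ℝ ρ (x - y)) (x - y) :=
      (hρ.differentiable (by simp) (x - y)).hasFDerivAt
    have hs : HasFDerivAt (fun y : E => x - y) (0 - ContinuousLinearMap.id ℝ E) y :=
      (hasFDerivAt_const x y).sub (hasFDerivAt_id y)
    have hc := hd.comp y hs
    have e : (ρ ∘ fun y : E => x - y) = fun y => ρ (x - y) := rfl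
    rw [e] at hc
    rw [hc.fderiv]
    simp
  simp only [e1, neg_smul, integral_neg, neg_inj] at hweak
  have e2 : ∫ y, (fderiv ℝ ρ (x - y) v) • h y = ∫ y in Ω, (fderiv ℝ ρ (x - y) v) • h y := by
    symm
    apply setIntegral_eq_integral_of_forall_compl_eq_zero
    intro y hy
    have h0 : fderiv ℝ ρ (x - y) = 0 :=
      fderiv_of_notMem_tsupport (𝕜 := ℝ) (fun hmem => hy (hx y hmem))
    simp [h0]
  rw [e2, hweak]
  rfl

end mol

end Vale.Agent.Lib.P073

end -- part FibreA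

section -- part FibreB

/-!
# P073: fibrewise increasing maps of a cylinder and their extension across the two faces
-/

set_option linter.unusedSectionVars false

namespace Vale.Agent.Lib.P073

open MeasureTheory Filter Topology Set
open scoped ContDiff ENNReal

/-- A smooth monotone step profile: `0` for `z ≤ 1/3`, `1` for `z ≥ 2/3`. -/
noncomputable def stepH (z : ℝ) : ℝ := Real.smoothTransition (3 * z - 1)

theorem stepH_contDiff : ContDiff ℝ ∞ stepH :=
  Real.smoothTransition.contDiff.comp ((contDiff_const.mul contDiff_id).sub contDiff_const)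

theorem stepH_zero {z : ℝ} (hz : z ≤ 1 / 3) : stepH z = 0 :=
  Real.smoothTransition.zero_of_nonpos (by linarith)

theorem stepH_one {z : ℝ} (hz : 2 / 3 ≤ z) : stepH z = 1 :=
  Real.smoothTransition.one_of_one_le (by linarith)

theorem stepH_nonneg (z : ℝ) : 0 ≤ stepH z := Real.smoothTransition.nonneg _

theorem stepH_le_one (z : ℝ) : stepH z ≤ 1 := Real.smoothTransition.le_one _

theorem stepH_mono : Monotone stepH := fun a b hab =>
  Real.smoothTransition.monotone (by linarith)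

section ext

variable {W : Type*} [NormedAddCommGroup W] [NormedSpace ℝ W]

/-- `c` is continuous on the cylinder `D × (0,1)` and maps every fibre `{w} × (0,1)` increasingly
onto the interval `Ioo 0 1`. -/
structure FibreHomeo (D : Set W) (c : W × ℝ → ℝ) : Prop where
  cont : ContinuousOn c (D ×ˢ Ioo (0 : ℝ) 1)
  mono : ∀ w ∈ D, StrictMonoOn (fun z => c (w, z)) (Ioo (0 : ℝ) 1)
  surj : ∀ w ∈ D, (fun z => c (w, z)) '' Ioo (0 : ℝ) 1 = Ioo (0 : ℝ) 1

theorem FibreHomeo.mem_Ioo {D : Set W} {c : W × ℝ → ℝ} (hc : FibreHomeo D c) {w : W} (hw : w ∈ D)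
    {z : ℝ} (hz : z ∈ Ioo (0 : ℝ) 1) : c (w, z) ∈ Ioo (0 : ℝ) 1 := by
  rw [← hc.surj w hw]
  exact ⟨z, hz, rfl⟩

theorem FibreHomeo.mem_Ioo' {D : Set W} {c : W × ℝ → ℝ} (hc : FibreHomeo D c) {x : W × ℝ}
    (hx : x ∈ D ×ˢ Ioo (0 : ℝ) 1) : c x ∈ Ioo (0 : ℝ) 1 :=
  hc.mem_Ioo hx.1 hx.2

/-- The extension of `c` from the cylinder `D × (0,1)`: equal to `c` on the cylinder and to the
step profile elsewhere (so `0` below the cylinder and `1` above it). -/
noncomputable def fibExt (D : Set W) (c : W × ℝ → ℝ) (x : W × ℝ) : ℝ :=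
  stepH x.2 + (D ×ˢ Ioo (0 : ℝ) 1).indicator (fun x => c x - stepH x.2) x

theorem fibExt_of_mem {D : Set W} {c : W × ℝ → ℝ} {x : W × ℝ} (hx : x ∈ D ×ˢ Ioo (0 : ℝ) 1) :
    fibExt D c x = c x := by
  simp [fibExt, indicator_of_mem hx]

theorem fibExt_of_notMem {D : Set W} {c : W × ℝ → ℝ} {x : W × ℝ}
    (hx : x ∉ D ×ˢ Ioo (0 : ℝ) 1) : fibExt D c x = stepH x.2 := by
  simp [fibExt, indicator_of_notMem hx]

theorem fibExt_of_le {D : Set W} {c : W × ℝ → ℝ} {x : W × ℝ} (hx : x.2 ≤ 0) :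
    fibExt D c x = 0 := by
  rw [fibExt_of_notMem (fun h => absurd h.2.1 (not_lt.mpr hx)), stepH_zero (by linarith)]

theorem fibExt_of_ge {D : Set W} {c : W × ℝ → ℝ} {x : W × ℝ} (hx : 1 ≤ x.2) :
    fibExt D c x = 1 := by
  rw [fibExt_of_notMem (fun h => absurd h.2.2 (not_lt.mpr hx)), stepH_one (by linarith)]

theorem fibExt_nonneg {D : Set W} {c : W × ℝ → ℝ} (hc : FibreHomeo D c) (x : W × ℝ) :
    0 ≤ fibExt D c x := by
  by_cases hx : x ∈ D ×ˢ Ioo (0 : ℝ) 1
  · rw [fibExt_of_mem hx]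
    exact (hc.mem_Ioo' hx).1.le
  · rw [fibExt_of_notMem hx]
    exact stepH_nonneg _

theorem fibExt_le_one {D : Set W} {c : W × ℝ → ℝ} (hc : FibreHomeo D c) (x : W × ℝ) :
    fibExt D c x ≤ 1 := by
  by_cases hx : x ∈ D ×ˢ Ioo (0 : ℝ) 1
  · rw [fibExt_of_mem hx]
    exact (hc.mem_Ioo' hx).2.le
  · rw [fibExt_of_notMem hx]
    exact stepH_le_one _

/-- The extension is monotone along every vertical line. -/
theorem fibExt_mono {D : Set W} {c : W × ℝ → ℝ} (hc : FibreHomeo D c) (w : W) :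
    Monotone (fun z => fibExt D c (w, z)) := by
  intro z₁ z₂ h12
  show fibExt D c (w, z₁) ≤ fibExt D c (w, z₂)
  by_cases hw : w ∈ D
  · rcases le_or_gt z₁ 0 with h1 | h1
    · rw [fibExt_of_le (x := (w, z₁)) h1]
      exact fibExt_nonneg hc _
    rcases le_or_gt 1 z₂ with h2 | h2
    · rw [fibExt_of_ge (x := (w, z₂)) h2]
      exact fibExt_le_one hc _
    have m1 : z₁ ∈ Ioo (0 : ℝ) 1 := ⟨h1, lt_of_le_of_lt h12 h2⟩
    have m2 : z₂ ∈ Ioo (0 : ℝ) 1 := ⟨lt_of_lt_of_le h1 h12, h2⟩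
    rw [fibExt_of_mem (x := (w, z₁)) ⟨hw, m1⟩, fibExt_of_mem (x := (w, z₂)) ⟨hw, m2⟩]
    exact (hc.mono w hw).monotoneOn m1 m2 h12
  · rw [fibExt_of_notMem (x := (w, z₁)) (fun h => hw h.1),
      fibExt_of_notMem (x := (w, z₂)) (fun h => hw h.1)]
    exact stepH_mono h12

end ext

section meas

variable {W : Type*} [NormedAddCommGroup W] [NormedSpace ℝ W] [FiniteDimensional ℝ W]
  [MeasureSpace W] [BorelSpace W] [(volume : Measure W).IsAddHaarMeasure]

theorem fibExt_aestronglyMeasurable {D : Set W} (hD : IsOpen D) {c : W × ℝ → ℝ}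
    (hc : FibreHomeo D c) : AEStronglyMeasurable (fibExt D c) volume := by
  have hQm : MeasurableSet (D ×ˢ Ioo (0 : ℝ) 1) := (hD.prod isOpen_Ioo).measurableSet
  have h1 : Continuous (fun x : W × ℝ => stepH x.2) :=
    stepH_contDiff.continuous.comp continuous_snd
  have h2 : AEStronglyMeasurable ((D ×ˢ Ioo (0 : ℝ) 1).indicator (fun x => c x - stepH x.2))
      volume := by
    rw [aestronglyMeasurable_indicator_iff hQm]
    exact (hc.cont.sub h1.continuousOn).aestronglyMeasurable hQm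
  exact h1.aestronglyMeasurable.add h2

theorem fibExt_locallyIntegrable {D : Set W} (hD : IsOpen D) {c : W × ℝ → ℝ}
    (hc : FibreHomeo D c) : LocallyIntegrable (fibExt D c) volume := by
  have hm : MemLp (fibExt D c) ⊤ volume := by
    refine memLp_top_of_bound (fibExt_aestronglyMeasurable hD hc) 1 (Eventually.of_forall ?_)
    intro x
    rw [Real.norm_eq_abs, abs_le]
    exact ⟨by linarith [fibExt_nonneg hc x], fibExt_le_one hc x⟩
  exact hm.locallyIntegrable le_top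

end meas

end Vale.Agent.Lib.P073

end -- part FibreB

section -- part FibreC

/-!
# P073: the weak derivative of the extension of a fibrewise increasing map
-/

set_option linter.unusedSectionVars false

namespace Vale.Agent.Lib.P073

open MeasureTheory Filter Topology Set
open scoped ContDiff ENNReal

section ends

variable {W : Type*} [NormedAddCommGroup W] [NormedSpace ℝ W]

theorem two_div_mem_Ioo (m : ℕ) : 2 / ((m : ℝ) + 4) ∈ Ioo (0 : ℝ) 1 := by
  have hm : (0 : ℝ) ≤ m := Nat.cast_nonneg m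
  have hpos : (0 : ℝ) < (m : ℝ) + 4 := by linarith
  refine ⟨by positivity, ?_⟩
  rw [div_lt_one hpos]
  linarith

theorem one_sub_two_div_mem_Ioo (m : ℕ) : 1 - 2 / ((m : ℝ) + 4) ∈ Ioo (0 : ℝ) 1 := by
  have h := two_div_mem_Ioo m
  exact ⟨by linarith [h.2], by linarith [h.1]⟩

theorem eventually_two_div_lt {z₀ : ℝ} (hz₀ : 0 < z₀) :
    ∀ᶠ m : ℕ in atTop, 2 / ((m : ℝ) + 4) < z₀ := by
  obtain ⟨N, hN⟩ := exists_nat_gt (2 / z₀)
  filter_upwards [eventually_ge_atTop N] with m hm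
  have hm' : (N : ℝ) ≤ m := by exact_mod_cast hm
  have hpos : (0 : ℝ) < (m : ℝ) + 4 := by
    have : (0 : ℝ) ≤ m := Nat.cast_nonneg m
    linarith
  rw [div_lt_iff₀ hpos]
  rw [div_lt_iff₀ hz₀] at hN
  nlinarith

theorem FibreHomeo.exists_eq {D : Set W} {c : W × ℝ → ℝ} (hc : FibreHomeo D c) {w : W}
    (hw : w ∈ D) {a : ℝ} (ha : a ∈ Ioo (0 : ℝ) 1) : ∃ z ∈ Ioo (0 : ℝ) 1, c (w, z) = a := by
  have : a ∈ (fun z => c (w, z)) '' Ioo (0 : ℝ) 1 := by rw [hc.surj w hw]; exact ha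
  obtain ⟨z, hz, hza⟩ := this
  exact ⟨z, hz, hza⟩

theorem FibreHomeo.tendsto_low {D : Set W} {c : W × ℝ → ℝ} (hc : FibreHomeo D c) {w : W}
    (hw : w ∈ D) : Tendsto (fun m : ℕ => c (w, 2 / ((m : ℝ) + 4))) atTop (𝓝 0) := by
  rw [tendsto_order]
  refine ⟨fun a ha => Eventually.of_forall fun m => ?_, fun a ha => ?_⟩
  · exact lt_trans ha (hc.mem_Ioo hw (two_div_mem_Ioo m)).1
  · obtain ⟨z₀, hz₀, hz₀a⟩ := hc.exists_eq hw (a := min a (1 / 2))
      ⟨lt_min ha (by norm_num), lt_of_le_of_lt (min_le_right _ _) (by norm_num)⟩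
    filter_upwards [eventually_two_div_lt hz₀.1] with m hm
    have := hc.mono w hw (two_div_mem_Ioo m) hz₀ hm
    have h2 : c (w, z₀) ≤ a := by rw [hz₀a]; exact min_le_left _ _
    exact lt_of_lt_of_le this h2

theorem FibreHomeo.tendsto_high {D : Set W} {c : W × ℝ → ℝ} (hc : FibreHomeo D c) {w : W}
    (hw : w ∈ D) : Tendsto (fun m : ℕ => 1 - c (w, 1 - 2 / ((m : ℝ) + 4))) atTop (𝓝 0) := by
  rw [tendsto_order]
  refine ⟨fun a ha => Eventually.of_forall fun m => ?_, fun a ha => ?_⟩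
  · have := (hc.mem_Ioo hw (one_sub_two_div_mem_Ioo m)).2
    linarith
  · obtain ⟨z₀, hz₀, hz₀a⟩ := hc.exists_eq hw (a := max (1 - a) (1 / 2))
      ⟨lt_of_lt_of_le (by norm_num) (le_max_right _ _), max_lt (by linarith) (by norm_num)⟩
    filter_upwards [eventually_two_div_lt (sub_pos.mpr hz₀.2)] with m hm
    have hlt : z₀ < 1 - 2 / ((m : ℝ) + 4) := by linarith
    have := hc.mono w hw hz₀ (one_sub_two_div_mem_Ioo m) hlt
    have h2 : 1 - a ≤ c (w, z₀) := by rw [hz₀a]; exact le_max_left _ _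
    linarith

end ends

section E4

variable {W : Type*} [NormedAddCommGroup W] [NormedSpace ℝ W] [FiniteDimensional ℝ W]
  [MeasureSpace W] [BorelSpace W] [(volume : Measure W).IsAddHaarMeasure]

/-- Lebesgue measure on `W × ℝ` is an additive Haar measure. -/
theorem prodVol_isAddHaar : (volume : Measure (W × ℝ)).IsAddHaarMeasure :=
  Measure.prod.instIsAddHaarMeasure _ _

attribute [local instance] prodVol_isAddHaar

theorem stepH_snd_contDiff : ContDiff ℝ ∞ (fun x : W × ℝ => stepH x.2) :=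
  stepH_contDiff.comp contDiff_snd

theorem fderiv_stepH_snd_eq_zero {x : W × ℝ} (hx : x.2 < 1 / 3 ∨ 2 / 3 < x.2) :
    fderiv ℝ (fun x : W × ℝ => stepH x.2) x = 0 := by
  rcases hx with hx | hx
  · have hev : (fun x : W × ℝ => stepH x.2) =ᶠ[𝓝 x] fun _ => (0 : ℝ) := by
      have hopen : IsOpen {y : W × ℝ | y.2 < 1 / 3} := isOpen_lt continuous_snd continuous_const
      filter_upwards [hopen.mem_nhds hx] with y hy
      exact stepH_zero (le_of_lt hy)
    rw [hev.fderiv_eq]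
    simp
  · have hev : (fun x : W × ℝ => stepH x.2) =ᶠ[𝓝 x] fun _ => (1 : ℝ) := by
      have hopen : IsOpen {y : W × ℝ | 2 / 3 < y.2} := isOpen_lt continuous_const continuous_snd
      filter_upwards [hopen.mem_nhds hx] with y hy
      exact stepH_one (le_of_lt hy)
    rw [hev.fderiv_eq]
    simp

theorem volume_cyl_ne_top {D : Set W} (hDv : volume D ≠ ⊤) :
    volume (D ×ˢ Ioo (0 : ℝ) 1) ≠ ⊤ := by
  rw [Measure.volume_eq_prod, Measure.prod_prod]
  exact ENNReal.mul_ne_top hDv measure_Ioo_lt_top.ne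

theorem isCompact_closure_cyl {D : Set W} (hDb : Bornology.IsBounded D) :
    IsCompact (closure (D ×ˢ Ioo (0 : ℝ) 1)) :=
  (hDb.prod (Metric.isBounded_Ioo 0 1)).isCompact_closure

/-- The extension of a fibrewise increasing `W^{1,1}` map has, on the infinite cylinder `D × ℝ`,
the weak derivative `Gc` extended by zero. -/
theorem fibExt_isWeakDeriv {D : Set W} (hD : IsOpen D) (hDb : Bornology.IsBounded D)
    {c : W × ℝ → ℝ} (hc : FibreHomeo D c) {Gc : W × ℝ → (W × ℝ) →L[ℝ] ℝ}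
    (hw : IsWeakDeriv (D ×ˢ Ioo (0 : ℝ) 1) c Gc) (hGi : IntegrableOn Gc (D ×ˢ Ioo (0 : ℝ) 1)) :
    IsWeakDeriv (D ×ˢ (univ : Set ℝ)) (fibExt D c) ((D ×ˢ Ioo (0 : ℝ) 1).indicator Gc) := by
  have hDv : volume D ≠ ⊤ := hDb.measure_lt_top.ne
  have hQo : IsOpen (D ×ˢ Ioo (0 : ℝ) 1) := hD.prod isOpen_Ioo
  have hQm : MeasurableSet (D ×ˢ Ioo (0 : ℝ) 1) := hQo.measurableSet
  have hQv : volume (D ×ˢ Ioo (0 : ℝ) 1) ≠ ⊤ := volume_cyl_ne_top hDv
  have hHs : ContDiff ℝ ∞ (fun x : W × ℝ => stepH x.2) := stepH_snd_contDiff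
  have hHc : Continuous (fun x : W × ℝ => stepH x.2) := hHs.continuous
  have hH'c : Continuous (fderiv ℝ (fun x : W × ℝ => stepH x.2)) :=
    hHs.continuous_fderiv (by simp)
  -- the difference `d = c - H` and its weak derivative on the cylinder
  have hd : IsWeakDeriv (D ×ˢ Ioo (0 : ℝ) 1) (fun x => c x - stepH x.2)
      (fun x => Gc x - fderiv ℝ (fun x : W × ℝ => stepH x.2) x) :=
    hw.sub (isWeakDeriv_of_contDiff _ hHs)
  have hdi : IntegrableOn (fun x => c x - stepH x.2) (D ×ˢ Ioo (0 : ℝ) 1) := by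
    have hfin : IsFiniteMeasure ((volume : Measure (W × ℝ)).restrict (D ×ˢ Ioo (0 : ℝ) 1)) :=
      isFiniteMeasure_restrict_of_ne_top hQv
    refine Integrable.of_bound ((hc.cont.sub hHc.continuousOn).aestronglyMeasurable hQm) 1 ?_
    filter_upwards [ae_restrict_mem hQm] with x hx
    show ‖c x - stepH x.2‖ ≤ 1
    have h1 := hc.mem_Ioo' hx
    have h2 := stepH_nonneg x.2
    have h3 := stepH_le_one x.2
    rw [Real.norm_eq_abs, abs_le]
    exact ⟨by linarith [h1.1], by linarith [h1.2]⟩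
  have hH'i : IntegrableOn (fderiv ℝ (fun x : W × ℝ => stepH x.2)) (D ×ˢ Ioo (0 : ℝ) 1) :=
    (hH'c.continuousOn.integrableOn_compact (isCompact_closure_cyl hDb)).mono_set subset_closure
  have hGdi : IntegrableOn (fun x => Gc x - fderiv ℝ (fun x : W × ℝ => stepH x.2) x)
      (D ×ˢ Ioo (0 : ℝ) 1) := Integrable.sub hGi hH'i
  -- the boundary moduli
  let om : ℕ → W → ℝ := fun m w =>
    if m < 2 then 1 else c (w, 2 / ((m : ℝ) + 4)) + (1 - c (w, 1 - 2 / ((m : ℝ) + 4)))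
  have hcw : ∀ z ∈ Ioo (0 : ℝ) 1, ContinuousOn (fun w => c (w, z)) D := by
    intro z hz
    refine hc.cont.comp (Continuous.continuousOn (by fun_prop)) ?_
    intro w hw
    exact ⟨hw, hz⟩
  have hom_m : ∀ m, AEStronglyMeasurable (om m) (volume.restrict D) := by
    intro m
    by_cases hm : m < 2
    · simp only [om, hm, if_true]
      exact aestronglyMeasurable_const
    · simp only [om, hm, if_false]
      exact ((hcw _ (two_div_mem_Ioo m)).add
        (continuousOn_const.sub (hcw _ (one_sub_two_div_mem_Ioo m)))).aestronglyMeasurable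
        hD.measurableSet
  have hom_b : ∀ m, ∀ w ∈ D, |om m w| ≤ 2 := by
    intro m w hw
    by_cases hm : m < 2
    · simp only [om, hm, if_true]
      norm_num
    · simp only [om, hm, if_false]
      have h1 := hc.mem_Ioo hw (two_div_mem_Ioo m)
      have h2 := hc.mem_Ioo hw (one_sub_two_div_mem_Ioo m)
      rw [abs_le]
      exact ⟨by linarith [h1.1, h2.2], by linarith [h1.2, h2.1]⟩
  have hom_t : ∀ w ∈ D, Tendsto (fun m => om m w) atTop (𝓝 0) := by
    intro w hw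
    have h := (hc.tendsto_low hw).add (hc.tendsto_high hw)
    rw [add_zero] at h
    refine h.congr' ?_
    filter_upwards [eventually_ge_atTop 2] with m hm
    have hm' : ¬ m < 2 := not_lt.mpr hm
    simp only [om, hm', if_false]
  have hdom : ∀ m : ℕ, ∀ w ∈ D, ∀ z ∈ Ioo (0 : ℝ) 1,
      (z ≤ 2 / ((m : ℝ) + 4) ∨ 1 - 2 / ((m : ℝ) + 4) ≤ z) →
        |(fun x : W × ℝ => c x - stepH x.2) (w, z)| ≤ om m w := by
    intro m w hw z hz hzz
    show |c (w, z) - stepH z| ≤ om m w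
    have hcz := hc.mem_Ioo hw hz
    have hs0 := stepH_nonneg z
    have hs1 := stepH_le_one z
    by_cases hm : m < 2
    · simp only [om, hm, if_true]
      rw [abs_le]
      exact ⟨by linarith [hcz.1], by linarith [hcz.2]⟩
    · simp only [om, hm, if_false]
      have hm2 : (2 : ℝ) ≤ m := by exact_mod_cast not_lt.mp hm
      have hsmall : 2 / ((m : ℝ) + 4) ≤ 1 / 3 := by
        rw [div_le_iff₀ (by linarith)]
        linarith
      have h1 := hc.mem_Ioo hw (two_div_mem_Ioo m)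
      have h2 := hc.mem_Ioo hw (one_sub_two_div_mem_Ioo m)
      rcases hzz with hzz | hzz
      · rw [stepH_zero (le_trans hzz hsmall), sub_zero, abs_of_pos hcz.1]
        have := (hc.mono w hw).monotoneOn hz (two_div_mem_Ioo m) hzz
        linarith [h2.2]
      · rw [stepH_one (by linarith)]
        have := (hc.mono w hw).monotoneOn (one_sub_two_div_mem_Ioo m) hz hzz
        rw [abs_of_neg (by linarith [hcz.2])]
        linarith [h1.1]
  have hext := isWeakDeriv_indicator_slab hD hDv hd hdi hGdi hom_m hom_b hom_t hdom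
  have hsum := (isWeakDeriv_of_contDiff (D ×ˢ (univ : Set ℝ)) hHs).add hext
  have hGint : Integrable ((D ×ˢ Ioo (0 : ℝ) 1).indicator Gc) :=
    IntegrableOn.integrable_indicator (f := Gc) hGi hQm
  have hGloc : LocallyIntegrableOn ((D ×ˢ Ioo (0 : ℝ) 1).indicator Gc) (D ×ˢ (univ : Set ℝ)) :=
    hGint.locallyIntegrable.locallyIntegrableOn _
  refine IsWeakDeriv.congr_right (hD.prod isOpen_univ).measurableSet hsum hGloc ?_
  intro x hx
  by_cases hxQ : x ∈ D ×ˢ Ioo (0 : ℝ) 1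
  · rw [indicator_of_mem hxQ, indicator_of_mem hxQ]
    abel
  · rw [indicator_of_notMem hxQ, indicator_of_notMem hxQ, add_zero]
    apply fderiv_stepH_snd_eq_zero
    have hx2 : ¬ (0 < x.2 ∧ x.2 < 1) := fun h => hxQ ⟨hx.1, h⟩
    by_cases h0 : 0 < x.2
    · right
      have : 1 ≤ x.2 := not_lt.mp fun h1 => hx2 ⟨h0, h1⟩
      linarith
    · left
      linarith [not_lt.mp h0]

end E4

end Vale.Agent.Lib.P073

end -- part FibreC

section -- part FibreD

/-!
# P073: `L^p` convergence of dilated mollifications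
-/

set_option linter.unusedSectionVars false

namespace Vale.Agent.Lib.P073

open MeasureTheory Filter Topology Set
open scoped ContDiff ENNReal

section molmore

variable {E : Type*} [NormedAddCommGroup E] [NormedSpace ℝ E] [MeasureSpace E] [BorelSpace E]
  [FiniteDimensional ℝ E] [(volume : Measure E).IsAddHaarMeasure]
  {F : Type*} [NormedAddCommGroup F] [NormedSpace ℝ F] [CompleteSpace F]

theorem hasCompactSupport_of_support_subset_ball {ρ : E → ℝ} {t : ℝ}
    (hs : Function.support ρ ⊆ Metric.ball 0 t) : HasCompactSupport ρ :=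
  HasCompactSupport.intro (isCompact_closedBall 0 t) (fun x hx => by
    by_contra h
    exact hx (Metric.ball_subset_closedBall (hs h)))

theorem mol_continuous {ρ : E → ℝ} (hρc : Continuous ρ) (hρs : HasCompactSupport ρ) {h : E → F}
    (hh : LocallyIntegrable h) : Continuous (mol ρ h) := by
  rw [mol_eq_convolution]
  exact hρs.continuous_convolution_right _ hh hρc

theorem mol_sub {ρ : E → ℝ} (hρc : Continuous ρ) (hρs : HasCompactSupport ρ) {h φ : E → F}
    (hh : LocallyIntegrable h) (hφ : LocallyIntegrable φ) (x : E) :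
    mol ρ (fun y => h y - φ y) x = mol ρ h x - mol ρ φ x := by
  unfold mol
  rw [← integral_sub (mol_integrable hρc hρs hh x) (mol_integrable hρc hρs hφ x)]
  congr 1
  funext y
  rw [smul_sub]

end molmore

section M

variable {W : Type*} [NormedAddCommGroup W] [NormedSpace ℝ W] [FiniteDimensional ℝ W]
  [MeasureSpace W] [BorelSpace W] [(volume : Measure W).IsAddHaarMeasure]
  {F : Type*} [NormedAddCommGroup F] [NormedSpace ℝ F] [CompleteSpace F]

attribute [local instance] prodVol_isAddHaar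

/-- The affine dilation which contracts the `W`-variable about `w₀` by the factor `1 - t` and
expands the last variable about `1/2` by the factor `1 + 4 t`. -/
noncomputable def dil (w₀ : W) (t : ℝ) (x : W × ℝ) : W × ℝ :=
  (w₀ + (1 - t) • (x.1 - w₀), 1 / 2 + (1 + 4 * t) * (x.2 - 1 / 2))

theorem dil_continuous (w₀ : W) (t : ℝ) : Continuous (dil w₀ t) := by
  unfold dil
  fun_prop

/-- **`L^p` convergence of dilated mollifications.** For `h ∈ L^p`, `1 ≤ p < ∞`, and a bounded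
measurable set `Q`, the functions `x ↦ (ρ * h) (dil t x)` converge to `h` in `L^p(Q)` as `t → 0`,
uniformly over mollifiers `ρ` supported in the ball of radius `t`. -/
theorem exists_dilate_mollify_Lp_close (w₀ : W) {Q : Set (W × ℝ)} (hQ : Bornology.IsBounded Q)
    (hQm : MeasurableSet Q) {p : ℝ≥0∞} (hp : 1 ≤ p) (hp' : p ≠ ⊤) {h : W × ℝ → F}
    (hh : MemLp h p volume) {η : ℝ≥0∞} (hη : η ≠ 0) :
    ∃ δ > 0, ∀ t : ℝ, 0 < t → t < δ → ∀ ρ : W × ℝ → ℝ, Continuous ρ → (∀ x, 0 ≤ ρ x) →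
      ∫ x, ρ x = 1 → Function.support ρ ⊆ Metric.ball 0 t →
      eLpNorm (fun x => mol ρ h (dil w₀ t x) - h x) p (volume.restrict Q) ≤ η := by
  by_cases hηt : η = ⊤
  · exact ⟨1, one_pos, fun t _ _ ρ _ _ _ _ => hηt ▸ le_top⟩
  -- real parameters
  set e : ℝ := η.toReal with he
  have he0 : 0 < e := ENNReal.toReal_pos hη hηt
  have hηe : η = ENNReal.ofReal e := (ENNReal.ofReal_toReal hηt).symm
  set K : ℝ := 2 ^ Module.finrank ℝ W with hK
  have hK1 : 1 ≤ K := one_le_pow₀ (by norm_num)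
  set e₁ : ℝ := e / (4 * K) with he₁
  have he₁0 : 0 < e₁ := by positivity
  set V : ℝ≥0∞ := volume Q ^ p.toReal⁻¹ with hV
  have hVt : V ≠ ⊤ :=
    ENNReal.rpow_ne_top_of_nonneg (inv_nonneg.mpr ENNReal.toReal_nonneg) hQ.measure_lt_top.ne
  set η₂ : ℝ := e / (2 * (V.toReal + 1)) with hη₂
  have hVr : 0 ≤ V.toReal := ENNReal.toReal_nonneg
  have hη₂0 : 0 < η₂ := by positivity
  -- density
  obtain ⟨φ, hφs, hφle, hφc, hφm⟩ := hh.exists_hasCompactSupport_eLpNorm_sub_le hp'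
    (ε := ENNReal.ofReal e₁) (by simpa using he₁0)
  have hφu : UniformContinuous φ := hφs.uniformContinuous_of_continuous hφc
  obtain ⟨δ₁, hδ₁, hunif⟩ := exists_dilate_mollify_close w₀ hQ hφu hη₂0
  refine ⟨min δ₁ (1 / 2), lt_min hδ₁ (by norm_num), ?_⟩
  intro t ht0 htδ ρ hρc hρ0 hρ1 hρsupp
  have htδ₁ : t < δ₁ := lt_of_lt_of_le htδ (min_le_left _ _)
  have ht2 : t ≤ 1 / 2 := le_trans htδ.le (min_le_right _ _)
  have hρs : HasCompactSupport ρ := hasCompactSupport_of_support_subset_ball hρsupp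
  have hhloc : LocallyIntegrable h := hh.locallyIntegrable hp
  have hφloc : LocallyIntegrable φ := hφc.locallyIntegrable
  have hdloc : LocallyIntegrable (fun y => h y - φ y) := hhloc.sub hφloc
  have hma : Continuous (mol ρ (fun y => h y - φ y)) := mol_continuous hρc hρs hdloc
  have hmb : Continuous (mol ρ φ) := mol_continuous hρc hρs hφloc
  have hdm : AEStronglyMeasurable (fun y => h y - φ y) volume :=
    hh.aestronglyMeasurable.sub hφm.aestronglyMeasurable
  -- the three pieces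
  have eq : (fun x => mol ρ h (dil w₀ t x) - h x)
      = ((fun x => mol ρ (fun y => h y - φ y) (dil w₀ t x))
          + (fun x => mol ρ φ (dil w₀ t x) - φ x)) - (fun x => h x - φ x) := by
    funext x
    simp only [Pi.add_apply, Pi.sub_apply]
    rw [mol_sub hρc hρs hhloc hφloc]
    abel
  have ma : AEStronglyMeasurable (fun x => mol ρ (fun y => h y - φ y) (dil w₀ t x))
      (volume.restrict Q) := (hma.comp (dil_continuous w₀ t)).aestronglyMeasurable
  have mb : AEStronglyMeasurable (fun x => mol ρ φ (dil w₀ t x) - φ x) (volume.restrict Q) :=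
    ((hmb.comp (dil_continuous w₀ t)).sub hφc).aestronglyMeasurable
  have mc : AEStronglyMeasurable (fun x => h x - φ x) (volume.restrict Q) := hdm.restrict
  have ba : eLpNorm (fun x => mol ρ (fun y => h y - φ y) (dil w₀ t x)) p (volume.restrict Q)
      ≤ ENNReal.ofReal K * ENNReal.ofReal e₁ := by
    refine le_trans (eLpNorm_mono_measure _ Measure.restrict_le_self) ?_
    refine le_trans (eLpNorm_comp_dilate_le w₀ ht0.le ht2 hp hp' hma.aestronglyMeasurable) ?_
    refine mul_le_mul_right ?_ _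
    refine le_trans (eLpNorm_mollify_le hρc hρs hρ0 hρ1 hp hp' hdm) ?_
    exact hφle
  have bb : eLpNorm (fun x => mol ρ φ (dil w₀ t x) - φ x) p (volume.restrict Q)
      ≤ V * ENNReal.ofReal η₂ := by
    have hae : ∀ᵐ x ∂(volume.restrict Q), ‖mol ρ φ (dil w₀ t x) - φ x‖ ≤ η₂ := by
      filter_upwards [ae_restrict_mem hQm] with x hx
      exact hunif t ht0 htδ₁ ρ hρc hρ0 hρ1 hρsupp x hx
    have := eLpNorm_le_of_ae_bound (p := p) hae
    rwa [Measure.restrict_apply_univ] at this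
  have bc : eLpNorm (fun x => h x - φ x) p (volume.restrict Q) ≤ ENNReal.ofReal e₁ :=
    le_trans (eLpNorm_mono_measure _ Measure.restrict_le_self) hφle
  rw [eq]
  refine le_trans (eLpNorm_sub_le (ma.add mb) mc hp) ?_
  refine le_trans (add_le_add (eLpNorm_add_le ma mb hp) le_rfl) ?_
  refine le_trans (add_le_add (add_le_add ba bb) bc) ?_
  -- arithmetic
  have hVe : V = ENNReal.ofReal V.toReal := (ENNReal.ofReal_toReal hVt).symm
  rw [hVe, ← ENNReal.ofReal_mul (by positivity), ← ENNReal.ofReal_mul hVr,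
    ← ENNReal.ofReal_add (by positivity) (by positivity),
    ← ENNReal.ofReal_add (by positivity) (by positivity), hηe]
  apply ENNReal.ofReal_le_ofReal
  have h1 : K * e₁ = e / 4 := by
    rw [he₁]
    field_simp
  have h2 : V.toReal * η₂ ≤ e / 2 := by
    rw [hη₂]
    have : V.toReal * (e / (2 * (V.toReal + 1))) = (V.toReal / (V.toReal + 1)) * (e / 2) := by
      field_simp
    rw [this]
    have hle : V.toReal / (V.toReal + 1) ≤ 1 := by
      rw [div_le_one (by linarith)]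
      linarith
    nlinarith
  have h3 : e₁ ≤ e / 4 := by
    rw [he₁, div_le_div_iff₀ (by positivity) (by norm_num)]
    nlinarith
  linarith

end M

end Vale.Agent.Lib.P073

end -- part FibreD

section -- part FibreE

/-!
# P073: the smooth fibrewise increasing approximants of a fibrewise increasing map
-/

set_option linter.unusedSectionVars false

namespace Vale.Agent.Lib.P073

open MeasureTheory Filter Topology Set
open scoped ContDiff ENNReal

section mollifier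

variable {E : Type*} [NormedAddCommGroup E] [NormedSpace ℝ E] [MeasureSpace E] [BorelSpace E]
  [FiniteDimensional ℝ E] [(volume : Measure E).IsAddHaarMeasure]

/-- `ρ` is a smooth nonnegative mollifier of integral one whose support is the ball of radius
`r` about the origin. -/
structure IsMollifier (ρ : E → ℝ) (r : ℝ) : Prop where
  smooth : ContDiff ℝ ∞ ρ
  nonneg : ∀ x, 0 ≤ ρ x
  integral : ∫ x, ρ x = 1
  supp : Function.support ρ = Metric.ball 0 r
  tsupp : tsupport ρ = Metric.closedBall 0 r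

theorem exists_isMollifier {r : ℝ} (hr : 0 < r) : ∃ ρ : E → ℝ, IsMollifier ρ r := by
  let φb : ContDiffBump (0 : E) := ⟨r / 2, r, half_pos hr, half_lt_self hr⟩
  exact ⟨φb.normed volume, φb.contDiff_normed, φb.nonneg_normed, φb.integral_normed,
    φb.support_normed_eq, φb.tsupport_normed_eq⟩

theorem IsMollifier.hasCompactSupport {ρ : E → ℝ} {r : ℝ} (h : IsMollifier ρ r) :
    HasCompactSupport ρ := by
  unfold HasCompactSupport
  rw [h.tsupp]
  exact isCompact_closedBall 0 r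

theorem IsMollifier.norm_lt {ρ : E → ℝ} {r : ℝ} (h : IsMollifier ρ r) {x : E} (hx : ρ x ≠ 0) :
    ‖x‖ < r := by
  have : x ∈ Function.support ρ := hx
  rw [h.supp] at this
  simpa using this

theorem IsMollifier.norm_le {ρ : E → ℝ} {r : ℝ} (h : IsMollifier ρ r) {x : E}
    (hx : x ∈ tsupport ρ) : ‖x‖ ≤ r := by
  rw [h.tsupp] at hx
  simpa using hx

end mollifier

section geometry

variable {W : Type*} [NormedAddCommGroup W] [NormedSpace ℝ W]

/-- A convex set containing the ball `B(w₀, r₀)` contains the `t r₀`-neighbourhood of its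
contraction by the factor `1 - t` about `w₀`. -/
theorem mem_of_norm_sub_contract_lt {D : Set W} (hDc : Convex ℝ D) {w₀ : W} {r₀ : ℝ}
    (hball : Metric.ball w₀ r₀ ⊆ D) {t : ℝ} (ht0 : 0 < t) (ht1 : t ≤ 1) {w : W} (hw : w ∈ D)
    {y : W} (hy : ‖y - (w₀ + (1 - t) • (w - w₀))‖ < t * r₀) : y ∈ D := by
  set u : W := t⁻¹ • (y - (w₀ + (1 - t) • (w - w₀))) with hu
  have hun : ‖u‖ < r₀ := by
    rw [hu, norm_smul, norm_inv, Real.norm_of_nonneg ht0.le, inv_mul_lt_iff₀ ht0]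
    exact hy
  have hmem : w₀ + u ∈ D := by
    apply hball
    rw [Metric.mem_ball, dist_eq_norm]
    simpa using hun
  have hcomb := hDc hw hmem (by linarith : (0 : ℝ) ≤ 1 - t) ht0.le (by ring : (1 - t) + t = 1)
  have e : (1 - t) • w + t • (w₀ + u) = y := by
    rw [hu, smul_add, smul_smul, mul_inv_cancel₀ ht0.ne', one_smul]
    simp only [sub_smul, one_smul, smul_sub]
    abel
  rwa [e] at hcomb

end geometry

section K

variable {W : Type*} [NormedAddCommGroup W] [NormedSpace ℝ W] [FiniteDimensional ℝ W]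
  [MeasureSpace W] [BorelSpace W] [(volume : Measure W).IsAddHaarMeasure]

attribute [local instance] prodVol_isAddHaar

theorem dil_snd (w₀ : W) (t : ℝ) (x : W × ℝ) :
    (dil w₀ t x).2 = 1 / 2 + (1 + 4 * t) * (x.2 - 1 / 2) := rfl

theorem dil_fst (w₀ : W) (t : ℝ) (x : W × ℝ) :
    (dil w₀ t x).1 = w₀ + (1 - t) • (x.1 - w₀) := rfl

/-- The derivative of the dilation. -/
noncomputable def dilL (W : Type*) [NormedAddCommGroup W] [NormedSpace ℝ W] (t : ℝ) :
    (W × ℝ) →L[ℝ] (W × ℝ) :=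
  ((1 - t) • ContinuousLinearMap.fst ℝ W ℝ).prod ((1 + 4 * t) • ContinuousLinearMap.snd ℝ W ℝ)

theorem dilL_apply (t : ℝ) (v : W × ℝ) : dilL W t v = ((1 - t) • v.1, (1 + 4 * t) * v.2) := rfl

theorem dil_hasFDerivAt (w₀ : W) (t : ℝ) (x : W × ℝ) : HasFDerivAt (dil w₀ t) (dilL W t) x := by
  have h1 : HasFDerivAt (fun x : W × ℝ => w₀ + (1 - t) • (x.1 - w₀))
      ((1 - t) • ContinuousLinearMap.fst ℝ W ℝ) x :=
    ((hasFDerivAt_fst.sub_const w₀).const_smul (1 - t)).const_add w₀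
  have h2 : HasFDerivAt (fun x : W × ℝ => 1 / 2 + (1 + 4 * t) * (x.2 - 1 / 2))
      ((1 + 4 * t) • ContinuousLinearMap.snd ℝ W ℝ) x :=
    ((hasFDerivAt_snd.sub_const (1 / 2 : ℝ)).const_mul (1 + 4 * t)).const_add (1 / 2)
  exact h1.prodMk h2

theorem dil_contDiff (w₀ : W) (t : ℝ) : ContDiff ℝ ∞ (dil w₀ t) := by
  unfold dil
  fun_prop

theorem norm_dilL_apply_le {t : ℝ} (ht0 : 0 ≤ t) (ht1 : t ≤ 1 / 4) (v : W × ℝ) :
    ‖dilL W t v‖ ≤ 2 * ‖v‖ := by
  rw [dilL_apply, Prod.norm_def]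
  have h1 : ‖(1 - t) • v.1‖ ≤ 2 * ‖v‖ := by
    rw [norm_smul, Real.norm_of_nonneg (by linarith)]
    have := norm_fst_le v
    have hv := norm_nonneg v.1
    nlinarith
  have h2 : ‖(1 + 4 * t) * v.2‖ ≤ 2 * ‖v‖ := by
    rw [norm_mul, Real.norm_of_nonneg (by linarith)]
    have := norm_snd_le v
    have hv := norm_nonneg v.2
    nlinarith
  exact max_le h1 h2

theorem norm_dilL_apply_sub_le {t : ℝ} (ht0 : 0 ≤ t) (v : W × ℝ) :
    ‖dilL W t v - v‖ ≤ 4 * t * ‖v‖ := by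
  have e : dilL W t v - v = ((-t) • v.1, 4 * t * v.2) := by
    rw [dilL_apply]
    ext
    · simp [sub_smul]
    · simp; ring
  rw [e, Prod.norm_def]
  have h1 : ‖(-t) • v.1‖ ≤ 4 * t * ‖v‖ := by
    rw [norm_smul, norm_neg, Real.norm_of_nonneg ht0]
    have := norm_fst_le v
    have hv := norm_nonneg v.1
    nlinarith
  have h2 : ‖4 * t * v.2‖ ≤ 4 * t * ‖v‖ := by
    rw [norm_mul, Real.norm_of_nonneg (by linarith)]
    exact mul_le_mul_of_nonneg_left (norm_snd_le v) (by linarith)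
  exact max_le h1 h2

variable {D : Set W} {c : W × ℝ → ℝ} {ρ : W × ℝ → ℝ} {r : ℝ}

theorem fibMol_contDiff (hD : IsOpen D) (hc : FibreHomeo D c) (hρ : IsMollifier ρ r) :
    ContDiff ℝ ∞ (mol ρ (fibExt D c)) :=
  mol_contDiff hρ.smooth hρ.hasCompactSupport (fibExt_locallyIntegrable hD hc)

theorem fibMol_mono (hD : IsOpen D) (hc : FibreHomeo D c) (hρ : IsMollifier ρ r) (w : W) :
    Monotone (fun z => mol ρ (fibExt D c) (w, z)) := by
  intro z₁ z₂ h12
  refine mol_le_mol hρ.smooth.continuous hρ.hasCompactSupport hρ.nonneg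
    (fibExt_locallyIntegrable hD hc) ?_
  intro τ
  exact fibExt_mono hc (w - τ.1) (sub_le_sub_right h12 τ.2)

theorem fibMol_eq_zero (hρ : IsMollifier ρ r) {x : W × ℝ} (hx : x.2 ≤ -r) :
    mol ρ (fibExt D c) x = 0 := by
  refine mol_eq_of_eq_on hρ.integral ?_
  intro y hy
  have h1 : ‖x - y‖ < r := hρ.norm_lt hy
  have h2 : ‖(x - y).2‖ ≤ ‖x - y‖ := norm_snd_le _
  have h3 : |x.2 - y.2| < r := lt_of_le_of_lt h2 h1
  rw [abs_lt] at h3
  exact fibExt_of_le (by linarith [h3.1])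

theorem fibMol_eq_one (hρ : IsMollifier ρ r) {x : W × ℝ} (hx : 1 + r ≤ x.2) :
    mol ρ (fibExt D c) x = 1 := by
  refine mol_eq_of_eq_on hρ.integral ?_
  intro y hy
  have h1 : ‖x - y‖ < r := hρ.norm_lt hy
  have h2 : ‖(x - y).2‖ ≤ ‖x - y‖ := norm_snd_le _
  have h3 : |x.2 - y.2| < r := lt_of_le_of_lt h2 h1
  rw [abs_lt] at h3
  exact fibExt_of_ge (by linarith [h3.2])

/-- The smooth approximant: a dilated mollification of the extension, corrected by a small
multiple of the height to make it strictly increasing along the fibres. -/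
noncomputable def fibU (D : Set W) (c : W × ℝ → ℝ) (ρ : W × ℝ → ℝ) (w₀ : W) (t κ : ℝ)
    (x : W × ℝ) : ℝ :=
  (1 - κ) * mol ρ (fibExt D c) (dil w₀ t x) + κ * x.2

theorem fibU_contDiff (hD : IsOpen D) (hc : FibreHomeo D c) (hρ : IsMollifier ρ r) (w₀ : W)
    (t κ : ℝ) : ContDiff ℝ ∞ (fibU D c ρ w₀ t κ) := by
  have h1 : ContDiff ℝ ∞ (fun x => mol ρ (fibExt D c) (dil w₀ t x)) :=
    (fibMol_contDiff hD hc hρ).comp (dil_contDiff w₀ t)
  exact (contDiff_const.mul h1).add (contDiff_const.mul contDiff_snd)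

theorem fibU_zero (hρ : IsMollifier ρ r) (w₀ : W) {t : ℝ} (hr : r ≤ 2 * t) (κ : ℝ) (w : W) :
    fibU D c ρ w₀ t κ (w, 0) = 0 := by
  unfold fibU
  rw [fibMol_eq_zero hρ (by rw [dil_snd]; simp only; linarith)]
  simp

theorem fibU_one (hρ : IsMollifier ρ r) (w₀ : W) {t : ℝ} (hr : r ≤ 2 * t) (κ : ℝ) (w : W) :
    fibU D c ρ w₀ t κ (w, 1) = 1 := by
  unfold fibU
  rw [fibMol_eq_one hρ (by rw [dil_snd]; simp only; linarith)]
  simp

theorem fibU_pos (hD : IsOpen D) (hc : FibreHomeo D c) (hρ : IsMollifier ρ r) (w₀ : W) {t κ : ℝ}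
    (ht0 : 0 ≤ t) (hκ0 : 0 < κ) (hκ1 : κ ≤ 1) (w : W) (z : ℝ) :
    0 < fderiv ℝ (fibU D c ρ w₀ t κ) (w, z) (0, 1) := by
  have hUd : DifferentiableAt ℝ (fibU D c ρ w₀ t κ) (w, z) :=
    (fibU_contDiff hD hc hρ w₀ t κ).differentiable (by simp) _
  have hline : HasDerivAt (fun s : ℝ => (w, s)) ((0 : W), (1 : ℝ)) z :=
    (hasDerivAt_const z w).prodMk (hasDerivAt_id z)
  have hcomp : HasDerivAt (fun s : ℝ => fibU D c ρ w₀ t κ (w, s))
      (fderiv ℝ (fibU D c ρ w₀ t κ) (w, z) (0, 1)) z :=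
    hUd.hasFDerivAt.comp_hasDerivAt z hline
  -- the monotone part
  set q : ℝ → ℝ := fun s => mol ρ (fibExt D c) (dil w₀ t (w, s)) with hq
  have hqmono : Monotone q := by
    intro s₁ s₂ h12
    have := fibMol_mono hD hc hρ (w₀ + (1 - t) • (w - w₀))
    apply this
    show 1 / 2 + (1 + 4 * t) * (s₁ - 1 / 2) ≤ 1 / 2 + (1 + 4 * t) * (s₂ - 1 / 2)
    have : 0 ≤ 1 + 4 * t := by linarith
    nlinarith
  have hqd : DifferentiableAt ℝ q z := by
    have h1 : ContDiff ℝ ∞ q := by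
      rw [hq]
      exact (fibMol_contDiff hD hc hρ).comp ((dil_contDiff w₀ t).comp
        (contDiff_const.prodMk contDiff_id))
    exact h1.differentiable (by simp) z
  have hqn : 0 ≤ deriv q z := hqmono.deriv_nonneg
  have hsum : HasDerivAt (fun s : ℝ => fibU D c ρ w₀ t κ (w, s))
      ((1 - κ) * deriv q z + κ * 1) z := by
    have h1 := (hqd.hasDerivAt.const_mul (1 - κ)).add ((hasDerivAt_id z).const_mul κ)
    exact h1
  rw [hcomp.unique hsum]
  have : 0 ≤ (1 - κ) * deriv q z := mul_nonneg (by linarith) hqn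
  linarith

/-- The shear by the approximant is a diffeomorphism of the cylinder. -/
theorem fibU_diffeo (hD : IsOpen D) (hc : FibreHomeo D c) (hρ : IsMollifier ρ r) (w₀ : W)
    {t κ : ℝ} (ht0 : 0 ≤ t) (hr : r ≤ 2 * t) (hκ0 : 0 < κ) (hκ1 : κ ≤ 1) :
    IsSmoothDiffeo (fun x : W × ℝ => (x.1, fibU D c ρ w₀ t κ x)) (D ×ˢ Ioo (0 : ℝ) 1)
      (D ×ˢ Ioo (0 : ℝ) 1) :=
  isSmoothDiffeo_shear hD (fibU_contDiff hD hc hρ w₀ t κ)
    (fun w _ => fibU_zero hρ w₀ hr κ w) (fun w _ => fibU_one hρ w₀ hr κ w)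
    (fun w _ z _ => fibU_pos hD hc hρ w₀ ht0 hκ0 hκ1 w z)

theorem fibU_fderiv (hD : IsOpen D) (hc : FibreHomeo D c) (hρ : IsMollifier ρ r) (w₀ : W)
    (t κ : ℝ) (x : W × ℝ) :
    fderiv ℝ (fibU D c ρ w₀ t κ) x
      = (1 - κ) • (fderiv ℝ (mol ρ (fibExt D c)) (dil w₀ t x)).comp (dilL W t)
        + κ • ContinuousLinearMap.snd ℝ W ℝ := by
  have hA : HasFDerivAt (mol ρ (fibExt D c)) (fderiv ℝ (mol ρ (fibExt D c)) (dil w₀ t x))
      (dil w₀ t x) :=
    ((fibMol_contDiff hD hc hρ).differentiable (by simp) _).hasFDerivAt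
  have h1 := hA.comp x (dil_hasFDerivAt w₀ t x)
  have h2 : HasFDerivAt (fun x : W × ℝ => κ * x.2) (κ • ContinuousLinearMap.snd ℝ W ℝ) x :=
    hasFDerivAt_snd.const_mul κ
  have h3 := (h1.const_mul (1 - κ)).add h2
  exact h3.fderiv

end K

end Vale.Agent.Lib.P073

end -- part FibreE

section -- part FibreF

/-!
# P073: `W^{1,p}` estimates for the smooth fibrewise increasing approximants
-/

set_option linter.unusedSectionVars false

namespace Vale.Agent.Lib.P073

open MeasureTheory Filter Topology Set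
open scoped ContDiff ENNReal

section est

variable {W : Type*} [NormedAddCommGroup W] [NormedSpace ℝ W] [FiniteDimensional ℝ W]
  [MeasureSpace W] [BorelSpace W] [(volume : Measure W).IsAddHaarMeasure]

attribute [local instance] prodVol_isAddHaar

variable {D : Set W} {c : W × ℝ → ℝ} {ρ : W × ℝ → ℝ} {r : ℝ}

theorem fst_mem_of_mol_near (hDc : Convex ℝ D) {w₀ : W} {r₀ : ℝ} (hball : Metric.ball w₀ r₀ ⊆ D)
    {t : ℝ} (ht0 : 0 < t) (ht1 : t ≤ 1) (hr : r < t * r₀) {x : W × ℝ} (hx : x.1 ∈ D)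
    {y : W × ℝ} (hy : ‖dil w₀ t x - y‖ ≤ r) : y.1 ∈ D := by
  apply mem_of_norm_sub_contract_lt hDc hball ht0 ht1 hx
  have h1 : ‖(dil w₀ t x - y).1‖ ≤ ‖dil w₀ t x - y‖ := norm_fst_le _
  have h2 : ‖y.1 - (w₀ + (1 - t) • (x.1 - w₀))‖ = ‖(dil w₀ t x - y).1‖ := by
    rw [← norm_neg]
    congr 1
    simp [dil_fst]
  linarith

theorem snd_mem_of_mol_near {w₀ : W} {t : ℝ} (ht0 : 0 ≤ t) (ht1 : t ≤ 1 / 8) (hr : r ≤ t)
    {x : W × ℝ} (hx : x.2 ∈ Ioo (0 : ℝ) 1) {y : W × ℝ} (hy : ‖dil w₀ t x - y‖ ≤ r) :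
    y.2 ∈ Ioo (-1 : ℝ) 2 := by
  have h1 : ‖(dil w₀ t x - y).2‖ ≤ ‖dil w₀ t x - y‖ := norm_snd_le _
  have h2 : |(dil w₀ t x).2 - y.2| ≤ r := le_trans h1 hy
  rw [dil_snd, abs_le] at h2
  obtain ⟨hx0, hx1⟩ := hx
  have e : (1 + 4 * t) * (x.2 - 1 / 2) = x.2 - 1 / 2 + 4 * (t * x.2) - 2 * t := by ring
  have h3 : 0 ≤ t * x.2 := mul_nonneg ht0 hx0.le
  have h4 : 0 ≤ t * (1 - x.2) := mul_nonneg ht0 (by linarith)
  rw [e] at h2
  constructor <;> linarith [h2.1, h2.2]

/-- At dilated points of the cylinder, the gradient of the mollified extension is the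
mollification of the weak derivative extended by zero. -/
theorem fibMol_fderiv_eq (hD : IsOpen D) (hDb : Bornology.IsBounded D) (hDc : Convex ℝ D)
    {w₀ : W} {r₀ : ℝ} (hball : Metric.ball w₀ r₀ ⊆ D) (hc : FibreHomeo D c)
    {Gc : W × ℝ → (W × ℝ) →L[ℝ] ℝ} (hw : IsWeakDeriv (D ×ˢ Ioo (0 : ℝ) 1) c Gc)
    (hGi : IntegrableOn Gc (D ×ˢ Ioo (0 : ℝ) 1)) (hρ : IsMollifier ρ r) {t : ℝ} (ht0 : 0 < t)
    (ht1 : t ≤ 1) (hr : r < t * r₀) {x : W × ℝ} (hx : x.1 ∈ D) :
    fderiv ℝ (mol ρ (fibExt D c)) (dil w₀ t x)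
      = mol ρ ((D ×ˢ Ioo (0 : ℝ) 1).indicator Gc) (dil w₀ t x) := by
  have hW := fibExt_isWeakDeriv hD hDb hc hw hGi
  rw [mol_fderiv_eq_of_isWeakDeriv hρ.smooth hρ.hasCompactSupport
    (fibExt_locallyIntegrable hD hc) hW ?_]
  · unfold mol
    apply setIntegral_eq_integral_of_forall_compl_eq_zero
    intro y hy
    have hnot : y ∉ D ×ˢ Ioo (0 : ℝ) 1 := fun h => hy ⟨h.1, mem_univ _⟩
    rw [indicator_of_notMem hnot, smul_zero]
  · intro y hy
    exact ⟨fst_mem_of_mol_near hDc hball ht0 ht1 hr hx (hρ.norm_le hy), mem_univ _⟩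

theorem memLp_indicator_fibExt (hD : IsOpen D) (hDb : Bornology.IsBounded D)
    (hc : FibreHomeo D c) (p : ℝ≥0∞) :
    MemLp ((D ×ˢ Ioo (-1 : ℝ) 2).indicator (fibExt D c)) p volume := by
  have hBm : MeasurableSet (D ×ˢ Ioo (-1 : ℝ) 2) := (hD.prod isOpen_Ioo).measurableSet
  rw [memLp_indicator_iff_restrict hBm]
  have hfin : IsFiniteMeasure ((volume : Measure (W × ℝ)).restrict (D ×ˢ Ioo (-1 : ℝ) 2)) :=
    isFiniteMeasure_restrict_of_ne_top
      (hDb.prod (Metric.isBounded_Ioo _ _)).measure_lt_top.ne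
  refine MemLp.of_bound (fibExt_aestronglyMeasurable hD hc).restrict 1
    (Eventually.of_forall fun x => ?_)
  rw [Real.norm_eq_abs, abs_le]
  exact ⟨by linarith [fibExt_nonneg hc x], fibExt_le_one hc x⟩

theorem mol_indicator_fibExt_eq (hDc : Convex ℝ D) {w₀ : W} {r₀ : ℝ}
    (hball : Metric.ball w₀ r₀ ⊆ D) (hρ : IsMollifier ρ r) {t : ℝ} (ht0 : 0 < t)
    (ht1 : t ≤ 1 / 8) (hr : r < t * r₀) (hr' : r ≤ t) {x : W × ℝ}
    (hx : x ∈ D ×ˢ Ioo (0 : ℝ) 1) :
    mol ρ ((D ×ˢ Ioo (-1 : ℝ) 2).indicator (fibExt D c)) (dil w₀ t x)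
      = mol ρ (fibExt D c) (dil w₀ t x) := by
  unfold mol
  congr 1
  funext y
  by_cases hy : ρ (dil w₀ t x - y) = 0
  · simp [hy]
  · have hn : ‖dil w₀ t x - y‖ ≤ r := (hρ.norm_lt hy).le
    have hmem : y ∈ D ×ˢ Ioo (-1 : ℝ) 2 :=
      ⟨fst_mem_of_mol_near hDc hball ht0 (by linarith) hr hx.1 hn,
        snd_mem_of_mol_near ht0.le ht1 hr' hx.2 hn⟩
    rw [indicator_of_mem hmem]

theorem cyl_subset_big : D ×ˢ Ioo (0 : ℝ) 1 ⊆ D ×ˢ Ioo (-1 : ℝ) 2 := by
  rintro x ⟨h1, h2⟩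
  exact ⟨h1, by linarith [h2.1], by linarith [h2.2]⟩

/-- Pointwise bound for the error of the approximant. -/
theorem abs_fibU_sub_le (hDc : Convex ℝ D) {w₀ : W} {r₀ : ℝ} (hball : Metric.ball w₀ r₀ ⊆ D)
    (hc : FibreHomeo D c) (hρ : IsMollifier ρ r) {t κ : ℝ} (ht0 : 0 < t) (ht1 : t ≤ 1 / 8)
    (hr : r < t * r₀) (hr' : r ≤ t) (hκ0 : 0 ≤ κ) (hκ1 : κ ≤ 1) {x : W × ℝ}
    (hx : x ∈ D ×ˢ Ioo (0 : ℝ) 1) :
    ‖fibU D c ρ w₀ t κ x - c x‖
      ≤ ‖mol ρ ((D ×ˢ Ioo (-1 : ℝ) 2).indicator (fibExt D c)) (dil w₀ t x)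
          - (D ×ˢ Ioo (-1 : ℝ) 2).indicator (fibExt D c) x‖ + κ := by
  rw [mol_indicator_fibExt_eq hDc hball hρ ht0 ht1 hr hr' hx,
    indicator_of_mem (cyl_subset_big hx), fibExt_of_mem hx]
  have e : fibU D c ρ w₀ t κ x - c x
      = (1 - κ) * (mol ρ (fibExt D c) (dil w₀ t x) - c x) + κ * (x.2 - c x) := by
    unfold fibU
    ring
  rw [e]
  have hcx := hc.mem_Ioo' hx
  have hx2 := hx.2
  have hb : |x.2 - c x| ≤ 1 := by
    rw [abs_le]
    exact ⟨by linarith [hx2.1, hcx.2], by linarith [hx2.2, hcx.1]⟩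
  have h1 : ‖(1 - κ) * (mol ρ (fibExt D c) (dil w₀ t x) - c x)‖
      ≤ ‖mol ρ (fibExt D c) (dil w₀ t x) - c x‖ := by
    rw [norm_mul, Real.norm_of_nonneg (by linarith : (0 : ℝ) ≤ 1 - κ)]
    exact mul_le_of_le_one_left (norm_nonneg _) (by linarith)
  have h2 : ‖κ * (x.2 - c x)‖ ≤ κ := by
    rw [norm_mul, Real.norm_of_nonneg hκ0, Real.norm_eq_abs]
    exact mul_le_of_le_one_right hκ0 hb
  exact le_trans (norm_add_le _ _) (add_le_add h1 h2)

/-- Pointwise bound for the error of the gradient of the approximant. -/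
theorem norm_fderiv_fibU_sub_le (hD : IsOpen D) (hDb : Bornology.IsBounded D)
    (hDc : Convex ℝ D) {w₀ : W} {r₀ : ℝ} (hball : Metric.ball w₀ r₀ ⊆ D) (hc : FibreHomeo D c)
    {Gc : W × ℝ → (W × ℝ) →L[ℝ] ℝ} (hw : IsWeakDeriv (D ×ˢ Ioo (0 : ℝ) 1) c Gc)
    (hGi : IntegrableOn Gc (D ×ˢ Ioo (0 : ℝ) 1)) (hρ : IsMollifier ρ r) {t κ : ℝ} (ht0 : 0 < t)
    (ht1 : t ≤ 1 / 8) (hr : r < t * r₀) (hκ0 : 0 ≤ κ) (hκ1 : κ ≤ 1) {x : W × ℝ}
    (hx : x ∈ D ×ˢ Ioo (0 : ℝ) 1) :
    ‖fderiv ℝ (fibU D c ρ w₀ t κ) x - Gc x‖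
      ≤ 2 * ‖mol ρ ((D ×ˢ Ioo (0 : ℝ) 1).indicator Gc) (dil w₀ t x)
            - (D ×ˢ Ioo (0 : ℝ) 1).indicator Gc x‖ + (4 * t + κ) * ‖Gc x‖ + κ := by
  rw [indicator_of_mem hx]
  set a : (W × ℝ) →L[ℝ] ℝ :=
    mol ρ ((D ×ˢ Ioo (0 : ℝ) 1).indicator Gc) (dil w₀ t x) - Gc x with ha
  have hM : fderiv ℝ (mol ρ (fibExt D c)) (dil w₀ t x) = a + Gc x := by
    rw [fibMol_fderiv_eq hD hDb hDc hball hc hw hGi hρ ht0 (by linarith) hr hx.1, ha]
    abel
  have hna := norm_nonneg a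
  have hnG := norm_nonneg (Gc x)
  refine ContinuousLinearMap.opNorm_le_bound _ (by positivity) ?_
  intro v
  have hnv := norm_nonneg v
  have e : (fderiv ℝ (fibU D c ρ w₀ t κ) x - Gc x) v
      = (1 - κ) * a (dilL W t v) + (1 - κ) * Gc x (dilL W t v - v) - κ * Gc x v + κ * v.2 := by
    rw [fibU_fderiv hD hc hρ, hM]
    simp only [sub_apply, add_apply, smul_apply, ContinuousLinearMap.comp_apply,
      ContinuousLinearMap.coe_snd', smul_eq_mul, map_sub]
    ring
  rw [e]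
  have b1 : ‖a (dilL W t v)‖ ≤ ‖a‖ * (2 * ‖v‖) :=
    le_trans (a.le_opNorm _) (mul_le_mul_of_nonneg_left
      (norm_dilL_apply_le ht0.le (by linarith) v) hna)
  have b2 : ‖Gc x (dilL W t v - v)‖ ≤ ‖Gc x‖ * (4 * t * ‖v‖) :=
    le_trans ((Gc x).le_opNorm _) (mul_le_mul_of_nonneg_left
      (norm_dilL_apply_sub_le ht0.le v) hnG)
  have b3 : ‖Gc x v‖ ≤ ‖Gc x‖ * ‖v‖ := (Gc x).le_opNorm v
  have b4 : ‖v.2‖ ≤ ‖v‖ := norm_snd_le v
  have hk : (0 : ℝ) ≤ 1 - κ := by linarith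
  have t1 : ‖(1 - κ) * a (dilL W t v)‖ ≤ ‖a‖ * (2 * ‖v‖) := by
    rw [norm_mul, Real.norm_of_nonneg hk]
    exact le_trans (mul_le_of_le_one_left (norm_nonneg _) (by linarith)) b1
  have t2 : ‖(1 - κ) * Gc x (dilL W t v - v)‖ ≤ ‖Gc x‖ * (4 * t * ‖v‖) := by
    rw [norm_mul, Real.norm_of_nonneg hk]
    exact le_trans (mul_le_of_le_one_left (norm_nonneg _) (by linarith)) b2
  have t3 : ‖κ * Gc x v‖ ≤ κ * (‖Gc x‖ * ‖v‖) := by
    rw [norm_mul, Real.norm_of_nonneg hκ0]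
    exact mul_le_mul_of_nonneg_left b3 hκ0
  have t4 : ‖κ * v.2‖ ≤ κ * ‖v‖ := by
    rw [norm_mul, Real.norm_of_nonneg hκ0]
    exact mul_le_mul_of_nonneg_left b4 hκ0
  have tri : ‖(1 - κ) * a (dilL W t v) + (1 - κ) * Gc x (dilL W t v - v) - κ * Gc x v
      + κ * v.2‖ ≤ ‖(1 - κ) * a (dilL W t v)‖ + ‖(1 - κ) * Gc x (dilL W t v - v)‖
        + ‖κ * Gc x v‖ + ‖κ * v.2‖ := by
    refine le_trans (norm_add_le _ _) (add_le_add ?_ le_rfl)
    refine le_trans (norm_sub_le _ _) (add_le_add ?_ le_rfl)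
    exact norm_add_le _ _
  have fin : ‖a‖ * (2 * ‖v‖) + ‖Gc x‖ * (4 * t * ‖v‖) + κ * (‖Gc x‖ * ‖v‖) + κ * ‖v‖
      = (2 * ‖a‖ + (4 * t + κ) * ‖Gc x‖ + κ) * ‖v‖ := by ring
  linarith

end est

end Vale.Agent.Lib.P073

end -- part FibreF

section -- part FibreG

/-!
# P073: existence of smooth fibrewise increasing approximants in `W^{1,p}`
-/

set_option linter.unusedSectionVars false

namespace Vale.Agent.Lib.P073

open MeasureTheory Filter Topology Set
open scoped ContDiff ENNReal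

section K

variable {W : Type*} [NormedAddCommGroup W] [NormedSpace ℝ W] [FiniteDimensional ℝ W]
  [MeasureSpace W] [BorelSpace W] [(volume : Measure W).IsAddHaarMeasure]

attribute [local instance] prodVol_isAddHaar

variable {D : Set W} {c : W × ℝ → ℝ} {ρ : W × ℝ → ℝ} {r : ℝ}

theorem eLpNorm_const_restrict_le {X : Type*} [MeasurableSpace X] (μ : Measure X) (Q : Set X)
    (p : ℝ≥0∞) {κ : ℝ} (hκ0 : 0 ≤ κ) :
    eLpNorm (fun _ : X => κ) p (μ.restrict Q) ≤ μ Q ^ p.toReal⁻¹ * ENNReal.ofReal κ := by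
  have := eLpNorm_le_of_ae_bound (p := p) (μ := μ.restrict Q) (f := fun _ : X => κ) (C := κ)
    (Eventually.of_forall fun _ => by rw [Real.norm_of_nonneg hκ0])
  rwa [Measure.restrict_apply_univ] at this

theorem eLpNorm_fibU_sub_le {p : ℝ≥0∞} (hp : 1 ≤ p) (hD : IsOpen D)
    (hDb : Bornology.IsBounded D) (hDc : Convex ℝ D) {w₀ : W} {r₀ : ℝ}
    (hball : Metric.ball w₀ r₀ ⊆ D) (hc : FibreHomeo D c) (hρ : IsMollifier ρ r) {t κ : ℝ}
    (ht0 : 0 < t) (ht1 : t ≤ 1 / 8) (hr : r < t * r₀) (hr' : r ≤ t) (hκ0 : 0 ≤ κ)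
    (hκ1 : κ ≤ 1) :
    eLpNorm (fun x => fibU D c ρ w₀ t κ x - c x) p (volume.restrict (D ×ˢ Ioo (0 : ℝ) 1))
      ≤ eLpNorm (fun x => mol ρ ((D ×ˢ Ioo (-1 : ℝ) 2).indicator (fibExt D c)) (dil w₀ t x)
            - (D ×ˢ Ioo (-1 : ℝ) 2).indicator (fibExt D c) x) p
          (volume.restrict (D ×ˢ Ioo (0 : ℝ) 1))
        + volume (D ×ˢ Ioo (0 : ℝ) 1) ^ p.toReal⁻¹ * ENNReal.ofReal κ := by
  have hQm : MeasurableSet (D ×ˢ Ioo (0 : ℝ) 1) := (hD.prod isOpen_Ioo).measurableSet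
  have hBm : MemLp ((D ×ˢ Ioo (-1 : ℝ) 2).indicator (fibExt D c)) p volume :=
    memLp_indicator_fibExt hD hDb hc p
  have hBloc : LocallyIntegrable ((D ×ˢ Ioo (-1 : ℝ) 2).indicator (fibExt D c)) :=
    hBm.locallyIntegrable hp
  have ma : AEStronglyMeasurable
      (fun x => mol ρ ((D ×ˢ Ioo (-1 : ℝ) 2).indicator (fibExt D c)) (dil w₀ t x)
        - (D ×ˢ Ioo (-1 : ℝ) 2).indicator (fibExt D c) x)
      (volume.restrict (D ×ˢ Ioo (0 : ℝ) 1)) :=
    ((mol_continuous hρ.smooth.continuous hρ.hasCompactSupport hBloc).comp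
      (dil_continuous w₀ t)).aestronglyMeasurable.sub hBm.aestronglyMeasurable.restrict
  have hpt : ∀ᵐ x ∂(volume.restrict (D ×ˢ Ioo (0 : ℝ) 1)), ‖fibU D c ρ w₀ t κ x - c x‖
      ≤ ‖mol ρ ((D ×ˢ Ioo (-1 : ℝ) 2).indicator (fibExt D c)) (dil w₀ t x)
          - (D ×ˢ Ioo (-1 : ℝ) 2).indicator (fibExt D c) x‖ + κ := by
    filter_upwards [ae_restrict_mem hQm] with x hx
    exact abs_fibU_sub_le hDc hball hc hρ ht0 ht1 hr hr' hκ0 hκ1 hx
  refine le_trans (eLpNorm_mono_ae_real hpt) ?_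
  refine le_trans (eLpNorm_add_le ma.norm aestronglyMeasurable_const hp) ?_
  rw [eLpNorm_norm]
  exact add_le_add le_rfl (eLpNorm_const_restrict_le _ _ p hκ0)

theorem eLpNorm_fderiv_fibU_sub_le {p : ℝ≥0∞} (hp : 1 ≤ p) (hD : IsOpen D)
    (hDb : Bornology.IsBounded D) (hDc : Convex ℝ D) {w₀ : W} {r₀ : ℝ}
    (hball : Metric.ball w₀ r₀ ⊆ D) (hc : FibreHomeo D c) {Gc : W × ℝ → (W × ℝ) →L[ℝ] ℝ}
    (hS : IsSobolevWith p (D ×ˢ Ioo (0 : ℝ) 1) c Gc) (hρ : IsMollifier ρ r) {t κ : ℝ}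
    (ht0 : 0 < t) (ht1 : t ≤ 1 / 8) (hr : r < t * r₀) (hκ0 : 0 ≤ κ) (hκ1 : κ ≤ 1) :
    eLpNorm (fun x => fderiv ℝ (fibU D c ρ w₀ t κ) x - Gc x) p
        (volume.restrict (D ×ˢ Ioo (0 : ℝ) 1))
      ≤ ENNReal.ofReal 2 * eLpNorm (fun x =>
            mol ρ ((D ×ˢ Ioo (0 : ℝ) 1).indicator Gc) (dil w₀ t x)
              - (D ×ˢ Ioo (0 : ℝ) 1).indicator Gc x) p (volume.restrict (D ×ˢ Ioo (0 : ℝ) 1))
        + ENNReal.ofReal (4 * t + κ) * eLpNorm Gc p (volume.restrict (D ×ˢ Ioo (0 : ℝ) 1))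
        + volume (D ×ˢ Ioo (0 : ℝ) 1) ^ p.toReal⁻¹ * ENNReal.ofReal κ := by
  have hQm : MeasurableSet (D ×ˢ Ioo (0 : ℝ) 1) := (hD.prod isOpen_Ioo).measurableSet
  have hQv : volume (D ×ˢ Ioo (0 : ℝ) 1) ≠ ⊤ := volume_cyl_ne_top hDb.measure_lt_top.ne
  have hfin : IsFiniteMeasure ((volume : Measure (W × ℝ)).restrict (D ×ˢ Ioo (0 : ℝ) 1)) :=
    isFiniteMeasure_restrict_of_ne_top hQv
  have hGi : IntegrableOn Gc (D ×ˢ Ioo (0 : ℝ) 1) := hS.2.2.integrable hp
  have hGm : MemLp ((D ×ˢ Ioo (0 : ℝ) 1).indicator Gc) p volume :=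
    (memLp_indicator_iff_restrict (f := Gc) hQm).2 hS.2.2
  have hGloc : LocallyIntegrable ((D ×ˢ Ioo (0 : ℝ) 1).indicator Gc) :=
    hGm.locallyIntegrable hp
  have ma : AEStronglyMeasurable
      (fun x => mol ρ ((D ×ˢ Ioo (0 : ℝ) 1).indicator Gc) (dil w₀ t x)
        - (D ×ˢ Ioo (0 : ℝ) 1).indicator Gc x) (volume.restrict (D ×ˢ Ioo (0 : ℝ) 1)) :=
    ((mol_continuous hρ.smooth.continuous hρ.hasCompactSupport hGloc).comp
      (dil_continuous w₀ t)).aestronglyMeasurable.sub hGm.aestronglyMeasurable.restrict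
  have mG : AEStronglyMeasurable Gc (volume.restrict (D ×ˢ Ioo (0 : ℝ) 1)) :=
    hS.2.2.aestronglyMeasurable
  have hpt : ∀ᵐ x ∂(volume.restrict (D ×ˢ Ioo (0 : ℝ) 1)),
      ‖fderiv ℝ (fibU D c ρ w₀ t κ) x - Gc x‖
        ≤ 2 * ‖mol ρ ((D ×ˢ Ioo (0 : ℝ) 1).indicator Gc) (dil w₀ t x)
              - (D ×ˢ Ioo (0 : ℝ) 1).indicator Gc x‖ + (4 * t + κ) * ‖Gc x‖ + κ := by
    filter_upwards [ae_restrict_mem hQm] with x hx
    exact norm_fderiv_fibU_sub_le hD hDb hDc hball hc hS.1 hGi hρ ht0 ht1 hr hκ0 hκ1 hx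
  refine le_trans (eLpNorm_mono_ae_real hpt) ?_
  have m1 : AEStronglyMeasurable (fun x => 2 * ‖mol ρ ((D ×ˢ Ioo (0 : ℝ) 1).indicator Gc)
      (dil w₀ t x) - (D ×ˢ Ioo (0 : ℝ) 1).indicator Gc x‖)
      (volume.restrict (D ×ˢ Ioo (0 : ℝ) 1)) := ma.norm.const_mul 2
  have m2 : AEStronglyMeasurable (fun x => (4 * t + κ) * ‖Gc x‖)
      (volume.restrict (D ×ˢ Ioo (0 : ℝ) 1)) := mG.norm.const_mul _
  refine le_trans (eLpNorm_add_le (m1.add m2) aestronglyMeasurable_const hp) ?_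
  refine add_le_add ?_ (eLpNorm_const_restrict_le _ _ p hκ0)
  refine le_trans (eLpNorm_add_le m1 m2 hp) ?_
  refine add_le_add ?_ ?_
  · refine eLpNorm_le_mul_eLpNorm_of_ae_le_mul (Eventually.of_forall fun x => ?_) p
    rw [norm_mul, Real.norm_of_nonneg (by norm_num : (0 : ℝ) ≤ 2), norm_norm]
  · refine eLpNorm_le_mul_eLpNorm_of_ae_le_mul (Eventually.of_forall fun x => ?_) p
    rw [norm_mul, Real.norm_of_nonneg (by linarith : (0 : ℝ) ≤ 4 * t + κ), norm_norm]

/-- **Smooth fibrewise approximation.** A `W^{1,p}` function on the cylinder `D × (0,1)` over a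
bounded convex open set `D`, which maps every fibre increasingly onto (0,1), is the
`W^{1,p}` limit of smooth functions `U` for which (w, z) ↦ (w, U (w, z)) is a diffeomorphism of
the cylinder. -/
theorem exists_fibre_approx {p : ℝ≥0∞} (hp : 1 ≤ p) (hp' : p ≠ ⊤) (hD : IsOpen D)
    (hDb : Bornology.IsBounded D) (hDc : Convex ℝ D) (hDn : D.Nonempty) (hc : FibreHomeo D c)
    {Gc : W × ℝ → (W × ℝ) →L[ℝ] ℝ} (hS : IsSobolevWith p (D ×ˢ Ioo (0 : ℝ) 1) c Gc)
    {η : ℝ≥0∞} (hη : η ≠ 0) :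
    ∃ U : W × ℝ → ℝ, ContDiff ℝ ∞ U ∧
      IsSmoothDiffeo (fun x : W × ℝ => (x.1, U x)) (D ×ˢ Ioo (0 : ℝ) 1) (D ×ˢ Ioo (0 : ℝ) 1) ∧
      eLpNorm (fun x => U x - c x) p (volume.restrict (D ×ˢ Ioo (0 : ℝ) 1)) ≤ η ∧
      eLpNorm (fun x => fderiv ℝ U x - Gc x) p (volume.restrict (D ×ˢ Ioo (0 : ℝ) 1)) ≤ η := by
  obtain ⟨w₀, hw₀⟩ := hDn
  obtain ⟨r₀, hr₀, hball⟩ := Metric.isOpen_iff.1 hD w₀ hw₀
  have hQm : MeasurableSet (D ×ˢ Ioo (0 : ℝ) 1) := (hD.prod isOpen_Ioo).measurableSet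
  have hQb : Bornology.IsBounded (D ×ˢ Ioo (0 : ℝ) 1) := hDb.prod (Metric.isBounded_Ioo 0 1)
  have hQv : volume (D ×ˢ Ioo (0 : ℝ) 1) ≠ ⊤ := volume_cyl_ne_top hDb.measure_lt_top.ne
  -- real parameters
  have hmin_ne_top : min η 1 ≠ ⊤ := ne_top_of_le_ne_top ENNReal.one_ne_top (min_le_right _ _)
  have hmin_ne_zero : min η 1 ≠ 0 := by
    intro h0
    rcases min_eq_iff.1 h0 with h | h
    · exact hη h.1
    · exact one_ne_zero h.1
  set e : ℝ := (min η 1).toReal with he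
  have he0 : 0 < e := ENNReal.toReal_pos hmin_ne_zero hmin_ne_top
  have heη : ENNReal.ofReal e ≤ η := by
    rw [he, ENNReal.ofReal_toReal hmin_ne_top]
    exact min_le_left _ _
  have hNGt : eLpNorm Gc p (volume.restrict (D ×ˢ Ioo (0 : ℝ) 1)) ≠ ⊤ := hS.2.2.2.ne
  set N : ℝ := (eLpNorm Gc p (volume.restrict (D ×ˢ Ioo (0 : ℝ) 1))).toReal with hN
  have hN0 : 0 ≤ N := ENNReal.toReal_nonneg
  have hNe : eLpNorm Gc p (volume.restrict (D ×ˢ Ioo (0 : ℝ) 1)) = ENNReal.ofReal N :=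
    (ENNReal.ofReal_toReal hNGt).symm
  have hVt : volume (D ×ˢ Ioo (0 : ℝ) 1) ^ p.toReal⁻¹ ≠ ⊤ :=
    ENNReal.rpow_ne_top_of_nonneg (inv_nonneg.mpr ENNReal.toReal_nonneg) hQv
  set Vr : ℝ := (volume (D ×ˢ Ioo (0 : ℝ) 1) ^ p.toReal⁻¹).toReal with hVr
  have hVr0 : 0 ≤ Vr := ENNReal.toReal_nonneg
  have hVe : volume (D ×ˢ Ioo (0 : ℝ) 1) ^ p.toReal⁻¹ = ENNReal.ofReal Vr :=
    (ENNReal.ofReal_toReal hVt).symm
  -- the two `L^p` convergence statements
  have hGm : MemLp ((D ×ˢ Ioo (0 : ℝ) 1).indicator Gc) p volume :=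
    (memLp_indicator_iff_restrict (f := Gc) hQm).2 hS.2.2
  obtain ⟨δc, hδc, Hc⟩ := exists_dilate_mollify_Lp_close w₀ hQb hQm hp hp'
    (memLp_indicator_fibExt hD hDb hc p) (η := ENNReal.ofReal (e / 4))
    (by simpa using he0)
  obtain ⟨δG, hδG, HG⟩ := exists_dilate_mollify_Lp_close w₀ hQb hQm hp hp' hGm
    (η := ENNReal.ofReal (e / 8)) (by simpa using he0)
  -- the dilation parameter
  have hN1 : 0 < N + 1 := by linarith
  set t : ℝ := min (min δc δG) (min (1 / 8) (e / (16 * (N + 1)))) / 2 with ht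
  have hmpos : 0 < min (min δc δG) (min (1 / 8) (e / (16 * (N + 1)))) :=
    lt_min (lt_min hδc hδG) (lt_min (by norm_num) (by positivity))
  have ht0 : 0 < t := by rw [ht]; linarith
  have htm : t < min (min δc δG) (min (1 / 8) (e / (16 * (N + 1)))) := by rw [ht]; linarith
  have htc : t < δc := lt_of_lt_of_le htm (le_trans (min_le_left _ _) (min_le_left _ _))
  have htG : t < δG := lt_of_lt_of_le htm (le_trans (min_le_left _ _) (min_le_right _ _))
  have ht8 : t ≤ 1 / 8 :=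
    le_trans htm.le (le_trans (min_le_right _ _) (min_le_left _ _))
  have htN' : t ≤ e / (16 * (N + 1)) :=
    le_trans htm.le (le_trans (min_le_right _ _) (min_le_right _ _))
  have htN : 4 * t * N ≤ e / 4 := by
    have h1 : t * (16 * (N + 1)) ≤ e := by
      rwa [le_div_iff₀ (by positivity)] at htN'
    nlinarith
  -- the mollifier radius
  have hr₁ : 0 < min r₀ 1 := lt_min hr₀ one_pos
  set r : ℝ := t * min r₀ 1 / 2 with hr
  have hr0 : 0 < r := by rw [hr]; positivity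
  have hr1 : r < t * r₀ := by
    rw [hr]
    have : t * min r₀ 1 ≤ t * r₀ := mul_le_mul_of_nonneg_left (min_le_left _ _) ht0.le
    have : 0 < t * min r₀ 1 := by positivity
    linarith
  have hr2 : r ≤ t := by
    rw [hr]
    have : t * min r₀ 1 ≤ t * 1 := mul_le_mul_of_nonneg_left (min_le_right _ _) ht0.le
    linarith
  -- the tilt
  have hNV : 0 < N + Vr + 1 := by linarith
  set κ : ℝ := min (1 / 2) (e / (4 * (N + Vr + 1))) with hκ
  have hκ0 : 0 < κ := lt_min (by norm_num) (by positivity)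
  have hκ1 : κ ≤ 1 := le_trans (min_le_left _ _) (by norm_num)
  have hκN' : κ ≤ e / (4 * (N + Vr + 1)) := min_le_right _ _
  have hκN : κ * (N + Vr) ≤ e / 4 := by
    have h1 : κ * (4 * (N + Vr + 1)) ≤ e := by
      rwa [le_div_iff₀ (by positivity)] at hκN'
    nlinarith
  obtain ⟨ρ, hρ⟩ := exists_isMollifier (E := W × ℝ) hr0
  have hsupp : Function.support ρ ⊆ Metric.ball 0 t := by
    rw [hρ.supp]
    exact Metric.ball_subset_ball hr2
  refine ⟨fibU D c ρ w₀ t κ, fibU_contDiff hD hc hρ w₀ t κ,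
    fibU_diffeo hD hc hρ w₀ ht0.le (by linarith) hκ0 hκ1, ?_, ?_⟩
  · refine le_trans (eLpNorm_fibU_sub_le hp hD hDb hDc hball hc hρ ht0 ht8 hr1 hr2 hκ0.le
      hκ1) ?_
    refine le_trans (add_le_add
      (Hc t ht0 htc ρ hρ.smooth.continuous hρ.nonneg hρ.integral hsupp) le_rfl) ?_
    rw [hVe, ← ENNReal.ofReal_mul hVr0, ← ENNReal.ofReal_add (by positivity) (by positivity)]
    refine le_trans (ENNReal.ofReal_le_ofReal ?_) heη
    nlinarith
  · refine le_trans (eLpNorm_fderiv_fibU_sub_le hp hD hDb hDc hball hc hS hρ ht0 ht8 hr1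
      hκ0.le hκ1) ?_
    refine le_trans (add_le_add (add_le_add (mul_le_mul_right
      (HG t ht0 htG ρ hρ.smooth.continuous hρ.nonneg hρ.integral hsupp) _) le_rfl) le_rfl) ?_
    rw [hNe, hVe, ← ENNReal.ofReal_mul (by norm_num), ← ENNReal.ofReal_mul (by positivity),
      ← ENNReal.ofReal_mul hVr0, ← ENNReal.ofReal_add (by positivity) (by positivity),
      ← ENNReal.ofReal_add (by positivity) (by positivity)]
    refine le_trans (ENNReal.ofReal_le_ofReal ?_) heη
    nlinarith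

end K

end Vale.Agent.Lib.P073

end -- part FibreG

section -- part FibreH

/-!
# P073: fibre-preserving homeomorphisms of cylinders are diffeomorphically approximable
-/

set_option linter.unusedSectionVars false

namespace Vale.Agent.Lib.P073

open MeasureTheory Filter Topology Set
open scoped ContDiff ENNReal

variable {W : Type*} [NormedAddCommGroup W] [NormedSpace ℝ W] [FiniteDimensional ℝ W]
  [MeasureSpace W] [BorelSpace W] [(volume : Measure W).IsAddHaarMeasure]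

/-- **Fibred theorem.** Let `D` be a bounded convex open set of a finite-dimensional space `W`,
let `g` be diffeomorphically approximable in `W^{1,p}` from `D` onto `V`, and let `c` be a
`W^{1,p}` function on the cylinder `D × (0,1)` which is continuous and maps every fibre
`{w} × (0,1)` increasingly onto (0,1).  Then the fibre-preserving map
(w, z) ↦ (g w, c (w, z)) is diffeomorphically approximable in `W^{1,p}` from `D × (0,1)` onto
`V × (0,1)`. -/
theorem isDiffeoApproximable_fibred {p : ℝ≥0∞} (hp : 1 ≤ p) (hp' : p ≠ ⊤) {D V : Set W}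
    (hD : IsOpen D) (hDb : Bornology.IsBounded D) (hDc : Convex ℝ D) (hDn : D.Nonempty)
    {g : W → W} (hg : IsDiffeoApproximable p D V g) {c : W × ℝ → ℝ}
    {Gc : W × ℝ → (W × ℝ) →L[ℝ] ℝ} (hc : FibreHomeo D c)
    (hS : IsSobolevWith p (D ×ˢ Ioo (0 : ℝ) 1) c Gc) :
    IsDiffeoApproximable p (D ×ˢ Ioo (0 : ℝ) 1) (V ×ˢ Ioo (0 : ℝ) 1)
      (fun x : W × ℝ => (g x.1, c x)) :=
  isDiffeoApproximable_fibred_of_approx hp hp' hD hDb.measure_lt_top.ne hg hS
    (fun _ hη => exists_fibre_approx hp hp' hD hDb hDc hDn hc hS hη)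

end Vale.Agent.Lib.P073

end -- part FibreH
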