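import Vale.Agent.Lib.P073.Common

/-!
# P073: merged module Product (parts: ProductA, ProductB, ProductC, ProductD, ProductE)
-/

section -- part ProductA

/-!
# P073: weak derivatives on product domains -- slices of test functions
-/

namespace Vale.Agent.Lib.P073

open MeasureTheory Filter Topology Set
open scoped ContDiff ENNReal

variable {E₁ E₂ : Type*} [NormedAddCommGroup E₁] [NormedSpace ℝ E₁]
  [NormedAddCommGroup E₂] [NormedSpace ℝ E₂]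

/-- Slices `x ↦ φ (x, y)` of a test function supported in `Ω₁ × Ω₂` are test functions supported
in `Ω₁`. -/
theorem slice_fst_test {φ : E₁ × E₂ → ℝ} (hφ : ContDiff ℝ ∞ φ) (hφs : HasCompactSupport φ)
    {Ω₁ : Set E₁} {Ω₂ : Set E₂} (hsub : tsupport φ ⊆ Ω₁ ×ˢ Ω₂) (y : E₂) :
    ContDiff ℝ ∞ (fun x => φ (x, y)) ∧ HasCompactSupport (fun x => φ (x, y)) ∧
      tsupport (fun x => φ (x, y)) ⊆ Ω₁ ∧
      ∀ x v₁, fderiv ℝ (fun x => φ (x, y)) x v₁ = fderiv ℝ φ (x, y) (v₁, 0) := by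
  have hcl : IsClosed ((fun x : E₁ => (x, y)) ⁻¹' tsupport φ) :=
    (isClosed_tsupport φ).preimage (continuous_id.prodMk continuous_const)
  have hSsub : (fun x : E₁ => (x, y)) ⁻¹' tsupport φ ⊆ Prod.fst '' tsupport φ :=
    fun x hx => ⟨(x, y), hx, rfl⟩
  have hcomp : IsCompact ((fun x : E₁ => (x, y)) ⁻¹' tsupport φ) :=
    (hφs.image continuous_fst).of_isClosed_subset hcl hSsub
  have hsupp : Function.support (fun x => φ (x, y)) ⊆ (fun x : E₁ => (x, y)) ⁻¹' tsupport φ :=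
    fun x hx => subset_tsupport φ hx
  have hts : tsupport (fun x => φ (x, y)) ⊆ (fun x : E₁ => (x, y)) ⁻¹' tsupport φ :=
    closure_minimal hsupp hcl
  refine ⟨hφ.comp (contDiff_prodMk_left y), ?_, ?_, ?_⟩
  · exact hcomp.of_isClosed_subset (isClosed_tsupport _) hts
  · intro x hx
    exact (hsub (hts hx)).1
  · intro x v₁
    have h1 : HasFDerivAt φ (fderiv ℝ φ (x, y)) (x, y) :=
      (hφ.differentiable (by simp) (x, y)).hasFDerivAt
    have h2 := h1.comp x (hasFDerivAt_prodMk_left (𝕜 := ℝ) x y)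
    have h3 : fderiv ℝ (fun x => φ (x, y)) x
        = (fderiv ℝ φ (x, y)).comp (ContinuousLinearMap.inl ℝ E₁ E₂) := h2.fderiv
    rw [h3]
    simp

/-- Slices `y ↦ φ (x, y)` of a test function supported in `Ω₁ × Ω₂` are test functions supported
in `Ω₂`. -/
theorem slice_snd_test {φ : E₁ × E₂ → ℝ} (hφ : ContDiff ℝ ∞ φ) (hφs : HasCompactSupport φ)
    {Ω₁ : Set E₁} {Ω₂ : Set E₂} (hsub : tsupport φ ⊆ Ω₁ ×ˢ Ω₂) (x : E₁) :
    ContDiff ℝ ∞ (fun y => φ (x, y)) ∧ HasCompactSupport (fun y => φ (x, y)) ∧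
      tsupport (fun y => φ (x, y)) ⊆ Ω₂ ∧
      ∀ y v₂, fderiv ℝ (fun y => φ (x, y)) y v₂ = fderiv ℝ φ (x, y) (0, v₂) := by
  have hcl : IsClosed ((fun y : E₂ => (x, y)) ⁻¹' tsupport φ) :=
    (isClosed_tsupport φ).preimage (continuous_const.prodMk continuous_id)
  have hSsub : (fun y : E₂ => (x, y)) ⁻¹' tsupport φ ⊆ Prod.snd '' tsupport φ :=
    fun y hy => ⟨(x, y), hy, rfl⟩
  have hcomp : IsCompact ((fun y : E₂ => (x, y)) ⁻¹' tsupport φ) :=
    (hφs.image continuous_snd).of_isClosed_subset hcl hSsub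
  have hsupp : Function.support (fun y => φ (x, y)) ⊆ (fun y : E₂ => (x, y)) ⁻¹' tsupport φ :=
    fun y hy => subset_tsupport φ hy
  have hts : tsupport (fun y => φ (x, y)) ⊆ (fun y : E₂ => (x, y)) ⁻¹' tsupport φ :=
    closure_minimal hsupp hcl
  refine ⟨hφ.comp (contDiff_prodMk_right x), ?_, ?_, ?_⟩
  · exact hcomp.of_isClosed_subset (isClosed_tsupport _) hts
  · intro y hy
    exact (hsub (hts hy)).2
  · intro y v₂
    have h1 : HasFDerivAt φ (fderiv ℝ φ (x, y)) (x, y) :=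
      (hφ.differentiable (by simp) (x, y)).hasFDerivAt
    have h2 := h1.comp y (hasFDerivAt_prodMk_right (𝕜 := ℝ) x y)
    have h3 : fderiv ℝ (fun y => φ (x, y)) y
        = (fderiv ℝ φ (x, y)).comp (ContinuousLinearMap.inr ℝ E₁ E₂) := h2.fderiv
    rw [h3]
    simp

/-- The integral of a directional derivative of a test function vanishes. -/
theorem integral_fderiv_test_eq_zero {E : Type*} [NormedAddCommGroup E] [NormedSpace ℝ E]
    [MeasurableSpace E] [BorelSpace E] [FiniteDimensional ℝ E] {μ : Measure E}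
    [μ.IsAddHaarMeasure] {ψ : E → ℝ} (hψ : ContDiff ℝ ∞ ψ) (hψs : HasCompactSupport ψ) (v : E) :
    ∫ y, fderiv ℝ ψ y v ∂μ = 0 := by
  have hd : Continuous (fun y => fderiv ℝ ψ y v) :=
    (hψ.continuous_fderiv (by simp)).clm_apply continuous_const
  have hds : HasCompactSupport (fun y => fderiv ℝ ψ y v) := hψs.fderiv_apply (𝕜 := ℝ) v
  have key := integral_mul_fderiv_eq_neg_fderiv_mul_of_integrable (μ := μ)
    (f := fun _ : E => (1 : ℝ)) (g := ψ) (v := v)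
    (by simp) (by simpa using hd.integrable_of_hasCompactSupport hds)
    (by simpa using hψ.continuous.integrable_of_hasCompactSupport hψs)
    (fun x _ => differentiableAt_const _)
    (fun x _ => hψ.differentiable (by simp) x)
  simpa using key

end Vale.Agent.Lib.P073

end -- part ProductA

section -- part ProductB

/-!
# P073: weak derivatives of functions of one factor on a product domain
-/

set_option linter.unusedSectionVars false

namespace Vale.Agent.Lib.P073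

open MeasureTheory Filter Topology Set
open scoped ContDiff ENNReal

variable {E₁ E₂ : Type*} [NormedAddCommGroup E₁] [NormedSpace ℝ E₁] [MeasureSpace E₁]
  [BorelSpace E₁] [FiniteDimensional ℝ E₁] [(volume : Measure E₁).IsAddHaarMeasure]
  [NormedAddCommGroup E₂] [NormedSpace ℝ E₂] [MeasureSpace E₂]
  [BorelSpace E₂] [FiniteDimensional ℝ E₂] [(volume : Measure E₂).IsAddHaarMeasure]
  {F : Type*} [NormedAddCommGroup F] [NormedSpace ℝ F]

theorem locallyIntegrableOn_clm_comp {X : Type*} [TopologicalSpace X] [MeasurableSpace X]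
    {μ : Measure X} {F' : Type*} [NormedAddCommGroup F'] [NormedSpace ℝ F'] (L : F →L[ℝ] F')
    {g : X → F} {s : Set X} (hg : LocallyIntegrableOn g s μ) :
    LocallyIntegrableOn (fun x => L (g x)) s μ := by
  intro x hx
  obtain ⟨t, ht, htint⟩ := hg x hx
  exact ⟨t, ht, L.integrable_comp htint⟩

theorem locallyIntegrableOn_comp_fst {Ω₁ : Set E₁} (Ω₂ : Set E₂) {u : E₁ → F}
    (hu : LocallyIntegrableOn u Ω₁) :
    LocallyIntegrableOn (fun z : E₁ × E₂ => u z.1) (Ω₁ ×ˢ Ω₂) := by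
  rintro ⟨x, y⟩ ⟨hx, hy⟩
  obtain ⟨s, hs, hsint⟩ := hu x hx
  obtain ⟨t, ht, htfin⟩ := (volume : Measure E₂).finiteAt_nhds y
  refine ⟨s ×ˢ t, ?_, ?_⟩
  · rw [nhdsWithin_prod_eq]
    exact Filter.prod_mem_prod hs (mem_nhdsWithin_of_mem_nhds ht)
  · have hfin : IsFiniteMeasure ((volume : Measure E₂).restrict t) :=
      ⟨by rwa [Measure.restrict_apply_univ]⟩
    have h1 : Integrable (fun z : E₁ × E₂ => u z.1)
        (((volume : Measure E₁).restrict s).prod ((volume : Measure E₂).restrict t)) :=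
      Integrable.comp_fst hsint _
    rw [Measure.prod_restrict] at h1
    exact h1

theorem locallyIntegrableOn_comp_snd (Ω₁ : Set E₁) {Ω₂ : Set E₂} {u : E₂ → F}
    (hu : LocallyIntegrableOn u Ω₂) :
    LocallyIntegrableOn (fun z : E₁ × E₂ => u z.2) (Ω₁ ×ˢ Ω₂) := by
  rintro ⟨x, y⟩ ⟨hx, hy⟩
  obtain ⟨t, ht, htint⟩ := hu y hy
  obtain ⟨s, hs, hsfin⟩ := (volume : Measure E₁).finiteAt_nhds x
  refine ⟨s ×ˢ t, ?_, ?_⟩
  · rw [nhdsWithin_prod_eq]
    exact Filter.prod_mem_prod (mem_nhdsWithin_of_mem_nhds hs) ht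
  · have hfin : IsFiniteMeasure ((volume : Measure E₁).restrict s) :=
      ⟨by rwa [Measure.restrict_apply_univ]⟩
    have h1 : Integrable (fun z : E₁ × E₂ => u z.2)
        (((volume : Measure E₁).restrict s).prod ((volume : Measure E₂).restrict t)) :=
      Integrable.comp_snd htint _
    rw [Measure.prod_restrict] at h1
    exact h1

variable [CompleteSpace F]

/-- A function of the first variable with weak derivative `H` on `Ω₁` has, on `Ω₁ × Ω₂`, the weak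
derivative `(v₁, v₂) ↦ H v₁`. -/
theorem IsWeakDeriv.comp_fst {Ω₁ : Set E₁} (Ω₂ : Set E₂) {u : E₁ → F} {H : E₁ → E₁ →L[ℝ] F}
    (h : IsWeakDeriv Ω₁ u H) :
    IsWeakDeriv (Ω₁ ×ˢ Ω₂) (fun z : E₁ × E₂ => u z.1)
      (fun z => (H z.1).comp (ContinuousLinearMap.fst ℝ E₁ E₂)) := by
  have hloc := locallyIntegrableOn_comp_fst Ω₂ h.1
  refine ⟨hloc, ?_, ?_⟩
  · exact locallyIntegrableOn_clm_comp
      ((ContinuousLinearMap.compL ℝ (E₁ × E₂) E₁ F).flip (ContinuousLinearMap.fst ℝ E₁ E₂))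
      (locallyIntegrableOn_comp_fst Ω₂ h.2.1)
  intro φ hφ hφs hsub v
  obtain ⟨v₁, v₂⟩ := v
  have hlocH : LocallyIntegrableOn (fun z : E₁ × E₂ => H z.1 v₁) (Ω₁ ×ˢ Ω₂) :=
    locallyIntegrableOn_comp_fst Ω₂
      (locallyIntegrableOn_clm_comp (ContinuousLinearMap.apply ℝ F v₁) h.2.1)
  have hdc : ∀ w, Continuous (fun z => fderiv ℝ φ z w) := fun w =>
    (hφ.continuous_fderiv (by simp)).clm_apply continuous_const
  have hds : ∀ w, HasCompactSupport (fun z => fderiv ℝ φ z w) := fun w =>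
    hφs.fderiv_apply (𝕜 := ℝ) w
  have hdsub : ∀ w, tsupport (fun z => fderiv ℝ φ z w) ⊆ Ω₁ ×ˢ Ω₂ := fun w =>
    (tsupport_fderiv_apply_subset ℝ w).trans hsub
  have i1 : Integrable (fun z : E₁ × E₂ => (fderiv ℝ φ z (v₁, 0)) • u z.1)
      (volume.restrict (Ω₁ ×ˢ Ω₂)) :=
    (integrable_smul_of_tsupport_subset hloc (hdc _) (hds _) (hdsub _)).integrableOn
  have i2 : Integrable (fun z : E₁ × E₂ => (fderiv ℝ φ z (0, v₂)) • u z.1)
      (volume.restrict (Ω₁ ×ˢ Ω₂)) :=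
    (integrable_smul_of_tsupport_subset hloc (hdc _) (hds _) (hdsub _)).integrableOn
  have i3 : Integrable (fun z : E₁ × E₂ => φ z • H z.1 v₁) (volume.restrict (Ω₁ ×ˢ Ω₂)) :=
    (integrable_smul_of_tsupport_subset hlocH hφ.continuous hφs hsub).integrableOn
  have hsplit : ∀ z : E₁ × E₂, (fderiv ℝ φ z (v₁, v₂)) • u z.1
      = (fderiv ℝ φ z (v₁, 0)) • u z.1 + (fderiv ℝ φ z (0, v₂)) • u z.1 := by
    intro z
    rw [← add_smul, ← map_add]
    simp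
  simp only [hsplit]
  rw [integral_add i1 i2]
  have hprod : (volume : Measure (E₁ × E₂)).restrict (Ω₁ ×ˢ Ω₂)
      = ((volume : Measure E₁).restrict Ω₁).prod ((volume : Measure E₂).restrict Ω₂) :=
    (Measure.prod_restrict Ω₁ Ω₂).symm
  have hI2 : ∫ z in Ω₁ ×ˢ Ω₂, (fderiv ℝ φ z (0, v₂)) • u z.1 = 0 := by
    rw [hprod] at i2 ⊢
    rw [integral_prod _ i2]
    have hzero : ∀ x, ∫ y in Ω₂, (fderiv ℝ φ (x, y) (0, v₂)) • u x = 0 := by
      intro x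
      rw [integral_smul_const]
      obtain ⟨c1, c2, c3, c4⟩ := slice_snd_test hφ hφs hsub x
      have e1 : ∫ y in Ω₂, fderiv ℝ φ (x, y) (0, v₂)
          = ∫ y, fderiv ℝ (fun y => φ (x, y)) y v₂ := by
        simp only [← c4]
        apply setIntegral_eq_integral_of_forall_compl_eq_zero
        intro y hy
        have hy' : y ∉ tsupport (fun y => φ (x, y)) := fun h' => hy (c3 h')
        rw [fderiv_of_notMem_tsupport ℝ hy']
        simp
      rw [e1, integral_fderiv_test_eq_zero c1 c2 v₂, zero_smul]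
    simp only [hzero, integral_zero]
  have hI1 : ∫ z in Ω₁ ×ˢ Ω₂, (fderiv ℝ φ z (v₁, 0)) • u z.1
      = - ∫ z in Ω₁ ×ˢ Ω₂, φ z • H z.1 v₁ := by
    rw [hprod] at i1 i3 ⊢
    rw [integral_prod_symm _ i1, integral_prod_symm _ i3, ← integral_neg]
    congr 1
    ext y
    obtain ⟨c1, c2, c3, c4⟩ := slice_fst_test hφ hφs hsub y
    have := h.2.2 (fun x => φ (x, y)) c1 c2 c3 v₁
    simp only [c4] at this
    exact this
  rw [hI1, hI2, add_zero]
  rfl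

/-- A function of the second variable with weak derivative `H` on `Ω₂` has, on `Ω₁ × Ω₂`, the
weak derivative `(v₁, v₂) ↦ H v₂`. -/
theorem IsWeakDeriv.comp_snd (Ω₁ : Set E₁) {Ω₂ : Set E₂} {u : E₂ → F} {H : E₂ → E₂ →L[ℝ] F}
    (h : IsWeakDeriv Ω₂ u H) :
    IsWeakDeriv (Ω₁ ×ˢ Ω₂) (fun z : E₁ × E₂ => u z.2)
      (fun z => (H z.2).comp (ContinuousLinearMap.snd ℝ E₁ E₂)) := by
  have hloc := locallyIntegrableOn_comp_snd Ω₁ h.1
  refine ⟨hloc, ?_, ?_⟩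
  · exact locallyIntegrableOn_clm_comp
      ((ContinuousLinearMap.compL ℝ (E₁ × E₂) E₂ F).flip (ContinuousLinearMap.snd ℝ E₁ E₂))
      (locallyIntegrableOn_comp_snd Ω₁ h.2.1)
  intro φ hφ hφs hsub v
  obtain ⟨v₁, v₂⟩ := v
  have hlocH : LocallyIntegrableOn (fun z : E₁ × E₂ => H z.2 v₂) (Ω₁ ×ˢ Ω₂) :=
    locallyIntegrableOn_comp_snd Ω₁
      (locallyIntegrableOn_clm_comp (ContinuousLinearMap.apply ℝ F v₂) h.2.1)
  have hdc : ∀ w, Continuous (fun z => fderiv ℝ φ z w) := fun w =>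
    (hφ.continuous_fderiv (by simp)).clm_apply continuous_const
  have hds : ∀ w, HasCompactSupport (fun z => fderiv ℝ φ z w) := fun w =>
    hφs.fderiv_apply (𝕜 := ℝ) w
  have hdsub : ∀ w, tsupport (fun z => fderiv ℝ φ z w) ⊆ Ω₁ ×ˢ Ω₂ := fun w =>
    (tsupport_fderiv_apply_subset ℝ w).trans hsub
  have i1 : Integrable (fun z : E₁ × E₂ => (fderiv ℝ φ z (v₁, 0)) • u z.2)
      (volume.restrict (Ω₁ ×ˢ Ω₂)) :=
    (integrable_smul_of_tsupport_subset hloc (hdc _) (hds _) (hdsub _)).integrableOn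
  have i2 : Integrable (fun z : E₁ × E₂ => (fderiv ℝ φ z (0, v₂)) • u z.2)
      (volume.restrict (Ω₁ ×ˢ Ω₂)) :=
    (integrable_smul_of_tsupport_subset hloc (hdc _) (hds _) (hdsub _)).integrableOn
  have i3 : Integrable (fun z : E₁ × E₂ => φ z • H z.2 v₂) (volume.restrict (Ω₁ ×ˢ Ω₂)) :=
    (integrable_smul_of_tsupport_subset hlocH hφ.continuous hφs hsub).integrableOn
  have hsplit : ∀ z : E₁ × E₂, (fderiv ℝ φ z (v₁, v₂)) • u z.2
      = (fderiv ℝ φ z (v₁, 0)) • u z.2 + (fderiv ℝ φ z (0, v₂)) • u z.2 := by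
    intro z
    rw [← add_smul, ← map_add]
    simp
  simp only [hsplit]
  rw [integral_add i1 i2]
  have hprod : (volume : Measure (E₁ × E₂)).restrict (Ω₁ ×ˢ Ω₂)
      = ((volume : Measure E₁).restrict Ω₁).prod ((volume : Measure E₂).restrict Ω₂) :=
    (Measure.prod_restrict Ω₁ Ω₂).symm
  have hI1 : ∫ z in Ω₁ ×ˢ Ω₂, (fderiv ℝ φ z (v₁, 0)) • u z.2 = 0 := by
    rw [hprod] at i1 ⊢
    rw [integral_prod_symm _ i1]
    have hzero : ∀ y, ∫ x in Ω₁, (fderiv ℝ φ (x, y) (v₁, 0)) • u y = 0 := by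
      intro y
      rw [integral_smul_const]
      obtain ⟨c1, c2, c3, c4⟩ := slice_fst_test hφ hφs hsub y
      have e1 : ∫ x in Ω₁, fderiv ℝ φ (x, y) (v₁, 0)
          = ∫ x, fderiv ℝ (fun x => φ (x, y)) x v₁ := by
        simp only [← c4]
        apply setIntegral_eq_integral_of_forall_compl_eq_zero
        intro x hx
        have hx' : x ∉ tsupport (fun x => φ (x, y)) := fun h' => hx (c3 h')
        rw [fderiv_of_notMem_tsupport ℝ hx']
        simp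
      rw [e1, integral_fderiv_test_eq_zero c1 c2 v₁, zero_smul]
    simp only [hzero, integral_zero]
  have hI2 : ∫ z in Ω₁ ×ˢ Ω₂, (fderiv ℝ φ z (0, v₂)) • u z.2
      = - ∫ z in Ω₁ ×ˢ Ω₂, φ z • H z.2 v₂ := by
    rw [hprod] at i2 i3 ⊢
    rw [integral_prod _ i2, integral_prod _ i3, ← integral_neg]
    congr 1
    ext x
    obtain ⟨c1, c2, c3, c4⟩ := slice_snd_test hφ hφs hsub x
    have := h.2.2 (fun y => φ (x, y)) c1 c2 c3 v₂
    simp only [c4] at this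
    exact this
  rw [hI1, hI2, zero_add]
  rfl

end Vale.Agent.Lib.P073

end -- part ProductB

section -- part ProductC

/-!
# P073: linear operations on weak derivatives and `L^p` norms on products
-/

set_option linter.unusedSectionVars false

namespace Vale.Agent.Lib.P073

open MeasureTheory Filter Topology Set
open scoped ContDiff ENNReal

section General

variable {E : Type*} [NormedAddCommGroup E] [NormedSpace ℝ E] [MeasureSpace E] [BorelSpace E]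
  {F : Type*} [NormedAddCommGroup F] [NormedSpace ℝ F] [CompleteSpace F]
  {F' : Type*} [NormedAddCommGroup F'] [NormedSpace ℝ F'] [CompleteSpace F']

theorem IsWeakDeriv.clm_comp {Ω : Set E} {u : E → F} {H : E → E →L[ℝ] F} (L : F →L[ℝ] F')
    (h : IsWeakDeriv Ω u H) : IsWeakDeriv Ω (fun z => L (u z)) (fun z => L.comp (H z)) := by
  refine ⟨locallyIntegrableOn_clm_comp L h.1,
    locallyIntegrableOn_clm_comp (ContinuousLinearMap.compL ℝ E F F' L) h.2.1, ?_⟩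
  intro φ hφ hφs hsub v
  have hdc : Continuous (fun z => fderiv ℝ φ z v) :=
    (hφ.continuous_fderiv (by simp)).clm_apply continuous_const
  have hds : HasCompactSupport (fun z => fderiv ℝ φ z v) := hφs.fderiv_apply (𝕜 := ℝ) v
  have hdsub : tsupport (fun z => fderiv ℝ φ z v) ⊆ Ω :=
    (tsupport_fderiv_apply_subset ℝ v).trans hsub
  have i1 : Integrable (fun z => (fderiv ℝ φ z v) • u z) (volume.restrict Ω) :=
    (integrable_smul_of_tsupport_subset h.1 hdc hds hdsub).integrableOn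
  have i2 : Integrable (fun z => φ z • H z v) (volume.restrict Ω) :=
    (integrable_smul_of_tsupport_subset
      (locallyIntegrableOn_clm_comp (ContinuousLinearMap.apply ℝ F v) h.2.1)
      hφ.continuous hφs hsub).integrableOn
  have e1 : ∀ z, (fderiv ℝ φ z v) • L (u z) = L ((fderiv ℝ φ z v) • u z) := fun z => by simp
  have e2 : ∀ z, φ z • (L.comp (H z)) v = L (φ z • H z v) := fun z => by simp
  simp only [e1, e2]
  rw [L.integral_comp_comm i1, L.integral_comp_comm i2, h.2.2 φ hφ hφs hsub v, map_neg]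

theorem IsWeakDeriv.add {Ω : Set E} {u u' : E → F} {H H' : E → E →L[ℝ] F}
    (h : IsWeakDeriv Ω u H) (h' : IsWeakDeriv Ω u' H') :
    IsWeakDeriv Ω (fun z => u z + u' z) (fun z => H z + H' z) := by
  have a1 : LocallyIntegrableOn (fun z => u z + u' z) Ω := by
    intro x hx
    obtain ⟨s, hs, his⟩ := h.1 x hx
    obtain ⟨t, ht, hit⟩ := h'.1 x hx
    exact ⟨s ∩ t, inter_mem hs ht,
      Integrable.add (his.mono_set inter_subset_left) (hit.mono_set inter_subset_right)⟩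
  have a2 : LocallyIntegrableOn (fun z => H z + H' z) Ω := by
    intro x hx
    obtain ⟨s, hs, his⟩ := h.2.1 x hx
    obtain ⟨t, ht, hit⟩ := h'.2.1 x hx
    refine ⟨s ∩ t, inter_mem hs ht, ?_⟩
    have hsum := Integrable.sub (his.mono_set (inter_subset_left (t := t)))
      (Integrable.neg (hit.mono_set (inter_subset_right (s := s))))
    rw [sub_neg_eq_add] at hsum
    exact hsum
  refine ⟨a1, a2, ?_⟩
  intro φ hφ hφs hsub v
  have hdc : Continuous (fun z => fderiv ℝ φ z v) :=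
    (hφ.continuous_fderiv (by simp)).clm_apply continuous_const
  have hds : HasCompactSupport (fun z => fderiv ℝ φ z v) := hφs.fderiv_apply (𝕜 := ℝ) v
  have hdsub : tsupport (fun z => fderiv ℝ φ z v) ⊆ Ω :=
    (tsupport_fderiv_apply_subset ℝ v).trans hsub
  have i1 : Integrable (fun z => (fderiv ℝ φ z v) • u z) (volume.restrict Ω) :=
    (integrable_smul_of_tsupport_subset h.1 hdc hds hdsub).integrableOn
  have i1' : Integrable (fun z => (fderiv ℝ φ z v) • u' z) (volume.restrict Ω) :=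
    (integrable_smul_of_tsupport_subset h'.1 hdc hds hdsub).integrableOn
  have i2 : Integrable (fun z => φ z • H z v) (volume.restrict Ω) :=
    (integrable_smul_of_tsupport_subset
      (locallyIntegrableOn_clm_comp (ContinuousLinearMap.apply ℝ F v) h.2.1)
      hφ.continuous hφs hsub).integrableOn
  have i2' : Integrable (fun z => φ z • H' z v) (volume.restrict Ω) :=
    (integrable_smul_of_tsupport_subset
      (locallyIntegrableOn_clm_comp (ContinuousLinearMap.apply ℝ F v) h'.2.1)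
      hφ.continuous hφs hsub).integrableOn
  have e1 : ∀ z, (fderiv ℝ φ z v) • (u z + u' z)
      = (fderiv ℝ φ z v) • u z + (fderiv ℝ φ z v) • u' z := fun z => smul_add _ _ _
  have e2 : ∀ z, φ z • (H z + H' z) v = φ z • H z v + φ z • H' z v := fun z => by
    simp [smul_add]
  simp only [e1, e2]
  rw [integral_add i1 i1', integral_add i2 i2', h.2.2 φ hφ hφs hsub v, h'.2.2 φ hφ hφs hsub v]
  abel

end General

section LpProd

variable {α β : Type*} [MeasurableSpace α] [MeasurableSpace β] {μ : Measure α} {ν : Measure β}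
  {F : Type*} [NormedAddCommGroup F] [NormedSpace ℝ F]
  {F' : Type*} [NormedAddCommGroup F'] [NormedSpace ℝ F']

theorem eLpNorm_clm_comp_fst_le [SFinite ν] {p : ℝ≥0∞} (hp' : p ≠ ⊤) (L : F →L[ℝ] F') {f : α → F}
    (hf : AEStronglyMeasurable f μ) :
    eLpNorm (fun z : α × β => L (f z.1)) p (μ.prod ν)
      ≤ ENNReal.ofReal ‖L‖ * (ν Set.univ ^ (1 / p).toReal * eLpNorm f p μ) := by
  have h1 : eLpNorm (fun z : α × β => L (f z.1)) p (μ.prod ν)
      ≤ ENNReal.ofReal ‖L‖ * eLpNorm (fun z : α × β => f z.1) p (μ.prod ν) :=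
    eLpNorm_le_mul_eLpNorm_of_ae_le_mul (Eventually.of_forall fun z => L.le_opNorm _) p
  have h2 : eLpNorm (fun z : α × β => f z.1) p (μ.prod ν)
      = ν Set.univ ^ (1 / p).toReal * eLpNorm f p μ := by
    have hf' : AEStronglyMeasurable f (Measure.map Prod.fst (μ.prod ν)) := by
      rw [Measure.map_fst_prod]
      exact hf.smul_measure _
    have := eLpNorm_map_measure (p := p) hf' measurable_fst.aemeasurable
    rw [Measure.map_fst_prod, eLpNorm_smul_measure_of_ne_top hp'] at this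
    rw [smul_eq_mul] at this
    exact this.symm
  rw [h2] at h1
  exact h1

theorem eLpNorm_clm_comp_snd_le [SFinite ν] {p : ℝ≥0∞} (hp' : p ≠ ⊤) (L : F →L[ℝ] F') {f : β → F}
    (hf : AEStronglyMeasurable f ν) :
    eLpNorm (fun z : α × β => L (f z.2)) p (μ.prod ν)
      ≤ ENNReal.ofReal ‖L‖ * (μ Set.univ ^ (1 / p).toReal * eLpNorm f p ν) := by
  have h1 : eLpNorm (fun z : α × β => L (f z.2)) p (μ.prod ν)
      ≤ ENNReal.ofReal ‖L‖ * eLpNorm (fun z : α × β => f z.2) p (μ.prod ν) :=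
    eLpNorm_le_mul_eLpNorm_of_ae_le_mul (Eventually.of_forall fun z => L.le_opNorm _) p
  have h2 : eLpNorm (fun z : α × β => f z.2) p (μ.prod ν)
      = μ Set.univ ^ (1 / p).toReal * eLpNorm f p ν := by
    have hf' : AEStronglyMeasurable f (Measure.map Prod.snd (μ.prod ν)) := by
      rw [Measure.map_snd_prod]
      exact hf.smul_measure _
    have := eLpNorm_map_measure (p := p) hf' measurable_snd.aemeasurable
    rw [Measure.map_snd_prod, eLpNorm_smul_measure_of_ne_top hp'] at this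
    rw [smul_eq_mul] at this
    exact this.symm
  rw [h2] at h1
  exact h1

end LpProd

end Vale.Agent.Lib.P073

end -- part ProductC

section -- part ProductD

/-!
# P073: products of diffeomorphically approximable maps are diffeomorphically approximable
-/

set_option linter.unusedSectionVars false

namespace Vale.Agent.Lib.P073

open MeasureTheory Filter Topology Set
open scoped ContDiff ENNReal

section LpSum

variable {α β : Type*} [MeasurableSpace α] [MeasurableSpace β] {μ : Measure α} {ν : Measure β}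
  {F₁ : Type*} [NormedAddCommGroup F₁] [NormedSpace ℝ F₁]
  {F₂ : Type*} [NormedAddCommGroup F₂] [NormedSpace ℝ F₂]
  {F' : Type*} [NormedAddCommGroup F'] [NormedSpace ℝ F']

theorem eLpNorm_sum_le [SFinite μ] [SFinite ν] {p : ℝ≥0∞} (hp : 1 ≤ p) (hp' : p ≠ ⊤)
    (L₁ : F₁ →L[ℝ] F') (L₂ : F₂ →L[ℝ] F') {u : α → F₁} {w : β → F₂}
    (hu : AEStronglyMeasurable u μ) (hw : AEStronglyMeasurable w ν) :
    eLpNorm (fun z : α × β => L₁ (u z.1) + L₂ (w z.2)) p (μ.prod ν)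
      ≤ ENNReal.ofReal ‖L₁‖ * (ν Set.univ ^ (1 / p).toReal * eLpNorm u p μ)
        + ENNReal.ofReal ‖L₂‖ * (μ Set.univ ^ (1 / p).toReal * eLpNorm w p ν) := by
  have m1 : AEStronglyMeasurable (fun z : α × β => L₁ (u z.1)) (μ.prod ν) :=
    L₁.continuous.comp_aestronglyMeasurable hu.comp_fst
  have m2 : AEStronglyMeasurable (fun z : α × β => L₂ (w z.2)) (μ.prod ν) :=
    L₂.continuous.comp_aestronglyMeasurable hw.comp_snd
  have h := eLpNorm_add_le m1 m2 hp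
  exact h.trans (add_le_add (eLpNorm_clm_comp_fst_le hp' L₁ hu) (eLpNorm_clm_comp_snd_le hp' L₂ hw))

theorem memLp_sum [IsFiniteMeasure μ] [IsFiniteMeasure ν] {p : ℝ≥0∞}
    (L₁ : F₁ →L[ℝ] F') (L₂ : F₂ →L[ℝ] F') {u : α → F₁} {w : β → F₂}
    (hu : MemLp u p μ) (hw : MemLp w p ν) :
    MemLp (fun z : α × β => L₁ (u z.1) + L₂ (w z.2)) p (μ.prod ν) := by
  have h1 : MemLp (fun z : α × β => L₁ (u z.1)) p (μ.prod ν) := L₁.comp_memLp' (hu.comp_fst ν)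
  have h2 : MemLp (fun z : α × β => L₂ (w z.2)) p (μ.prod ν) := L₂.comp_memLp' (hw.comp_snd μ)
  exact h1.add h2

end LpSum

variable {E₁ E₂ : Type*} [NormedAddCommGroup E₁] [NormedSpace ℝ E₁] [MeasureSpace E₁]
  [BorelSpace E₁] [FiniteDimensional ℝ E₁] [(volume : Measure E₁).IsAddHaarMeasure]
  [NormedAddCommGroup E₂] [NormedSpace ℝ E₂] [MeasureSpace E₂]
  [BorelSpace E₂] [FiniteDimensional ℝ E₂] [(volume : Measure E₂).IsAddHaarMeasure]

/-- The block embedding `A ↦ inl ∘ A ∘ fst`. -/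
noncomputable def blockFst (E₁ E₂ : Type*) [NormedAddCommGroup E₁] [NormedSpace ℝ E₁]
    [NormedAddCommGroup E₂] [NormedSpace ℝ E₂] :
    (E₁ →L[ℝ] E₁) →L[ℝ] (E₁ × E₂ →L[ℝ] E₁ × E₂) :=
  (ContinuousLinearMap.compL ℝ (E₁ × E₂) E₁ (E₁ × E₂) (ContinuousLinearMap.inl ℝ E₁ E₂)).comp
    ((ContinuousLinearMap.compL ℝ (E₁ × E₂) E₁ E₁).flip (ContinuousLinearMap.fst ℝ E₁ E₂))

/-- The block embedding `B ↦ inr ∘ B ∘ snd`. -/
noncomputable def blockSnd (E₁ E₂ : Type*) [NormedAddCommGroup E₁] [NormedSpace ℝ E₁]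
    [NormedAddCommGroup E₂] [NormedSpace ℝ E₂] :
    (E₂ →L[ℝ] E₂) →L[ℝ] (E₁ × E₂ →L[ℝ] E₁ × E₂) :=
  (ContinuousLinearMap.compL ℝ (E₁ × E₂) E₂ (E₁ × E₂) (ContinuousLinearMap.inr ℝ E₁ E₂)).comp
    ((ContinuousLinearMap.compL ℝ (E₁ × E₂) E₂ E₂).flip (ContinuousLinearMap.snd ℝ E₁ E₂))

omit [MeasureSpace E₁] [BorelSpace E₁] [FiniteDimensional ℝ E₁] [MeasureSpace E₂] [BorelSpace E₂]
  [FiniteDimensional ℝ E₂] in
theorem prodMap_eq_block (A : E₁ →L[ℝ] E₁) (B : E₂ →L[ℝ] E₂) :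
    A.prodMap B = blockFst E₁ E₂ A + blockSnd E₁ E₂ B := by
  ext v <;> simp [blockFst, blockSnd]

omit [MeasureSpace E₁] [BorelSpace E₁] [FiniteDimensional ℝ E₁] [MeasureSpace E₂] [BorelSpace E₂]
  [FiniteDimensional ℝ E₂] in
theorem prodMap_eq_sum (g₁ : E₁ → E₁) (g₂ : E₂ → E₂) :
    Prod.map g₁ g₂ = fun z : E₁ × E₂ =>
      ContinuousLinearMap.inl ℝ E₁ E₂ (g₁ z.1) + ContinuousLinearMap.inr ℝ E₁ E₂ (g₂ z.2) := by
  funext z
  ext <;> simp

theorem IsWeakDeriv.prodMap {Ω₁ : Set E₁} {Ω₂ : Set E₂} {f₁ : E₁ → E₁} {f₂ : E₂ → E₂}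
    {G₁ : E₁ → E₁ →L[ℝ] E₁} {G₂ : E₂ → E₂ →L[ℝ] E₂}
    (h₁ : IsWeakDeriv Ω₁ f₁ G₁) (h₂ : IsWeakDeriv Ω₂ f₂ G₂) :
    IsWeakDeriv (Ω₁ ×ˢ Ω₂) (Prod.map f₁ f₂) (fun z => (G₁ z.1).prodMap (G₂ z.2)) := by
  have : CompleteSpace E₁ := FiniteDimensional.complete ℝ E₁
  have : CompleteSpace E₂ := FiniteDimensional.complete ℝ E₂
  have a := (h₁.comp_fst Ω₂).clm_comp (ContinuousLinearMap.inl ℝ E₁ E₂)
  have b := (h₂.comp_snd Ω₁).clm_comp (ContinuousLinearMap.inr ℝ E₁ E₂)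
  have c := a.add b
  have e2 : (fun z : E₁ × E₂ =>
      (ContinuousLinearMap.inl ℝ E₁ E₂).comp ((G₁ z.1).comp (ContinuousLinearMap.fst ℝ E₁ E₂))
        + (ContinuousLinearMap.inr ℝ E₁ E₂).comp
          ((G₂ z.2).comp (ContinuousLinearMap.snd ℝ E₁ E₂)))
      = fun z => (G₁ z.1).prodMap (G₂ z.2) := by
    funext z
    ext v <;> simp
  rw [e2, ← prodMap_eq_sum] at c
  exact c

end Vale.Agent.Lib.P073

end -- part ProductD

section -- part ProductE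

/-!
# P073: the product theorem for diffeomorphic approximability
-/

set_option linter.unusedSectionVars false

namespace Vale.Agent.Lib.P073

open MeasureTheory Filter Topology Set
open scoped ContDiff ENNReal

variable {E₁ E₂ : Type*} [NormedAddCommGroup E₁] [NormedSpace ℝ E₁] [MeasureSpace E₁]
  [BorelSpace E₁] [FiniteDimensional ℝ E₁] [(volume : Measure E₁).IsAddHaarMeasure]
  [NormedAddCommGroup E₂] [NormedSpace ℝ E₂] [MeasureSpace E₂]
  [BorelSpace E₂] [FiniteDimensional ℝ E₂] [(volume : Measure E₂).IsAddHaarMeasure]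

omit [MeasureSpace E₁] [BorelSpace E₁] [FiniteDimensional ℝ E₁] [MeasureSpace E₂] [BorelSpace E₂]
  [FiniteDimensional ℝ E₂] in
theorem IsSmoothDiffeo.prodMap {g₁ : E₁ → E₁} {g₂ : E₂ → E₂} {Ω₁ Λ₁ : Set E₁} {Ω₂ Λ₂ : Set E₂}
    (h₁ : IsSmoothDiffeo g₁ Ω₁ Λ₁) (h₂ : IsSmoothDiffeo g₂ Ω₂ Λ₂) :
    IsSmoothDiffeo (Prod.map g₁ g₂) (Ω₁ ×ˢ Ω₂) (Λ₁ ×ˢ Λ₂) := by
  obtain ⟨c₁, b₁, k₁, ck₁, hk₁⟩ := h₁
  obtain ⟨c₂, b₂, k₂, ck₂, hk₂⟩ := h₂
  refine ⟨c₁.prodMap c₂, ?_, Prod.map k₁ k₂, ck₁.prodMap ck₂, ?_⟩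
  · have e : Prod.map g₁ g₂ = fun x : E₁ × E₂ => (g₁ x.1, g₂ x.2) := by
      funext x
      rfl
    rw [e]
    exact b₁.prodMap b₂
  · rintro ⟨x, y⟩ ⟨hx, hy⟩
    simp only [Prod.map_apply]
    rw [hk₁ x hx, hk₂ y hy]

omit [MeasureSpace E₁] [BorelSpace E₁] [FiniteDimensional ℝ E₁] [MeasureSpace E₂] [BorelSpace E₂]
  [FiniteDimensional ℝ E₂] in
theorem fderiv_prodMap_of_mem {g₁ : E₁ → E₁} {g₂ : E₂ → E₂} {Ω₁ : Set E₁} {Ω₂ : Set E₂}
    (hΩ₁ : IsOpen Ω₁) (hΩ₂ : IsOpen Ω₂) (c₁ : ContDiffOn ℝ ∞ g₁ Ω₁) (c₂ : ContDiffOn ℝ ∞ g₂ Ω₂)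
    {z : E₁ × E₂} (hz : z ∈ Ω₁ ×ˢ Ω₂) :
    fderiv ℝ (Prod.map g₁ g₂) z = (fderiv ℝ g₁ z.1).prodMap (fderiv ℝ g₂ z.2) := by
  have d₁ : DifferentiableAt ℝ g₁ z.1 :=
    ((c₁.differentiableOn (by simp)) z.1 hz.1).differentiableAt (hΩ₁.mem_nhds hz.1)
  have d₂ : DifferentiableAt ℝ g₂ z.2 :=
    ((c₂.differentiableOn (by simp)) z.2 hz.2).differentiableAt (hΩ₂.mem_nhds hz.2)
  exact (d₁.hasFDerivAt.prodMap z d₂.hasFDerivAt).fderiv

theorem restrict_prod_eq (Ω₁ : Set E₁) (Ω₂ : Set E₂) :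
    (volume : Measure (E₁ × E₂)).restrict (Ω₁ ×ˢ Ω₂)
      = ((volume : Measure E₁).restrict Ω₁).prod ((volume : Measure E₂).restrict Ω₂) :=
  (Measure.prod_restrict Ω₁ Ω₂).symm

theorem isFiniteMeasure_restrict_of_ne_top {X : Type*} [MeasurableSpace X] {μ : Measure X}
    {s : Set X} (h : μ s ≠ ⊤) : IsFiniteMeasure (μ.restrict s) :=
  ⟨by rw [Measure.restrict_apply_univ]; exact lt_top_iff_ne_top.mpr h⟩

/-- `W^{1,p}` membership of a product map. -/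
theorem IsSobolevWith.prodMap {p : ℝ≥0∞} {Ω₁ : Set E₁} {Ω₂ : Set E₂}
    (hv₁ : volume Ω₁ ≠ ⊤) (hv₂ : volume Ω₂ ≠ ⊤) {f₁ : E₁ → E₁} {f₂ : E₂ → E₂}
    {G₁ : E₁ → E₁ →L[ℝ] E₁} {G₂ : E₂ → E₂ →L[ℝ] E₂}
    (hS₁ : IsSobolevWith p Ω₁ f₁ G₁) (hS₂ : IsSobolevWith p Ω₂ f₂ G₂) :
    IsSobolevWith p (Ω₁ ×ˢ Ω₂) (Prod.map f₁ f₂) (fun z => (G₁ z.1).prodMap (G₂ z.2)) := by
  have hfin₁ := isFiniteMeasure_restrict_of_ne_top hv₁
  have hfin₂ := isFiniteMeasure_restrict_of_ne_top hv₂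
  refine ⟨hS₁.1.prodMap hS₂.1, ?_, ?_⟩
  · rw [restrict_prod_eq, prodMap_eq_sum]
    exact memLp_sum (ContinuousLinearMap.inl ℝ E₁ E₂) (ContinuousLinearMap.inr ℝ E₁ E₂)
      hS₁.2.1 hS₂.2.1
  · rw [restrict_prod_eq]
    have e : (fun z : E₁ × E₂ => (G₁ z.1).prodMap (G₂ z.2))
        = fun z : E₁ × E₂ => blockFst E₁ E₂ (G₁ z.1) + blockSnd E₁ E₂ (G₂ z.2) := by
      funext z
      exact prodMap_eq_block _ _
    rw [e]
    exact memLp_sum (blockFst E₁ E₂) (blockSnd E₁ E₂) hS₁.2.2 hS₂.2.2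

/-- The product of two smooth diffeomorphisms in `W^{1,p}` is a smooth diffeomorphism in
`W^{1,p}`. -/
theorem memLp_prodMap_diffeo {p : ℝ≥0∞} {Ω₁ Λ₁ : Set E₁} {Ω₂ Λ₂ : Set E₂}
    (hΩ₁ : IsOpen Ω₁) (hΩ₂ : IsOpen Ω₂) (hv₁ : volume Ω₁ ≠ ⊤) (hv₂ : volume Ω₂ ≠ ⊤)
    {g₁ : E₁ → E₁} {g₂ : E₂ → E₂}
    (h₁ : IsSmoothDiffeo g₁ Ω₁ Λ₁ ∧ MemLp g₁ p (volume.restrict Ω₁) ∧
      MemLp (fderiv ℝ g₁) p (volume.restrict Ω₁))
    (h₂ : IsSmoothDiffeo g₂ Ω₂ Λ₂ ∧ MemLp g₂ p (volume.restrict Ω₂) ∧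
      MemLp (fderiv ℝ g₂) p (volume.restrict Ω₂)) :
    IsSmoothDiffeo (Prod.map g₁ g₂) (Ω₁ ×ˢ Ω₂) (Λ₁ ×ˢ Λ₂) ∧
      MemLp (Prod.map g₁ g₂) p (volume.restrict (Ω₁ ×ˢ Ω₂)) ∧
      MemLp (fderiv ℝ (Prod.map g₁ g₂)) p (volume.restrict (Ω₁ ×ˢ Ω₂)) := by
  have hfin₁ := isFiniteMeasure_restrict_of_ne_top hv₁
  have hfin₂ := isFiniteMeasure_restrict_of_ne_top hv₂
  have hmeas : MeasurableSet (Ω₁ ×ˢ Ω₂) := (hΩ₁.prod hΩ₂).measurableSet
  obtain ⟨d₁, m₁, m₁'⟩ := h₁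
  obtain ⟨d₂, m₂, m₂'⟩ := h₂
  refine ⟨d₁.prodMap d₂, ?_, ?_⟩
  · rw [restrict_prod_eq, prodMap_eq_sum]
    exact memLp_sum (ContinuousLinearMap.inl ℝ E₁ E₂) (ContinuousLinearMap.inr ℝ E₁ E₂) m₁ m₂
  · have hae : (fun z : E₁ × E₂ => blockFst E₁ E₂ (fderiv ℝ g₁ z.1)
          + blockSnd E₁ E₂ (fderiv ℝ g₂ z.2))
        =ᵐ[(volume : Measure (E₁ × E₂)).restrict (Ω₁ ×ˢ Ω₂)]
        fderiv ℝ (Prod.map g₁ g₂) := by
      filter_upwards [ae_restrict_mem hmeas] with z hz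
      rw [fderiv_prodMap_of_mem hΩ₁ hΩ₂ d₁.1 d₂.1 hz, prodMap_eq_block]
    refine MemLp.ae_eq hae ?_
    rw [restrict_prod_eq]
    exact memLp_sum (blockFst E₁ E₂) (blockSnd E₁ E₂) m₁' m₂'

/-- The `L^p` distance between product maps is controlled by the distances of the factors. -/
theorem eLpNorm_prodMap_sub_le {p : ℝ≥0∞} (hp : 1 ≤ p) (hp' : p ≠ ⊤) {Ω₁ : Set E₁} {Ω₂ : Set E₂}
    {g₁ f₁ : E₁ → E₁} {g₂ f₂ : E₂ → E₂}
    (au : AEStronglyMeasurable (fun x => g₁ x - f₁ x) (volume.restrict Ω₁))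
    (aw : AEStronglyMeasurable (fun x => g₂ x - f₂ x) (volume.restrict Ω₂)) :
    eLpNorm (fun z : E₁ × E₂ => Prod.map g₁ g₂ z - Prod.map f₁ f₂ z) p
        (volume.restrict (Ω₁ ×ˢ Ω₂))
      ≤ ENNReal.ofReal ‖ContinuousLinearMap.inl ℝ E₁ E₂‖
          * (volume Ω₂ ^ (1 / p).toReal * eLpNorm (fun x => g₁ x - f₁ x) p (volume.restrict Ω₁))
        + ENNReal.ofReal ‖ContinuousLinearMap.inr ℝ E₁ E₂‖
          * (volume Ω₁ ^ (1 / p).toReal
            * eLpNorm (fun x => g₂ x - f₂ x) p (volume.restrict Ω₂)) := by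
  have e : (fun z : E₁ × E₂ => Prod.map g₁ g₂ z - Prod.map f₁ f₂ z)
      = fun z : E₁ × E₂ => ContinuousLinearMap.inl ℝ E₁ E₂ (g₁ z.1 - f₁ z.1)
        + ContinuousLinearMap.inr ℝ E₁ E₂ (g₂ z.2 - f₂ z.2) := by
    funext z
    ext <;> simp
  rw [e, restrict_prod_eq]
  have := eLpNorm_sum_le hp hp' (ContinuousLinearMap.inl ℝ E₁ E₂)
    (ContinuousLinearMap.inr ℝ E₁ E₂) au aw
  rw [Measure.restrict_apply_univ, Measure.restrict_apply_univ] at this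
  exact this

/-- The `L^p` distance between the derivative of a product of diffeomorphisms and a block
diagonal field is controlled by the distances of the factors. -/
theorem eLpNorm_fderiv_prodMap_sub_le {p : ℝ≥0∞} (hp : 1 ≤ p) (hp' : p ≠ ⊤)
    {Ω₁ : Set E₁} {Ω₂ : Set E₂} (hΩ₁ : IsOpen Ω₁) (hΩ₂ : IsOpen Ω₂)
    {g₁ : E₁ → E₁} {g₂ : E₂ → E₂} {G₁ : E₁ → E₁ →L[ℝ] E₁} {G₂ : E₂ → E₂ →L[ℝ] E₂}
    (c₁ : ContDiffOn ℝ ∞ g₁ Ω₁) (c₂ : ContDiffOn ℝ ∞ g₂ Ω₂)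
    (au : AEStronglyMeasurable (fun x => fderiv ℝ g₁ x - G₁ x) (volume.restrict Ω₁))
    (aw : AEStronglyMeasurable (fun x => fderiv ℝ g₂ x - G₂ x) (volume.restrict Ω₂)) :
    eLpNorm (fun z : E₁ × E₂ => fderiv ℝ (Prod.map g₁ g₂) z - (G₁ z.1).prodMap (G₂ z.2)) p
        (volume.restrict (Ω₁ ×ˢ Ω₂))
      ≤ ENNReal.ofReal ‖blockFst E₁ E₂‖
          * (volume Ω₂ ^ (1 / p).toReal
            * eLpNorm (fun x => fderiv ℝ g₁ x - G₁ x) p (volume.restrict Ω₁))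
        + ENNReal.ofReal ‖blockSnd E₁ E₂‖
          * (volume Ω₁ ^ (1 / p).toReal
            * eLpNorm (fun x => fderiv ℝ g₂ x - G₂ x) p (volume.restrict Ω₂)) := by
  have hmeas : MeasurableSet (Ω₁ ×ˢ Ω₂) := (hΩ₁.prod hΩ₂).measurableSet
  have hae : (fun z : E₁ × E₂ => fderiv ℝ (Prod.map g₁ g₂) z - (G₁ z.1).prodMap (G₂ z.2))
      =ᵐ[(volume : Measure (E₁ × E₂)).restrict (Ω₁ ×ˢ Ω₂)]
      (fun z : E₁ × E₂ => blockFst E₁ E₂ (fderiv ℝ g₁ z.1 - G₁ z.1)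
        + blockSnd E₁ E₂ (fderiv ℝ g₂ z.2 - G₂ z.2)) := by
    filter_upwards [ae_restrict_mem hmeas] with z hz
    rw [fderiv_prodMap_of_mem hΩ₁ hΩ₂ c₁ c₂ hz, prodMap_eq_block, prodMap_eq_block,
      map_sub, map_sub]
    abel
  rw [eLpNorm_congr_ae hae, restrict_prod_eq]
  have := eLpNorm_sum_le hp hp' (blockFst E₁ E₂) (blockSnd E₁ E₂) au aw
  rw [Measure.restrict_apply_univ, Measure.restrict_apply_univ] at this
  exact this

theorem tendsto_zero_of_add_left {x y : ℕ → ℝ≥0∞}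
    (h : Tendsto (fun j => x j + y j) atTop (𝓝 0)) : Tendsto x atTop (𝓝 0) :=
  tendsto_of_tendsto_of_tendsto_of_le_of_le tendsto_const_nhds h (fun _ => zero_le)
    (fun _ => le_self_add)

theorem tendsto_zero_of_add_right {x y : ℕ → ℝ≥0∞}
    (h : Tendsto (fun j => x j + y j) atTop (𝓝 0)) : Tendsto y atTop (𝓝 0) :=
  tendsto_of_tendsto_of_tendsto_of_le_of_le tendsto_const_nhds h (fun _ => zero_le)
    (fun _ => le_add_self)

theorem tendsto_bound_zero {A₁ A₂ B₁ B₂ c₁ c₂ : ℝ≥0∞} (hA₁ : A₁ ≠ ⊤) (hA₂ : A₂ ≠ ⊤)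
    (hB₁ : B₁ ≠ ⊤) (hB₂ : B₂ ≠ ⊤) (hc₁ : c₁ ≠ ⊤) (hc₂ : c₂ ≠ ⊤) {x x' y y' : ℕ → ℝ≥0∞}
    (hx : Tendsto x atTop (𝓝 0)) (hx' : Tendsto x' atTop (𝓝 0))
    (hy : Tendsto y atTop (𝓝 0)) (hy' : Tendsto y' atTop (𝓝 0)) :
    Tendsto (fun j => (A₁ * (c₁ * x j) + A₂ * (c₂ * y j))
      + (B₁ * (c₁ * x' j) + B₂ * (c₂ * y' j))) atTop (𝓝 0) := by
  have t1 := ENNReal.Tendsto.const_mul (a := A₁)
    (ENNReal.Tendsto.const_mul (a := c₁) hx (Or.inr hc₁)) (Or.inr hA₁)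
  have t2 := ENNReal.Tendsto.const_mul (a := A₂)
    (ENNReal.Tendsto.const_mul (a := c₂) hy (Or.inr hc₂)) (Or.inr hA₂)
  have t3 := ENNReal.Tendsto.const_mul (a := B₁)
    (ENNReal.Tendsto.const_mul (a := c₁) hx' (Or.inr hc₁)) (Or.inr hB₁)
  have t4 := ENNReal.Tendsto.const_mul (a := B₂)
    (ENNReal.Tendsto.const_mul (a := c₂) hy' (Or.inr hc₂)) (Or.inr hB₂)
  have t := (t1.add t2).add (t3.add t4)
  simpa using t

/-- **Product theorem.** If `f₁` is diffeomorphically approximable in `W^{1,p}` from `Ω₁` onto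
`Λ₁` and `f₂` from `Ω₂` onto `Λ₂`, where `Ω₁`, `Ω₂` are open sets of finite measure and
`1 ≤ p < ∞`, then `(x, y) ↦ (f₁ x, f₂ y)` is diffeomorphically approximable in `W^{1,p}` from
`Ω₁ × Ω₂` onto `Λ₁ × Λ₂`. -/
theorem IsDiffeoApproximable.prodMap {p : ℝ≥0∞} (hp : 1 ≤ p) (hp' : p ≠ ⊤)
    {Ω₁ Λ₁ : Set E₁} {Ω₂ Λ₂ : Set E₂} (hΩ₁ : IsOpen Ω₁) (hΩ₂ : IsOpen Ω₂)
    (hv₁ : volume Ω₁ ≠ ⊤) (hv₂ : volume Ω₂ ≠ ⊤) {f₁ : E₁ → E₁} {f₂ : E₂ → E₂}
    (h₁ : IsDiffeoApproximable p Ω₁ Λ₁ f₁) (h₂ : IsDiffeoApproximable p Ω₂ Λ₂ f₂) :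
    IsDiffeoApproximable p (Ω₁ ×ˢ Ω₂) (Λ₁ ×ˢ Λ₂) (Prod.map f₁ f₂) := by
  obtain ⟨G₁, hS₁, F₁, hF₁, hlim₁⟩ := h₁
  obtain ⟨G₂, hS₂, F₂, hF₂, hlim₂⟩ := h₂
  refine ⟨fun z => (G₁ z.1).prodMap (G₂ z.2), hS₁.prodMap hv₁ hv₂ hS₂,
    fun j => Prod.map (F₁ j) (F₂ j),
    fun j => memLp_prodMap_diffeo hΩ₁ hΩ₂ hv₁ hv₂ (hF₁ j) (hF₂ j), ?_⟩
  have hc₁t : volume Ω₂ ^ (1 / p).toReal ≠ ⊤ :=
    ENNReal.rpow_ne_top_of_nonneg ENNReal.toReal_nonneg hv₂
  have hc₂t : volume Ω₁ ^ (1 / p).toReal ≠ ⊤ :=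
    ENNReal.rpow_ne_top_of_nonneg ENNReal.toReal_nonneg hv₁
  have hbound := tendsto_bound_zero
    (A₁ := ENNReal.ofReal ‖ContinuousLinearMap.inl ℝ E₁ E₂‖)
    (A₂ := ENNReal.ofReal ‖ContinuousLinearMap.inr ℝ E₁ E₂‖)
    (B₁ := ENNReal.ofReal ‖blockFst E₁ E₂‖) (B₂ := ENNReal.ofReal ‖blockSnd E₁ E₂‖)
    ENNReal.ofReal_ne_top ENNReal.ofReal_ne_top ENNReal.ofReal_ne_top ENNReal.ofReal_ne_top
    hc₁t hc₂t (tendsto_zero_of_add_left hlim₁) (tendsto_zero_of_add_right hlim₁)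
    (tendsto_zero_of_add_left hlim₂) (tendsto_zero_of_add_right hlim₂)
  refine tendsto_of_tendsto_of_tendsto_of_le_of_le tendsto_const_nhds hbound
    (fun _ => zero_le) (fun j => ?_)
  obtain ⟨d₁, m₁, m₁'⟩ := hF₁ j
  obtain ⟨d₂, m₂, m₂'⟩ := hF₂ j
  have au : AEStronglyMeasurable (fun x => F₁ j x - f₁ x) (volume.restrict Ω₁) :=
    m₁.aestronglyMeasurable.sub hS₁.2.1.aestronglyMeasurable
  have aw : AEStronglyMeasurable (fun x => F₂ j x - f₂ x) (volume.restrict Ω₂) :=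
    m₂.aestronglyMeasurable.sub hS₂.2.1.aestronglyMeasurable
  have au' : AEStronglyMeasurable (fun x => fderiv ℝ (F₁ j) x - G₁ x) (volume.restrict Ω₁) :=
    m₁'.aestronglyMeasurable.sub hS₁.2.2.aestronglyMeasurable
  have aw' : AEStronglyMeasurable (fun x => fderiv ℝ (F₂ j) x - G₂ x) (volume.restrict Ω₂) :=
    m₂'.aestronglyMeasurable.sub hS₂.2.2.aestronglyMeasurable
  exact add_le_add (eLpNorm_prodMap_sub_le hp hp' au aw)
    (eLpNorm_fderiv_prodMap_sub_le hp hp' hΩ₁ hΩ₂ d₁.1 d₂.1 au' aw')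

end Vale.Agent.Lib.P073

end -- part ProductE
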