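import Vale.Agent.Lib.P073.OneDim
import Vale.Agent.Lib.P073.Product

/-!
# P073: merged module FibreTools (parts: Young, Dilate, SlabExt, Shear, UnifMoll, FibreAsm)
-/

section -- part Young

namespace Vale.Agent.Lib.P073
open MeasureTheory Filter Topology Set
open scoped ContDiff ENNReal

/-- A continuous compactly supported nonnegative function of integral one has lower integral
one. -/
theorem lintegral_ofReal_mollifier_eq_one {E : Type*} [NormedAddCommGroup E]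
    [MeasurableSpace E] [BorelSpace E] {μ : Measure E} [IsFiniteMeasureOnCompacts μ]
    {ρ : E → ℝ} (hρc : Continuous ρ)
    (hρs : HasCompactSupport ρ) (hρ0 : ∀ x, 0 ≤ ρ x) (hρ1 : ∫ x, ρ x ∂μ = 1) :
    ∫⁻ x, ENNReal.ofReal (ρ x) ∂μ = 1 := by
  have hint : Integrable ρ μ := hρc.integrable_of_hasCompactSupport hρs
  rw [← ofReal_integral_eq_lintegral_ofReal hint (Eventually.of_forall hρ0), hρ1,
    ENNReal.ofReal_one]

/-- The mollifier inequality for a strongly measurable function. -/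
theorem eLpNorm_mollify_le_of_stronglyMeasurable {E F : Type*} [NormedAddCommGroup E]
    [NormedSpace ℝ E]
    [FiniteDimensional ℝ E] [MeasurableSpace E] [BorelSpace E] {μ : Measure E} [μ.IsAddHaarMeasure]
    [NormedAddCommGroup F] [NormedSpace ℝ F]
    {ρ : E → ℝ} (hρc : Continuous ρ) (hρs : HasCompactSupport ρ) (hρ0 : ∀ x, 0 ≤ ρ x)
    (hρ1 : ∫ x, ρ x ∂μ = 1) {p : ℝ≥0∞} (hp : 1 ≤ p) (hp' : p ≠ ⊤) {h : E → F}
    (hh : StronglyMeasurable h) :
    eLpNorm (fun x => ∫ y, ρ (x - y) • h y ∂μ) p μ ≤ eLpNorm h p μ := by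
  have hp0 : p ≠ 0 := (lt_of_lt_of_le zero_lt_one hp).ne'
  have hq1 : 1 ≤ p.toReal := by
    have := ENNReal.toReal_mono hp' hp
    simpa using this
  have hq0 : 0 < p.toReal := lt_of_lt_of_le zero_lt_one hq1
  have hone := lintegral_ofReal_mollifier_eq_one (μ := μ) hρc hρs hρ0 hρ1
  have hρm : Measurable fun y : E => ENNReal.ofReal (ρ y) :=
    ENNReal.measurable_ofReal.comp hρc.measurable
  have hhm : Measurable fun y : E => ‖h y‖ₑ := hh.enorm
  have hhpm : Measurable fun y : E => ‖h y‖ₑ ^ p.toReal := hhm.pow_const _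
  -- pointwise Jensen bound
  have key : ∀ x : E, ‖∫ y, ρ (x - y) • h y ∂μ‖ₑ ^ p.toReal ≤
      ∫⁻ y, ENNReal.ofReal (ρ (x - y)) * ‖h y‖ₑ ^ p.toReal ∂μ := by
    intro x
    have hdm : Measurable fun y : E => ENNReal.ofReal (ρ (x - y)) :=
      hρm.comp (measurable_const.sub measurable_id)
    set ν : Measure E := μ.withDensity (fun y => ENNReal.ofReal (ρ (x - y))) with hν
    have hprob : IsProbabilityMeasure ν := by
      constructor
      rw [hν, withDensity_apply _ MeasurableSet.univ, Measure.restrict_univ,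
        lintegral_sub_left_eq_self (fun y => ENNReal.ofReal (ρ y)) x, hone]
    have h1 : ‖∫ y, ρ (x - y) • h y ∂μ‖ₑ ≤ ∫⁻ y, ‖h y‖ₑ ∂ν := by
      refine (enorm_integral_le_lintegral_enorm _).trans (le_of_eq ?_)
      rw [hν, lintegral_withDensity_eq_lintegral_mul₀ hdm.aemeasurable hhm.aemeasurable]
      refine lintegral_congr fun y => ?_
      simp only [Pi.mul_apply]
      rw [enorm_smul, Real.enorm_eq_ofReal (hρ0 _)]
    have h2 : ∫⁻ y, ‖h y‖ₑ ∂ν ≤ (∫⁻ y, ‖h y‖ₑ ^ p.toReal ∂ν) ^ (1 / p.toReal) := by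
      have := eLpNorm_le_eLpNorm_of_exponent_le (μ := ν) hp hh.aestronglyMeasurable
      rwa [eLpNorm_one_eq_lintegral_enorm, eLpNorm_eq_lintegral_rpow_enorm_toReal hp0 hp'] at this
    have h3 : ‖∫ y, ρ (x - y) • h y ∂μ‖ₑ ^ p.toReal ≤ ∫⁻ y, ‖h y‖ₑ ^ p.toReal ∂ν := by
      calc ‖∫ y, ρ (x - y) • h y ∂μ‖ₑ ^ p.toReal
          ≤ ((∫⁻ y, ‖h y‖ₑ ^ p.toReal ∂ν) ^ (1 / p.toReal)) ^ p.toReal :=
            ENNReal.rpow_le_rpow (h1.trans h2) hq0.le
        _ = ∫⁻ y, ‖h y‖ₑ ^ p.toReal ∂ν := by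
            rw [← ENNReal.rpow_mul, one_div, inv_mul_cancel₀ hq0.ne', ENNReal.rpow_one]
    refine h3.trans (le_of_eq ?_)
    rw [hν, lintegral_withDensity_eq_lintegral_mul₀ hdm.aemeasurable hhpm.aemeasurable]
    rfl
  rw [eLpNorm_eq_lintegral_rpow_enorm_toReal hp0 hp', eLpNorm_eq_lintegral_rpow_enorm_toReal hp0 hp']
  refine ENNReal.rpow_le_rpow ?_ (by positivity)
  calc ∫⁻ x, ‖∫ y, ρ (x - y) • h y ∂μ‖ₑ ^ p.toReal ∂μ
      ≤ ∫⁻ x, ∫⁻ y, ENNReal.ofReal (ρ (x - y)) * ‖h y‖ₑ ^ p.toReal ∂μ ∂μ :=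
        lintegral_mono key
    _ = ∫⁻ y, ∫⁻ x, ENNReal.ofReal (ρ (x - y)) * ‖h y‖ₑ ^ p.toReal ∂μ ∂μ := by
        refine lintegral_lintegral_swap ?_
        have hm : Measurable fun z : E × E => ENNReal.ofReal (ρ (z.1 - z.2)) * ‖h z.2‖ₑ ^ p.toReal :=
          (hρm.comp (measurable_fst.sub measurable_snd)).mul (hhpm.comp measurable_snd)
        exact hm.aemeasurable
    _ = ∫⁻ y, ‖h y‖ₑ ^ p.toReal ∂μ := by
        refine lintegral_congr fun y => ?_
        have hmy : Measurable fun x : E => ENNReal.ofReal (ρ (x - y)) :=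
          hρm.comp (measurable_sub_const y)
        have e1 : ∫⁻ x, ENNReal.ofReal (ρ (x - y)) * ‖h y‖ₑ ^ p.toReal ∂μ =
            (∫⁻ x, ENNReal.ofReal (ρ (x - y)) ∂μ) * ‖h y‖ₑ ^ p.toReal :=
          lintegral_mul_const _ hmy
        rw [e1, lintegral_sub_right_eq_self (fun x => ENNReal.ofReal (ρ x)) y, hone, one_mul]

theorem eLpNorm_mollify_le {E F : Type*} [NormedAddCommGroup E] [NormedSpace ℝ E]
    [FiniteDimensional ℝ E] [MeasurableSpace E] [BorelSpace E] {μ : Measure E} [μ.IsAddHaarMeasure]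
    [NormedAddCommGroup F] [NormedSpace ℝ F]
    {ρ : E → ℝ} (hρc : Continuous ρ) (hρs : HasCompactSupport ρ) (hρ0 : ∀ x, 0 ≤ ρ x)
    (hρ1 : ∫ x, ρ x ∂μ = 1) {p : ℝ≥0∞} (hp : 1 ≤ p) (hp' : p ≠ ⊤) {h : E → F}
    (hh : AEStronglyMeasurable h μ) :
    eLpNorm (fun x => ∫ y, ρ (x - y) • h y ∂μ) p μ ≤ eLpNorm h p μ := by
  have hae : h =ᵐ[μ] hh.mk h := hh.ae_eq_mk
  have e1 : (fun x => ∫ y, ρ (x - y) • h y ∂μ) = fun x => ∫ y, ρ (x - y) • hh.mk h y ∂μ := by
    funext x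
    refine integral_congr_ae ?_
    filter_upwards [hae] with y hy
    rw [hy]
  rw [e1, eLpNorm_congr_ae hae]
  exact eLpNorm_mollify_le_of_stronglyMeasurable hρc hρs hρ0 hρ1 hp hp' hh.stronglyMeasurable_mk

end Vale.Agent.Lib.P073

end -- part Young

section -- part Dilate

namespace Vale.Agent.Lib.P073
open MeasureTheory Filter Topology Set
open scoped ContDiff ENNReal

theorem map_dilate_about {W : Type*} [NormedAddCommGroup W] [NormedSpace ℝ W]
    [FiniteDimensional ℝ W] [MeasurableSpace W] [BorelSpace W] (μ : Measure W)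
    [μ.IsAddHaarMeasure] (w₀ : W) {r : ℝ} (hr : r ≠ 0) :
    Measure.map (fun w : W => w₀ + r • (w - w₀)) μ =
      ENNReal.ofReal (|(r ^ Module.finrank ℝ W)⁻¹|) • μ := by
  have h1 : Measurable fun w : W => w - w₀ := measurable_sub_const w₀
  have h2 : Measurable fun w : W => r • w := measurable_const_smul r
  have h3 : Measurable fun w : W => w₀ + w := measurable_const_add w₀
  have e : (fun w : W => w₀ + r • (w - w₀)) =
      (fun w => w₀ + w) ∘ ((fun w => r • w) ∘ (fun w => w - w₀)) := rfl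
  rw [e, ← Measure.map_map h3 (h2.comp h1), ← Measure.map_map h2 h1, map_sub_right_eq_self,
    Measure.map_addHaar_smul μ hr, Measure.map_smul, map_add_left_eq_self]

theorem eLpNorm_comp_dilate_le {W F : Type*} [NormedAddCommGroup W] [NormedSpace ℝ W]
    [FiniteDimensional ℝ W] [MeasureSpace W] [BorelSpace W]
    [(volume : Measure W).IsAddHaarMeasure] [NormedAddCommGroup F]
    (w₀ : W) {t : ℝ} (ht0 : 0 ≤ t) (ht1 : t ≤ 1 / 2) {p : ℝ≥0∞} (hp : 1 ≤ p) (hp' : p ≠ ⊤)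
    {u : W × ℝ → F} (hu : AEStronglyMeasurable u volume) :
    eLpNorm (fun x : W × ℝ => u (w₀ + (1 - t) • (x.1 - w₀), 1 / 2 + (1 + 4 * t) * (x.2 - 1 / 2)))
        p volume
      ≤ ENNReal.ofReal (2 ^ Module.finrank ℝ W) * eLpNorm u p volume := by
  set d := Module.finrank ℝ W with hd
  have hr1 : (1 - t) ≠ 0 := by linarith
  have hr2 : (1 + 4 * t) ≠ 0 := by linarith
  set φ₁ : W → W := fun w => w₀ + (1 - t) • (w - w₀) with hφ₁
  set φ₂ : ℝ → ℝ := fun z => 1 / 2 + (1 + 4 * t) • (z - 1 / 2) with hφ₂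
  have hm1 : Measurable φ₁ :=
    (measurable_const_add w₀).comp ((measurable_const_smul (1 - t)).comp (measurable_sub_const w₀))
  have hm2 : Measurable φ₂ :=
    (measurable_const_add (1 / 2 : ℝ)).comp
      ((measurable_const_smul (1 + 4 * t)).comp (measurable_sub_const (1 / 2 : ℝ)))
  set c₁ : ℝ≥0∞ := ENNReal.ofReal (|((1 - t) ^ d)⁻¹|) with hc₁
  set c₂ : ℝ≥0∞ := ENNReal.ofReal (|((1 + 4 * t) ^ Module.finrank ℝ ℝ)⁻¹|) with hc₂
  have e1 : Measure.map φ₁ (volume : Measure W) = c₁ • volume := map_dilate_about volume w₀ hr1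
  have e2 : Measure.map φ₂ (volume : Measure ℝ) = c₂ • volume :=
    map_dilate_about volume (1 / 2 : ℝ) hr2
  have emap : Measure.map (Prod.map φ₁ φ₂) (volume : Measure (W × ℝ)) =
      (c₁ * c₂) • (volume : Measure (W × ℝ)) := by
    rw [Measure.volume_eq_prod, ← Measure.map_prod_map _ _ hm1 hm2, e1, e2,
      Measure.prod_smul_left, Measure.prod_smul_right, smul_smul]
  have hfun : (fun x : W × ℝ =>
      u (w₀ + (1 - t) • (x.1 - w₀), 1 / 2 + (1 + 4 * t) * (x.2 - 1 / 2))) =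
      u ∘ (Prod.map φ₁ φ₂) := rfl
  have hu' : AEStronglyMeasurable u (Measure.map (Prod.map φ₁ φ₂) (volume : Measure (W × ℝ))) := by
    rw [emap]
    exact hu.smul_measure _
  rw [hfun, ← eLpNorm_map_measure hu' (hm1.prodMap hm2).aemeasurable, emap,
    eLpNorm_smul_measure_of_ne_top hp', smul_eq_mul]
  gcongr
  -- bound the constant
  have hc1 : c₁ ≤ ENNReal.ofReal (2 ^ d) := by
    rw [hc₁]
    apply ENNReal.ofReal_le_ofReal
    have h1t : (1 / 2 : ℝ) ≤ 1 - t := by linarith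
    have hpos : (0 : ℝ) < (1 - t) ^ d := by positivity
    rw [abs_of_pos (inv_pos.mpr hpos)]
    have : ((1 / 2 : ℝ)) ^ d ≤ (1 - t) ^ d := pow_le_pow_left₀ (by norm_num) h1t d
    calc ((1 - t) ^ d)⁻¹ ≤ (((1 / 2 : ℝ)) ^ d)⁻¹ := inv_anti₀ (by positivity) this
      _ = 2 ^ d := by rw [← inv_pow]; norm_num
  have hc2 : c₂ ≤ 1 := by
    rw [hc₂, Module.finrank_self, pow_one]
    rw [← ENNReal.ofReal_one]
    apply ENNReal.ofReal_le_ofReal
    have hpos : (0 : ℝ) < 1 + 4 * t := by linarith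
    rw [abs_of_pos (inv_pos.mpr hpos)]
    exact inv_le_one_of_one_le₀ (by linarith)
  have hc : c₁ * c₂ ≤ ENNReal.ofReal (2 ^ d) := by
    calc c₁ * c₂ ≤ ENNReal.ofReal (2 ^ d) * 1 := mul_le_mul' hc1 hc2
      _ = ENNReal.ofReal (2 ^ d) := mul_one _
  have hone : (1 : ℝ≥0∞) ≤ ENNReal.ofReal (2 ^ d) := by
    rw [← ENNReal.ofReal_one]
    apply ENNReal.ofReal_le_ofReal
    exact one_le_pow₀ (by norm_num)
  have hexp0 : 0 ≤ (1 / p).toReal := ENNReal.toReal_nonneg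
  have hexp1 : (1 / p).toReal ≤ 1 := by
    have : (1 / p) ≤ 1 := by
      rw [ENNReal.div_le_iff (by positivity) hp']
      simpa using hp
    have h := ENNReal.toReal_mono ENNReal.one_ne_top this
    simpa using h
  calc (c₁ * c₂) ^ (1 / p).toReal ≤ (ENNReal.ofReal (2 ^ d)) ^ (1 / p).toReal :=
        ENNReal.rpow_le_rpow hc hexp0
    _ ≤ (ENNReal.ofReal (2 ^ d)) ^ (1 : ℝ) := ENNReal.rpow_le_rpow_of_exponent_le hone hexp1
    _ = ENNReal.ofReal (2 ^ d) := ENNReal.rpow_one _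

end Vale.Agent.Lib.P073

end -- part Dilate

section -- part SlabExt

namespace Vale.Agent.Lib.P073
open MeasureTheory Filter Topology Set
open scoped ContDiff ENNReal

/-- a global bound for the derivative of the smooth transition function -/
theorem exists_bound_deriv_smoothTransition :
    ∃ C : ℝ, 0 ≤ C ∧ ∀ x : ℝ, |deriv Real.smoothTransition x| ≤ C := by
  have hc : Continuous (deriv Real.smoothTransition) :=
    (Real.smoothTransition.contDiff (n := 1)).continuous_deriv le_rfl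
  obtain ⟨C, hC⟩ := isCompact_Icc.exists_bound_of_continuousOn (s := Icc (0 : ℝ) 1)
    hc.continuousOn
  have hC0 : 0 ≤ C := (norm_nonneg _).trans (hC 0 (by simp))
  refine ⟨C, hC0, fun x => ?_⟩
  by_cases h0 : x < 0
  · have h : Real.smoothTransition =ᶠ[𝓝 x] fun _ => (0 : ℝ) := by
      filter_upwards [Iio_mem_nhds h0] with y hy
      exact Real.smoothTransition.zero_of_nonpos (le_of_lt hy)
    rw [h.deriv_eq]
    simpa using hC0
  by_cases h1 : 1 < x
  · have h : Real.smoothTransition =ᶠ[𝓝 x] fun _ => (1 : ℝ) := by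
      filter_upwards [Ioi_mem_nhds h1] with y hy
      exact Real.smoothTransition.one_of_one_le (le_of_lt hy)
    rw [h.deriv_eq]
    simpa using hC0
  · have := hC x ⟨not_lt.mp h0, not_lt.mp h1⟩
    simpa [Real.norm_eq_abs] using this

/-- the cutoff in the vertical variable: zero near the two faces, one in the middle -/
noncomputable def slabCut (n z : ℝ) : ℝ :=
  Real.smoothTransition (n * z - 1) + Real.smoothTransition (n * (1 - z) - 1) - 1

/-- the derivative of the cutoff -/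
noncomputable def slabCutD (n z : ℝ) : ℝ :=
  n * deriv Real.smoothTransition (n * z - 1)
    - n * deriv Real.smoothTransition (n * (1 - z) - 1)

theorem slabCut_contDiff (n : ℝ) : ContDiff ℝ ∞ (slabCut n) := by
  unfold slabCut
  have hS : ContDiff ℝ ∞ Real.smoothTransition := Real.smoothTransition.contDiff (n := ⊤)
  have h1 : ContDiff ℝ ∞ (fun z : ℝ => n * z - 1) := by fun_prop
  have h2 : ContDiff ℝ ∞ (fun z : ℝ => n * (1 - z) - 1) := by fun_prop
  exact ((hS.comp h1).add (hS.comp h2)).sub contDiff_const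

theorem slabCut_hasDerivAt (n z : ℝ) : HasDerivAt (slabCut n) (slabCutD n z) z := by
  have hS : ∀ u : ℝ, HasDerivAt Real.smoothTransition (deriv Real.smoothTransition u) u :=
    fun u => ((Real.smoothTransition.contDiff (n := 1)).differentiable (by norm_num) u).hasDerivAt
  have h1 : HasDerivAt (fun z : ℝ => n * z - 1) n z := by
    simpa using ((hasDerivAt_id z).const_mul n).sub_const 1
  have h2 : HasDerivAt (fun z : ℝ => n * (1 - z) - 1) (-n) z := by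
    simpa using (((hasDerivAt_id z).const_sub 1).const_mul n).sub_const 1
  have h3 := (hS (n * z - 1)).comp z h1
  have h4 := (hS (n * (1 - z) - 1)).comp z h2
  have h5 := (h3.add h4).sub_const 1
  have h6 : slabCutD n z = deriv Real.smoothTransition (n * z - 1) * n
      + deriv Real.smoothTransition (n * (1 - z) - 1) * -n := by
    unfold slabCutD; ring
  rw [h6]
  exact h5

theorem slabCut_abs_le (n z : ℝ) : |slabCut n z| ≤ 1 := by
  unfold slabCut
  have h1 := Real.smoothTransition.nonneg (n * z - 1)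
  have h2 := Real.smoothTransition.le_one (n * z - 1)
  have h3 := Real.smoothTransition.nonneg (n * (1 - z) - 1)
  have h4 := Real.smoothTransition.le_one (n * (1 - z) - 1)
  rw [abs_le]; constructor <;> linarith

theorem slabCut_eq_zero {n z : ℝ} (hn : 3 ≤ n) (hz : z ≤ 1 / n ∨ 1 - 1 / n ≤ z) :
    slabCut n z = 0 := by
  have hn0 : 0 < n := by linarith
  have hn1 : n * (1 / n) = 1 := by field_simp
  unfold slabCut
  rcases hz with hz | hz
  · have h1 : n * z - 1 ≤ 0 := by nlinarith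
    have h2 : 1 ≤ n * (1 - z) - 1 := by nlinarith
    rw [Real.smoothTransition.zero_of_nonpos h1, Real.smoothTransition.one_of_one_le h2]
    ring
  · have h1 : n * (1 - z) - 1 ≤ 0 := by nlinarith
    have h2 : 1 ≤ n * z - 1 := by nlinarith
    rw [Real.smoothTransition.zero_of_nonpos h1, Real.smoothTransition.one_of_one_le h2]
    ring

theorem slabCut_eq_one {n z : ℝ} (hn : 0 < n) (hz1 : 2 / n ≤ z) (hz2 : z ≤ 1 - 2 / n) :
    slabCut n z = 1 := by
  have hn1 : n * (2 / n) = 2 := by field_simp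
  unfold slabCut
  have h1 : 1 ≤ n * z - 1 := by nlinarith
  have h2 : 1 ≤ n * (1 - z) - 1 := by nlinarith
  rw [Real.smoothTransition.one_of_one_le h1, Real.smoothTransition.one_of_one_le h2]
  ring

theorem slabCutD_eq_zero {n z : ℝ} (hn : 0 < n) (hz1 : 2 / n < z) (hz2 : z < 1 - 2 / n) :
    slabCutD n z = 0 := by
  have h : slabCut n =ᶠ[𝓝 z] fun _ => (1 : ℝ) := by
    filter_upwards [Ioo_mem_nhds hz1 hz2] with y hy
    exact slabCut_eq_one hn hy.1.le hy.2.le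
  have h1 : HasDerivAt (slabCut n) 0 z := (hasDerivAt_const z (1 : ℝ)).congr_of_eventuallyEq h
  exact (slabCut_hasDerivAt n z).unique h1

theorem slabCutD_abs_le {C : ℝ} (hC : ∀ x : ℝ, |deriv Real.smoothTransition x| ≤ C) {n : ℝ}
    (hn : 0 ≤ n) (z : ℝ) : |slabCutD n z| ≤ 2 * n * C := by
  unfold slabCutD
  have h1 := hC (n * z - 1)
  have h2 := hC (n * (1 - z) - 1)
  calc |n * deriv Real.smoothTransition (n * z - 1)
        - n * deriv Real.smoothTransition (n * (1 - z) - 1)|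
      ≤ |n * deriv Real.smoothTransition (n * z - 1)|
        + |n * deriv Real.smoothTransition (n * (1 - z) - 1)| := abs_sub _ _
    _ = n * |deriv Real.smoothTransition (n * z - 1)|
        + n * |deriv Real.smoothTransition (n * (1 - z) - 1)| := by
        rw [abs_mul, abs_mul, abs_of_nonneg hn]
    _ ≤ n * C + n * C := by gcongr
    _ = 2 * n * C := by ring

theorem slabCutD_continuous (n : ℝ) : Continuous (slabCutD n) := by
  have hc : Continuous (deriv Real.smoothTransition) :=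
    (Real.smoothTransition.contDiff (n := 1)).continuous_deriv le_rfl
  unfold slabCutD
  have h1 : Continuous (fun z : ℝ => deriv Real.smoothTransition (n * z - 1)) :=
    hc.comp (by fun_prop)
  have h2 : Continuous (fun z : ℝ => deriv Real.smoothTransition (n * (1 - z) - 1)) :=
    hc.comp (by fun_prop)
  exact (continuous_const.mul h1).sub (continuous_const.mul h2)

theorem eventually_slabCut_eq_one {z : ℝ} (hz : z ∈ Ioo (0 : ℝ) 1) :
    ∀ᶠ m : ℕ in atTop, slabCut ((m : ℝ) + 4) z = 1 := by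
  set ε : ℝ := min z (1 - z) with hε
  have hε0 : 0 < ε := lt_min hz.1 (by linarith [hz.2])
  filter_upwards [eventually_ge_atTop (Nat.ceil (2 / ε))] with m hm
  have h1 : 2 / ε ≤ (m : ℝ) := (Nat.le_ceil _).trans (by exact_mod_cast hm)
  have h2 : 2 ≤ (m : ℝ) * ε := (div_le_iff₀ hε0).mp h1
  have hn : (0 : ℝ) < (m : ℝ) + 4 := by positivity
  have h3 : 2 / ((m : ℝ) + 4) ≤ ε := by
    rw [div_le_iff₀ hn]; nlinarith
  have h4 : ε ≤ z := min_le_left _ _
  have h5 : ε ≤ 1 - z := min_le_right _ _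
  exact slabCut_eq_one hn (h3.trans h4) (by linarith)

theorem layer_integral_le {n : ℝ} (hn : 4 ≤ n) :
    ∫ z in Ioo (0 : ℝ) 1, (Ioc (0 : ℝ) (2 / n) ∪ Ico (1 - 2 / n) 1).indicator (1 : ℝ → ℝ) z
      ≤ 4 / n := by
  have hn0 : 0 < n := by linarith
  have h2n : 0 ≤ 2 / n := by positivity
  have hLm : MeasurableSet (Ioc (0 : ℝ) (2 / n) ∪ Ico (1 - 2 / n) 1) :=
    measurableSet_Ioc.union measurableSet_Ico
  rw [setIntegral_indicator hLm]
  have h1 : ∫ z in Ioo (0 : ℝ) 1 ∩ (Ioc (0 : ℝ) (2 / n) ∪ Ico (1 - 2 / n) 1), (1 : ℝ → ℝ) z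
      = volume.real (Ioo (0 : ℝ) 1 ∩ (Ioc (0 : ℝ) (2 / n) ∪ Ico (1 - 2 / n) 1)) := by
    simp
  rw [h1]
  have hfin : volume (Ioc (0 : ℝ) (2 / n) ∪ Ico (1 - 2 / n) 1) ≠ ⊤ := by
    refine ne_of_lt (lt_of_le_of_lt (measure_union_le _ _) ?_)
    simp
  calc volume.real (Ioo (0 : ℝ) 1 ∩ (Ioc (0 : ℝ) (2 / n) ∪ Ico (1 - 2 / n) 1))
      ≤ volume.real (Ioc (0 : ℝ) (2 / n) ∪ Ico (1 - 2 / n) 1) :=
        measureReal_mono inter_subset_right hfin
    _ ≤ volume.real (Ioc (0 : ℝ) (2 / n)) + volume.real (Ico (1 - 2 / n) 1) :=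
        measureReal_union_le _ _
    _ = 4 / n := by
        rw [Real.volume_real_Ioc_of_le h2n, Real.volume_real_Ico_of_le (by linarith)]
        ring

section core

variable {W : Type*} [NormedAddCommGroup W] [NormedSpace ℝ W]
    [FiniteDimensional ℝ W] [MeasureSpace W] [BorelSpace W]
    [(volume : Measure W).IsAddHaarMeasure]

omit [FiniteDimensional ℝ W] [MeasureSpace W] [BorelSpace W]
  [(volume : Measure W).IsAddHaarMeasure] in
/-- derivative of a test function multiplied by the vertical cutoff -/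
theorem fderiv_mul_slabCut {φ : W × ℝ → ℝ} (hφ : ContDiff ℝ ∞ φ) (n : ℝ) (x v : W × ℝ) :
    fderiv ℝ (fun y : W × ℝ => φ y * slabCut n y.2) x v
      = φ x * (slabCutD n x.2 * v.2) + slabCut n x.2 * fderiv ℝ φ x v := by
  have hθ : HasFDerivAt (fun y : W × ℝ => slabCut n y.2)
      (slabCutD n x.2 • ContinuousLinearMap.snd ℝ W ℝ) x :=
    (slabCut_hasDerivAt n x.2).comp_hasFDerivAt x hasFDerivAt_snd
  have hφd : HasFDerivAt φ (fderiv ℝ φ x) x :=
    (hφ.differentiable (by simp) x).hasFDerivAt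
  have h : fderiv ℝ (fun y : W × ℝ => φ y * slabCut n y.2) x
      = φ x • slabCutD n x.2 • ContinuousLinearMap.snd ℝ W ℝ + slabCut n x.2 • fderiv ℝ φ x :=
    (hφd.mul hθ).fderiv
  rw [h]
  simp

omit [NormedSpace ℝ W] [FiniteDimensional ℝ W] [MeasureSpace W] [BorelSpace W]
  [(volume : Measure W).IsAddHaarMeasure] in
/-- the cut-off test function is again a test function supported in the open slab -/
theorem tsupport_mul_slabCut_subset {D : Set W} {φ : W × ℝ → ℝ}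
    (hts : tsupport φ ⊆ D ×ˢ (univ : Set ℝ)) {n : ℝ} (hn : 3 ≤ n) :
    tsupport (fun y : W × ℝ => φ y * slabCut n y.2) ⊆ D ×ˢ Ioo (0 : ℝ) 1 := by
  have hn0 : 0 < n := by linarith
  have h1n : 0 < 1 / n := by positivity
  intro x hx
  have h1 : x ∈ tsupport φ := tsupport_mul_subset_left hx
  have h2 : x ∈ tsupport (fun y : W × ℝ => slabCut n y.2) := tsupport_mul_subset_right hx
  have hcl : IsClosed (Prod.snd ⁻¹' Icc (1 / n) (1 - 1 / n) : Set (W × ℝ)) :=
    isClosed_Icc.preimage continuous_snd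
  have hsub : Function.support (fun y : W × ℝ => slabCut n y.2)
      ⊆ (Prod.snd ⁻¹' Icc (1 / n) (1 - 1 / n) : Set (W × ℝ)) := by
    intro y hy
    by_contra hcon
    apply hy
    apply slabCut_eq_zero hn
    simp only [mem_preimage, mem_Icc, not_and_or, not_le] at hcon
    rcases hcon with h | h
    · exact Or.inl h.le
    · exact Or.inr h.le
  have h3 : x ∈ (Prod.snd ⁻¹' Icc (1 / n) (1 - 1 / n) : Set (W × ℝ)) :=
    closure_minimal hsub hcl h2
  refine ⟨(hts h1).1, ?_, ?_⟩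
  · exact lt_of_lt_of_le h1n h3.1
  · have := h3.2; linarith

theorem slab_core {D : Set W} (hD : IsOpen D) (hDv : volume D ≠ ⊤)
    {d : W × ℝ → ℝ} {G : W × ℝ → (W × ℝ) →L[ℝ] ℝ}
    (hw : IsWeakDeriv (D ×ˢ Ioo (0 : ℝ) 1) d G)
    (hdi : IntegrableOn d (D ×ˢ Ioo (0 : ℝ) 1)) (hGi : IntegrableOn G (D ×ˢ Ioo (0 : ℝ) 1))
    {om : ℕ → W → ℝ} {M : ℝ} (hom_m : ∀ m, AEStronglyMeasurable (om m) (volume.restrict D))
    (hom_b : ∀ m, ∀ w ∈ D, |om m w| ≤ M)
    (hom_t : ∀ w ∈ D, Tendsto (fun m => om m w) atTop (𝓝 0))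
    (hdom : ∀ m : ℕ, ∀ w ∈ D, ∀ z ∈ Ioo (0 : ℝ) 1,
      (z ≤ 2 / ((m : ℝ) + 4) ∨ 1 - 2 / ((m : ℝ) + 4) ≤ z) → |d (w, z)| ≤ om m w)
    (φ : W × ℝ → ℝ) (hφ : ContDiff ℝ ∞ φ) (hcs : HasCompactSupport φ)
    (hts : tsupport φ ⊆ D ×ˢ (univ : Set ℝ)) (v : W × ℝ) :
    ∫ x in D ×ˢ Ioo (0 : ℝ) 1, fderiv ℝ φ x v * d x
      = - ∫ x in D ×ˢ Ioo (0 : ℝ) 1, φ x * G x v := by
  classical
  have hDm : MeasurableSet D := hD.measurableSet
  have hQm : MeasurableSet (D ×ˢ Ioo (0 : ℝ) 1) := hDm.prod measurableSet_Ioo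
  obtain ⟨C1, hC10, hC1⟩ := exists_bound_deriv_smoothTransition
  have hφc : Continuous φ := hφ.continuous
  obtain ⟨Cφ, hCφ⟩ := hφc.bounded_above_of_compact_support hcs
  have hCφ0 : 0 ≤ Cφ := (norm_nonneg _).trans (hCφ 0)
  have hdφc : Continuous (fun x => fderiv ℝ φ x v) :=
    (hφ.continuous_fderiv (by simp)).clm_apply continuous_const
  obtain ⟨Cd, hCd⟩ := hdφc.bounded_above_of_compact_support (hcs.fderiv_apply (𝕜 := ℝ) v)
  -- the basic integrable functions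
  have hfd : Integrable (fun x => fderiv ℝ φ x v * d x)
      (volume.restrict (D ×ˢ Ioo (0 : ℝ) 1)) :=
    hdi.bdd_mul hdφc.aestronglyMeasurable (ae_of_all _ hCd)
  have hGv : Integrable (fun x => G x v) (volume.restrict (D ×ˢ Ioo (0 : ℝ) 1)) :=
    hGi.apply_continuousLinearMap v
  have hφG : Integrable (fun x => φ x * G x v) (volume.restrict (D ×ˢ Ioo (0 : ℝ) 1)) :=
    hGv.bdd_mul hφc.aestronglyMeasurable (ae_of_all _ hCφ)
  -- the cut-off sequences
  have hcutc : ∀ m : ℕ, Continuous (fun x : W × ℝ => slabCut ((m : ℝ) + 4) x.2) :=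
    fun m => (slabCut_contDiff _).continuous.comp continuous_snd
  have hcutb : ∀ m : ℕ, ∀ x : W × ℝ, ‖slabCut ((m : ℝ) + 4) x.2‖ ≤ 1 :=
    fun m x => by simpa [Real.norm_eq_abs] using slabCut_abs_le ((m : ℝ) + 4) x.2
  have ha : ∀ m : ℕ, Integrable
      (fun x : W × ℝ => slabCut ((m : ℝ) + 4) x.2 * (fderiv ℝ φ x v * d x))
      (volume.restrict (D ×ˢ Ioo (0 : ℝ) 1)) :=
    fun m => hfd.bdd_mul (hcutc m).aestronglyMeasurable (ae_of_all _ (hcutb m))
  have hc : ∀ m : ℕ, Integrable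
      (fun x : W × ℝ => slabCut ((m : ℝ) + 4) x.2 * (φ x * G x v))
      (volume.restrict (D ×ˢ Ioo (0 : ℝ) 1)) :=
    fun m => hφG.bdd_mul (hcutc m).aestronglyMeasurable (ae_of_all _ (hcutb m))
  have hbc : ∀ m : ℕ, Continuous
      (fun x : W × ℝ => φ x * (slabCutD ((m : ℝ) + 4) x.2 * v.2)) :=
    fun m => hφc.mul (((slabCutD_continuous _).comp continuous_snd).mul continuous_const)
  have hbb : ∀ m : ℕ, ∀ x : W × ℝ, ‖φ x * (slabCutD ((m : ℝ) + 4) x.2 * v.2)‖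
      ≤ Cφ * (2 * ((m : ℝ) + 4) * C1 * |v.2|) := by
    intro m x
    have hn : (0 : ℝ) ≤ (m : ℝ) + 4 := by positivity
    have h1 := slabCutD_abs_le hC1 hn x.2
    have h2 := hCφ x
    rw [norm_mul, norm_mul, Real.norm_eq_abs (slabCutD _ _), Real.norm_eq_abs v.2]
    gcongr
  have hb : ∀ m : ℕ, Integrable
      (fun x : W × ℝ => (φ x * (slabCutD ((m : ℝ) + 4) x.2 * v.2)) * d x)
      (volume.restrict (D ×ˢ Ioo (0 : ℝ) 1)) :=
    fun m => hdi.bdd_mul (hbc m).aestronglyMeasurable (ae_of_all _ (hbb m))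
  -- the weak derivative identity for the cut-off test functions
  have hid : ∀ m : ℕ,
      (∫ x in D ×ˢ Ioo (0 : ℝ) 1, slabCut ((m : ℝ) + 4) x.2 * (fderiv ℝ φ x v * d x))
        + (∫ x in D ×ˢ Ioo (0 : ℝ) 1, (φ x * (slabCutD ((m : ℝ) + 4) x.2 * v.2)) * d x)
        = - ∫ x in D ×ˢ Ioo (0 : ℝ) 1, slabCut ((m : ℝ) + 4) x.2 * (φ x * G x v) := by
    intro m
    have hn : (3 : ℝ) ≤ (m : ℝ) + 4 := by
      have : (0 : ℝ) ≤ (m : ℝ) := Nat.cast_nonneg m
      linarith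
    have hψ : ContDiff ℝ ∞ (fun y : W × ℝ => φ y * slabCut ((m : ℝ) + 4) y.2) :=
      hφ.mul ((slabCut_contDiff _).comp contDiff_snd)
    have hψc : HasCompactSupport (fun y : W × ℝ => φ y * slabCut ((m : ℝ) + 4) y.2) :=
      hcs.mul_right
    have h := hw.2.2 _ hψ hψc (tsupport_mul_slabCut_subset hts hn) v
    rw [← integral_add (ha m) (hb m)]
    have e1 : (fun x : W × ℝ => slabCut ((m : ℝ) + 4) x.2 * (fderiv ℝ φ x v * d x)
          + (φ x * (slabCutD ((m : ℝ) + 4) x.2 * v.2)) * d x)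
        = fun x : W × ℝ => (fderiv ℝ (fun y : W × ℝ => φ y * slabCut ((m : ℝ) + 4) y.2) x v)
          • d x := by
      funext x
      rw [fderiv_mul_slabCut hφ, smul_eq_mul]
      ring
    have e2 : (fun x : W × ℝ => slabCut ((m : ℝ) + 4) x.2 * (φ x * G x v))
        = fun x : W × ℝ => (φ x * slabCut ((m : ℝ) + 4) x.2) • G x v := by
      funext x
      rw [smul_eq_mul]
      ring
    rw [e1, e2]
    exact h
  -- limits of the two main terms
  have hA : Tendsto (fun m : ℕ =>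
      ∫ x in D ×ˢ Ioo (0 : ℝ) 1, slabCut ((m : ℝ) + 4) x.2 * (fderiv ℝ φ x v * d x)) atTop
      (𝓝 (∫ x in D ×ˢ Ioo (0 : ℝ) 1, fderiv ℝ φ x v * d x)) := by
    refine tendsto_integral_of_dominated_convergence (fun x => ‖fderiv ℝ φ x v * d x‖)
      (fun m => (ha m).aestronglyMeasurable) hfd.norm (fun m => ae_of_all _ fun x => ?_)
      (ae_restrict_of_forall_mem hQm fun x hx => ?_)
    · rw [norm_mul]
      exact mul_le_of_le_one_left (norm_nonneg _) (hcutb m x)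
    · refine tendsto_const_nhds.congr' ?_
      filter_upwards [eventually_slabCut_eq_one hx.2] with m hm
      rw [hm, one_mul]
  have hCl : Tendsto (fun m : ℕ =>
      ∫ x in D ×ˢ Ioo (0 : ℝ) 1, slabCut ((m : ℝ) + 4) x.2 * (φ x * G x v)) atTop
      (𝓝 (∫ x in D ×ˢ Ioo (0 : ℝ) 1, φ x * G x v)) := by
    refine tendsto_integral_of_dominated_convergence (fun x => ‖φ x * G x v‖)
      (fun m => (hc m).aestronglyMeasurable) hφG.norm (fun m => ae_of_all _ fun x => ?_)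
      (ae_restrict_of_forall_mem hQm fun x hx => ?_)
    · rw [norm_mul]
      exact mul_le_of_le_one_left (norm_nonneg _) (hcutb m x)
    · refine tendsto_const_nhds.congr' ?_
      filter_upwards [eventually_slabCut_eq_one hx.2] with m hm
      rw [hm, one_mul]
  -- the boundary layer term tends to zero
  have : IsFiniteMeasure (volume.restrict D) :=
    ⟨by rw [Measure.restrict_apply_univ]; exact lt_top_iff_ne_top.mpr hDv⟩
  have hom_int : ∀ m, Integrable (om m) (volume.restrict D) := fun m =>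
    Integrable.mono' (integrable_const M) (hom_m m)
      (ae_restrict_of_forall_mem hDm fun w hw => by
        simpa [Real.norm_eq_abs] using hom_b m w hw)
  have hom_nonneg : ∀ m : ℕ, ∀ w ∈ D, 0 ≤ om m w := by
    intro m w hw
    have hn : (4 : ℝ) ≤ (m : ℝ) + 4 := by
      have : (0 : ℝ) ≤ (m : ℝ) := Nat.cast_nonneg m
      linarith
    have hn0 : (0 : ℝ) < (m : ℝ) + 4 := by linarith
    have h1 : (1 : ℝ) / ((m : ℝ) + 4) ∈ Ioo (0 : ℝ) 1 := by
      refine ⟨by positivity, ?_⟩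
      rw [div_lt_one hn0]; linarith
    have h2 : (1 : ℝ) / ((m : ℝ) + 4) ≤ 2 / ((m : ℝ) + 4) := by gcongr; norm_num
    exact (abs_nonneg _).trans (hdom m w hw _ h1 (Or.inl h2))
  have hI0 : Tendsto (fun m : ℕ => ∫ w in D, om m w) atTop (𝓝 0) := by
    have h := tendsto_integral_of_dominated_convergence (μ := volume.restrict D)
      (F := om) (f := fun _ => (0 : ℝ)) (fun _ => M) hom_m (integrable_const M)
      (fun m => ae_restrict_of_forall_mem hDm fun w hw => by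
        simpa [Real.norm_eq_abs] using hom_b m w hw)
      (ae_restrict_of_forall_mem hDm hom_t)
    simpa using h
  have hBbound : ∀ m : ℕ,
      ‖∫ x in D ×ˢ Ioo (0 : ℝ) 1, (φ x * (slabCutD ((m : ℝ) + 4) x.2 * v.2)) * d x‖
        ≤ (8 * Cφ * C1 * |v.2|) * ∫ w in D, om m w := by
    intro m
    have hn : (4 : ℝ) ≤ (m : ℝ) + 4 := by
      have : (0 : ℝ) ≤ (m : ℝ) := Nat.cast_nonneg m
      linarith
    have hn0 : (0 : ℝ) < (m : ℝ) + 4 := by linarith
    set n : ℝ := (m : ℝ) + 4 with hndef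
    set L : Set ℝ := Ioc (0 : ℝ) (2 / n) ∪ Ico (1 - 2 / n) 1 with hLdef
    have hLm : MeasurableSet L := measurableSet_Ioc.union measurableSet_Ico
    have hind : Integrable (L.indicator (1 : ℝ → ℝ)) (volume.restrict (Ioo (0 : ℝ) 1)) :=
      (integrable_const (1 : ℝ)).indicator hLm
    have hprod : Integrable (fun x : W × ℝ => om m x.1 * L.indicator (1 : ℝ → ℝ) x.2)
        (volume.restrict (D ×ˢ Ioo (0 : ℝ) 1)) := by
      rw [Measure.volume_eq_prod, ← Measure.prod_restrict]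
      exact (hom_int m).mul_prod hind
    have hg : Integrable (fun x : W × ℝ => (Cφ * (2 * n * C1 * |v.2|))
        * (om m x.1 * L.indicator (1 : ℝ → ℝ) x.2)) (volume.restrict (D ×ˢ Ioo (0 : ℝ) 1)) :=
      hprod.const_mul _
    have hle : ∀ᵐ x ∂(volume.restrict (D ×ˢ Ioo (0 : ℝ) 1)),
        ‖(φ x * (slabCutD n x.2 * v.2)) * d x‖
          ≤ (Cφ * (2 * n * C1 * |v.2|)) * (om m x.1 * L.indicator (1 : ℝ → ℝ) x.2) := by
      refine ae_restrict_of_forall_mem hQm fun x hx => ?_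
      by_cases hxL : x.2 ∈ L
      · have hdx : |d x| ≤ om m x.1 := by
          have := hdom m x.1 hx.1 x.2 hx.2 (by
            rcases hxL with h | h
            · exact Or.inl h.2
            · exact Or.inr h.1)
          simpa using this
        rw [indicator_of_mem hxL, norm_mul, Real.norm_eq_abs (d x)]
        simp only [Pi.one_apply, mul_one]
        have h1 := hbb m x
        have h2 : 0 ≤ Cφ * (2 * n * C1 * |v.2|) := by positivity
        exact mul_le_mul h1 hdx (abs_nonneg _) h2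
      · have hz1 : 2 / n < x.2 := by
          by_contra hcon
          exact hxL (Or.inl ⟨hx.2.1, not_lt.mp hcon⟩)
        have hz2 : x.2 < 1 - 2 / n := by
          by_contra hcon
          exact hxL (Or.inr ⟨not_lt.mp hcon, hx.2.2⟩)
        rw [slabCutD_eq_zero hn0 hz1 hz2, indicator_of_notMem hxL]
        simp
    have h1 := norm_integral_le_of_norm_le hg hle
    have h2 : ∫ x in D ×ˢ Ioo (0 : ℝ) 1, (Cφ * (2 * n * C1 * |v.2|))
        * (om m x.1 * L.indicator (1 : ℝ → ℝ) x.2)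
        = (Cφ * (2 * n * C1 * |v.2|)) * ((∫ w in D, om m w)
          * ∫ z in Ioo (0 : ℝ) 1, L.indicator (1 : ℝ → ℝ) z) := by
      rw [integral_const_mul, Measure.volume_eq_prod, setIntegral_prod_mul]
    have h3 : ∫ z in Ioo (0 : ℝ) 1, L.indicator (1 : ℝ → ℝ) z ≤ 4 / n := layer_integral_le hn
    have h4 : 0 ≤ ∫ w in D, om m w := setIntegral_nonneg hDm (hom_nonneg m)
    have h5 : (Cφ * (2 * n * C1 * |v.2|)) * ((∫ w in D, om m w)
          * ∫ z in Ioo (0 : ℝ) 1, L.indicator (1 : ℝ → ℝ) z)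
        ≤ (Cφ * (2 * n * C1 * |v.2|)) * ((∫ w in D, om m w) * (4 / n)) := by
      have h6 : 0 ≤ Cφ * (2 * n * C1 * |v.2|) := by positivity
      gcongr
    have h7 : (Cφ * (2 * n * C1 * |v.2|)) * ((∫ w in D, om m w) * (4 / n))
        = (8 * Cφ * C1 * |v.2|) * ∫ w in D, om m w := by
      field_simp
      ring
    calc ‖∫ x in D ×ˢ Ioo (0 : ℝ) 1, (φ x * (slabCutD n x.2 * v.2)) * d x‖
        ≤ ∫ x in D ×ˢ Ioo (0 : ℝ) 1, (Cφ * (2 * n * C1 * |v.2|))
          * (om m x.1 * L.indicator (1 : ℝ → ℝ) x.2) := h1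
      _ = (Cφ * (2 * n * C1 * |v.2|)) * ((∫ w in D, om m w)
          * ∫ z in Ioo (0 : ℝ) 1, L.indicator (1 : ℝ → ℝ) z) := h2
      _ ≤ (Cφ * (2 * n * C1 * |v.2|)) * ((∫ w in D, om m w) * (4 / n)) := h5
      _ = (8 * Cφ * C1 * |v.2|) * ∫ w in D, om m w := h7
  have hB : Tendsto (fun m : ℕ =>
      ∫ x in D ×ˢ Ioo (0 : ℝ) 1, (φ x * (slabCutD ((m : ℝ) + 4) x.2 * v.2)) * d x) atTop
      (𝓝 0) := by
    refine squeeze_zero_norm hBbound ?_
    simpa using hI0.const_mul (8 * Cφ * C1 * |v.2|)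
  -- pass to the limit in the identity
  have hlim1 := hA.add hB
  have hlim2 := hCl.neg
  have hEq := tendsto_nhds_unique (hlim1.congr hid) hlim2
  simpa using hEq

end core

theorem isWeakDeriv_indicator_slab {W : Type*} [NormedAddCommGroup W] [NormedSpace ℝ W]
    [FiniteDimensional ℝ W] [MeasureSpace W] [BorelSpace W]
    [(volume : Measure W).IsAddHaarMeasure]
    {D : Set W} (hD : IsOpen D) (hDv : volume D ≠ ⊤)
    {d : W × ℝ → ℝ} {G : W × ℝ → (W × ℝ) →L[ℝ] ℝ}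
    (hw : IsWeakDeriv (D ×ˢ Ioo (0 : ℝ) 1) d G)
    (hdi : IntegrableOn d (D ×ˢ Ioo (0 : ℝ) 1)) (hGi : IntegrableOn G (D ×ˢ Ioo (0 : ℝ) 1))
    {om : ℕ → W → ℝ} {M : ℝ} (hom_m : ∀ m, AEStronglyMeasurable (om m) (volume.restrict D))
    (hom_b : ∀ m, ∀ w ∈ D, |om m w| ≤ M)
    (hom_t : ∀ w ∈ D, Tendsto (fun m => om m w) atTop (𝓝 0))
    (hdom : ∀ m : ℕ, ∀ w ∈ D, ∀ z ∈ Ioo (0 : ℝ) 1,
      (z ≤ 2 / ((m : ℝ) + 4) ∨ 1 - 2 / ((m : ℝ) + 4) ≤ z) → |d (w, z)| ≤ om m w) :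
    IsWeakDeriv (D ×ˢ (univ : Set ℝ)) ((D ×ˢ Ioo (0 : ℝ) 1).indicator d)
      ((D ×ˢ Ioo (0 : ℝ) 1).indicator G) := by
  have hQm : MeasurableSet (D ×ˢ Ioo (0 : ℝ) 1) := hD.measurableSet.prod measurableSet_Ioo
  have hsub : D ×ˢ (univ : Set ℝ) ∩ D ×ˢ Ioo (0 : ℝ) 1 = D ×ˢ Ioo (0 : ℝ) 1 := by
    ext x
    simp only [mem_inter_iff, mem_prod, mem_univ, and_true, mem_Ioo]
    tauto
  refine ⟨?_, ?_, ?_⟩
  · exact ((hdi.integrable_indicator hQm).locallyIntegrable).locallyIntegrableOn _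
  · have hGind : Integrable ((D ×ˢ Ioo (0 : ℝ) 1).indicator G) volume :=
      IntegrableOn.integrable_indicator (f := G) hGi hQm
    exact hGind.locallyIntegrable.locallyIntegrableOn _
  · intro φ hφ hcs hts v
    have e1 : (fun x : W × ℝ => (fderiv ℝ φ x v) • (D ×ˢ Ioo (0 : ℝ) 1).indicator d x)
        = (D ×ˢ Ioo (0 : ℝ) 1).indicator (fun x : W × ℝ => fderiv ℝ φ x v * d x) := by
      funext x
      by_cases hx : x ∈ D ×ˢ Ioo (0 : ℝ) 1
      · simp [indicator_of_mem hx]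
      · simp [indicator_of_notMem hx]
    have e2 : (fun x : W × ℝ => φ x • ((D ×ˢ Ioo (0 : ℝ) 1).indicator G x) v)
        = (D ×ˢ Ioo (0 : ℝ) 1).indicator (fun x : W × ℝ => φ x * G x v) := by
      funext x
      by_cases hx : x ∈ D ×ˢ Ioo (0 : ℝ) 1
      · simp [indicator_of_mem hx]
      · simp [indicator_of_notMem hx]
    rw [e1, e2, setIntegral_indicator hQm, setIntegral_indicator hQm, hsub]
    exact slab_core hD hDv hw hdi hGi hom_m hom_b hom_t hdom φ hφ hcs hts v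

end Vale.Agent.Lib.P073

end -- part SlabExt

section -- part Shear

/-!
# P073: a fibrewise increasing smooth shear is a diffeomorphism of the cylinder
-/

namespace Vale.Agent.Lib.P073

open MeasureTheory Filter Topology Set
open scoped ContDiff ENNReal

/-- The derivative of a shear `x ↦ (x.1, U x)` is invertible as soon as the derivative of `U` in
the last direction does not vanish. -/
theorem taskD_exists_equiv {W : Type*} [NormedAddCommGroup W] [NormedSpace ℝ W]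
    (L : W × ℝ →L[ℝ] ℝ) (hc : L (0, 1) ≠ 0) :
    ∃ f' : (W × ℝ) ≃L[ℝ] (W × ℝ),
      (f' : W × ℝ →L[ℝ] W × ℝ) = (ContinuousLinearMap.fst ℝ W ℝ).prod L := by
  have hL : ∀ v : W × ℝ, L v = L (v.1, 0) + v.2 * L (0, 1) := by
    intro v
    have hv : v = (v.1, 0) + v.2 • ((0 : W), (1 : ℝ)) := by
      ext <;> simp
    conv_lhs => rw [hv]
    rw [map_add, map_smul, smul_eq_mul]
  refine ⟨ContinuousLinearEquiv.equivOfInverse ((ContinuousLinearMap.fst ℝ W ℝ).prod L)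
    ((ContinuousLinearMap.fst ℝ W ℝ).prod
      ((L (0, 1))⁻¹ • (ContinuousLinearMap.snd ℝ W ℝ -
        (L.comp (ContinuousLinearMap.inl ℝ W ℝ)).comp (ContinuousLinearMap.fst ℝ W ℝ)))) ?_ ?_, ?_⟩
  · intro v
    ext
    · simp
    · simp only [ContinuousLinearMap.prod_apply, ContinuousLinearMap.coe_fst',
        FunLike.coe_smul, FunLike.coe_sub, Pi.smul_apply, Pi.sub_apply,
        ContinuousLinearMap.coe_snd', ContinuousLinearMap.coe_comp, Function.comp_apply,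
        ContinuousLinearMap.inl_apply, smul_eq_mul]
      rw [hL v]
      field_simp
      ring
  · intro u
    ext
    · simp
    · simp only [ContinuousLinearMap.prod_apply, ContinuousLinearMap.coe_fst',
        FunLike.coe_smul, FunLike.coe_sub, Pi.smul_apply, Pi.sub_apply,
        ContinuousLinearMap.coe_snd', ContinuousLinearMap.coe_comp, Function.comp_apply,
        ContinuousLinearMap.inl_apply, smul_eq_mul]
      rw [hL]
      field_simp
      ring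
  · rfl

theorem isSmoothDiffeo_shear {W : Type*} [NormedAddCommGroup W] [NormedSpace ℝ W]
    [FiniteDimensional ℝ W] {D : Set W} (hD : IsOpen D)
    {U : W × ℝ → ℝ} (hU : ContDiff ℝ ∞ U) (h0 : ∀ w ∈ D, U (w, 0) = 0)
    (h1 : ∀ w ∈ D, U (w, 1) = 1)
    (hpos : ∀ w ∈ D, ∀ z ∈ Icc (0 : ℝ) 1, 0 < fderiv ℝ U (w, z) (0, 1)) :
    IsSmoothDiffeo (fun x : W × ℝ => (x.1, U x)) (D ×ˢ Ioo (0 : ℝ) 1) (D ×ˢ Ioo (0 : ℝ) 1) := by
  have : CompleteSpace W := FiniteDimensional.complete ℝ W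
  have hΨs : ContDiff ℝ ∞ (fun x : W × ℝ => (x.1, U x)) := contDiff_fst.prodMk hU
  have hUd : ∀ x, HasFDerivAt U (fderiv ℝ U x) x := fun x =>
    ((hU.differentiable (by simp)) x).hasFDerivAt
  have hder : ∀ (w : W) (z : ℝ),
      HasDerivAt (fun z : ℝ => U (w, z)) (fderiv ℝ U (w, z) (0, 1)) z := by
    intro w z
    have hc : HasDerivAt (fun z : ℝ => (w, z)) ((0 : W), (1 : ℝ)) z :=
      (hasDerivAt_const z w).prodMk (hasDerivAt_id z)
    exact (hUd (w, z)).comp_hasDerivAt z hc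
  have hcont : ∀ w : W, Continuous (fun z : ℝ => U (w, z)) := fun w =>
    hU.continuous.comp (continuous_const.prodMk continuous_id)
  have hmono : ∀ w ∈ D, StrictMonoOn (fun z : ℝ => U (w, z)) (Icc (0 : ℝ) 1) := by
    intro w hw
    apply strictMonoOn_of_deriv_pos (convex_Icc 0 1) (hcont w).continuousOn
    intro z hz
    rw [interior_Icc] at hz
    rw [(hder w z).deriv]
    exact hpos w hw z ⟨hz.1.le, hz.2.le⟩
  have hbij : BijOn (fun x : W × ℝ => (x.1, U x)) (D ×ˢ Ioo (0 : ℝ) 1) (D ×ˢ Ioo (0 : ℝ) 1) := by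
    refine ⟨?_, ?_, ?_⟩
    · rintro ⟨w, z⟩ ⟨hw, hz⟩
      have hw' : w ∈ D := hw
      have hz' : z ∈ Ioo (0 : ℝ) 1 := hz
      have e1 := hmono w hw' ⟨le_refl _, zero_le_one⟩ ⟨hz'.1.le, hz'.2.le⟩ hz'.1
      have e2 := hmono w hw' ⟨hz'.1.le, hz'.2.le⟩ ⟨zero_le_one, le_refl _⟩ hz'.2
      simp only [h0 w hw'] at e1
      simp only [h1 w hw'] at e2
      exact ⟨hw', e1, e2⟩
    · rintro ⟨w, z⟩ ⟨hw, hz⟩ ⟨w', z'⟩ ⟨hw', hz'⟩ heq
      have hw1 : w ∈ D := hw
      have hz1 : z ∈ Ioo (0 : ℝ) 1 := hz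
      have hz2 : z' ∈ Ioo (0 : ℝ) 1 := hz'
      simp only [Prod.mk.injEq] at heq
      obtain ⟨rfl, h2⟩ := heq
      have hzz : z = z' :=
        (hmono w hw1).injOn ⟨hz1.1.le, hz1.2.le⟩ ⟨hz2.1.le, hz2.2.le⟩ h2
      rw [hzz]
    · rintro ⟨w, y⟩ ⟨hw, hy⟩
      have hw' : w ∈ D := hw
      have hy' : y ∈ Ioo (0 : ℝ) 1 := hy
      have hiv := intermediate_value_Ioo (zero_le_one (α := ℝ)) (hcont w).continuousOn
      simp only [h0 w hw', h1 w hw'] at hiv
      obtain ⟨z, hz, hzy⟩ := hiv hy'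
      exact ⟨(w, z), ⟨hw', hz⟩, by simp only [hzy]⟩
  refine ⟨hΨs.contDiffOn, hbij,
    Function.invFunOn (fun x : W × ℝ => (x.1, U x)) (D ×ˢ Ioo (0 : ℝ) 1), ?_,
    fun x hx => hbij.injOn.leftInvOn_invFunOn hx⟩
  have key := contDiffOn_invFunOn (hD.prod isOpen_Ioo) hΨs.contDiffOn hbij.injOn (by
    intro x hx
    have hc : fderiv ℝ U x (0, 1) ≠ 0 :=
      (hpos x.1 hx.1 x.2 ⟨hx.2.1.le, hx.2.2.le⟩).ne'
    obtain ⟨f', hf'⟩ := taskD_exists_equiv (fderiv ℝ U x) hc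
    refine ⟨f', ?_⟩
    rw [hf']
    exact hasFDerivAt_fst.prodMk (hUd x))
  rwa [hbij.image_eq] at key

end Vale.Agent.Lib.P073

end -- part Shear

section -- part UnifMoll

/-!
# P073: uniform convergence of dilated mollifications of a uniformly continuous function
-/

namespace Vale.Agent.Lib.P073

open MeasureTheory Filter Topology Set
open scoped ContDiff ENNReal

/-- A mollification at the point `z` of a function `φ` differs from a vector `a` by at most `η`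
as soon as `φ` stays within `η` of `a` on the ball of radius `t` around `z`, where `t` bounds the
support of the mollifier. -/
theorem taskE_mollify_close {E F : Type*} [NormedAddCommGroup E] [NormedSpace ℝ E]
    [FiniteDimensional ℝ E] [MeasurableSpace E] [BorelSpace E] (μ : Measure E)
    [μ.IsAddHaarMeasure] [NormedAddCommGroup F] [NormedSpace ℝ F] [CompleteSpace F]
    {φ : E → F} (hφ : Continuous φ) {η t : ℝ} {ρ : E → ℝ} (hρc : Continuous ρ)
    (hρ0 : ∀ x, 0 ≤ ρ x) (hρ1 : ∫ x, ρ x ∂μ = 1) (hρs : Function.support ρ ⊆ Metric.ball 0 t)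
    (z : E) (a : F) (hclose : ∀ y, dist y z < t → ‖φ y - a‖ ≤ η) :
    ‖(∫ y, ρ (z - y) • φ y ∂μ) - a‖ ≤ η := by
  have hcs : HasCompactSupport ρ := by
    apply HasCompactSupport.of_support_subset_isCompact (isCompact_closedBall (0 : E) t)
    exact hρs.trans Metric.ball_subset_closedBall
  have hcs' : HasCompactSupport (fun y => ρ (z - y)) :=
    hcs.comp_homeomorph (Homeomorph.subLeft z)
  have hρc' : Continuous (fun y => ρ (z - y)) := hρc.comp (continuous_const.sub continuous_id)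
  have hint1 : Integrable (fun y => ρ (z - y)) μ := hρc'.integrable_of_hasCompactSupport hcs'
  have hint2 : Integrable (fun y => ρ (z - y) • φ y) μ :=
    (hρc'.smul hφ).integrable_of_hasCompactSupport hcs'.smul_right
  have hone : ∫ y, ρ (z - y) ∂μ = 1 := by
    rw [integral_sub_left_eq_self ρ μ z, hρ1]
  have ha : a = ∫ y, ρ (z - y) • a ∂μ := by
    rw [integral_smul_const, hone, one_smul]
  have hint3 : Integrable (fun y => ρ (z - y) • a) μ := hint1.smul_const a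
  have hdiff : (∫ y, ρ (z - y) • φ y ∂μ) - a = ∫ y, ρ (z - y) • (φ y - a) ∂μ := by
    conv_lhs => rw [ha]
    rw [← integral_sub hint2 hint3]
    congr 1
    funext y
    rw [smul_sub]
  rw [hdiff]
  have hbound : ∀ y, ‖ρ (z - y) • (φ y - a)‖ ≤ ρ (z - y) * η := by
    intro y
    rw [norm_smul, Real.norm_of_nonneg (hρ0 _)]
    by_cases hy : ρ (z - y) = 0
    · rw [hy, zero_mul, zero_mul]
    · have hmem : z - y ∈ Metric.ball (0 : E) t := hρs hy
      rw [mem_ball_zero_iff] at hmem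
      have hd : dist y z < t := by rwa [dist_eq_norm, ← norm_neg, neg_sub]
      exact mul_le_mul_of_nonneg_left (hclose y hd) (hρ0 _)
  calc ‖∫ y, ρ (z - y) • (φ y - a) ∂μ‖ ≤ ∫ y, ρ (z - y) * η ∂μ :=
        norm_integral_le_of_norm_le (hint1.mul_const η) (Eventually.of_forall hbound)
    _ = η := by rw [integral_mul_const, hone, one_mul]

theorem exists_dilate_mollify_close {W F : Type*} [NormedAddCommGroup W] [NormedSpace ℝ W]
    [FiniteDimensional ℝ W] [MeasureSpace W] [BorelSpace W]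
    [(volume : Measure W).IsAddHaarMeasure] [NormedAddCommGroup F] [NormedSpace ℝ F]
    [CompleteSpace F]
    (w₀ : W) {Q : Set (W × ℝ)} (hQ : Bornology.IsBounded Q) {φ : W × ℝ → F}
    (hφ : UniformContinuous φ) {η : ℝ} (hη : 0 < η) :
    ∃ δ > 0, ∀ t : ℝ, 0 < t → t < δ → ∀ ρ : W × ℝ → ℝ, Continuous ρ → (∀ x, 0 ≤ ρ x) →
      ∫ x, ρ x = 1 → Function.support ρ ⊆ Metric.ball 0 t → ∀ x ∈ Q,
      ‖(∫ y, ρ ((w₀ + (1 - t) • (x.1 - w₀), 1 / 2 + (1 + 4 * t) * (x.2 - 1 / 2)) - y) • φ y)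
        - φ x‖ ≤ η := by
  obtain ⟨C, hC⟩ := hQ.exists_norm_le
  obtain ⟨δ₁, hδ₁, hφ'⟩ := Metric.uniformContinuous_iff.mp hφ η hη
  have hKpos : 0 < 5 * |C| + ‖w₀‖ + 4 := by positivity
  refine ⟨δ₁ / (5 * |C| + ‖w₀‖ + 4), div_pos hδ₁ hKpos, ?_⟩
  intro t ht0 htδ ρ hρc hρ0 hρ1 hρs x hx
  have htK : t * (5 * |C| + ‖w₀‖ + 4) < δ₁ := (lt_div_iff₀ hKpos).mp htδ
  have hxn : ‖x‖ ≤ |C| := (hC x hx).trans (le_abs_self C)
  have hx1 : ‖x.1‖ ≤ |C| := (norm_fst_le x).trans hxn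
  have hx2 : |x.2| ≤ |C| := by
    have := (norm_snd_le x).trans hxn
    rwa [Real.norm_eq_abs] at this
  have hdist : dist ((w₀ + (1 - t) • (x.1 - w₀), 1 / 2 + (1 + 4 * t) * (x.2 - 1 / 2)) : W × ℝ) x
      ≤ t * (5 * |C| + ‖w₀‖ + 3) := by
    rw [Prod.dist_eq]
    apply max_le
    · have e1 : w₀ + (1 - t) • (x.1 - w₀) - x.1 = -(t • (x.1 - w₀)) := by
        rw [sub_smul, one_smul]
        abel
      rw [dist_eq_norm, e1, norm_neg, norm_smul, Real.norm_of_nonneg ht0.le]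
      apply mul_le_mul_of_nonneg_left _ ht0.le
      calc ‖x.1 - w₀‖ ≤ ‖x.1‖ + ‖w₀‖ := norm_sub_le _ _
        _ ≤ 5 * |C| + ‖w₀‖ + 3 := by nlinarith [abs_nonneg C, norm_nonneg w₀]
    · have e2 : 1 / 2 + (1 + 4 * t) * (x.2 - 1 / 2) - x.2 = t * (4 * (x.2 - 1 / 2)) := by ring
      rw [Real.dist_eq, e2, abs_mul, abs_of_nonneg ht0.le]
      apply mul_le_mul_of_nonneg_left _ ht0.le
      have h3 : |x.2 - 1 / 2| ≤ |x.2| + 1 / 2 := by
        have := abs_sub x.2 (1 / 2)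
        rw [abs_of_nonneg (by norm_num : (0 : ℝ) ≤ 1 / 2)] at this
        exact this
      rw [abs_mul, abs_of_nonneg (by norm_num : (0 : ℝ) ≤ 4)]
      nlinarith [abs_nonneg C, norm_nonneg w₀]
  have hHaar : (volume : Measure (W × ℝ)).IsAddHaarMeasure :=
    Measure.prod.instIsAddHaarMeasure _ _
  apply taskE_mollify_close (volume : Measure (W × ℝ)) hφ.continuous hρc hρ0 hρ1 hρs
  intro y hy
  have hyx : dist y x < δ₁ := by
    calc dist y x ≤ dist y _ + dist _ x := dist_triangle _ _ _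
      _ < t + t * (5 * |C| + ‖w₀‖ + 3) := add_lt_add_of_lt_of_le hy hdist
      _ = t * (5 * |C| + ‖w₀‖ + 4) := by ring
      _ < δ₁ := htK
  have := hφ' hyx
  rw [dist_eq_norm] at this
  exact this.le

end Vale.Agent.Lib.P073

end -- part UnifMoll

section -- part FibreAsm

namespace Vale.Agent.Lib.P073
open MeasureTheory Filter Topology Set
open scoped ContDiff ENNReal

/-- Composition of smooth diffeomorphisms. -/
theorem IsSmoothDiffeo.comp_of_fibre {E : Type*} [NormedAddCommGroup E] [NormedSpace ℝ E]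
    {g₁ g₂ : E → E} {Ω₁ Ω₂ Ω₃ : Set E}
    (h₂ : IsSmoothDiffeo g₂ Ω₂ Ω₃) (h₁ : IsSmoothDiffeo g₁ Ω₁ Ω₂) :
    IsSmoothDiffeo (g₂ ∘ g₁) Ω₁ Ω₃ := by
  obtain ⟨c₁, b₁, k₁, ck₁, hk₁⟩ := h₁
  obtain ⟨c₂, b₂, k₂, ck₂, hk₂⟩ := h₂
  refine ⟨c₂.comp c₁ b₁.mapsTo, b₂.comp b₁, k₁ ∘ k₂, ck₁.comp ck₂ ?_, ?_⟩
  · intro y hy
    obtain ⟨x, hx, rfl⟩ := b₂.surjOn hy
    rw [hk₂ x hx]
    exact hx
  · intro x hx
    simp only [Function.comp_apply]
    rw [hk₂ _ (b₁.mapsTo hx), hk₁ x hx]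

section LpMixed

variable {α β : Type*} [MeasurableSpace α] [MeasurableSpace β] {μ : Measure α} {ν : Measure β}
  {F₁ : Type*} [NormedAddCommGroup F₁] [NormedSpace ℝ F₁]
  {F₂ : Type*} [NormedAddCommGroup F₂] [NormedSpace ℝ F₂]
  {F' : Type*} [NormedAddCommGroup F'] [NormedSpace ℝ F']

omit [NormedSpace ℝ F'] in
/-- `L^p` membership from an `L^p` bound on the difference to an `L^p` function. -/
theorem memLp_of_eLpNorm_sub_le {p : ℝ≥0∞} {u c : α → F'} {η : ℝ≥0∞} (hη : η ≠ ⊤)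
    (hu : AEStronglyMeasurable u μ) (hc : MemLp c p μ)
    (h : eLpNorm (fun x => u x - c x) p μ ≤ η) : MemLp u p μ := by
  have h1 : MemLp (fun x => u x - c x) p μ :=
    ⟨hu.sub hc.aestronglyMeasurable, lt_of_le_of_lt h (lt_top_iff_ne_top.mpr hη)⟩
  have h2 := h1.add hc
  have e : (fun x => u x - c x) + c = u := by
    funext x
    simp
  rw [e] at h2
  exact h2

theorem memLp_sum_mixed [IsFiniteMeasure ν] {p : ℝ≥0∞}
    (L₁ : F₁ →L[ℝ] F') (L₂ : F₂ →L[ℝ] F') {u : α → F₁} {w : α × β → F₂}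
    (hu : MemLp u p μ) (hw : MemLp w p (μ.prod ν)) :
    MemLp (fun z : α × β => L₁ (u z.1) + L₂ (w z)) p (μ.prod ν) := by
  have h1 : MemLp (fun z : α × β => L₁ (u z.1)) p (μ.prod ν) := L₁.comp_memLp' (hu.comp_fst ν)
  have h2 : MemLp (fun z : α × β => L₂ (w z)) p (μ.prod ν) := L₂.comp_memLp' hw
  exact h1.add h2

theorem eLpNorm_sum_mixed_le [SFinite ν] {p : ℝ≥0∞} (hp : 1 ≤ p) (hp' : p ≠ ⊤)
    (L₁ : F₁ →L[ℝ] F') (L₂ : F₂ →L[ℝ] F') {u : α → F₁} {w : α × β → F₂}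
    (hu : AEStronglyMeasurable u μ) (hw : AEStronglyMeasurable w (μ.prod ν)) :
    eLpNorm (fun z : α × β => L₁ (u z.1) + L₂ (w z)) p (μ.prod ν)
      ≤ ENNReal.ofReal ‖L₁‖ * (ν Set.univ ^ (1 / p).toReal * eLpNorm u p μ)
        + ENNReal.ofReal ‖L₂‖ * (1 * eLpNorm w p (μ.prod ν)) := by
  have m1 : AEStronglyMeasurable (fun z : α × β => L₁ (u z.1)) (μ.prod ν) :=
    L₁.continuous.comp_aestronglyMeasurable hu.comp_fst
  have m2 : AEStronglyMeasurable (fun z : α × β => L₂ (w z)) (μ.prod ν) :=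
    L₂.continuous.comp_aestronglyMeasurable hw
  have h := eLpNorm_add_le m1 m2 hp
  have h2 : eLpNorm (fun z : α × β => L₂ (w z)) p (μ.prod ν)
      ≤ ENNReal.ofReal ‖L₂‖ * (1 * eLpNorm w p (μ.prod ν)) := by
    rw [one_mul]
    exact eLpNorm_le_mul_eLpNorm_of_ae_le_mul (Eventually.of_forall fun z => L₂.le_opNorm _) p
  exact h.trans (add_le_add (eLpNorm_clm_comp_fst_le hp' L₁ hu) h2)

end LpMixed

/-- The block embedding `B ↦ inr ∘ B` for scalar-valued functionals on `W × ℝ`. -/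
noncomputable def blockR (W : Type*) [NormedAddCommGroup W] [NormedSpace ℝ W] :
    ((W × ℝ) →L[ℝ] ℝ) →L[ℝ] ((W × ℝ) →L[ℝ] (W × ℝ)) :=
  ContinuousLinearMap.compL ℝ (W × ℝ) ℝ (W × ℝ) (ContinuousLinearMap.inr ℝ W ℝ)

section

variable {W : Type*} [NormedAddCommGroup W] [NormedSpace ℝ W] [FiniteDimensional ℝ W]
  [MeasureSpace W] [BorelSpace W] [(volume : Measure W).IsAddHaarMeasure]

omit [FiniteDimensional ℝ W] [MeasureSpace W] [BorelSpace W] in
theorem fibred_eq_sum (g : W → W) (c : W × ℝ → ℝ) :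
    (fun x : W × ℝ => (g x.1, c x)) = fun z : W × ℝ =>
      ContinuousLinearMap.inl ℝ W ℝ (g z.1) + ContinuousLinearMap.inr ℝ W ℝ (c z) := by
  funext z
  ext <;> simp

omit [FiniteDimensional ℝ W] [MeasureSpace W] [BorelSpace W] in
theorem fderiv_fibred_of_mem {D : Set W} (hD : IsOpen D) {gj : W → W}
    (cg : ContDiffOn ℝ ∞ gj D) {U : W × ℝ → ℝ} (hU : ContDiff ℝ ∞ U) {z : W × ℝ}
    (hz : z ∈ D ×ˢ Ioo (0 : ℝ) 1) :
    fderiv ℝ (fun x : W × ℝ => (gj x.1, U x)) z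
      = blockFst W ℝ (fderiv ℝ gj z.1) + blockR W (fderiv ℝ U z) := by
  have d₁ : DifferentiableAt ℝ gj z.1 :=
    ((cg.differentiableOn (by simp)) z.1 hz.1).differentiableAt (hD.mem_nhds hz.1)
  have d₂ : DifferentiableAt ℝ U z := (hU.differentiable (by simp)) z
  have h1 : HasFDerivAt (fun x : W × ℝ => gj x.1)
      ((fderiv ℝ gj z.1).comp (ContinuousLinearMap.fst ℝ W ℝ)) z :=
    d₁.hasFDerivAt.comp z hasFDerivAt_fst
  rw [(h1.prodMk d₂.hasFDerivAt).fderiv]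
  ext v <;> simp [blockFst, blockR]

/-- Sobolev part of the fibred assembly. -/
theorem isSobolevWith_fibred {p : ℝ≥0∞} {D : Set W} (hDv : volume D ≠ ⊤)
    {g : W → W} {Gg : W → W →L[ℝ] W} (hSg : IsSobolevWith p D g Gg)
    {c : W × ℝ → ℝ} {Gc : W × ℝ → (W × ℝ) →L[ℝ] ℝ}
    (hc : IsSobolevWith p (D ×ˢ Ioo (0 : ℝ) 1) c Gc) :
    IsSobolevWith p (D ×ˢ Ioo (0 : ℝ) 1) (fun x : W × ℝ => (g x.1, c x))
      (fun z => blockFst W ℝ (Gg z.1) + blockR W (Gc z)) := by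
  have : CompleteSpace W := FiniteDimensional.complete ℝ W
  have hIv : volume (Ioo (0 : ℝ) 1) ≠ ⊤ := measure_Ioo_lt_top.ne
  have hfinD := isFiniteMeasure_restrict_of_ne_top hDv
  have hfinI := isFiniteMeasure_restrict_of_ne_top hIv
  have hc1 := hc.2.1
  have hc2 := hc.2.2
  rw [restrict_prod_eq] at hc1 hc2
  refine ⟨?_, ?_, ?_⟩
  · have a := (hSg.1.comp_fst (Ioo (0 : ℝ) 1)).clm_comp (ContinuousLinearMap.inl ℝ W ℝ)
    have b := hc.1.clm_comp (ContinuousLinearMap.inr ℝ W ℝ)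
    have s := a.add b
    have e2 : (fun z : W × ℝ =>
        (ContinuousLinearMap.inl ℝ W ℝ).comp ((Gg z.1).comp (ContinuousLinearMap.fst ℝ W ℝ))
          + (ContinuousLinearMap.inr ℝ W ℝ).comp (Gc z))
        = fun z => blockFst W ℝ (Gg z.1) + blockR W (Gc z) := by
      funext z
      ext v <;> simp [blockFst, blockR]
    rw [← fibred_eq_sum, e2] at s
    exact s
  · rw [fibred_eq_sum, restrict_prod_eq]
    exact memLp_sum_mixed (ContinuousLinearMap.inl ℝ W ℝ) (ContinuousLinearMap.inr ℝ W ℝ)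
      hSg.2.1 hc1
  · rw [restrict_prod_eq]
    exact memLp_sum_mixed (blockFst W ℝ) (blockR W) hSg.2.2 hc2

/-- The approximating maps of the fibred assembly are smooth diffeomorphisms in `W^{1,p}`. -/
theorem memLp_fibred_diffeo {p : ℝ≥0∞} {D V : Set W} (hD : IsOpen D) (hDv : volume D ≠ ⊤)
    {gj : W → W}
    (h₁ : IsSmoothDiffeo gj D V ∧ MemLp gj p (volume.restrict D) ∧
      MemLp (fderiv ℝ gj) p (volume.restrict D))
    {U : W × ℝ → ℝ} (hUc : ContDiff ℝ ∞ U)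
    (hUd : IsSmoothDiffeo (fun x : W × ℝ => (x.1, U x)) (D ×ˢ Ioo (0 : ℝ) 1)
      (D ×ˢ Ioo (0 : ℝ) 1))
    (mU : MemLp U p (volume.restrict (D ×ˢ Ioo (0 : ℝ) 1)))
    (mU' : MemLp (fderiv ℝ U) p (volume.restrict (D ×ˢ Ioo (0 : ℝ) 1))) :
    IsSmoothDiffeo (fun x : W × ℝ => (gj x.1, U x)) (D ×ˢ Ioo (0 : ℝ) 1) (V ×ˢ Ioo (0 : ℝ) 1) ∧
      MemLp (fun x : W × ℝ => (gj x.1, U x)) p (volume.restrict (D ×ˢ Ioo (0 : ℝ) 1)) ∧
      MemLp (fderiv ℝ (fun x : W × ℝ => (gj x.1, U x))) p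
        (volume.restrict (D ×ˢ Ioo (0 : ℝ) 1)) := by
  have hIv : volume (Ioo (0 : ℝ) 1) ≠ ⊤ := measure_Ioo_lt_top.ne
  have hfinD := isFiniteMeasure_restrict_of_ne_top hDv
  have hfinI := isFiniteMeasure_restrict_of_ne_top hIv
  have hmeas : MeasurableSet (D ×ˢ Ioo (0 : ℝ) 1) := (hD.prod isOpen_Ioo).measurableSet
  obtain ⟨d₁, m₁, m₁'⟩ := h₁
  refine ⟨?_, ?_, ?_⟩
  · have hid : IsSmoothDiffeo (id : ℝ → ℝ) (Ioo (0 : ℝ) 1) (Ioo (0 : ℝ) 1) :=
      ⟨contDiffOn_id, Set.bijOn_id _, id, contDiffOn_id, fun x _ => rfl⟩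
    exact (d₁.prodMap hid).comp_of_fibre hUd
  · rw [restrict_prod_eq] at mU
    rw [fibred_eq_sum, restrict_prod_eq]
    exact memLp_sum_mixed (ContinuousLinearMap.inl ℝ W ℝ) (ContinuousLinearMap.inr ℝ W ℝ) m₁ mU
  · have hae : (fun z : W × ℝ => blockFst W ℝ (fderiv ℝ gj z.1) + blockR W (fderiv ℝ U z))
        =ᵐ[(volume : Measure (W × ℝ)).restrict (D ×ˢ Ioo (0 : ℝ) 1)]
        fderiv ℝ (fun x : W × ℝ => (gj x.1, U x)) := by
      filter_upwards [ae_restrict_mem hmeas] with z hz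
      rw [fderiv_fibred_of_mem hD d₁.1 hUc hz]
    refine MemLp.ae_eq hae ?_
    rw [restrict_prod_eq] at mU' ⊢
    exact memLp_sum_mixed (blockFst W ℝ) (blockR W) m₁' mU'

/-- Distance estimate of the fibred assembly. -/
theorem eLpNorm_fibred_sub_le {p : ℝ≥0∞} (hp : 1 ≤ p) (hp' : p ≠ ⊤) {D : Set W}
    (hD : IsOpen D) (hDv : volume D ≠ ⊤)
    {g gj : W → W} {Gg : W → W →L[ℝ] W} (cg : ContDiffOn ℝ ∞ gj D)
    (au : AEStronglyMeasurable (fun x => gj x - g x) (volume.restrict D))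
    (au' : AEStronglyMeasurable (fun x => fderiv ℝ gj x - Gg x) (volume.restrict D))
    {c U : W × ℝ → ℝ} {Gc : W × ℝ → (W × ℝ) →L[ℝ] ℝ} (hUc : ContDiff ℝ ∞ U)
    (aw : AEStronglyMeasurable (fun x => U x - c x) (volume.restrict (D ×ˢ Ioo (0 : ℝ) 1)))
    (aw' : AEStronglyMeasurable (fun x => fderiv ℝ U x - Gc x)
      (volume.restrict (D ×ˢ Ioo (0 : ℝ) 1))) :
    eLpNorm (fun x : W × ℝ => (gj x.1, U x) - (g x.1, c x)) p
        (volume.restrict (D ×ˢ Ioo (0 : ℝ) 1))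
      + eLpNorm (fun x : W × ℝ => fderiv ℝ (fun x : W × ℝ => (gj x.1, U x)) x
          - (blockFst W ℝ (Gg x.1) + blockR W (Gc x))) p (volume.restrict (D ×ˢ Ioo (0 : ℝ) 1))
      ≤ (ENNReal.ofReal ‖ContinuousLinearMap.inl ℝ W ℝ‖
            * (volume (Ioo (0 : ℝ) 1) ^ (1 / p).toReal
              * eLpNorm (fun x => gj x - g x) p (volume.restrict D))
          + ENNReal.ofReal ‖ContinuousLinearMap.inr ℝ W ℝ‖
            * (1 * eLpNorm (fun x => U x - c x) p (volume.restrict (D ×ˢ Ioo (0 : ℝ) 1))))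
        + (ENNReal.ofReal ‖blockFst W ℝ‖
            * (volume (Ioo (0 : ℝ) 1) ^ (1 / p).toReal
              * eLpNorm (fun x => fderiv ℝ gj x - Gg x) p (volume.restrict D))
          + ENNReal.ofReal ‖blockR W‖
            * (1 * eLpNorm (fun x => fderiv ℝ U x - Gc x) p
              (volume.restrict (D ×ˢ Ioo (0 : ℝ) 1)))) := by
  have hIv : volume (Ioo (0 : ℝ) 1) ≠ ⊤ := measure_Ioo_lt_top.ne
  have hfinD := isFiniteMeasure_restrict_of_ne_top hDv
  have hfinI := isFiniteMeasure_restrict_of_ne_top hIv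
  have hmeas : MeasurableSet (D ×ˢ Ioo (0 : ℝ) 1) := (hD.prod isOpen_Ioo).measurableSet
  refine add_le_add ?_ ?_
  · have e : (fun x : W × ℝ => (gj x.1, U x) - (g x.1, c x))
        = fun z : W × ℝ => ContinuousLinearMap.inl ℝ W ℝ (gj z.1 - g z.1)
          + ContinuousLinearMap.inr ℝ W ℝ (U z - c z) := by
      funext z
      ext <;> simp
    rw [e]
    rw [restrict_prod_eq] at aw ⊢
    have h := eLpNorm_sum_mixed_le hp hp' (ContinuousLinearMap.inl ℝ W ℝ)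
      (ContinuousLinearMap.inr ℝ W ℝ) au aw
    rw [Measure.restrict_apply_univ] at h
    exact h
  · have hae : (fun z : W × ℝ => fderiv ℝ (fun x : W × ℝ => (gj x.1, U x)) z
          - (blockFst W ℝ (Gg z.1) + blockR W (Gc z)))
        =ᵐ[(volume : Measure (W × ℝ)).restrict (D ×ˢ Ioo (0 : ℝ) 1)]
        (fun z : W × ℝ => blockFst W ℝ (fderiv ℝ gj z.1 - Gg z.1)
          + blockR W (fderiv ℝ U z - Gc z)) := by
      filter_upwards [ae_restrict_mem hmeas] with z hz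
      rw [fderiv_fibred_of_mem hD cg hUc hz, map_sub, map_sub]
      abel
    rw [eLpNorm_congr_ae hae]
    rw [restrict_prod_eq] at aw' ⊢
    have h := eLpNorm_sum_mixed_le hp hp' (blockFst W ℝ) (blockR W) au' aw'
    rw [Measure.restrict_apply_univ] at h
    exact h

theorem tendsto_bound_zero_le {A₁ A₂ B₁ B₂ c₁ : ℝ≥0∞} (hA₁ : A₁ ≠ ⊤) (hA₂ : A₂ ≠ ⊤)
    (hB₁ : B₁ ≠ ⊤) (hB₂ : B₂ ≠ ⊤) (hc₁ : c₁ ≠ ⊤) {x x' y y' η : ℕ → ℝ≥0∞}
    (hx : Tendsto x atTop (𝓝 0)) (hx' : Tendsto x' atTop (𝓝 0))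
    (hη : Tendsto η atTop (𝓝 0)) (hy : ∀ j, y j ≤ η j) (hy' : ∀ j, y' j ≤ η j)
    {s : ℕ → ℝ≥0∞}
    (hs : ∀ j, s j ≤ (A₁ * (c₁ * x j) + A₂ * (1 * y j)) + (B₁ * (c₁ * x' j) + B₂ * (1 * y' j))) :
    Tendsto s atTop (𝓝 0) := by
  have hbound := tendsto_bound_zero hA₁ hA₂ hB₁ hB₂ hc₁ ENNReal.one_ne_top hx hx' hη hη
  refine tendsto_of_tendsto_of_tendsto_of_le_of_le tendsto_const_nhds hbound
    (fun _ => zero_le) (fun j => (hs j).trans ?_)
  gcongr
  · exact hy j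
  · exact hy' j

theorem isDiffeoApproximable_fibred_of_approx {W : Type*} [NormedAddCommGroup W]
    [NormedSpace ℝ W] [FiniteDimensional ℝ W] [MeasureSpace W] [BorelSpace W]
    [(volume : Measure W).IsAddHaarMeasure]
    {p : ℝ≥0∞} (hp : 1 ≤ p) (hp' : p ≠ ⊤) {D V : Set W} (hD : IsOpen D) (hDv : volume D ≠ ⊤)
    {g : W → W} (hg : IsDiffeoApproximable p D V g)
    {c : W × ℝ → ℝ} {Gc : W × ℝ → (W × ℝ) →L[ℝ] ℝ}
    (hc : IsSobolevWith p (D ×ˢ Ioo (0 : ℝ) 1) c Gc)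
    (hU : ∀ η : ℝ≥0∞, η ≠ 0 → ∃ U : W × ℝ → ℝ, ContDiff ℝ ∞ U ∧
      IsSmoothDiffeo (fun x : W × ℝ => (x.1, U x)) (D ×ˢ Ioo (0 : ℝ) 1) (D ×ˢ Ioo (0 : ℝ) 1) ∧
      eLpNorm (fun x => U x - c x) p (volume.restrict (D ×ˢ Ioo (0 : ℝ) 1)) ≤ η ∧
      eLpNorm (fun x => fderiv ℝ U x - Gc x) p (volume.restrict (D ×ˢ Ioo (0 : ℝ) 1)) ≤ η) :
    IsDiffeoApproximable p (D ×ˢ Ioo (0 : ℝ) 1) (V ×ˢ Ioo (0 : ℝ) 1)
      (fun x : W × ℝ => (g x.1, c x)) := by
  obtain ⟨Gg, hSg, Fg, hFg, hlimg⟩ := hg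
  have hIv : volume (Ioo (0 : ℝ) 1) ≠ ⊤ := measure_Ioo_lt_top.ne
  -- the approximating sequence for `c`
  have hη0 : ∀ j : ℕ, ((j : ℝ≥0∞) + 1)⁻¹ ≠ 0 := fun j =>
    ENNReal.inv_ne_zero.mpr (ENNReal.add_ne_top.mpr ⟨ENNReal.natCast_ne_top j, ENNReal.one_ne_top⟩)
  have hηt : ∀ j : ℕ, ((j : ℝ≥0∞) + 1)⁻¹ ≠ ⊤ := fun j =>
    ENNReal.inv_ne_top.mpr (by positivity)
  have hηlim : Tendsto (fun j : ℕ => ((j : ℝ≥0∞) + 1)⁻¹) atTop (𝓝 0) := by
    have h := (tendsto_add_atTop_iff_nat 1).2 ENNReal.tendsto_inv_nat_nhds_zero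
    refine h.congr (fun j => ?_)
    push_cast
    rfl
  choose U hUc hUd hU1 hU2 using fun j : ℕ => hU (((j : ℝ≥0∞) + 1)⁻¹) (hη0 j)
  have aU : ∀ j, AEStronglyMeasurable (U j) (volume.restrict (D ×ˢ Ioo (0 : ℝ) 1)) := fun j =>
    (hUc j).continuous.aestronglyMeasurable
  have aU' : ∀ j, AEStronglyMeasurable (fderiv ℝ (U j))
      (volume.restrict (D ×ˢ Ioo (0 : ℝ) 1)) := fun j =>
    ((hUc j).continuous_fderiv (by simp)).aestronglyMeasurable
  have mU : ∀ j, MemLp (U j) p (volume.restrict (D ×ˢ Ioo (0 : ℝ) 1)) := fun j =>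
    memLp_of_eLpNorm_sub_le (hηt j) (aU j) hc.2.1 (hU1 j)
  have mU' : ∀ j, MemLp (fderiv ℝ (U j)) p (volume.restrict (D ×ˢ Ioo (0 : ℝ) 1)) := fun j =>
    memLp_of_eLpNorm_sub_le (hηt j) (aU' j) hc.2.2 (hU2 j)
  refine ⟨fun z => blockFst W ℝ (Gg z.1) + blockR W (Gc z), isSobolevWith_fibred hDv hSg hc,
    fun j => fun x : W × ℝ => (Fg j x.1, U j x),
    fun j => memLp_fibred_diffeo hD hDv (hFg j) (hUc j) (hUd j) (mU j) (mU' j), ?_⟩
  have hc₁t : volume (Ioo (0 : ℝ) 1) ^ (1 / p).toReal ≠ ⊤ :=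
    ENNReal.rpow_ne_top_of_nonneg ENNReal.toReal_nonneg hIv
  refine tendsto_bound_zero_le (A₁ := ENNReal.ofReal ‖ContinuousLinearMap.inl ℝ W ℝ‖)
    (A₂ := ENNReal.ofReal ‖ContinuousLinearMap.inr ℝ W ℝ‖)
    (B₁ := ENNReal.ofReal ‖blockFst W ℝ‖) (B₂ := ENNReal.ofReal ‖blockR W‖)
    (c₁ := volume (Ioo (0 : ℝ) 1) ^ (1 / p).toReal)
    ENNReal.ofReal_ne_top ENNReal.ofReal_ne_top ENNReal.ofReal_ne_top ENNReal.ofReal_ne_top
    hc₁t (tendsto_zero_of_add_left hlimg) (tendsto_zero_of_add_right hlimg)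
    hηlim hU1 hU2 (fun j => ?_)
  obtain ⟨d₁, m₁, m₁'⟩ := hFg j
  exact eLpNorm_fibred_sub_le hp hp' hD hDv d₁.1
    (m₁.aestronglyMeasurable.sub hSg.2.1.aestronglyMeasurable)
    (m₁'.aestronglyMeasurable.sub hSg.2.2.aestronglyMeasurable) (hUc j)
    ((aU j).sub hc.2.1.aestronglyMeasurable) ((aU' j).sub hc.2.2.aestronglyMeasurable)

end

end Vale.Agent.Lib.P073

end -- part FibreAsm
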