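import Vale.Agent.Lib.P073.Fibre

/-!
# P073: merged module FibreTri (parts: Descent, AffinePost, FibreTop, FibreI, FibreJ)
-/

section -- part Descent

namespace Vale.Agent.Lib.P073
open MeasureTheory Filter Topology Set
open scoped ContDiff ENNReal

theorem exists_isSobolevWith_of_comp_fst {W : Type*} [NormedAddCommGroup W] [NormedSpace ℝ W]
    [FiniteDimensional ℝ W] [MeasureSpace W] [BorelSpace W]
    [(volume : Measure W).IsAddHaarMeasure]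
    {p : ℝ≥0∞} (hp : 1 ≤ p) (hp' : p ≠ ⊤) {D : Set W} (hD : IsOpen D) (hDv : volume D ≠ ⊤)
    {u : W → ℝ} (hu : ContinuousOn u D) {H : W × ℝ → (W × ℝ) →L[ℝ] ℝ}
    (h : IsSobolevWith p (D ×ˢ Ioo (0 : ℝ) 1) (fun x : W × ℝ => u x.1) H) :
    ∃ H' : W → W →L[ℝ] ℝ, IsSobolevWith p D u H' := by
  -- the two factor measures
  set μ : Measure W := volume.restrict D with hμ
  set ν : Measure ℝ := volume.restrict (Ioo (0 : ℝ) 1) with hν
  have hμfin : IsFiniteMeasure μ := isFiniteMeasure_restrict_of_ne_top hDv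
  have hνprob : IsProbabilityMeasure ν := by
    constructor
    rw [hν, Measure.restrict_apply_univ, Real.volume_Ioo]
    simp
  have hprod : (volume : Measure (W × ℝ)).restrict (D ×ˢ Ioo (0 : ℝ) 1) = μ.prod ν :=
    restrict_prod_eq D (Ioo (0 : ℝ) 1)
  -- the cutoff in the vertical variable
  let b : ContDiffBump (1 / 2 : ℝ) := ⟨1 / 8, 1 / 4, by norm_num, by norm_num⟩
  set χ : ℝ → ℝ := b.normed volume with hχ
  have hχs : ContDiff ℝ ∞ χ := b.contDiff_normed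
  have hχc : HasCompactSupport χ := b.hasCompactSupport_normed
  have hχt : tsupport χ ⊆ Ioo (0 : ℝ) 1 := by
    rw [hχ, b.tsupport_normed_eq]
    intro x hx
    rw [Metric.mem_closedBall, Real.dist_eq] at hx
    have hx' : |x - 1 / 2| ≤ 1 / 4 := hx
    have := abs_le.mp hx'
    constructor <;> linarith [this.1, this.2]
  have hχ1 : ∫ z, χ z ∂ν = 1 := by
    rw [hν, setIntegral_eq_integral_of_forall_compl_eq_zero]
    · exact b.integral_normed
    · intro x hx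
      exact image_eq_zero_of_notMem_tsupport fun hx' => hx (hχt hx')
  obtain ⟨C, hC⟩ := hχs.continuous.bounded_above_of_compact_support hχc
  -- restriction of a functional on `W × ℝ` to `W`
  let Λ : ((W × ℝ) →L[ℝ] ℝ) →L[ℝ] (W →L[ℝ] ℝ) :=
    (ContinuousLinearMap.compL ℝ W (W × ℝ) ℝ).flip (ContinuousLinearMap.inl ℝ W ℝ)
  have hΛ : ∀ (A : (W × ℝ) →L[ℝ] ℝ) (v : W), Λ A v = A (v, 0) := by
    intro A v
    rfl
  set K : W × ℝ → (W →L[ℝ] ℝ) := fun x => χ x.2 • Λ (H x) with hKdef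
  have hH : MemLp H p (μ.prod ν) := by
    rw [← hprod]
    exact h.2.2
  have hK_meas : AEStronglyMeasurable K (μ.prod ν) :=
    ((hχs.continuous.comp continuous_snd).aestronglyMeasurable).smul
      (Λ.continuous.comp_aestronglyMeasurable hH.1)
  have hK_memLp : MemLp K p (μ.prod ν) := by
    refine MemLp.of_le_mul (c := C * ‖Λ‖) hH hK_meas (Eventually.of_forall fun x => ?_)
    rw [hKdef]
    simp only
    rw [norm_smul]
    calc ‖χ x.2‖ * ‖Λ (H x)‖ ≤ C * (‖Λ‖ * ‖H x‖) :=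
          mul_le_mul (hC _) (Λ.le_opNorm _) (norm_nonneg _) ((norm_nonneg _).trans (hC 0))
      _ = C * ‖Λ‖ * ‖H x‖ := by ring
  have hK_int : Integrable K (μ.prod ν) := hK_memLp.integrable hp
  -- the averaged derivative
  set H' : W → W →L[ℝ] ℝ := fun w => ∫ z, K (w, z) ∂ν with hH'def
  have hH'_meas : AEStronglyMeasurable H' μ := hK_meas.integral_prod_right'
  have hH'_memLp : MemLp H' p μ :=
    ⟨hH'_meas, lt_of_le_of_lt (descent_eLpNorm_integral_le hp hp' hK_meas) hK_memLp.2⟩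
  have hH'_int : Integrable H' μ := hH'_memLp.integrable hp
  -- the function itself
  have hu_meas : AEStronglyMeasurable u μ := hu.aestronglyMeasurable hD.measurableSet
  have hu_memLp : MemLp u p μ := by
    refine ⟨hu_meas, ?_⟩
    have hf' : AEStronglyMeasurable u (Measure.map Prod.fst (μ.prod ν)) := by
      rw [Measure.map_fst_prod]
      exact hu_meas.smul_measure _
    have hmap := eLpNorm_map_measure (p := p) hf' measurable_fst.aemeasurable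
    rw [Measure.map_fst_prod, eLpNorm_smul_measure_of_ne_top hp', measure_univ] at hmap
    simp only [ENNReal.one_rpow, one_smul] at hmap
    rw [hmap]
    have h2 := h.2.1.2
    rw [hprod] at h2
    exact h2
  have hH'_loc : LocallyIntegrableOn H' D :=
    MeasureTheory.IntegrableOn.locallyIntegrableOn hH'_int
  refine ⟨H', ⟨hu.locallyIntegrableOn hD.measurableSet, hH'_loc, ?_⟩, hu_memLp, hH'_memLp⟩
  -- the weak derivative identity
  intro φ hφ hφs hsub v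
  obtain ⟨Cφ, hCφ⟩ := hφ.continuous.bounded_above_of_compact_support hφs
  set Φ : W × ℝ → ℝ := fun x => φ x.1 * χ x.2 with hΦdef
  have hΦ : ContDiff ℝ ∞ Φ := (hφ.comp contDiff_fst).mul (hχs.comp contDiff_snd)
  have hΦzero : ∀ x : W × ℝ, x ∉ tsupport φ ×ˢ tsupport χ → Φ x = 0 := by
    intro x hx
    rw [hΦdef]
    simp only
    by_cases h1 : x.1 ∈ tsupport φ
    · have h2 : x.2 ∉ tsupport χ := fun h2 => hx ⟨h1, h2⟩
      rw [image_eq_zero_of_notMem_tsupport h2, mul_zero]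
    · rw [image_eq_zero_of_notMem_tsupport h1, zero_mul]
  have hΦsupp : HasCompactSupport Φ := HasCompactSupport.intro (hφs.prod hχc) hΦzero
  have hΦsub : tsupport Φ ⊆ D ×ˢ Ioo (0 : ℝ) 1 := by
    have h1 : tsupport Φ ⊆ tsupport φ ×ˢ tsupport χ := by
      refine closure_minimal ?_ ((isClosed_tsupport φ).prod (isClosed_tsupport χ))
      intro x hx
      by_contra hcon
      exact hx (hΦzero x hcon)
    exact h1.trans (Set.prod_mono hsub hχt)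
  have key := h.1.2.2 Φ hΦ hΦsupp hΦsub (v, 0)
  rw [hprod] at key
  beta_reduce at key
  have hfd : ∀ x : W × ℝ, fderiv ℝ Φ x (v, 0) = fderiv ℝ φ x.1 v * χ x.2 := by
    intro x
    have d1 : HasFDerivAt (fun y : W × ℝ => φ y.1)
        ((fderiv ℝ φ x.1).comp (ContinuousLinearMap.fst ℝ W ℝ)) x :=
      ((hφ.differentiable (by simp)) x.1).hasFDerivAt.comp x hasFDerivAt_fst
    have d2 : HasFDerivAt (fun y : W × ℝ => χ y.2)
        ((fderiv ℝ χ x.2).comp (ContinuousLinearMap.snd ℝ W ℝ)) x :=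
      ((hχs.differentiable (by simp)) x.2).hasFDerivAt.comp x hasFDerivAt_snd
    have d3 : HasFDerivAt Φ
        (φ x.1 • (fderiv ℝ χ x.2).comp (ContinuousLinearMap.snd ℝ W ℝ)
          + χ x.2 • (fderiv ℝ φ x.1).comp (ContinuousLinearMap.fst ℝ W ℝ)) x := d1.mul d2
    rw [d3.fderiv]
    simp [mul_comm]
  -- left side
  have hL : ∫ x, (fderiv ℝ Φ x (v, 0)) • u x.1 ∂μ.prod ν = ∫ w, (fderiv ℝ φ w v) • u w ∂μ := by
    have e : (fun x : W × ℝ => (fderiv ℝ Φ x (v, 0)) • u x.1)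
        = fun x : W × ℝ => (fderiv ℝ φ x.1 v * u x.1) * χ x.2 := by
      funext x
      rw [hfd x, smul_eq_mul]
      ring
    rw [e]
    calc ∫ x : W × ℝ, (fderiv ℝ φ x.1 v * u x.1) * χ x.2 ∂μ.prod ν
        = (∫ w, fderiv ℝ φ w v * u w ∂μ) * ∫ z, χ z ∂ν :=
          integral_prod_mul (fun w => fderiv ℝ φ w v * u w) χ
      _ = ∫ w, (fderiv ℝ φ w v) • u w ∂μ := by
          rw [hχ1, mul_one]
          rfl
  -- right side
  have hint1 : Integrable (fun x : W × ℝ => φ x.1 • K x) (μ.prod ν) :=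
    hK_int.bdd_smul Cφ (hφ.continuous.comp continuous_fst).aestronglyMeasurable
      (Eventually.of_forall fun x => hCφ x.1)
  have hint2 : Integrable (fun w : W => φ w • H' w) μ :=
    hH'_int.bdd_smul Cφ hφ.continuous.aestronglyMeasurable (Eventually.of_forall fun w => hCφ w)
  have hR : ∫ x, Φ x • H x (v, 0) ∂μ.prod ν = ∫ w, φ w • H' w v ∂μ := by
    have e : ∀ x : W × ℝ, Φ x • H x (v, 0) = (φ x.1 • K x) v := by
      intro x
      rw [hΦdef, hKdef]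
      simp only [smul_apply, smul_eq_mul, hΛ]
      ring
    simp only [e]
    rw [← ContinuousLinearMap.integral_apply hint1, integral_prod _ hint1]
    have e2 : ∀ w : W, ∫ z, φ (w, z).1 • K (w, z) ∂ν = φ w • H' w := by
      intro w
      rw [hH'def]
      simp only
      rw [integral_smul]
    simp only [e2]
    rw [ContinuousLinearMap.integral_apply hint2]
    rfl
  rw [hL, hR] at key
  exact key

end Vale.Agent.Lib.P073

end -- part Descent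

section -- part AffinePost

namespace Vale.Agent.Lib.P073
open MeasureTheory Filter Topology Set
open scoped ContDiff ENNReal

/-- A constant function has weak derivative zero. -/
theorem affinePost_isWeakDeriv_const {E : Type*} [NormedAddCommGroup E]
    [NormedSpace ℝ E] [FiniteDimensional ℝ E] [MeasureSpace E] [BorelSpace E]
    [(volume : Measure E).IsAddHaarMeasure] (Ω : Set E) (b₀ : E) :
    IsWeakDeriv Ω (fun _ : E => b₀) (fun _ : E => (0 : E →L[ℝ] E)) := by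
  have : CompleteSpace E := FiniteDimensional.complete ℝ E
  refine ⟨(locallyIntegrable_const b₀).locallyIntegrableOn Ω,
    (locallyIntegrable_const (0 : E →L[ℝ] E)).locallyIntegrableOn Ω, ?_⟩
  intro φ hφ hφs hsub v
  have h0 : ∫ x in Ω, fderiv ℝ φ x v = 0 := by
    rw [setIntegral_eq_integral_of_forall_compl_eq_zero]
    · exact integral_fderiv_test_eq_zero hφ hφs v
    · intro x hx
      have hx' : x ∉ tsupport φ := fun hmem => hx (hsub hmem)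
      rw [fderiv_of_notMem_tsupport ℝ hx']
      rfl
  have h1 : ∫ x in Ω, (fderiv ℝ φ x v) • b₀ = (∫ x in Ω, fderiv ℝ φ x v) • b₀ :=
    integral_smul_const (fun x => fderiv ℝ φ x v) b₀
  rw [h1, h0]
  simp

/-- Post-composition with the inverse affine map on the level of Sobolev data. -/
theorem affinePost_isSobolevWith {E : Type*} [NormedAddCommGroup E]
    [NormedSpace ℝ E] [FiniteDimensional ℝ E] [MeasureSpace E] [BorelSpace E]
    [(volume : Measure E).IsAddHaarMeasure]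
    {p : ℝ≥0∞} {Ω : Set E} (hΩv : volume Ω ≠ ⊤) {f : E → E}
    (L : E ≃L[ℝ] E) (b₀ : E) {G₁ : E → E →L[ℝ] E}
    (h : IsSobolevWith p Ω (fun x => L (f x) + b₀) G₁) :
    IsSobolevWith p Ω f (fun x => (L.symm : E →L[ℝ] E).comp (G₁ x)) := by
  have : CompleteSpace E := FiniteDimensional.complete ℝ E
  have : IsFiniteMeasure (volume.restrict Ω) :=
    ⟨by rw [Measure.restrict_apply_univ]; exact lt_top_iff_ne_top.mpr hΩv⟩
  obtain ⟨hw, hf, hG⟩ := h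
  have hfun : (fun z => (L.symm : E →L[ℝ] E) ((L (f z) + b₀) - b₀)) = f := by
    funext z
    simp
  have hGfun : (fun z => (L.symm : E →L[ℝ] E).comp (G₁ z - 0)) =
      fun z => (L.symm : E →L[ℝ] E).comp (G₁ z) := by
    funext z
    rw [sub_zero]
  refine ⟨?_, ?_, ?_⟩
  · have h1 := (hw.sub (affinePost_isWeakDeriv_const Ω b₀)).clm_comp (L.symm : E →L[ℝ] E)
    rw [hfun, hGfun] at h1
    exact h1
  · have h1 : MemLp (fun z => (L (f z) + b₀) - b₀) p (volume.restrict Ω) :=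
      hf.sub (memLp_const b₀)
    have h2 := (L.symm : E →L[ℝ] E).comp_memLp' h1
    have e : ((L.symm : E →L[ℝ] E) ∘ fun z => (L (f z) + b₀) - b₀) = f := hfun
    rw [e] at h2
    exact h2
  · exact (ContinuousLinearMap.compL ℝ E E E (L.symm : E →L[ℝ] E)).comp_memLp' hG

/-- Post-composition with the inverse affine map on the level of diffeomorphisms. -/
theorem affinePost_isSmoothDiffeo {E : Type*} [NormedAddCommGroup E] [NormedSpace ℝ E]
    {Ω Λ : Set E} {g : E → E} (L : E ≃L[ℝ] E) (b₀ : E) (h : IsSmoothDiffeo g Ω Λ) :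
    IsSmoothDiffeo (fun x => L.symm (g x - b₀)) Ω ((fun y => L y + b₀) ⁻¹' Λ) := by
  obtain ⟨h1, h2, k, hk1, hk2⟩ := h
  refine ⟨?_, ⟨?_, ?_, ?_⟩, fun y => k (L y + b₀), ?_, ?_⟩
  · exact (L.symm : E →L[ℝ] E).contDiff.comp_contDiffOn (h1.sub contDiffOn_const)
  · intro x hx
    show L (L.symm (g x - b₀)) + b₀ ∈ Λ
    rw [L.apply_symm_apply, sub_add_cancel]
    exact h2.mapsTo hx
  · intro x hx y hy hxy
    apply h2.injOn hx hy
    have := L.symm.injective hxy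
    exact sub_left_injective this
  · intro y hy
    obtain ⟨x, hx, hxy⟩ := h2.surjOn hy
    refine ⟨x, hx, ?_⟩
    show L.symm (g x - b₀) = y
    rw [hxy, add_sub_cancel_right, L.symm_apply_apply]
  · have hsm : ContDiff ℝ ∞ (fun y : E => L y + b₀) :=
      (L : E →L[ℝ] E).contDiff.add contDiff_const
    exact hk1.comp hsm.contDiffOn (fun y hy => hy)
  · intro x hx
    show k (L (L.symm (g x - b₀)) + b₀) = x
    rw [L.apply_symm_apply, sub_add_cancel]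
    exact hk2 x hx

theorem affinePost_fderiv {E : Type*} [NormedAddCommGroup E] [NormedSpace ℝ E]
    (L : E ≃L[ℝ] E) (b₀ : E) (g : E → E) :
    fderiv ℝ (fun x => L.symm (g x - b₀)) =
      fun x => (L.symm : E →L[ℝ] E).comp (fderiv ℝ g x) := by
  funext x
  have h1 : fderiv ℝ (⇑L.symm ∘ fun x => g x - b₀) x =
      (L.symm : E →L[ℝ] E).comp (fderiv ℝ (fun x => g x - b₀) x) :=
    L.symm.comp_fderiv
  have h2 : fderiv ℝ (fun x => g x - b₀) x = fderiv ℝ g x := fderiv_sub_const b₀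
  rw [h2] at h1
  exact h1

theorem IsDiffeoApproximable.of_comp_affine {E : Type*} [NormedAddCommGroup E]
    [NormedSpace ℝ E] [FiniteDimensional ℝ E] [MeasureSpace E] [BorelSpace E]
    [(volume : Measure E).IsAddHaarMeasure]
    {p : ℝ≥0∞} {Ω Λ : Set E} (hΩ : IsOpen Ω) (hΩv : volume Ω ≠ ⊤) {f : E → E}
    (L : E ≃L[ℝ] E) (b₀ : E)
    (h : IsDiffeoApproximable p Ω Λ (fun x => L (f x) + b₀)) :
    IsDiffeoApproximable p Ω ((fun y => L y + b₀) ⁻¹' Λ) f := by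
  have _ := hΩ
  have : CompleteSpace E := FiniteDimensional.complete ℝ E
  have : IsFiniteMeasure (volume.restrict Ω) :=
    ⟨by rw [Measure.restrict_apply_univ]; exact lt_top_iff_ne_top.mpr hΩv⟩
  obtain ⟨G₁, hS, F₁, hF, hlim⟩ := h
  refine ⟨fun x => (L.symm : E →L[ℝ] E).comp (G₁ x), affinePost_isSobolevWith hΩv L b₀ hS,
    fun j x => L.symm (F₁ j x - b₀), ?_, ?_⟩
  · intro j
    obtain ⟨h1, h2, h3⟩ := hF j
    refine ⟨affinePost_isSmoothDiffeo L b₀ h1, ?_, ?_⟩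
    · have h4 : MemLp (fun z => F₁ j z - b₀) p (volume.restrict Ω) := h2.sub (memLp_const b₀)
      exact (L.symm : E →L[ℝ] E).comp_memLp' h4
    · rw [affinePost_fderiv L b₀ (F₁ j)]
      exact (ContinuousLinearMap.compL ℝ E E E (L.symm : E →L[ℝ] E)).comp_memLp' h3
  · have hc : ENNReal.ofReal ‖(L.symm : E →L[ℝ] E)‖ ≠ ⊤ := ENNReal.ofReal_ne_top
    have hlim2 := ENNReal.Tendsto.const_mul hlim (Or.inr hc)
    rw [mul_zero] at hlim2
    refine tendsto_of_tendsto_of_tendsto_of_le_of_le tendsto_const_nhds hlim2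
      (fun j => bot_le) (fun j => ?_)
    show eLpNorm (fun x => L.symm (F₁ j x - b₀) - f x) p (volume.restrict Ω) +
        eLpNorm (fun x => fderiv ℝ (fun x => L.symm (F₁ j x - b₀)) x -
          (L.symm : E →L[ℝ] E).comp (G₁ x)) p (volume.restrict Ω) ≤
      ENNReal.ofReal ‖(L.symm : E →L[ℝ] E)‖ *
        (eLpNorm (fun x => F₁ j x - (L (f x) + b₀)) p (volume.restrict Ω) +
          eLpNorm (fun x => fderiv ℝ (F₁ j) x - G₁ x) p (volume.restrict Ω))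
    rw [mul_add]
    refine add_le_add ?_ ?_
    · refine eLpNorm_le_mul_eLpNorm_of_ae_le_mul (Eventually.of_forall fun x => ?_) p
      have e : L.symm (F₁ j x - b₀) - f x =
          (L.symm : E →L[ℝ] E) (F₁ j x - (L (f x) + b₀)) := by
        have : f x = L.symm (L (f x)) := (L.symm_apply_apply (f x)).symm
        rw [this]
        simp only [ContinuousLinearEquiv.coe_coe, L.apply_symm_apply]
        rw [← map_sub]
        congr 1
        abel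
      rw [e]
      exact (L.symm : E →L[ℝ] E).le_opNorm _
    · refine eLpNorm_le_mul_eLpNorm_of_ae_le_mul (Eventually.of_forall fun x => ?_) p
      rw [affinePost_fderiv L b₀ (F₁ j)]
      have e : (L.symm : E →L[ℝ] E).comp (fderiv ℝ (F₁ j) x) -
          (L.symm : E →L[ℝ] E).comp (G₁ x) =
          (L.symm : E →L[ℝ] E).comp (fderiv ℝ (F₁ j) x - G₁ x) := by
        rw [ContinuousLinearMap.comp_sub]
      rw [e]
      exact ContinuousLinearMap.opNorm_comp_le _ _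

end Vale.Agent.Lib.P073

end -- part AffinePost

section -- part FibreTop

namespace Vale.Agent.Lib.P073
open MeasureTheory Filter Topology Set
open scoped ContDiff ENNReal

/-- The image of the open unit interval under a continuous injective real function is open. -/
lemma fibreTop_isOpen_image {φ : ℝ → ℝ} (hc : ContinuousOn φ (Ioo (0 : ℝ) 1))
    (hi : InjOn φ (Ioo (0 : ℝ) 1)) : IsOpen (φ '' Ioo (0 : ℝ) 1) := by
  have hoc : OrdConnected (φ '' Ioo (0 : ℝ) 1) :=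
    (isPreconnected_Ioo.image φ hc).ordConnected
  rw [isOpen_iff_mem_nhds]
  rintro y ⟨z, hz, rfl⟩
  obtain ⟨z1, hz1a, hz1b⟩ := exists_between hz.1
  obtain ⟨z2, hz2a, hz2b⟩ := exists_between hz.2
  have hz1 : z1 ∈ Ioo (0 : ℝ) 1 := ⟨hz1a, hz1b.trans hz.2⟩
  have hz2 : z2 ∈ Ioo (0 : ℝ) 1 := ⟨hz.1.trans hz2a, hz2b⟩
  rcases hc.strictMonoOn_of_injOn_Ioo one_pos hi with hm | hm
  · have h1 : φ z1 < φ z := hm hz1 hz hz1b
    have h2 : φ z < φ z2 := hm hz hz2 hz2a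
    have hsub : Ioo (φ z1) (φ z2) ⊆ φ '' Ioo (0 : ℝ) 1 := fun y hy =>
      hoc.out (mem_image_of_mem φ hz1) (mem_image_of_mem φ hz2) ⟨hy.1.le, hy.2.le⟩
    exact Filter.mem_of_superset (Ioo_mem_nhds h1 h2) hsub
  · have h1 : φ z < φ z1 := hm hz1 hz hz1b
    have h2 : φ z2 < φ z := hm hz hz2 hz2a
    have hsub : Ioo (φ z2) (φ z1) ⊆ φ '' Ioo (0 : ℝ) 1 := fun y hy =>
      hoc.out (mem_image_of_mem φ hz2) (mem_image_of_mem φ hz1) ⟨hy.1.le, hy.2.le⟩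
    exact Filter.mem_of_superset (Ioo_mem_nhds h2 h1) hsub

theorem fibre_structure {W W' : Type*} [TopologicalSpace W] [TopologicalSpace W'] {S : Set W}
    {T : Set W'} (hS : IsPreconnected S) {g : W → W'} {c : W × ℝ → ℝ}
    (hcont : ContinuousOn (fun x : W × ℝ => (g x.1, c x)) (S ×ˢ Ioo (0 : ℝ) 1))
    (hbij : BijOn (fun x : W × ℝ => (g x.1, c x)) (S ×ˢ Ioo (0 : ℝ) 1) (T ×ˢ Ioo (0 : ℝ) 1)) :
    BijOn g S T ∧ ContinuousOn g S ∧ ContinuousOn c (S ×ˢ Ioo (0 : ℝ) 1) ∧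
    (∀ w ∈ S, (fun z => c (w, z)) '' Ioo (0 : ℝ) 1 = Ioo (0 : ℝ) 1) ∧
    ((∀ w ∈ S, StrictMonoOn (fun z => c (w, z)) (Ioo (0 : ℝ) 1)) ∨
      (∀ w ∈ S, StrictAntiOn (fun z => c (w, z)) (Ioo (0 : ℝ) 1))) := by
  have hhalf : (1 / 2 : ℝ) ∈ Ioo (0 : ℝ) 1 := by constructor <;> norm_num
  have hthird : (1 / 3 : ℝ) ∈ Ioo (0 : ℝ) 1 := by constructor <;> norm_num
  have htwo : (2 / 3 : ℝ) ∈ Ioo (0 : ℝ) 1 := by constructor <;> norm_num
  -- continuity of `c`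
  have hc : ContinuousOn c (S ×ˢ Ioo (0 : ℝ) 1) := hcont.snd
  -- the sections
  have hsec : ∀ z ∈ Ioo (0 : ℝ) 1, ∀ w ∈ S, (w, z) ∈ S ×ˢ Ioo (0 : ℝ) 1 :=
    fun z hz w hw => ⟨hw, hz⟩
  have hcw : ∀ z ∈ Ioo (0 : ℝ) 1, ContinuousOn (fun w => c (w, z)) S := fun z hz =>
    hc.comp (Continuous.prodMk_left z).continuousOn (fun w hw => hsec z hz w hw)
  have hg : ContinuousOn g S := by
    have h1 : ContinuousOn (fun w => ((fun x : W × ℝ => (g x.1, c x)) (w, (1 / 2 : ℝ))).1) S :=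
      (hcont.comp (Continuous.prodMk_left (1 / 2 : ℝ)).continuousOn
        (fun w hw => hsec _ hhalf w hw)).fst
    exact h1
  -- fibre maps
  have hfc : ∀ w ∈ S, ContinuousOn (fun z => c (w, z)) (Ioo (0 : ℝ) 1) := fun w hw =>
    hc.comp (Continuous.prodMk_right w).continuousOn (fun z hz => hsec z hz w hw)
  have hfi : ∀ w ∈ S, InjOn (fun z => c (w, z)) (Ioo (0 : ℝ) 1) := by
    intro w hw z1 hz1 z2 hz2 h
    have h' : (fun x : W × ℝ => (g x.1, c x)) (w, z1) = (fun x : W × ℝ => (g x.1, c x)) (w, z2) := by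
      simp only [Prod.mk.injEq, true_and]
      exact h
    exact (Prod.mk.injEq _ _ _ _ ▸ hbij.injOn (hsec z1 hz1 w hw) (hsec z2 hz2 w hw) h').2
  have hmaps : ∀ w ∈ S, ∀ z ∈ Ioo (0 : ℝ) 1, g w ∈ T ∧ c (w, z) ∈ Ioo (0 : ℝ) 1 :=
    fun w hw z hz => hbij.mapsTo (hsec z hz w hw)
  have hopen : ∀ w ∈ S, IsOpen ((fun z => c (w, z)) '' Ioo (0 : ℝ) 1) := fun w hw =>
    fibreTop_isOpen_image (hfc w hw) (hfi w hw)
  -- injectivity of `g`
  have hginj : InjOn g S := by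
    intro w1 hw1 w2 hw2 hgw
    by_contra hne
    let u : Set ℝ := (fun z => c (w1, z)) '' Ioo (0 : ℝ) 1
    let v : Set ℝ := ⋃ w ∈ {w | w ∈ S ∧ g w = g w1 ∧ w ≠ w1}, (fun z => c (w, z)) '' Ioo (0 : ℝ) 1
    have hu : IsOpen u := hopen w1 hw1
    have hv : IsOpen v := isOpen_biUnion (fun w hw => hopen w hw.1)
    have hcov : Ioo (0 : ℝ) 1 ⊆ u ∪ v := by
      intro y hy
      have hmem : (g w1, y) ∈ T ×ˢ Ioo (0 : ℝ) 1 := ⟨(hmaps w1 hw1 _ hhalf).1, hy⟩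
      obtain ⟨⟨w, z⟩, ⟨hwS, hzI⟩, hF⟩ := hbij.surjOn hmem
      simp only [Prod.mk.injEq] at hF
      by_cases hw : w = w1
      · left
        exact ⟨z, hzI, by rw [← hw]; exact hF.2⟩
      · right
        exact mem_biUnion (show w ∈ {w | w ∈ S ∧ g w = g w1 ∧ w ≠ w1} from ⟨hwS, hF.1, hw⟩)
          ⟨z, hzI, hF.2⟩
    have hne1 : (Ioo (0 : ℝ) 1 ∩ u).Nonempty :=
      ⟨c (w1, 1 / 2), (hmaps w1 hw1 _ hhalf).2, ⟨1 / 2, hhalf, rfl⟩⟩
    have hne2 : (Ioo (0 : ℝ) 1 ∩ v).Nonempty :=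
      ⟨c (w2, 1 / 2), (hmaps w2 hw2 _ hhalf).2,
        mem_biUnion (show w2 ∈ {w | w ∈ S ∧ g w = g w1 ∧ w ≠ w1} from
          ⟨hw2, hgw.symm, fun h => hne h.symm⟩) ⟨1 / 2, hhalf, rfl⟩⟩
    obtain ⟨y, -, ⟨z1, hz1, hy1⟩, hyv⟩ := isPreconnected_Ioo u v hu hv hcov hne1 hne2
    rw [mem_iUnion₂] at hyv
    obtain ⟨w, ⟨hwS, hwg, hwne⟩, z, hz, hy2⟩ := hyv
    have h' : (fun x : W × ℝ => (g x.1, c x)) (w, z) = (fun x : W × ℝ => (g x.1, c x)) (w1, z1) := by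
      simp only [Prod.mk.injEq]
      exact ⟨hwg, hy2.trans hy1.symm⟩
    have h'' := hbij.injOn (hsec z hz w hwS) (hsec z1 hz1 w1 hw1) h'
    exact hwne (Prod.mk.injEq _ _ _ _ ▸ h'').1
  -- fibre images
  have himg : ∀ w ∈ S, (fun z => c (w, z)) '' Ioo (0 : ℝ) 1 = Ioo (0 : ℝ) 1 := by
    intro w hw
    apply Subset.antisymm
    · rintro y ⟨z, hz, rfl⟩
      exact (hmaps w hw z hz).2
    · intro y hy
      have hmem : (g w, y) ∈ T ×ˢ Ioo (0 : ℝ) 1 := ⟨(hmaps w hw _ hhalf).1, hy⟩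
      obtain ⟨⟨w', z⟩, ⟨hwS, hzI⟩, hF⟩ := hbij.surjOn hmem
      simp only [Prod.mk.injEq] at hF
      have hww : w' = w := hginj hwS hw hF.1
      exact ⟨z, hzI, by rw [← hww]; exact hF.2⟩
  have hgbij : BijOn g S T := by
    refine ⟨fun w hw => (hmaps w hw _ hhalf).1, hginj, ?_⟩
    intro t ht
    have hmem : (t, (1 / 2 : ℝ)) ∈ T ×ˢ Ioo (0 : ℝ) 1 := ⟨ht, hhalf⟩
    obtain ⟨⟨w, z⟩, ⟨hwS, -⟩, hF⟩ := hbij.surjOn hmem
    simp only [Prod.mk.injEq] at hF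
    exact ⟨w, hwS, hF.1⟩
  refine ⟨hgbij, hg, hc, himg, ?_⟩
  -- orientation
  have hlt : (1 / 3 : ℝ) < 2 / 3 := by norm_num
  have hmono : ∀ w ∈ S, StrictMonoOn (fun z => c (w, z)) (Ioo (0 : ℝ) 1) ∨
      StrictAntiOn (fun z => c (w, z)) (Ioo (0 : ℝ) 1) := fun w hw =>
    (hfc w hw).strictMonoOn_of_injOn_Ioo one_pos (hfi w hw)
  have hh : ContinuousOn (fun w => c (w, 2 / 3) - c (w, 1 / 3)) S :=
    (hcw _ htwo).sub (hcw _ hthird)
  have hne0 : ∀ w ∈ S, c (w, 2 / 3) - c (w, 1 / 3) ≠ 0 := by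
    intro w hw h0
    have := hfi w hw htwo hthird (sub_eq_zero.1 h0)
    linarith
  have hsign : ∀ w1 ∈ S, ∀ w2 ∈ S, c (w1, 2 / 3) - c (w1, 1 / 3) < 0 →
      0 < c (w2, 2 / 3) - c (w2, 1 / 3) → False := by
    intro w1 hw1 w2 hw2 h1 h2
    obtain ⟨w, hw, h0⟩ := hS.intermediate_value hw1 hw2 hh ⟨h1.le, h2.le⟩
    exact hne0 w hw h0
  by_cases hpos : ∀ w ∈ S, 0 < c (w, 2 / 3) - c (w, 1 / 3)
  · left
    intro w hw
    rcases hmono w hw with hm | hm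
    · exact hm
    · have := hm hthird htwo hlt
      have := hpos w hw
      simp only at *
      linarith
  · right
    simp only [not_forall] at hpos
    obtain ⟨w0, hw0, hw0'⟩ := hpos
    have hw0neg : c (w0, 2 / 3) - c (w0, 1 / 3) < 0 :=
      lt_of_le_of_ne (not_lt.1 hw0') (hne0 w0 hw0)
    intro w hw
    rcases hmono w hw with hm | hm
    · have h1 := hm hthird htwo hlt
      simp only at h1
      exact (hsign w0 hw0 w hw hw0neg (by linarith)).elim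
    · exact hm

end Vale.Agent.Lib.P073

end -- part FibreTop

section -- part FibreI

/-!
# P073: triangular Sobolev homeomorphisms of the cube are diffeomorphically approximable
-/

set_option linter.unusedSectionVars false

namespace Vale.Agent.Lib.P073

open MeasureTheory Filter Topology Set
open scoped ContDiff ENNReal

section congr

variable {E : Type*} [NormedAddCommGroup E] [NormedSpace ℝ E] [MeasureSpace E] [BorelSpace E]
  {F : Type*} [NormedAddCommGroup F] [NormedSpace ℝ F] [CompleteSpace F]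
  {F' : Type*} [NormedAddCommGroup F'] [NormedSpace ℝ F'] [CompleteSpace F']

theorem IsWeakDeriv.congr_left {Ω : Set E} (hΩ : IsOpen Ω) {u u' : E → F}
    {H : E → E →L[ℝ] F} (h : IsWeakDeriv Ω u H) (heq : ∀ x ∈ Ω, u x = u' x) :
    IsWeakDeriv Ω u' H := by
  refine ⟨?_, h.2.1, ?_⟩
  · intro x hx
    obtain ⟨t, ht, hint⟩ := h.1 x hx
    rw [hΩ.nhdsWithin_eq hx] at ht
    obtain ⟨V, hVt, hVo, hxV⟩ := mem_nhds_iff.1 ht
    refine ⟨V ∩ Ω, ?_, ?_⟩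
    · rw [hΩ.nhdsWithin_eq hx]
      exact (hVo.inter hΩ).mem_nhds ⟨hxV, hx⟩
    · have h1 : IntegrableOn u (V ∩ Ω) := hint.mono_set (inter_subset_left.trans hVt)
      exact h1.congr_fun (fun y hy => heq y hy.2) (hVo.inter hΩ).measurableSet
  · intro φ hφ hφs hsub v
    rw [← h.2.2 φ hφ hφs hsub v]
    refine setIntegral_congr_fun hΩ.measurableSet fun x hx => ?_
    show (fderiv ℝ φ x v) • u' x = (fderiv ℝ φ x v) • u x
    rw [heq x hx]

theorem IsSobolevWith.congr_left {p : ℝ≥0∞} {Ω : Set E} (hΩ : IsOpen Ω) {u u' : E → F}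
    {H : E → E →L[ℝ] F} (h : IsSobolevWith p Ω u H) (heq : ∀ x ∈ Ω, u x = u' x) :
    IsSobolevWith p Ω u' H :=
  ⟨h.1.congr_left hΩ heq,
    h.2.1.ae_eq (ae_restrict_of_forall_mem hΩ.measurableSet heq), h.2.2⟩

theorem IsSobolevWith.clm_comp {p : ℝ≥0∞} {Ω : Set E} {u : E → F} {H : E → E →L[ℝ] F}
    (L : F →L[ℝ] F') (h : IsSobolevWith p Ω u H) :
    IsSobolevWith p Ω (fun x => L (u x)) (fun x => L.comp (H x)) :=
  ⟨h.1.clm_comp L, L.comp_memLp' h.2.1,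
    (ContinuousLinearMap.compL ℝ E F F' L).comp_memLp' h.2.2⟩

end congr

section congr2

variable {E : Type*} [NormedAddCommGroup E] [NormedSpace ℝ E] [MeasureSpace E] [BorelSpace E]
  [CompleteSpace E]

theorem IsDiffeoApproximable.congr {p : ℝ≥0∞} {Ω Λ : Set E} (hΩ : IsOpen Ω) {f f' : E → E}
    (h : IsDiffeoApproximable p Ω Λ f) (heq : ∀ x ∈ Ω, f x = f' x) :
    IsDiffeoApproximable p Ω Λ f' := by
  obtain ⟨G, hS, Fseq, hF, hlim⟩ := h
  refine ⟨G, hS.congr_left hΩ heq, Fseq, hF, ?_⟩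
  have e : ∀ j, eLpNorm (fun x => Fseq j x - f' x) p (volume.restrict Ω)
      = eLpNorm (fun x => Fseq j x - f x) p (volume.restrict Ω) := by
    intro j
    refine eLpNorm_congr_ae ?_
    filter_upwards [ae_restrict_mem hΩ.measurableSet] with x hx
    rw [heq x hx]
  simpa only [e] using hlim

end congr2

section flip

variable {W : Type*} [NormedAddCommGroup W] [NormedSpace ℝ W] [FiniteDimensional ℝ W]
  [MeasureSpace W] [BorelSpace W] [(volume : Measure W).IsAddHaarMeasure]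

attribute [local instance] prodVol_isAddHaar

theorem IsSobolevWith.one_sub {p : ℝ≥0∞} {Ω : Set (W × ℝ)} (hΩv : volume Ω ≠ ⊤)
    {u : W × ℝ → ℝ} {H : W × ℝ → (W × ℝ) →L[ℝ] ℝ} (h : IsSobolevWith p Ω u H) :
    IsSobolevWith p Ω (fun x => 1 - u x) (fun x => - H x) := by
  have hfin : IsFiniteMeasure ((volume : Measure (W × ℝ)).restrict Ω) :=
    isFiniteMeasure_restrict_of_ne_top hΩv
  have hc : IsWeakDeriv Ω (fun _ : W × ℝ => (1 : ℝ)) (fderiv ℝ (fun _ : W × ℝ => (1 : ℝ))) :=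
    isWeakDeriv_of_contDiff Ω contDiff_const
  have hsub := hc.sub h.1
  have hneg := IsWeakDeriv.neg h.1
  refine ⟨⟨hsub.1, hneg.2.1, ?_⟩, (memLp_const (1 : ℝ)).sub h.2.1, h.2.2.neg⟩
  intro φ hφ hφs hsub' v
  have := hsub.2.2 φ hφ hφs hsub' v
  simpa using this

theorem FibreHomeo.of_anti {D : Set W} {c : W × ℝ → ℝ}
    (hcont : ContinuousOn c (D ×ˢ Ioo (0 : ℝ) 1))
    (hanti : ∀ w ∈ D, StrictAntiOn (fun z => c (w, z)) (Ioo (0 : ℝ) 1))
    (hsurj : ∀ w ∈ D, (fun z => c (w, z)) '' Ioo (0 : ℝ) 1 = Ioo (0 : ℝ) 1) :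
    FibreHomeo D (fun x => 1 - c x) := by
  refine ⟨continuousOn_const.sub hcont, ?_, ?_⟩
  · intro w hw z₁ hz₁ z₂ hz₂ h12
    have := hanti w hw hz₁ hz₂ h12
    show 1 - c (w, z₁) < 1 - c (w, z₂)
    linarith
  · intro w hw
    have e : (fun z => 1 - c (w, z)) '' Ioo (0 : ℝ) 1
        = (fun t : ℝ => 1 - t) '' ((fun z => c (w, z)) '' Ioo (0 : ℝ) 1) := by
      rw [image_image]
    rw [e, hsurj w hw, image_const_sub_Ioo]
    simp

/-- The fibred theorem for fibre maps of either orientation. -/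
theorem isDiffeoApproximable_fibred' {p : ℝ≥0∞} (hp : 1 ≤ p) (hp' : p ≠ ⊤) {D V : Set W}
    (hD : IsOpen D) (hDb : Bornology.IsBounded D) (hDc : Convex ℝ D) (hDn : D.Nonempty)
    {g : W → W} (hg : IsDiffeoApproximable p D V g) {c : W × ℝ → ℝ}
    {Gc : W × ℝ → (W × ℝ) →L[ℝ] ℝ} (hcont : ContinuousOn c (D ×ˢ Ioo (0 : ℝ) 1))
    (hsurj : ∀ w ∈ D, (fun z => c (w, z)) '' Ioo (0 : ℝ) 1 = Ioo (0 : ℝ) 1)
    (hor : (∀ w ∈ D, StrictMonoOn (fun z => c (w, z)) (Ioo (0 : ℝ) 1)) ∨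
      (∀ w ∈ D, StrictAntiOn (fun z => c (w, z)) (Ioo (0 : ℝ) 1)))
    (hS : IsSobolevWith p (D ×ˢ Ioo (0 : ℝ) 1) c Gc) :
    IsDiffeoApproximable p (D ×ˢ Ioo (0 : ℝ) 1) (V ×ˢ Ioo (0 : ℝ) 1)
      (fun x : W × ℝ => (g x.1, c x)) := by
  rcases hor with hmono | hanti
  · exact isDiffeoApproximable_fibred hp hp' hD hDb hDc hDn hg ⟨hcont, hmono, hsurj⟩ hS
  · have hQv : volume (D ×ˢ Ioo (0 : ℝ) 1) ≠ ⊤ := volume_cyl_ne_top hDb.measure_lt_top.ne
    have h1 := isDiffeoApproximable_fibred hp hp' hD hDb hDc hDn hg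
      (FibreHomeo.of_anti hcont hanti hsurj) (hS.one_sub hQv)
    set L : (W × ℝ) ≃L[ℝ] (W × ℝ) :=
      (ContinuousLinearEquiv.refl ℝ W).prodCongr (ContinuousLinearEquiv.neg ℝ) with hL
    have e : (fun x : W × ℝ => (g x.1, 1 - c x))
        = fun x => L (g x.1, c x) + ((0 : W), (1 : ℝ)) := by
      funext x
      rw [hL]
      ext
      · simp
      · simp
        ring
    rw [e] at h1
    have h2 := IsDiffeoApproximable.of_comp_affine (hD.prod isOpen_Ioo) hQv L ((0 : W), (1 : ℝ))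
      h1
    have e2 : (fun y : W × ℝ => L y + ((0 : W), (1 : ℝ))) ⁻¹' (V ×ˢ Ioo (0 : ℝ) 1)
        = V ×ˢ Ioo (0 : ℝ) 1 := by
      ext y
      rw [hL]
      simp only [mem_preimage, mem_prod, mem_Ioo]
      constructor
      · rintro ⟨h1, h2, h3⟩
        simp at h1 h2 h3
        exact ⟨h1, by linarith, by linarith⟩
      · rintro ⟨h1, h2, h3⟩
        simp
        exact ⟨h1, by linarith, by linarith⟩
    rwa [e2] at h2

end flip

section triangular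

/-- **Triangular Sobolev homeomorphisms of the unit cube.** A continuous bijection `f` of the
open unit cube of the space ℝ × ℝ × ℝ, bracketed to the left, onto itself which lies in `W^{1,p}`, `1 ≤ p < ∞`, and is
triangular (its first component depends only on the first variable, its second component only
on the first two variables) is diffeomorphically approximable in `W^{1,p}`. -/
theorem isDiffeoApproximable_triangular {p : ℝ≥0∞} (hp : 1 ≤ p) (hp' : p ≠ ⊤)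
    {f : (ℝ × ℝ) × ℝ → (ℝ × ℝ) × ℝ}
    {G : (ℝ × ℝ) × ℝ → ((ℝ × ℝ) × ℝ) →L[ℝ] ((ℝ × ℝ) × ℝ)}
    (hcont : ContinuousOn f ((Ioo (0 : ℝ) 1 ×ˢ Ioo (0 : ℝ) 1) ×ˢ Ioo (0 : ℝ) 1))
    (hbij : BijOn f ((Ioo (0 : ℝ) 1 ×ˢ Ioo (0 : ℝ) 1) ×ˢ Ioo (0 : ℝ) 1)
      ((Ioo (0 : ℝ) 1 ×ˢ Ioo (0 : ℝ) 1) ×ˢ Ioo (0 : ℝ) 1))
    (hS : IsSobolevWith p ((Ioo (0 : ℝ) 1 ×ˢ Ioo (0 : ℝ) 1) ×ˢ Ioo (0 : ℝ) 1) f G)
    (h1 : ∀ x ∈ (Ioo (0 : ℝ) 1 ×ˢ Ioo (0 : ℝ) 1) ×ˢ Ioo (0 : ℝ) 1,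
      ∀ x' ∈ (Ioo (0 : ℝ) 1 ×ˢ Ioo (0 : ℝ) 1) ×ˢ Ioo (0 : ℝ) 1,
        x.1.1 = x'.1.1 → (f x).1.1 = (f x').1.1)
    (h2 : ∀ x ∈ (Ioo (0 : ℝ) 1 ×ˢ Ioo (0 : ℝ) 1) ×ˢ Ioo (0 : ℝ) 1,
      ∀ x' ∈ (Ioo (0 : ℝ) 1 ×ˢ Ioo (0 : ℝ) 1) ×ˢ Ioo (0 : ℝ) 1,
        x.1 = x'.1 → (f x).1.2 = (f x').1.2) :
    IsDiffeoApproximable p ((Ioo (0 : ℝ) 1 ×ˢ Ioo (0 : ℝ) 1) ×ˢ Ioo (0 : ℝ) 1)
      ((Ioo (0 : ℝ) 1 ×ˢ Ioo (0 : ℝ) 1) ×ˢ Ioo (0 : ℝ) 1) f := by
  have hI : (1 / 2 : ℝ) ∈ Ioo (0 : ℝ) 1 := ⟨by norm_num, by norm_num⟩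
  have hSo : IsOpen (Ioo (0 : ℝ) 1 ×ˢ Ioo (0 : ℝ) 1) := isOpen_Ioo.prod isOpen_Ioo
  have hQo : IsOpen ((Ioo (0 : ℝ) 1 ×ˢ Ioo (0 : ℝ) 1) ×ˢ Ioo (0 : ℝ) 1) := hSo.prod isOpen_Ioo
  have hSb : Bornology.IsBounded (Ioo (0 : ℝ) 1 ×ˢ Ioo (0 : ℝ) 1) :=
    (Metric.isBounded_Ioo 0 1).prod (Metric.isBounded_Ioo 0 1)
  have hne : (Ioo (0 : ℝ) 1).Nonempty := ⟨1 / 2, hI⟩
  -- the components
  set a : ℝ → ℝ := fun s => (f ((s, 1 / 2), 1 / 2)).1.1 with ha
  set b : ℝ × ℝ → ℝ := fun w => (f (w, 1 / 2)).1.2 with hb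
  set c : (ℝ × ℝ) × ℝ → ℝ := fun x => (f x).2 with hc
  have hf_eq : ∀ x ∈ (Ioo (0 : ℝ) 1 ×ˢ Ioo (0 : ℝ) 1) ×ˢ Ioo (0 : ℝ) 1,
      f x = ((a x.1.1, b x.1), c x) := by
    intro x hx
    have m1 : ((x.1.1, (1 / 2 : ℝ)), (1 / 2 : ℝ))
        ∈ (Ioo (0 : ℝ) 1 ×ˢ Ioo (0 : ℝ) 1) ×ˢ Ioo (0 : ℝ) 1 := ⟨⟨hx.1.1, hI⟩, hI⟩
    have m2 : (x.1, (1 / 2 : ℝ)) ∈ (Ioo (0 : ℝ) 1 ×ˢ Ioo (0 : ℝ) 1) ×ˢ Ioo (0 : ℝ) 1 :=
      ⟨hx.1, hI⟩
    exact Prod.ext (Prod.ext (h1 x hx _ m1 rfl) (h2 x hx _ m2 rfl)) rfl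
  -- topology of the two levels
  have hcont' : ContinuousOn (fun x : (ℝ × ℝ) × ℝ => ((a x.1.1, b x.1), c x))
      ((Ioo (0 : ℝ) 1 ×ˢ Ioo (0 : ℝ) 1) ×ˢ Ioo (0 : ℝ) 1) :=
    hcont.congr fun x hx => (hf_eq x hx).symm
  have hbij' : BijOn (fun x : (ℝ × ℝ) × ℝ => ((a x.1.1, b x.1), c x))
      ((Ioo (0 : ℝ) 1 ×ˢ Ioo (0 : ℝ) 1) ×ˢ Ioo (0 : ℝ) 1)
      ((Ioo (0 : ℝ) 1 ×ˢ Ioo (0 : ℝ) 1) ×ˢ Ioo (0 : ℝ) 1) :=
    hbij.congr fun x hx => hf_eq x hx
  obtain ⟨hg₂bij, hg₂cont, hccont, hcsurj, hcor⟩ :=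
    fibre_structure (g := fun w : ℝ × ℝ => (a w.1, b w)) (c := c)
      (isPreconnected_Ioo.prod isPreconnected_Ioo) hcont' hbij'
  obtain ⟨habij, hacont, hbcont, hbsurj, hbor⟩ :=
    fibre_structure (g := a) (c := b) isPreconnected_Ioo hg₂cont hg₂bij
  -- Sobolev regularity of the components
  have hcS : IsSobolevWith p ((Ioo (0 : ℝ) 1 ×ˢ Ioo (0 : ℝ) 1) ×ˢ Ioo (0 : ℝ) 1) c
      (fun x => (ContinuousLinearMap.snd ℝ (ℝ × ℝ) ℝ).comp (G x)) :=
    hS.clm_comp (ContinuousLinearMap.snd ℝ (ℝ × ℝ) ℝ)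
  have hbS' := (hS.clm_comp ((ContinuousLinearMap.snd ℝ ℝ ℝ).comp
    (ContinuousLinearMap.fst ℝ (ℝ × ℝ) ℝ))).congr_left hQo
      (u' := fun x : (ℝ × ℝ) × ℝ => b x.1) (fun x hx => by rw [hf_eq x hx]; rfl)
  obtain ⟨B, hbS⟩ := exists_isSobolevWith_of_comp_fst hp hp' hSo hSb.measure_lt_top.ne hbcont
    hbS'
  have haS'' := (hS.clm_comp ((ContinuousLinearMap.fst ℝ ℝ ℝ).comp
    (ContinuousLinearMap.fst ℝ (ℝ × ℝ) ℝ))).congr_left hQo
      (u' := fun x : (ℝ × ℝ) × ℝ => a x.1.1) (fun x hx => by rw [hf_eq x hx]; rfl)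
  have hacont' : ContinuousOn (fun w : ℝ × ℝ => a w.1) (Ioo (0 : ℝ) 1 ×ˢ Ioo (0 : ℝ) 1) :=
    hacont.comp continuous_fst.continuousOn fun w hw => hw.1
  obtain ⟨A', haS'⟩ := exists_isSobolevWith_of_comp_fst (u := fun w : ℝ × ℝ => a w.1) hp hp' hSo
    hSb.measure_lt_top.ne hacont' haS''
  obtain ⟨A, haS⟩ := exists_isSobolevWith_of_comp_fst (u := a) hp hp' isOpen_Ioo
    measure_Ioo_lt_top.ne hacont haS'
  -- approximation, level by level
  have k1 : IsDiffeoApproximable p (Ioo (0 : ℝ) 1) (Ioo (0 : ℝ) 1) a :=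
    isDiffeoApproximable_interval hp hp' one_pos hacont habij haS
  have k2 : IsDiffeoApproximable p (Ioo (0 : ℝ) 1 ×ˢ Ioo (0 : ℝ) 1)
      (Ioo (0 : ℝ) 1 ×ˢ Ioo (0 : ℝ) 1) (fun w : ℝ × ℝ => (a w.1, b w)) :=
    isDiffeoApproximable_fibred' hp hp' isOpen_Ioo (Metric.isBounded_Ioo 0 1) (convex_Ioo 0 1)
      hne k1 hbcont hbsurj hbor hbS
  have k3 : IsDiffeoApproximable p ((Ioo (0 : ℝ) 1 ×ˢ Ioo (0 : ℝ) 1) ×ˢ Ioo (0 : ℝ) 1)
      ((Ioo (0 : ℝ) 1 ×ˢ Ioo (0 : ℝ) 1) ×ˢ Ioo (0 : ℝ) 1)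
      (fun x : (ℝ × ℝ) × ℝ => ((a x.1.1, b x.1), c x)) :=
    isDiffeoApproximable_fibred' (g := fun w : ℝ × ℝ => (a w.1, b w)) hp hp' hSo hSb
      ((convex_Ioo 0 1).prod (convex_Ioo 0 1)) (hne.prod hne) k2 hccont hcsurj hcor hcS
  exact k3.congr hQo fun x hx => (hf_eq x hx).symm

end triangular

end Vale.Agent.Lib.P073

end -- part FibreI

section -- part FibreJ

/-!
# P073: fibre-preserving Sobolev homeomorphisms of cylinders over a planar base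
-/

set_option linter.unusedSectionVars false

namespace Vale.Agent.Lib.P073

open MeasureTheory Filter Topology Set
open scoped ContDiff ENNReal

section pair

variable {E : Type*} [NormedAddCommGroup E] [NormedSpace ℝ E] [MeasureSpace E] [BorelSpace E]
  {F₁ : Type*} [NormedAddCommGroup F₁] [NormedSpace ℝ F₁] [CompleteSpace F₁]
  {F₂ : Type*} [NormedAddCommGroup F₂] [NormedSpace ℝ F₂] [CompleteSpace F₂]

/-- A pair of Sobolev functions is a Sobolev function with values in the product. -/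
theorem IsSobolevWith.prodMk {p : ℝ≥0∞} {Ω : Set E} {u₁ : E → F₁} {u₂ : E → F₂}
    {H₁ : E → E →L[ℝ] F₁} {H₂ : E → E →L[ℝ] F₂}
    (h₁ : IsSobolevWith p Ω u₁ H₁) (h₂ : IsSobolevWith p Ω u₂ H₂) :
    IsSobolevWith p Ω (fun x => (u₁ x, u₂ x)) (fun x => (H₁ x).prod (H₂ x)) := by
  have a₁ := h₁.clm_comp (ContinuousLinearMap.inl ℝ F₁ F₂)
  have a₂ := h₂.clm_comp (ContinuousLinearMap.inr ℝ F₁ F₂)
  have e₁ : (fun x => (u₁ x, u₂ x))
      = fun x => ContinuousLinearMap.inl ℝ F₁ F₂ (u₁ x) + ContinuousLinearMap.inr ℝ F₁ F₂ (u₂ x) := by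
    funext x
    simp
  have e₂ : (fun x => (H₁ x).prod (H₂ x))
      = fun x => (ContinuousLinearMap.inl ℝ F₁ F₂).comp (H₁ x)
        + (ContinuousLinearMap.inr ℝ F₁ F₂).comp (H₂ x) := by
    funext x
    ext v <;> simp
  rw [e₁, e₂]
  refine ⟨IsWeakDeriv.add a₁.1 a₂.1, a₁.2.1.add a₂.2.1, ?_⟩
  have hsum := MemLp.sub a₁.2.2 (MemLp.neg a₂.2.2)
  have e₃ : ((fun x => (ContinuousLinearMap.inl ℝ F₁ F₂).comp (H₁ x))
      - -fun x => (ContinuousLinearMap.inr ℝ F₁ F₂).comp (H₂ x))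
      = fun x => (ContinuousLinearMap.inl ℝ F₁ F₂).comp (H₁ x)
        + (ContinuousLinearMap.inr ℝ F₁ F₂).comp (H₂ x) := by
    funext x
    simp
  rw [e₃] at hsum
  exact hsum

end pair

section fibrewise

/-- **Fibre-preserving Sobolev homeomorphisms over a planar base.**  Let `D` be a bounded convex
nonempty open subset of the plane and `V` a subset of the plane, and suppose that every
continuous bijection of `D` onto `V` lying in `W^{1,p}(D)` is diffeomorphically approximable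
(the planar theorem).  Then every continuous bijection `f` of the cylinder `D × (0,1)` onto
`V × (0,1)` which lies in `W^{1,p}` and maps vertical segments into vertical segments is
diffeomorphically approximable in `W^{1,p}`. -/
theorem isDiffeoApproximable_of_fibre_preserving {p : ℝ≥0∞} (hp : 1 ≤ p) (hp' : p ≠ ⊤)
    {D V : Set (ℝ × ℝ)} (hD : IsOpen D) (hDb : Bornology.IsBounded D) (hDc : Convex ℝ D)
    (hDn : D.Nonempty)
    (hPlanar : ∀ (g : ℝ × ℝ → ℝ × ℝ) (Gg : ℝ × ℝ → (ℝ × ℝ) →L[ℝ] (ℝ × ℝ)),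
      ContinuousOn g D → BijOn g D V → IsSobolevWith p D g Gg → IsDiffeoApproximable p D V g)
    {f : (ℝ × ℝ) × ℝ → (ℝ × ℝ) × ℝ}
    {G : (ℝ × ℝ) × ℝ → ((ℝ × ℝ) × ℝ) →L[ℝ] ((ℝ × ℝ) × ℝ)}
    (hcont : ContinuousOn f (D ×ˢ Ioo (0 : ℝ) 1))
    (hbij : BijOn f (D ×ˢ Ioo (0 : ℝ) 1) (V ×ˢ Ioo (0 : ℝ) 1))
    (hS : IsSobolevWith p (D ×ˢ Ioo (0 : ℝ) 1) f G)
    (hfib : ∀ x ∈ D ×ˢ Ioo (0 : ℝ) 1, ∀ x' ∈ D ×ˢ Ioo (0 : ℝ) 1,
      x.1 = x'.1 → (f x).1 = (f x').1) :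
    IsDiffeoApproximable p (D ×ˢ Ioo (0 : ℝ) 1) (V ×ˢ Ioo (0 : ℝ) 1) f := by
  have hI : (1 / 2 : ℝ) ∈ Ioo (0 : ℝ) 1 := ⟨by norm_num, by norm_num⟩
  have hQo : IsOpen (D ×ˢ Ioo (0 : ℝ) 1) := hD.prod isOpen_Ioo
  set g : ℝ × ℝ → ℝ × ℝ := fun w => (f (w, 1 / 2)).1 with hg
  set c : (ℝ × ℝ) × ℝ → ℝ := fun x => (f x).2 with hc
  have hf_eq : ∀ x ∈ D ×ˢ Ioo (0 : ℝ) 1, f x = (g x.1, c x) := by
    intro x hx
    have m : (x.1, (1 / 2 : ℝ)) ∈ D ×ˢ Ioo (0 : ℝ) 1 := ⟨hx.1, hI⟩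
    exact Prod.ext (hfib x hx _ m rfl) rfl
  have hcont' : ContinuousOn (fun x : (ℝ × ℝ) × ℝ => (g x.1, c x)) (D ×ˢ Ioo (0 : ℝ) 1) :=
    hcont.congr fun x hx => (hf_eq x hx).symm
  have hbij' : BijOn (fun x : (ℝ × ℝ) × ℝ => (g x.1, c x)) (D ×ˢ Ioo (0 : ℝ) 1)
      (V ×ˢ Ioo (0 : ℝ) 1) :=
    hbij.congr fun x hx => hf_eq x hx
  obtain ⟨hgbij, hgcont, hccont, hcsurj, hcor⟩ :=
    fibre_structure (g := g) (c := c) hDc.isPreconnected hcont' hbij'
  -- Sobolev regularity of the base map, component by component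
  have hg₁c : ContinuousOn (fun w : ℝ × ℝ => (g w).1) D := continuous_fst.comp_continuousOn hgcont
  have hg₂c : ContinuousOn (fun w : ℝ × ℝ => (g w).2) D := continuous_snd.comp_continuousOn hgcont
  have h₁ := (hS.clm_comp ((ContinuousLinearMap.fst ℝ ℝ ℝ).comp
    (ContinuousLinearMap.fst ℝ (ℝ × ℝ) ℝ))).congr_left hQo
      (u' := fun x : (ℝ × ℝ) × ℝ => (g x.1).1) (fun x hx => by rw [hf_eq x hx]; rfl)
  have h₂ := (hS.clm_comp ((ContinuousLinearMap.snd ℝ ℝ ℝ).comp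
    (ContinuousLinearMap.fst ℝ (ℝ × ℝ) ℝ))).congr_left hQo
      (u' := fun x : (ℝ × ℝ) × ℝ => (g x.1).2) (fun x hx => by rw [hf_eq x hx]; rfl)
  obtain ⟨B₁, hB₁⟩ := exists_isSobolevWith_of_comp_fst (u := fun w : ℝ × ℝ => (g w).1) hp hp' hD
    hDb.measure_lt_top.ne hg₁c h₁
  obtain ⟨B₂, hB₂⟩ := exists_isSobolevWith_of_comp_fst (u := fun w : ℝ × ℝ => (g w).2) hp hp' hD
    hDb.measure_lt_top.ne hg₂c h₂
  have hgS : IsSobolevWith p D g (fun w => (B₁ w).prod (B₂ w)) := hB₁.prodMk hB₂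
  have hgA : IsDiffeoApproximable p D V g := hPlanar g _ hgcont hgbij hgS
  have hcS : IsSobolevWith p (D ×ˢ Ioo (0 : ℝ) 1) c
      (fun x => (ContinuousLinearMap.snd ℝ (ℝ × ℝ) ℝ).comp (G x)) :=
    hS.clm_comp (ContinuousLinearMap.snd ℝ (ℝ × ℝ) ℝ)
  have k : IsDiffeoApproximable p (D ×ˢ Ioo (0 : ℝ) 1) (V ×ˢ Ioo (0 : ℝ) 1)
      (fun x : (ℝ × ℝ) × ℝ => (g x.1, c x)) :=
    isDiffeoApproximable_fibred' (g := g) hp hp' hD hDb hDc hDn hgA hccont hcsurj hcor hcS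
  exact k.congr hQo fun x hx => (hf_eq x hx).symm

end fibrewise

end Vale.Agent.Lib.P073

end -- part FibreJ
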