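import Vale.Agent.Lib.P073.MonoDefs
import Vale.Agent.Lib.P073.Common

/-!
# P073: merged module MonoAnalysis (parts: MonoTwoPoint, MonoNondeg, MonoSmooth, MonoDeriv, MonoLp, MonoConv, MonoImage)
-/

section -- part MonoTwoPoint

/-!
# P073: two-point monotonicity estimate for the variable-radius mollification
-/

namespace Vale.Agent.Lib.P073

open MeasureTheory Filter Topology Set Metric
open scoped ContDiff ENNReal

variable {E : Type*} [NormedAddCommGroup E] [NormedSpace ℝ E] [FiniteDimensional ℝ E]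
  [MeasureSpace E] [BorelSpace E] [(volume : Measure E).IsAddHaarMeasure]

omit [FiniteDimensional ℝ E] [BorelSpace E] [(volume : Measure E).IsAddHaarMeasure] in
/-- A mollification kernel is integrable. -/
lemma monoTwoPoint_integrable_kernel {ρ : E → ℝ} (hρ : IsMollKernel ρ) : Integrable ρ := by
  by_contra h
  have h1 := hρ.2.2.1
  rw [integral_undef h] at h1
  exact zero_ne_one h1

omit [FiniteDimensional ℝ E] [BorelSpace E] [(volume : Measure E).IsAddHaarMeasure] in
/-- Where the kernel does not vanish the norm is less than one. -/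
lemma monoTwoPoint_norm_lt {ρ : E → ℝ} (hρ : IsMollKernel ρ) {y : E} (hy : ρ y ≠ 0) :
    ‖y‖ < 1 := by
  have h1 : y ∈ Function.support ρ := hy
  rw [hρ.2.2.2] at h1
  exact mem_ball_zero_iff.1 h1

/-- The kernel times a function continuous on the closed unit ball is integrable. -/
lemma monoTwoPoint_integrable {F : Type*} [NormedAddCommGroup F] [NormedSpace ℝ F]
    {ρ : E → ℝ} (hρ : IsMollKernel ρ) {g : E → F}
    (hg : ContinuousOn g (closedBall (0 : E) 1)) : Integrable (fun y => ρ y • g y) := by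
  have hc : ContinuousOn (fun y => ρ y • g y) (closedBall (0 : E) 1) :=
    hρ.1.continuous.continuousOn.smul hg
  have hK : IsCompact (closedBall (0 : E) 1) := isCompact_closedBall 0 1
  have h1 : IntegrableOn (fun y => ρ y • g y) (closedBall (0 : E) 1) :=
    hc.integrableOn_compact hK
  refine (integrableOn_iff_integrable_of_support_subset ?_).1 h1
  intro y hy
  have hρy : ρ y ≠ 0 := by
    intro h0
    apply hy
    simp [h0]
  exact mem_closedBall_zero_iff.2 (monoTwoPoint_norm_lt hρ hρy).le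

omit [FiniteDimensional ℝ E] [MeasureSpace E] [BorelSpace E]
  [(volume : Measure E).IsAddHaarMeasure] in
/-- The points averaged by the mollification lie in the ball of the radius function. -/
lemma monoTwoPoint_mem {x : E} {r : ℝ} (hr : 0 ≤ r) {y : E} (hy : ‖y‖ ≤ 1) :
    x - r • y ∈ closedBall x r := by
  rw [mem_closedBall, dist_eq_norm]
  have h1 : x - r • y - x = -(r • y) := by abel
  rw [h1, norm_neg, norm_smul, Real.norm_of_nonneg hr]
  calc r * ‖y‖ ≤ r * 1 := mul_le_mul_of_nonneg_left hy hr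
    _ = r := mul_one r

omit [FiniteDimensional ℝ E] [MeasureSpace E] [BorelSpace E]
  [(volume : Measure E).IsAddHaarMeasure] in
/-- Continuity of the averaged function on the closed unit ball. -/
lemma monoTwoPoint_contOn {U : Set E} {f : E → E} (hf : ContinuousOn f U) {x : E} {r : ℝ}
    (hr : 0 ≤ r) (hx : closedBall x r ⊆ U) :
    ContinuousOn (fun y : E => f (x - r • y)) (closedBall (0 : E) 1) := by
  have h1 : ContinuousOn (fun y : E => x - r • y) (closedBall (0 : E) 1) :=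
    (continuous_const.sub (continuous_id.const_smul r)).continuousOn
  have h2 : MapsTo (fun y : E => x - r • y) (closedBall (0 : E) 1) U :=
    fun y hy => hx (monoTwoPoint_mem hr (mem_closedBall_zero_iff.1 hy))
  exact hf.comp h1 h2

theorem norm_vmoll_sub_le {ρ : E → ℝ} (hρ : IsMollKernel ρ) {U : Set E} {f : E → E}
    (hf : ContinuousOn f U) {ε : E → ℝ} {x : E} (hε : 0 ≤ ε x) (hx : closedBall x (ε x) ⊆ U)
    {C : ℝ} (hC : ∀ z ∈ closedBall x (ε x), ‖f z - f x‖ ≤ C) :
    ‖vmoll ρ ε f x - f x‖ ≤ C := by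
  have hiρ := monoTwoPoint_integrable_kernel hρ
  have hi1 : Integrable (fun y => ρ y • f (x - ε x • y)) :=
    monoTwoPoint_integrable hρ (monoTwoPoint_contOn hf hε hx)
  have hi2 : Integrable (fun y => ρ y • f x) := hiρ.smul_const (f x)
  have h1 : vmoll ρ ε f x - f x = ∫ y, ρ y • (f (x - ε x • y) - f x) := by
    have h2 : ∫ y, ρ y • f x = f x := by
      rw [integral_smul_const, hρ.2.2.1, one_smul]
    have h3 : (fun y => ρ y • (f (x - ε x • y) - f x))
        = fun y => ρ y • f (x - ε x • y) - ρ y • f x := by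
      funext y
      rw [smul_sub]
    rw [h3, integral_sub hi1 hi2, h2]
    rfl
  rw [h1]
  have hb : ∀ y : E, ‖ρ y • (f (x - ε x • y) - f x)‖ ≤ ρ y * C := by
    intro y
    rw [norm_smul, Real.norm_of_nonneg (hρ.2.1 y)]
    by_cases hy : ρ y = 0
    · rw [hy, zero_mul, zero_mul]
    · exact mul_le_mul_of_nonneg_left
        (hC _ (monoTwoPoint_mem hε (monoTwoPoint_norm_lt hρ hy).le)) (hρ.2.1 y)
  have h4 := norm_integral_le_of_norm_le (hiρ.mul_const C) (Filter.Eventually.of_forall hb)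
  have h5 : ∫ y, ρ y * C = C := by
    rw [integral_mul_const, hρ.2.2.1, one_mul]
  rw [h5] at h4
  exact h4

omit [FiniteDimensional ℝ E] [MeasureSpace E] [BorelSpace E]
  [(volume : Measure E).IsAddHaarMeasure] in
/-- The pointwise inequality behind the two-point estimate. -/
lemma monoTwoPoint_key (β : E →L[ℝ] E →L[ℝ] ℝ) {δ κ : ℝ} (hδ : 0 ≤ δ) {u Δ y : E} {e : ℝ}
    (hy : ‖y‖ ≤ 1) (he : |e| ≤ κ * ‖Δ‖)
    (hm : δ * ‖u‖ * ‖Δ - e • y‖ ≤ β u (Δ - e • y)) :
    (δ - κ * (δ + ‖β‖)) * ‖u‖ * ‖Δ‖ ≤ β u Δ := by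
  have h1 : β u Δ = β u (Δ - e • y) + e * β u y := by
    rw [map_sub, map_smul, smul_eq_mul]
    ring
  have h2 : |β u y| ≤ ‖β‖ * ‖u‖ * ‖y‖ := by
    have h := β.le_opNorm₂ u y
    rwa [Real.norm_eq_abs] at h
  have h3 : ‖Δ‖ - |e| * ‖y‖ ≤ ‖Δ - e • y‖ := by
    have h := norm_sub_norm_le Δ (e • y)
    rwa [norm_smul, Real.norm_eq_abs] at h
  have h4 : |e| * ‖y‖ ≤ κ * ‖Δ‖ :=
    calc |e| * ‖y‖ ≤ |e| * 1 := mul_le_mul_of_nonneg_left hy (abs_nonneg e)
      _ = |e| := mul_one _
      _ ≤ κ * ‖Δ‖ := he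
  have h5 : 0 ≤ δ * ‖u‖ := mul_nonneg hδ (norm_nonneg u)
  have h6 : δ * ‖u‖ * (‖Δ‖ - κ * ‖Δ‖) ≤ δ * ‖u‖ * ‖Δ - e • y‖ :=
    mul_le_mul_of_nonneg_left (by linarith) h5
  have h9 : |β u y| ≤ ‖β‖ * ‖u‖ :=
    calc |β u y| ≤ ‖β‖ * ‖u‖ * ‖y‖ := h2
      _ ≤ ‖β‖ * ‖u‖ * 1 :=
        mul_le_mul_of_nonneg_left hy (mul_nonneg (norm_nonneg β) (norm_nonneg u))
      _ = ‖β‖ * ‖u‖ := mul_one _
  have h8 : |e * β u y| ≤ κ * ‖Δ‖ * (‖β‖ * ‖u‖) := by
    rw [abs_mul]
    exact mul_le_mul he h9 (abs_nonneg _) (le_trans (abs_nonneg e) he)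
  have h7 : -(κ * ‖Δ‖ * (‖β‖ * ‖u‖)) ≤ e * β u y := by
    linarith [neg_abs_le (e * β u y)]
  rw [h1]
  nlinarith [hm, h6, h7]

theorem vmoll_two_point {ρ : E → ℝ} (hρ : IsMollKernel ρ) {U : Set E} {f : E → E}
    (hf : ContinuousOn f U) (β : E →L[ℝ] E →L[ℝ] ℝ) {δ κ : ℝ} (hδ : 0 ≤ δ)
    (hmono : ∀ a ∈ U, ∀ b ∈ U, δ * ‖f a - f b‖ * ‖a - b‖ ≤ β (f a - f b) (a - b))
    {ε : E → ℝ} {x x' : E} (hε : 0 ≤ ε x) (hε' : 0 ≤ ε x')
    (hx : closedBall x (ε x) ⊆ U) (hx' : closedBall x' (ε x') ⊆ U)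
    (hlip : |ε x - ε x'| ≤ κ * ‖x - x'‖) :
    (δ - κ * (δ + ‖β‖)) * ‖x - x'‖ * ∫ y, ρ y * ‖f (x - ε x • y) - f (x' - ε x' • y)‖
      ≤ β (vmoll ρ ε f x - vmoll ρ ε f x') (x - x') := by
  have hc1 := monoTwoPoint_contOn hf hε hx
  have hc2 := monoTwoPoint_contOn hf hε' hx'
  have hi1 : Integrable (fun y => ρ y • f (x - ε x • y)) := monoTwoPoint_integrable hρ hc1
  have hi2 : Integrable (fun y => ρ y • f (x' - ε x' • y)) := monoTwoPoint_integrable hρ hc2
  have hφ : Integrable (fun y => ρ y • (f (x - ε x • y) - f (x' - ε x' • y))) :=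
    monoTwoPoint_integrable hρ (hc1.sub hc2)
  have hN : Integrable (fun y => ρ y • ‖f (x - ε x • y) - f (x' - ε x' • y)‖) :=
    monoTwoPoint_integrable hρ (hc1.sub hc2).norm
  have e1 : vmoll ρ ε f x - vmoll ρ ε f x'
      = ∫ y, ρ y • (f (x - ε x • y) - f (x' - ε x' • y)) := by
    have h3 : (fun y => ρ y • (f (x - ε x • y) - f (x' - ε x' • y)))
        = fun y => ρ y • f (x - ε x • y) - ρ y • f (x' - ε x' • y) := by
      funext y
      rw [smul_sub]
    rw [h3, integral_sub hi1 hi2]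
    rfl
  have e2 : β (∫ y, ρ y • (f (x - ε x • y) - f (x' - ε x' • y))) (x - x')
      = ∫ y, ρ y * β (f (x - ε x • y) - f (x' - ε x' • y)) (x - x') := by
    have h := ((β.flip (x - x')).integral_comp_comm hφ).symm
    simp only [ContinuousLinearMap.flip_apply, map_smul, smul_eq_mul] at h
    exact h
  have hR : Integrable
      (fun y => ρ y * β (f (x - ε x • y) - f (x' - ε x' • y)) (x - x')) := by
    have h := (β.flip (x - x')).integrable_comp hφ
    simp only [ContinuousLinearMap.flip_apply, map_smul, smul_eq_mul] at h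
    exact h
  have hL : Integrable (fun y => (δ - κ * (δ + ‖β‖)) * ‖x - x'‖
      * (ρ y * ‖f (x - ε x • y) - f (x' - ε x' • y)‖)) := by
    have h := hN.const_mul ((δ - κ * (δ + ‖β‖)) * ‖x - x'‖)
    simp only [smul_eq_mul] at h
    exact h
  rw [e1, e2, ← integral_const_mul]
  refine integral_mono hL hR (fun y => ?_)
  show (δ - κ * (δ + ‖β‖)) * ‖x - x'‖ * (ρ y * ‖f (x - ε x • y) - f (x' - ε x' • y)‖)
    ≤ ρ y * β (f (x - ε x • y) - f (x' - ε x' • y)) (x - x')
  by_cases hy : ρ y = 0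
  · rw [hy, zero_mul, zero_mul, mul_zero]
  · have hy1 : ‖y‖ ≤ 1 := (monoTwoPoint_norm_lt hρ hy).le
    have ha : x - ε x • y ∈ U := hx (monoTwoPoint_mem hε hy1)
    have hb : x' - ε x' • y ∈ U := hx' (monoTwoPoint_mem hε' hy1)
    have hab : x - ε x • y - (x' - ε x' • y) = (x - x') - (ε x - ε x') • y := by
      rw [sub_smul]
      abel
    have hm := hmono _ ha _ hb
    rw [hab] at hm
    have key := monoTwoPoint_key β hδ hy1 hlip hm
    calc (δ - κ * (δ + ‖β‖)) * ‖x - x'‖ * (ρ y * ‖f (x - ε x • y) - f (x' - ε x' • y)‖)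
        = ρ y * ((δ - κ * (δ + ‖β‖)) * ‖f (x - ε x • y) - f (x' - ε x' • y)‖ * ‖x - x'‖) := by
          ring
      _ ≤ ρ y * β (f (x - ε x • y) - f (x' - ε x' • y)) (x - x') :=
          mul_le_mul_of_nonneg_left key (hρ.2.1 y)

theorem vmoll_two_point_pos {ρ : E → ℝ} (hρ : IsMollKernel ρ) {U : Set E} {f : E → E}
    (hf : ContinuousOn f U) (hinj : InjOn f U) (β : E →L[ℝ] E →L[ℝ] ℝ) {δ κ : ℝ} (hδ : 0 ≤ δ)
    (hmono : ∀ a ∈ U, ∀ b ∈ U, δ * ‖f a - f b‖ * ‖a - b‖ ≤ β (f a - f b) (a - b))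
    {ε : E → ℝ} {x x' : E} (hε : 0 ≤ ε x) (hε' : 0 ≤ ε x')
    (hx : closedBall x (ε x) ⊆ U) (hx' : closedBall x' (ε x') ⊆ U)
    (hlip : |ε x - ε x'| ≤ κ * ‖x - x'‖) (hc : 0 < δ - κ * (δ + ‖β‖)) (hne : x ≠ x') :
    0 < β (vmoll ρ ε f x - vmoll ρ ε f x') (x - x') := by
  have h2 := vmoll_two_point hρ hf β hδ hmono hε hε' hx hx' hlip
  refine lt_of_lt_of_le ?_ h2
  have hΔ : 0 < ‖x - x'‖ := norm_pos_iff.2 (sub_ne_zero.2 hne)
  have hc1 := monoTwoPoint_contOn hf hε hx
  have hc2 := monoTwoPoint_contOn hf hε' hx'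
  have hcN : ContinuousOn (fun y => ρ y * ‖f (x - ε x • y) - f (x' - ε x' • y)‖)
      (closedBall (0 : E) 1) :=
    hρ.1.continuous.continuousOn.mul (hc1.sub hc2).norm
  have hN : Integrable (fun y => ρ y * ‖f (x - ε x • y) - f (x' - ε x' • y)‖) := by
    have h := monoTwoPoint_integrable hρ (hc1.sub hc2).norm
    simp only [smul_eq_mul] at h
    exact h
  have hnn : 0 ≤ fun y => ρ y * ‖f (x - ε x • y) - f (x' - ε x' • y)‖ :=
    fun y => mul_nonneg (hρ.2.1 y) (norm_nonneg _)
  have hxU : x ∈ U := hx (mem_closedBall_self hε)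
  have hxU' : x' ∈ U := hx' (mem_closedBall_self hε')
  have h0 : ρ 0 * ‖f (x - ε x • (0 : E)) - f (x' - ε x' • (0 : E))‖ ≠ 0 := by
    have hρ0 : ρ 0 ≠ 0 := by
      have h1 : (0 : E) ∈ Function.support ρ := by
        rw [hρ.2.2.2]
        exact mem_ball_self one_pos
      exact h1
    have hf0 : f x ≠ f x' := fun h => hne (hinj hxU hxU' h)
    rw [smul_zero, smul_zero, sub_zero, sub_zero]
    exact mul_ne_zero hρ0 (norm_ne_zero_iff.2 (sub_ne_zero.2 hf0))
  have hcat : ContinuousAt (fun y => ρ y * ‖f (x - ε x • y) - f (x' - ε x' • y)‖) 0 :=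
    hcN.continuousAt (closedBall_mem_nhds 0 one_pos)
  have hsupp : Function.support (fun y => ρ y * ‖f (x - ε x • y) - f (x' - ε x' • y)‖)
      ∈ 𝓝 (0 : E) := hcat.eventually_ne h0
  have hint : 0 < ∫ y, ρ y * ‖f (x - ε x • y) - f (x' - ε x' • y)‖ :=
    (integral_pos_iff_support_of_nonneg hnn hN).2 (Measure.measure_pos_of_mem_nhds volume hsupp)
  exact mul_pos (mul_pos hc hΔ) hint

end Vale.Agent.Lib.P073

end -- part MonoTwoPoint

section -- part MonoNondeg

/-!
# P073: nondegeneracy of the derivative of the variable-radius mollification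

If `f` is continuous, injective and monotone in the sense of a bilinear form `β`, then the
derivative of its variable-radius mollification is injective at every point where it exists
(for a radius function with a small Lipschitz constant).
-/

namespace Vale.Agent.Lib.P073

open MeasureTheory Filter Topology Set Metric
open scoped ContDiff ENNReal

variable {E : Type*} [NormedAddCommGroup E] [NormedSpace ℝ E] [FiniteDimensional ℝ E]
  [MeasureSpace E] [BorelSpace E] [(volume : Measure E).IsAddHaarMeasure]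

omit [FiniteDimensional ℝ E] [MeasureSpace E] [BorelSpace E]
  [(volume : Measure E).IsAddHaarMeasure] in
/-- The points averaged by the mollification lie in the ball of the radius function. -/
lemma monoNondeg_mem {x : E} {r : ℝ} (hr : 0 ≤ r) {y : E} (hy : ‖y‖ ≤ 1) :
    x - r • y ∈ closedBall x r := by
  rw [mem_closedBall, dist_eq_norm]
  have h1 : x - r • y - x = -(r • y) := by abel
  rw [h1, norm_neg, norm_smul, Real.norm_of_nonneg hr]
  calc r * ‖y‖ ≤ r * 1 := mul_le_mul_of_nonneg_left hy hr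
    _ = r := mul_one r

omit [FiniteDimensional ℝ E] [MeasureSpace E] [BorelSpace E]
  [(volume : Measure E).IsAddHaarMeasure] in
/-- Continuity of the averaged function on the closed unit ball. -/
lemma monoNondeg_contOn {U : Set E} {f : E → E} (hf : ContinuousOn f U) {x : E} {r : ℝ}
    (hr : 0 ≤ r) (hx : closedBall x r ⊆ U) :
    ContinuousOn (fun y : E => f (x - r • y)) (closedBall (0 : E) 1) := by
  have h1 : ContinuousOn (fun y : E => x - r • y) (closedBall (0 : E) 1) :=
    (continuous_const.sub (continuous_id.const_smul r)).continuousOn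
  have h2 : MapsTo (fun y : E => x - r • y) (closedBall (0 : E) 1) U :=
    fun y hy => hx (monoNondeg_mem hr (mem_closedBall_zero_iff.1 hy))
  exact hf.comp h1 h2

/-- The kernel times a real function continuous on the closed unit ball is integrable. -/
lemma monoNondeg_integrable {ρ : E → ℝ} (hρ : IsMollKernel ρ) {g : E → ℝ}
    (hg : ContinuousOn g (closedBall (0 : E) 1)) : Integrable (fun y => ρ y * g y) := by
  have hc : ContinuousOn (fun y => ρ y * g y) (closedBall (0 : E) 1) :=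
    hρ.1.continuous.continuousOn.mul hg
  have h1 : IntegrableOn (fun y => ρ y * g y) (closedBall (0 : E) 1) :=
    hc.integrableOn_compact (isCompact_closedBall 0 1)
  refine h1.integrable_of_forall_notMem_eq_zero (fun y hy => ?_)
  have h2 : y ∉ Function.support ρ := by
    rw [hρ.2.2.2]
    intro h3
    exact hy (ball_subset_closedBall h3)
  have h4 : ρ y = 0 := by
    by_contra h5
    exact h2 h5
  rw [h4, zero_mul]

omit [MeasureSpace E] [BorelSpace E] [(volume : Measure E).IsAddHaarMeasure] in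
/-- Uniform separation of a continuous injective map on the closed unit ball. -/
lemma monoNondeg_sep {G : Type*} [NormedAddCommGroup G] {φ : E → G}
    (hφc : ContinuousOn φ (closedBall (0 : E) 1)) (hφi : InjOn φ (closedBall (0 : E) 1)) :
    ∃ μ₀ : ℝ, 0 < μ₀ ∧ ∀ a ∈ closedBall (0 : E) 1, ∀ b ∈ closedBall (0 : E) 1,
      1 / 48 ≤ ‖a - b‖ → μ₀ ≤ ‖φ a - φ b‖ := by
  set S : Set (E × E) := (closedBall (0 : E) 1 ×ˢ closedBall (0 : E) 1) ∩
    {p : E × E | 1 / 48 ≤ ‖p.1 - p.2‖} with hS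
  have hScomp : IsCompact S := by
    refine ((isCompact_closedBall 0 1).prod (isCompact_closedBall 0 1)).inter_right ?_
    exact isClosed_le continuous_const (continuous_fst.sub continuous_snd).norm
  have hcont : ContinuousOn (fun p : E × E => ‖φ p.1 - φ p.2‖) S := by
    have h1 : ContinuousOn (fun p : E × E => φ p.1) S :=
      hφc.comp continuous_fst.continuousOn (fun p hp => hp.1.1)
    have h2 : ContinuousOn (fun p : E × E => φ p.2) S :=
      hφc.comp continuous_snd.continuousOn (fun p hp => hp.1.2)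
    exact (h1.sub h2).norm
  rcases S.eq_empty_or_nonempty with hne | hne
  · refine ⟨1, one_pos, fun a ha b hb hab => ?_⟩
    have h3 : (a, b) ∈ S := ⟨⟨ha, hb⟩, hab⟩
    rw [hne] at h3
    exact absurd h3 (Set.notMem_empty _)
  · obtain ⟨p₀, hp₀, hmin⟩ := hScomp.exists_isMinOn hne hcont
    refine ⟨‖φ p₀.1 - φ p₀.2‖, ?_, fun a ha b hb hab => ?_⟩
    · rw [norm_pos_iff, sub_ne_zero]
      intro heq
      have h3 : p₀.1 = p₀.2 := hφi hp₀.1.1 hp₀.1.2 heq
      have h4 : (1 : ℝ) / 48 ≤ ‖p₀.1 - p₀.2‖ := hp₀.2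
      rw [h3, sub_self, norm_zero] at h4
      norm_num at h4
    · exact isMinOn_iff.1 hmin (a, b) ⟨⟨ha, hb⟩, hab⟩

/-- Change of variables for an affine homothety. -/
lemma monoNondeg_cov (lam : ℝ) (w : E) (g : E → ℝ) :
    ∫ y, g (lam • y + w) = |(lam ^ Module.finrank ℝ E)⁻¹| * ∫ y, g y := by
  have h1 := Measure.integral_comp_smul (volume : Measure E) (fun z => g (z + w)) lam
  have h2 : ∫ z, g (z + w) = ∫ z, g z := integral_add_right_eq_self g w
  rw [h2, smul_eq_mul] at h1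
  exact h1

/-- Change of variables for the iterates of an affine homothety. -/
lemma monoNondeg_cov_iter {lam : ℝ} {w : E} {T : E → E} (hT : T = fun z => lam • z + w)
    (k : ℕ) (g : E → ℝ) :
    ∫ y, g (T^[k] y) = |(lam ^ Module.finrank ℝ E)⁻¹| ^ k * ∫ y, g y := by
  subst hT
  induction k generalizing g with
  | zero => simp
  | succ k ih =>
    have h1 : ∀ y : E, (fun z : E => lam • z + w)^[k + 1] y
        = (fun z : E => lam • z + w)^[k] (lam • y + w) :=
      fun y => Function.iterate_succ_apply _ _ _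
    simp only [h1]
    rw [monoNondeg_cov lam w (fun y => g ((fun z : E => lam • z + w)^[k] y)), ih g]
    ring

/-- Integrability is preserved by the iterates of an affine homothety. -/
lemma monoNondeg_int_iter {lam : ℝ} (hlam : lam ≠ 0) {w : E} {T : E → E}
    (hT : T = fun z => lam • z + w) (k : ℕ) {g : E → ℝ} (hg : Integrable g) :
    Integrable (fun y => g (T^[k] y)) := by
  subst hT
  induction k generalizing g with
  | zero => simpa using hg
  | succ k ih =>
    have h1 : ∀ y : E, (fun z : E => lam • z + w)^[k + 1] y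
        = (fun z : E => lam • z + w)^[k] (lam • y + w) :=
      fun y => Function.iterate_succ_apply _ _ _
    simp only [h1]
    have h2 := ih hg
    have h3 : Integrable (fun z : E => g ((fun z : E => lam • z + w)^[k] (z + w))) :=
      h2.comp_add_right w
    exact h3.comp_smul hlam

/-- Iteration lemma: an affine homothety close to a small translation cannot almost fix a
continuous injective map in the mean. -/
lemma monoNondeg_iter {G : Type*} [NormedAddCommGroup G] {φ : E → G}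
    (hφc : ContinuousOn φ (closedBall (0 : E) 1)) (hφi : InjOn φ (closedBall (0 : E) 1)) :
    ∃ C : ℝ, 0 < C ∧ ∀ (lam : ℝ) (w : E), 0 < ‖w‖ → ‖w‖ ≤ 1 / 100 → |lam - 1| ≤ ‖w‖ →
      C * ‖w‖ ≤ ∫ y in closedBall (0 : E) (1 / 2), ‖φ (lam • y + w) - φ y‖ := by
  obtain ⟨μ₀, hμ₀, hsep⟩ := monoNondeg_sep hφc hφi
  set n : ℕ := Module.finrank ℝ E with hn
  set V : ℝ := (volume : Measure E).real (closedBall (0 : E) (1 / 4)) with hV
  have hVpos : 0 < V :=
    ENNReal.toReal_pos (measure_closedBall_pos _ _ (by norm_num)).ne' measure_closedBall_lt_top.ne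
  refine ⟨12 * μ₀ * V / Real.exp n, by positivity, ?_⟩
  intro lam w hw0 hw1 hlam
  set τ : ℝ := ‖w‖ with hτ
  set T : E → E := fun z => lam • z + w with hT
  set B : Set E := closedBall (0 : E) (1 / 4) with hB
  set B' : Set E := closedBall (0 : E) (1 / 2) with hB'
  set N : ℕ := ⌊1 / (12 * τ)⌋₊ with hN
  have hlam_lo : 1 - τ ≤ lam := by
    have h1 := abs_le.1 hlam
    linarith [h1.1]
  have hlam_hi : lam ≤ 101 / 100 := by
    have h1 := abs_le.1 hlam
    linarith [h1.2]
  have hlam_pos : 0 < lam := by linarith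
  have hN' : (N : ℝ) ≤ 1 / (12 * τ) := Nat.floor_le (by positivity)
  have hNτ : (N : ℝ) * τ ≤ 1 / 12 := by
    calc (N : ℝ) * τ ≤ 1 / (12 * τ) * τ := mul_le_mul_of_nonneg_right hN' hw0.le
      _ = 1 / 12 := by field_simp
  have hNτ' : 1 / 24 < (N : ℝ) * τ := by
    have h1 : 1 / (12 * τ) < (N : ℝ) + 1 := Nat.lt_floor_add_one _
    have h2 : 1 / 12 < ((N : ℝ) + 1) * τ := by
      calc (1 : ℝ) / 12 = 1 / (12 * τ) * τ := by field_simp
        _ < ((N : ℝ) + 1) * τ := mul_lt_mul_of_pos_right h1 hw0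
    nlinarith
  have hkτ : ∀ k : ℕ, k ≤ N → (k : ℝ) * τ ≤ 1 / 12 := fun k hk =>
    le_trans (mul_le_mul_of_nonneg_right (by exact_mod_cast hk) hw0.le) hNτ
  -- one step of the homothety
  have hstep : ∀ z : E, ‖z‖ ≤ 1 / 2 → ‖T z - z - w‖ ≤ τ / 2 := by
    intro z hz
    have h1 : T z - z - w = (lam - 1) • z := by
      simp only [hT]
      rw [sub_smul, one_smul]
      abel
    rw [h1, norm_smul, Real.norm_eq_abs]
    calc |lam - 1| * ‖z‖ ≤ τ * (1 / 2) := mul_le_mul hlam hz (norm_nonneg _) hw0.le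
      _ = τ / 2 := by ring
  -- the iterates stay in the ball of radius one half
  have hnorm : ∀ k : ℕ, k ≤ N → ∀ y : E, ‖y‖ ≤ 1 / 4 →
      ‖T^[k] y - y - (k : ℝ) • w‖ ≤ k * τ / 2 → ‖T^[k] y‖ ≤ 1 / 2 := by
    intro k hk y hy h1
    have h3 : T^[k] y = (T^[k] y - y - (k : ℝ) • w) + y + (k : ℝ) • w := by abel
    have h4 : ‖(k : ℝ) • w‖ = k * τ := by
      rw [norm_smul, Real.norm_of_nonneg (Nat.cast_nonneg k)]
    have h5 := hkτ k hk
    calc ‖T^[k] y‖ = ‖(T^[k] y - y - (k : ℝ) • w) + y + (k : ℝ) • w‖ := congrArg norm h3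
      _ ≤ ‖T^[k] y - y - (k : ℝ) • w‖ + ‖y‖ + ‖(k : ℝ) • w‖ := norm_add₃_le
      _ ≤ k * τ / 2 + 1 / 4 + k * τ := by rw [h4]; linarith
      _ ≤ 1 / 2 := by linarith
  have hiter : ∀ k : ℕ, k ≤ N → ∀ y : E, ‖y‖ ≤ 1 / 4 →
      ‖T^[k] y - y - (k : ℝ) • w‖ ≤ k * τ / 2 := by
    intro k
    induction k with
    | zero =>
      intro _ y _
      simp
    | succ k ih =>
      intro hk y hy
      have hk' : k ≤ N := Nat.le_of_succ_le hk
      have h1 := ih hk' y hy
      have h2 : ‖T^[k] y‖ ≤ 1 / 2 := hnorm k hk' y hy h1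
      have h5 := hstep _ h2
      have h6 : T^[k + 1] y - y - ((k + 1 : ℕ) : ℝ) • w
          = (T (T^[k] y) - T^[k] y - w) + (T^[k] y - y - (k : ℝ) • w) := by
        rw [Function.iterate_succ_apply']
        push_cast
        rw [add_smul, one_smul]
        abel
      rw [h6]
      calc ‖(T (T^[k] y) - T^[k] y - w) + (T^[k] y - y - (k : ℝ) • w)‖
          ≤ ‖T (T^[k] y) - T^[k] y - w‖ + ‖T^[k] y - y - (k : ℝ) • w‖ := norm_add_le _ _
        _ ≤ τ / 2 + k * τ / 2 := add_le_add h5 h1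
        _ = ((k + 1 : ℕ) : ℝ) * τ / 2 := by push_cast; ring
  have hmem : ∀ k : ℕ, k ≤ N → ∀ y ∈ B, T^[k] y ∈ B' := by
    intro k hk y hy
    have hy' : ‖y‖ ≤ 1 / 4 := mem_closedBall_zero_iff.1 hy
    exact mem_closedBall_zero_iff.2 (hnorm k hk y hy' (hiter k hk y hy'))
  have hfar : ∀ y ∈ B, 1 / 48 ≤ ‖T^[N] y - y‖ := by
    intro y hy
    have h1 := hiter N le_rfl y (mem_closedBall_zero_iff.1 hy)
    have h4 : ‖(N : ℝ) • w‖ = N * τ := by
      rw [norm_smul, Real.norm_of_nonneg (Nat.cast_nonneg N)]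
    have h6 : (N : ℝ) • w = (T^[N] y - y) - (T^[N] y - y - (N : ℝ) • w) := by abel
    have h5 : ‖(N : ℝ) • w‖ ≤ ‖T^[N] y - y‖ + ‖T^[N] y - y - (N : ℝ) • w‖ := by
      calc ‖(N : ℝ) • w‖ = ‖(T^[N] y - y) - (T^[N] y - y - (N : ℝ) • w)‖ := congrArg norm h6
        _ ≤ ‖T^[N] y - y‖ + ‖T^[N] y - y - (N : ℝ) • w‖ := norm_sub_le _ _
    rw [h4] at h5
    linarith
  -- continuity
  have hTc : Continuous T := (continuous_const.smul continuous_id).add continuous_const
  have hB1 : B ⊆ closedBall (0 : E) 1 := closedBall_subset_closedBall (by norm_num)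
  have hB'1 : B' ⊆ closedBall (0 : E) 1 := closedBall_subset_closedBall (by norm_num)
  have hcontk : ∀ k : ℕ, k ≤ N → ContinuousOn (fun y => φ (T^[k] y)) B := by
    intro k hk
    exact hφc.comp (hTc.iterate k).continuousOn (fun y hy => hB'1 (hmem k hk y hy))
  have hφB : ContinuousOn φ B := hφc.mono hB1
  set ψ : E → ℝ := fun z => ‖φ (T z) - φ z‖ with hψ
  have hTB' : ∀ z ∈ B', T z ∈ closedBall (0 : E) 1 := by
    intro z hz
    have hz' : ‖z‖ ≤ 1 / 2 := mem_closedBall_zero_iff.1 hz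
    rw [mem_closedBall_zero_iff]
    have h1 : lam * ‖z‖ ≤ 101 / 100 * (1 / 2) :=
      mul_le_mul hlam_hi hz' (norm_nonneg _) (by norm_num)
    calc ‖T z‖ ≤ ‖lam • z‖ + ‖w‖ := norm_add_le _ _
      _ = lam * ‖z‖ + τ := by rw [norm_smul, Real.norm_of_nonneg hlam_pos.le]
      _ ≤ 1 := by linarith
  have hψc : ContinuousOn ψ B' := by
    have h1 : ContinuousOn (fun z => φ (T z)) B' := hφc.comp hTc.continuousOn hTB'
    have h2 : ContinuousOn φ B' := hφc.mono hB'1
    exact (h1.sub h2).norm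
  have hB'm : MeasurableSet B' := measurableSet_closedBall
  have hBm : MeasurableSet B := measurableSet_closedBall
  have hBc : IsCompact B := isCompact_closedBall 0 _
  have hψi : IntegrableOn ψ B' := hψc.integrableOn_compact (isCompact_closedBall 0 _)
  set Gf : E → ℝ := B'.indicator ψ with hGf
  have hGi : Integrable Gf := (integrable_indicator_iff hB'm).2 hψi
  have hG0 : ∀ z, 0 ≤ Gf z := fun z => Set.indicator_nonneg (fun z _ => norm_nonneg _) z
  set J : ℝ := ∫ y in B', ψ y with hJ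
  have hJ0 : 0 ≤ J := setIntegral_nonneg hB'm (fun z _ => norm_nonneg _)
  have hGJ : ∫ y, Gf y = J := integral_indicator hB'm
  set c : ℝ := |(lam ^ n)⁻¹| with hc
  have hck : ∀ k : ℕ, k ≤ N → c ^ k ≤ Real.exp n := by
    intro k hk
    have h1 : c = (lam⁻¹) ^ n := by
      rw [hc, abs_of_pos (inv_pos.2 (pow_pos hlam_pos n)), inv_pow]
    have h2 : lam⁻¹ ≤ Real.exp (2 * τ) := by
      have h3 : lam⁻¹ ≤ 1 + 2 * τ := by
        rw [inv_le_iff_one_le_mul₀ hlam_pos]
        nlinarith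
      have h4 : 2 * τ + 1 ≤ Real.exp (2 * τ) := Real.add_one_le_exp _
      linarith
    have h5 : c ^ k ≤ Real.exp (2 * τ) ^ (n * k) := by
      rw [h1, ← pow_mul]
      exact pow_le_pow_left₀ (inv_nonneg.2 hlam_pos.le) h2 _
    have h6 : Real.exp (2 * τ) ^ (n * k) = Real.exp (((n * k : ℕ) : ℝ) * (2 * τ)) :=
      (Real.exp_nat_mul _ _).symm
    rw [h6] at h5
    refine h5.trans (Real.exp_le_exp.2 ?_)
    have h7 := hkτ k hk
    have h8 : (0 : ℝ) ≤ n := Nat.cast_nonneg n
    push_cast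
    nlinarith [mul_nonneg h8 (sub_nonneg.2 h7)]
  -- integrability on the small ball
  have hint_far : IntegrableOn (fun y => ‖φ (T^[N] y) - φ y‖) B :=
    (((hcontk N le_rfl).sub hφB).norm).integrableOn_compact hBc
  have hint_k : ∀ k : ℕ, k < N → IntegrableOn (fun y => ψ (T^[k] y)) B := by
    intro k hk
    have h1 := hcontk (k + 1) hk
    have h2 := hcontk k hk.le
    have h3 : ContinuousOn (fun y => ‖φ (T^[k + 1] y) - φ (T^[k] y)‖) B := (h1.sub h2).norm
    have h4 : (fun y => ψ (T^[k] y)) = (fun y => ‖φ (T^[k + 1] y) - φ (T^[k] y)‖) := by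
      funext y
      simp only [hψ, Function.iterate_succ_apply']
    rw [h4]
    exact h3.integrableOn_compact hBc
  -- the lower bound coming from the separation
  have hi : μ₀ * V ≤ ∫ y in B, ‖φ (T^[N] y) - φ y‖ := by
    have h1 : ∫ _y in B, μ₀ = V * μ₀ := by
      rw [setIntegral_const, smul_eq_mul]
    have h2 : ∫ _y in B, μ₀ ≤ ∫ y in B, ‖φ (T^[N] y) - φ y‖ := by
      refine setIntegral_mono_on (integrableOn_const measure_closedBall_lt_top.ne) hint_far hBm
        (fun y hy => ?_)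
      exact hsep _ (hB'1 (hmem N le_rfl y hy)) _ (hB1 hy) (hfar y hy)
    rw [h1] at h2
    linarith
  -- telescoping
  have hii : ∫ y in B, ‖φ (T^[N] y) - φ y‖
      ≤ ∑ k ∈ Finset.range N, ∫ y in B, ψ (T^[k] y) := by
    have hsum_int : IntegrableOn (fun y => ∑ k ∈ Finset.range N, ψ (T^[k] y)) B :=
      integrable_finsetSum _ (fun k hk => hint_k k (Finset.mem_range.1 hk))
    have h1 : ∫ y in B, ‖φ (T^[N] y) - φ y‖
        ≤ ∫ y in B, ∑ k ∈ Finset.range N, ψ (T^[k] y) := by
      refine setIntegral_mono_on hint_far hsum_int hBm (fun y _ => ?_)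
      have h2 := dist_le_range_sum_dist (fun k => φ (T^[k] y)) N
      simp only [Function.iterate_zero, id_eq, dist_eq_norm] at h2
      calc ‖φ (T^[N] y) - φ y‖ = ‖φ y - φ (T^[N] y)‖ := norm_sub_rev _ _
        _ ≤ ∑ k ∈ Finset.range N, ‖φ (T^[k] y) - φ (T^[k + 1] y)‖ := h2
        _ = ∑ k ∈ Finset.range N, ψ (T^[k] y) := by
            refine Finset.sum_congr rfl (fun k _ => ?_)
            simp only [hψ, Function.iterate_succ_apply']
            exact norm_sub_rev _ _
    rw [integral_finsetSum _ (fun k hk => hint_k k (Finset.mem_range.1 hk))] at h1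
    exact h1
  -- each term is controlled by the change of variables
  have hiii : ∀ k : ℕ, k < N → ∫ y in B, ψ (T^[k] y) ≤ c ^ k * J := by
    intro k hk
    have h1 : ∫ y in B, ψ (T^[k] y) = ∫ y in B, Gf (T^[k] y) := by
      refine setIntegral_congr_fun hBm (fun y hy => ?_)
      simp only [hGf]
      rw [Set.indicator_of_mem (hmem k hk.le y hy)]
    have h2 : ∫ y in B, Gf (T^[k] y) ≤ ∫ y, Gf (T^[k] y) :=
      setIntegral_le_integral (monoNondeg_int_iter hlam_pos.ne' hT k hGi)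
        (Filter.Eventually.of_forall (fun y => hG0 _))
    have h3 : ∫ y, Gf (T^[k] y) = c ^ k * J := by
      rw [monoNondeg_cov_iter hT k Gf, hGJ]
    rw [h1]
    exact h2.trans_eq h3
  have hexp : 0 < Real.exp n := Real.exp_pos _
  have hsum : ∑ k ∈ Finset.range N, ∫ y in B, ψ (T^[k] y) ≤ N * (Real.exp n * J) := by
    calc ∑ k ∈ Finset.range N, ∫ y in B, ψ (T^[k] y)
        ≤ ∑ _k ∈ Finset.range N, Real.exp n * J := by
          refine Finset.sum_le_sum (fun k hk => ?_)
          have hk' := Finset.mem_range.1 hk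
          exact (hiii k hk').trans (mul_le_mul_of_nonneg_right (hck k hk'.le) hJ0)
      _ = N * (Real.exp n * J) := by rw [Finset.sum_const, Finset.card_range, nsmul_eq_mul]
  have hfinal : μ₀ * V ≤ N * (Real.exp n * J) := hi.trans (hii.trans hsum)
  have h7 : μ₀ * V ≤ 1 / (12 * τ) * (Real.exp n * J) :=
    hfinal.trans (mul_le_mul_of_nonneg_right hN' (by positivity))
  rw [div_mul_eq_mul_div, div_le_iff₀ hexp]
  have h8 : 1 / (12 * τ) * (Real.exp n * J) = Real.exp n * J / (12 * τ) := by ring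
  rw [h8, le_div_iff₀ (by positivity)] at h7
  linarith

theorem vmoll_fderiv_injective {ρ : E → ℝ} (hρ : IsMollKernel ρ) {U : Set E} {f : E → E}
    (hf : ContinuousOn f U) (hinj : InjOn f U) (β : E →L[ℝ] E →L[ℝ] ℝ) {δ κ : ℝ} (hδ : 0 < δ)
    (hκ : 0 ≤ κ)
    (hmono : ∀ a ∈ U, ∀ b ∈ U, δ * ‖f a - f b‖ * ‖a - b‖ ≤ β (f a - f b) (a - b))
    (hc : 0 < δ - κ * (δ + ‖β‖))
    {ε : E → ℝ} {x₀ : E} {r : ℝ} (hr : 0 < r)
    (hpos : ∀ x ∈ ball x₀ r, 0 < ε x)
    (hball : ∀ x ∈ ball x₀ r, closedBall x (ε x) ⊆ U)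
    (hlip : ∀ x ∈ ball x₀ r, ∀ x' ∈ ball x₀ r, |ε x - ε x'| ≤ κ * ‖x - x'‖)
    {A : E →L[ℝ] E} (hA : HasFDerivAt (vmoll ρ ε f) A x₀) :
    ∀ v, A v = 0 → v = 0 := by
  intro v hAv
  by_contra hv
  have hvpos : 0 < ‖v‖ := norm_pos_iff.2 hv
  have hx₀ : x₀ ∈ ball x₀ r := mem_ball_self hr
  have hε₀pos : 0 < ε x₀ := hpos x₀ hx₀
  have hκ1 : κ ≤ 1 := by
    by_contra h
    have h1 : 1 < κ := not_le.1 h
    nlinarith [norm_nonneg β]
  -- the rescaled map
  have hφc : ContinuousOn (fun y : E => f (x₀ - ε x₀ • y)) (closedBall (0 : E) 1) :=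
    monoNondeg_contOn hf hε₀pos.le (hball x₀ hx₀)
  have hφi : InjOn (fun y : E => f (x₀ - ε x₀ • y)) (closedBall (0 : E) 1) := by
    intro a ha b hb hab
    have h1 : x₀ - ε x₀ • a ∈ U :=
      hball x₀ hx₀ (monoNondeg_mem hε₀pos.le (mem_closedBall_zero_iff.1 ha))
    have h2 : x₀ - ε x₀ • b ∈ U :=
      hball x₀ hx₀ (monoNondeg_mem hε₀pos.le (mem_closedBall_zero_iff.1 hb))
    have h3 : x₀ - ε x₀ • a = x₀ - ε x₀ • b := hinj h1 h2 hab
    have h4 : ε x₀ • a = ε x₀ • b := sub_right_injective h3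
    exact smul_right_injective E hε₀pos.ne' h4
  obtain ⟨C, hCpos, hC⟩ := monoNondeg_iter hφc hφi
  -- a positive lower bound of the kernel on the ball of radius one half
  obtain ⟨c₀, hc₀pos, hc₀⟩ : ∃ c₀ : ℝ, 0 < c₀ ∧ ∀ y ∈ closedBall (0 : E) (1 / 2), c₀ ≤ ρ y := by
    have hne : (closedBall (0 : E) (1 / 2)).Nonempty := ⟨0, mem_closedBall_self (by norm_num)⟩
    obtain ⟨y₀, hy₀, hmin⟩ := (isCompact_closedBall (0 : E) (1 / 2)).exists_isMinOn hne
      hρ.1.continuous.continuousOn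
    refine ⟨ρ y₀, ?_, fun y hy => isMinOn_iff.1 hmin y hy⟩
    have h1 : y₀ ∈ Function.support ρ := by
      rw [hρ.2.2.2, mem_ball_zero_iff]
      exact lt_of_le_of_lt (mem_closedBall_zero_iff.1 hy₀) (by norm_num)
    exact lt_of_le_of_ne (hρ.2.1 y₀) (Ne.symm h1)
  -- the differentiability estimate
  set η : ℝ := c₀ * C * (δ - κ * (δ + ‖β‖)) / (2 * ε x₀ * (‖β‖ + 1)) with hη
  have hβ1 : 0 < ‖β‖ + 1 := by linarith [norm_nonneg β]
  have hηpos : 0 < η := by positivity
  have hlo := (hasFDerivAt_iff_isLittleO_nhds_zero.1 hA).def hηpos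
  obtain ⟨d, hdpos, hd⟩ := Metric.eventually_nhds_iff.1 hlo
  -- the step
  set t : ℝ := min (min (d / (2 * ‖v‖)) (r / (2 * ‖v‖))) (ε x₀ / (100 * ‖v‖)) with ht
  have htpos : 0 < t := by
    rw [ht]
    exact lt_min (lt_min (by positivity) (by positivity)) (by positivity)
  have ht1 : t * ‖v‖ < d := by
    have h1 : t ≤ d / (2 * ‖v‖) := (min_le_left _ _).trans (min_le_left _ _)
    have h2 : t * ‖v‖ ≤ d / (2 * ‖v‖) * ‖v‖ := mul_le_mul_of_nonneg_right h1 hvpos.le
    have h3 : d / (2 * ‖v‖) * ‖v‖ = d / 2 := by field_simp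
    linarith
  have ht2 : t * ‖v‖ < r := by
    have h1 : t ≤ r / (2 * ‖v‖) := (min_le_left _ _).trans (min_le_right _ _)
    have h2 : t * ‖v‖ ≤ r / (2 * ‖v‖) * ‖v‖ := mul_le_mul_of_nonneg_right h1 hvpos.le
    have h3 : r / (2 * ‖v‖) * ‖v‖ = r / 2 := by field_simp
    linarith
  have ht3 : t * ‖v‖ ≤ ε x₀ / 100 := by
    have h1 : t ≤ ε x₀ / (100 * ‖v‖) := min_le_right _ _
    have h2 : t * ‖v‖ ≤ ε x₀ / (100 * ‖v‖) * ‖v‖ := mul_le_mul_of_nonneg_right h1 hvpos.le
    have h3 : ε x₀ / (100 * ‖v‖) * ‖v‖ = ε x₀ / 100 := by field_simp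
    linarith
  have htv : 0 < t * ‖v‖ := mul_pos htpos hvpos
  set x : E := x₀ + t • v with hx
  have hxv : x - x₀ = t • v := by rw [hx]; abel
  have hnx : ‖x - x₀‖ = t * ‖v‖ := by rw [hxv, norm_smul, Real.norm_of_nonneg htpos.le]
  have hxball : x ∈ ball x₀ r := by
    rw [mem_ball, dist_eq_norm, hnx]
    exact ht2
  have hF : ‖vmoll ρ ε f x - vmoll ρ ε f x₀‖ ≤ η * (t * ‖v‖) := by
    have h0 : dist (t • v) (0 : E) < d := by
      rw [dist_zero_right, norm_smul, Real.norm_of_nonneg htpos.le]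
      exact ht1
    have h1 := hd h0
    have h2 : A (t • v) = 0 := by rw [map_smul, hAv, smul_zero]
    rw [h2, sub_zero, norm_smul, Real.norm_of_nonneg htpos.le] at h1
    exact h1
  -- the two-point estimate
  have h2p := vmoll_two_point hρ hf β hδ.le hmono (hpos x hxball).le hε₀pos.le
    (hball x hxball) (hball x₀ hx₀) (hlip x hxball x₀ hx₀)
  rw [hnx] at h2p
  have hβ : β (vmoll ρ ε f x - vmoll ρ ε f x₀) (x - x₀)
      ≤ ‖β‖ * (η * (t * ‖v‖)) * (t * ‖v‖) := by
    calc β (vmoll ρ ε f x - vmoll ρ ε f x₀) (x - x₀)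
        ≤ ‖β (vmoll ρ ε f x - vmoll ρ ε f x₀) (x - x₀)‖ := Real.le_norm_self _
      _ ≤ ‖β‖ * ‖vmoll ρ ε f x - vmoll ρ ε f x₀‖ * ‖x - x₀‖ := β.le_opNorm₂ _ _
      _ ≤ ‖β‖ * (η * (t * ‖v‖)) * (t * ‖v‖) := by
          rw [hnx]
          exact mul_le_mul_of_nonneg_right
            (mul_le_mul_of_nonneg_left hF (norm_nonneg β)) htv.le
  -- the integral of the two-point estimate is large
  have hcx : ContinuousOn (fun y : E => f (x - ε x • y)) (closedBall (0 : E) 1) :=
    monoNondeg_contOn hf (hpos x hxball).le (hball x hxball)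
  have hhc : ContinuousOn (fun y : E => ‖f (x - ε x • y) - f (x₀ - ε x₀ • y)‖)
      (closedBall (0 : E) 1) := (hcx.sub hφc).norm
  have hgint : Integrable (fun y : E => ρ y * ‖f (x - ε x • y) - f (x₀ - ε x₀ • y)‖) :=
    monoNondeg_integrable hρ hhc
  have hsub : closedBall (0 : E) (1 / 2) ⊆ closedBall (0 : E) 1 :=
    closedBall_subset_closedBall (by norm_num)
  have hlow : c₀ * ∫ y in closedBall (0 : E) (1 / 2), ‖f (x - ε x • y) - f (x₀ - ε x₀ • y)‖
      ≤ ∫ y, ρ y * ‖f (x - ε x • y) - f (x₀ - ε x₀ • y)‖ := by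
    have h1 : c₀ * ∫ y in closedBall (0 : E) (1 / 2), ‖f (x - ε x • y) - f (x₀ - ε x₀ • y)‖
        = ∫ y in closedBall (0 : E) (1 / 2), c₀ * ‖f (x - ε x • y) - f (x₀ - ε x₀ • y)‖ :=
      (integral_const_mul _ _).symm
    have h2 : IntegrableOn (fun y : E => c₀ * ‖f (x - ε x • y) - f (x₀ - ε x₀ • y)‖)
        (closedBall (0 : E) (1 / 2)) :=
      ((continuousOn_const.mul hhc).mono hsub).integrableOn_compact (isCompact_closedBall 0 _)
    have h3 : ∫ y in closedBall (0 : E) (1 / 2), c₀ * ‖f (x - ε x • y) - f (x₀ - ε x₀ • y)‖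
        ≤ ∫ y in closedBall (0 : E) (1 / 2), ρ y * ‖f (x - ε x • y) - f (x₀ - ε x₀ • y)‖ :=
      setIntegral_mono_on h2 hgint.integrableOn measurableSet_closedBall
        (fun y hy => mul_le_mul_of_nonneg_right (hc₀ y hy) (norm_nonneg _))
    have h4 : ∫ y in closedBall (0 : E) (1 / 2), ρ y * ‖f (x - ε x • y) - f (x₀ - ε x₀ • y)‖
        ≤ ∫ y, ρ y * ‖f (x - ε x • y) - f (x₀ - ε x₀ • y)‖ :=
      setIntegral_le_integral hgint
        (Filter.Eventually.of_forall (fun y => mul_nonneg (hρ.2.1 y) (norm_nonneg _)))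
    rw [h1]
    exact h3.trans h4
  -- apply the iteration lemma
  set lam : ℝ := ε x / ε x₀ with hlam
  set w : E := -((t / ε x₀) • v) with hw
  have hwn : ‖w‖ = t * ‖v‖ / ε x₀ := by
    rw [hw, norm_neg, norm_smul, Real.norm_of_nonneg (div_pos htpos hε₀pos).le]
    ring
  have hw0 : 0 < ‖w‖ := by rw [hwn]; positivity
  have hw1 : ‖w‖ ≤ 1 / 100 := by
    rw [hwn, div_le_iff₀ hε₀pos]
    linarith
  have hlamw : |lam - 1| ≤ ‖w‖ := by
    have h1 : lam - 1 = (ε x - ε x₀) / ε x₀ := by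
      rw [hlam]
      field_simp
    have h2 := hlip x hxball x₀ hx₀
    rw [hnx] at h2
    rw [h1, abs_div, abs_of_pos hε₀pos, hwn]
    refine div_le_div_of_nonneg_right ?_ hε₀pos.le
    calc |ε x - ε x₀| ≤ κ * (t * ‖v‖) := h2
      _ ≤ 1 * (t * ‖v‖) := mul_le_mul_of_nonneg_right hκ1 htv.le
      _ = t * ‖v‖ := one_mul _
  have hpt : ∀ y : E, x₀ - ε x₀ • (lam • y + w) = x - ε x • y := by
    intro y
    have h1 : ε x₀ • (lam • y) = ε x • y := by
      rw [smul_smul, hlam, mul_div_cancel₀ _ hε₀pos.ne']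
    have h2 : ε x₀ • w = -(t • v) := by
      rw [hw, smul_neg, smul_smul, mul_div_cancel₀ _ hε₀pos.ne']
    rw [smul_add, h1, h2, hx]
    abel
  have hCw := hC lam w hw0 hw1 hlamw
  simp only [hpt] at hCw
  -- conclusion
  have hup : (δ - κ * (δ + ‖β‖)) * (t * ‖v‖)
      * (∫ y, ρ y * ‖f (x - ε x • y) - f (x₀ - ε x₀ • y)‖)
      ≤ ‖β‖ * (η * (t * ‖v‖)) * (t * ‖v‖) := h2p.trans hβ
  have hI1 : c₀ * (C * ‖w‖) ≤ ∫ y, ρ y * ‖f (x - ε x • y) - f (x₀ - ε x₀ • y)‖ :=
    (mul_le_mul_of_nonneg_left hCw hc₀pos.le).trans hlow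
  have hI2 : (δ - κ * (δ + ‖β‖)) * (t * ‖v‖) * (c₀ * (C * ‖w‖))
      ≤ ‖β‖ * (η * (t * ‖v‖)) * (t * ‖v‖) :=
    (mul_le_mul_of_nonneg_left hI1 (mul_nonneg hc.le htv.le)).trans hup
  have hβη : ‖β‖ * η ≤ c₀ * C * (δ - κ * (δ + ‖β‖)) / (2 * ε x₀) := by
    have h1 : ‖β‖ * η
        = c₀ * C * (δ - κ * (δ + ‖β‖)) / (2 * ε x₀) * (‖β‖ / (‖β‖ + 1)) := by
      rw [hη]
      field_simp
    have h2 : ‖β‖ / (‖β‖ + 1) ≤ 1 := (div_le_one hβ1).2 (by linarith)
    rw [h1]
    exact mul_le_of_le_one_right (by positivity) h2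
  have hX : 0 < (δ - κ * (δ + ‖β‖)) * (t * ‖v‖) * (c₀ * (C * (t * ‖v‖ / ε x₀))) := by
    positivity
  have hY : ‖β‖ * (η * (t * ‖v‖)) * (t * ‖v‖)
      ≤ c₀ * C * (δ - κ * (δ + ‖β‖)) / (2 * ε x₀) * (t * ‖v‖) * (t * ‖v‖) := by
    have h1 : ‖β‖ * (η * (t * ‖v‖)) * (t * ‖v‖) = ‖β‖ * η * ((t * ‖v‖) * (t * ‖v‖)) := by ring
    rw [h1, mul_assoc (c₀ * C * (δ - κ * (δ + ‖β‖)) / (2 * ε x₀))]
    exact mul_le_mul_of_nonneg_right hβη (mul_nonneg htv.le htv.le)
  have hZ : c₀ * C * (δ - κ * (δ + ‖β‖)) / (2 * ε x₀) * (t * ‖v‖) * (t * ‖v‖)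
      = (δ - κ * (δ + ‖β‖)) * (t * ‖v‖) * (c₀ * (C * (t * ‖v‖ / ε x₀))) / 2 := by
    field_simp
  rw [hwn] at hI2
  linarith

end Vale.Agent.Lib.P073

end -- part MonoNondeg

section -- part MonoSmooth

namespace Vale.Agent.Lib.P073
open MeasureTheory Filter Topology Set Metric
open scoped ContDiff ENNReal

variable {E : Type*} [NormedAddCommGroup E] [NormedSpace ℝ E] [FiniteDimensional ℝ E]
  [MeasureSpace E] [BorelSpace E] [(volume : Measure E).IsAddHaarMeasure]

/-- The rescaled kernel `w ↦ s⁻ⁿ ρ (w / s)`. -/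
noncomputable def monoSmoothKer (ρ : E → ℝ) (s : ℝ) (w : E) : ℝ :=
  (s ^ Module.finrank ℝ E)⁻¹ * ρ (s⁻¹ • w)

omit [FiniteDimensional ℝ E] [BorelSpace E] [(volume : Measure E).IsAddHaarMeasure] [MeasureSpace E] in
theorem monoSmooth_ker_contDiffOn {ρ : E → ℝ} (hρ : ContDiff ℝ ∞ ρ) :
    ContDiffOn ℝ ∞ (fun q : ℝ × E => monoSmoothKer ρ q.1 q.2) (Ioi (0 : ℝ) ×ˢ (univ : Set E)) := by
  unfold monoSmoothKer
  have h1 : ContDiffOn ℝ ∞ (fun q : ℝ × E => (q.1 ^ Module.finrank ℝ E)⁻¹)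
      (Ioi (0 : ℝ) ×ˢ (univ : Set E)) := by
    refine ContDiffOn.inv (contDiff_fst.pow _).contDiffOn ?_
    rintro ⟨s, w⟩ ⟨hs, -⟩
    exact pow_ne_zero _ (ne_of_gt hs)
  have h2 : ContDiffOn ℝ ∞ (fun q : ℝ × E => q.1⁻¹ • q.2) (Ioi (0 : ℝ) ×ˢ (univ : Set E)) := by
    refine ContDiffOn.smul (ContDiffOn.inv contDiff_fst.contDiffOn ?_) contDiff_snd.contDiffOn
    rintro ⟨s, w⟩ ⟨hs, -⟩
    exact ne_of_gt hs
  exact h1.mul (hρ.comp_contDiffOn h2)

omit [FiniteDimensional ℝ E] [BorelSpace E] [(volume : Measure E).IsAddHaarMeasure] [MeasureSpace E] in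
theorem monoSmooth_ker_eq_zero {ρ : E → ℝ} (hρ : Function.support ρ = ball (0 : E) 1) {s b : ℝ}
    (hs : 0 < s) (hsb : s ≤ b) {w : E} (hw : w ∉ closedBall (0 : E) b) :
    monoSmoothKer ρ s w = 0 := by
  unfold monoSmoothKer
  have hw1 : b < ‖w‖ := by
    rw [mem_closedBall, dist_zero_right] at hw
    exact not_le.mp hw
  have h0 : s⁻¹ • w ∉ Function.support ρ := by
    rw [hρ, mem_ball, dist_zero_right, norm_smul, norm_inv, Real.norm_of_nonneg hs.le, not_lt]
    rw [le_inv_mul_iff₀ hs]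
    linarith
  rw [Function.notMem_support.mp h0, mul_zero]

theorem monoSmooth_vmoll_eq {F : Type*} [NormedAddCommGroup F] [NormedSpace ℝ F]
    {ρ : E → ℝ} (hρ : IsMollKernel ρ) {Ω : Set E} {g : E → F} {ε : E → ℝ} {x : E}
    (hpos : 0 < ε x) (hball : closedBall x (ε x) ⊆ Ω) :
    vmoll ρ ε g x = ∫ z, monoSmoothKer ρ (ε x) (x - z) • Ω.indicator g z := by
  have hsupp := hρ.2.2.2
  have h1 : vmoll ρ ε g x = ∫ y, ρ y • Ω.indicator g (x - ε x • y) := by
    unfold vmoll
    congr 1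
    funext y
    by_cases hy : ρ y = 0
    · simp [hy]
    · have hy1 : y ∈ ball (0 : E) 1 := by
        rw [← hsupp]
        exact hy
      have hy2 : ‖y‖ < 1 := by simpa using hy1
      have hmem : x - ε x • y ∈ Ω := by
        apply hball
        rw [mem_closedBall, dist_eq_norm]
        have h3 : x - ε x • y - x = -(ε x • y) := by abel
        rw [h3, norm_neg, norm_smul, Real.norm_of_nonneg hpos.le]
        nlinarith [norm_nonneg y]
      rw [indicator_of_mem hmem]
  rw [h1]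
  have h2 := Measure.integral_comp_smul (volume : Measure E)
    (fun w => ρ ((ε x)⁻¹ • w) • Ω.indicator g (x - w)) (ε x)
  have h3 : (fun y => ρ ((ε x)⁻¹ • (ε x • y)) • Ω.indicator g (x - ε x • y)) =
      fun y => ρ y • Ω.indicator g (x - ε x • y) := by
    funext y
    rw [smul_smul, inv_mul_cancel₀ (ne_of_gt hpos), one_smul]
  simp only [h3] at h2
  rw [h2]
  have h4 := integral_sub_left_eq_self
    (fun z => ρ ((ε x)⁻¹ • (x - z)) • Ω.indicator g z) (volume : Measure E) x
  simp only [sub_sub_cancel] at h4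
  rw [h4, ← integral_smul]
  congr 1
  funext w
  unfold monoSmoothKer
  rw [abs_of_pos (inv_pos.mpr (pow_pos hpos _)), smul_smul]

theorem vmoll_contDiffOn {F : Type*} [NormedAddCommGroup F] [NormedSpace ℝ F] [CompleteSpace F]
    {ρ : E → ℝ} (hρ : IsMollKernel ρ) {Ω : Set E} (hΩ : IsOpen Ω) {g : E → F}
    (hg : IntegrableOn g Ω) {ε : E → ℝ} (hε : ContDiffOn ℝ ∞ ε Ω)
    (hpos : ∀ x ∈ Ω, 0 < ε x) (hball : ∀ x ∈ Ω, closedBall x (ε x) ⊆ Ω) :
    ContDiffOn ℝ ∞ (vmoll ρ ε g) Ω := by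
  intro x₁ hx₁
  have hgt : LocallyIntegrable (Ω.indicator g) volume :=
    ((integrable_indicator_iff hΩ.measurableSet).mpr hg).locallyIntegrable
  have hp := hpos x₁ hx₁
  have hU : IsOpen (Ω ∩ ε ⁻¹' (Ioo (ε x₁ / 2) (2 * ε x₁))) :=
    hε.continuousOn.isOpen_inter_preimage hΩ isOpen_Ioo
  have hxU : x₁ ∈ Ω ∩ ε ⁻¹' (Ioo (ε x₁ / 2) (2 * ε x₁)) :=
    ⟨hx₁, by constructor <;> linarith⟩
  have hker : ContDiffOn ℝ ∞ (fun q : E × E => monoSmoothKer ρ (ε q.1) q.2)
      ((Ω ∩ ε ⁻¹' (Ioo (ε x₁ / 2) (2 * ε x₁))) ×ˢ (univ : Set E)) := by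
    have hmap : ContDiffOn ℝ ∞ (fun q : E × E => (ε q.1, q.2))
        ((Ω ∩ ε ⁻¹' (Ioo (ε x₁ / 2) (2 * ε x₁))) ×ˢ (univ : Set E)) := by
      refine ContDiffOn.prodMk ?_ contDiff_snd.contDiffOn
      refine hε.comp contDiff_fst.contDiffOn ?_
      rintro ⟨p, w⟩ ⟨hp1, -⟩
      exact hp1.1
    refine (monoSmooth_ker_contDiffOn hρ.1).comp hmap ?_
    rintro ⟨p, w⟩ ⟨hp1, -⟩
    refine ⟨?_, mem_univ _⟩
    have := hp1.2.1
    simp only [mem_Ioi]
    linarith
  have hsupp : ∀ p : E, ∀ w : E, p ∈ Ω ∩ ε ⁻¹' (Ioo (ε x₁ / 2) (2 * ε x₁)) →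
      w ∉ closedBall (0 : E) (2 * ε x₁) → monoSmoothKer ρ (ε p) w = 0 := by
    intro p w hp1 hw
    exact monoSmooth_ker_eq_zero hρ.2.2.2 (hpos p hp1.1) hp1.2.2.le hw
  have H := contDiffOn_convolution_right_with_param_comp (𝕜 := ℝ) (n := (⊤ : ℕ∞))
    (ContinuousLinearMap.lsmul ℝ ℝ : ℝ →L[ℝ] F →L[ℝ] F).flip (μ := (volume : Measure E))
    (v := fun p : E => p) (f := Ω.indicator g) (g := fun p : E => monoSmoothKer ρ (ε p))
    contDiffOn_id hU (isCompact_closedBall (0 : E) (2 * ε x₁)) hsupp hgt hker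
  have H2 : ContDiffOn ℝ ∞ (vmoll ρ ε g) (Ω ∩ ε ⁻¹' (Ioo (ε x₁ / 2) (2 * ε x₁))) := by
    refine H.congr ?_
    intro x hx
    rw [monoSmooth_vmoll_eq hρ (hpos x hx.1) (hball x hx.1)]
    rfl
  exact (H2.contDiffAt (hU.mem_nhds hxU)).contDiffWithinAt

end Vale.Agent.Lib.P073

end -- part MonoSmooth

section -- part MonoDeriv

set_option linter.unusedSectionVars false

namespace Vale.Agent.Lib.P073

open MeasureTheory Filter Topology Set Metric
open scoped ContDiff ENNReal

variable {E : Type*} [NormedAddCommGroup E] [NormedSpace ℝ E] [FiniteDimensional ℝ E]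
  [MeasureSpace E] [BorelSpace E] [(volume : Measure E).IsAddHaarMeasure]

/-- Change of variables `z = x - s • y`. -/
theorem monoDeriv_integral_comp {F : Type*} [NormedAddCommGroup F] [NormedSpace ℝ F]
    (h : E → F) (x : E) {s : ℝ} (hs : 0 < s) :
    ∫ y, h (x - s • y) = (s ^ Module.finrank ℝ E)⁻¹ • ∫ z, h z := by
  have h1 := Measure.integral_comp_smul (volume : Measure E) (fun u => h (x - u)) s
  have h2 : (0 : ℝ) < (s ^ Module.finrank ℝ E)⁻¹ := by positivity
  rw [h1, integral_sub_left_eq_self h volume x, abs_of_pos h2]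

/-- The rescaled kernel, as a function of the radius and of the point. -/
noncomputable def monoDerivKer (ρ : E → ℝ) (s : ℝ) (w : E) : ℝ :=
  (s ^ Module.finrank ℝ E)⁻¹ * ρ (s⁻¹ • w)

theorem monoDeriv_ker_contDiffOn {ρ : E → ℝ} (hρ : ContDiff ℝ ∞ ρ) :
    ContDiffOn ℝ ∞ (fun q : ℝ × E => monoDerivKer ρ q.1 q.2) (Ioi (0 : ℝ) ×ˢ (univ : Set E)) := by
  have h1 : ContDiffOn ℝ ∞ (fun q : ℝ × E => q.1) (Ioi (0 : ℝ) ×ˢ (univ : Set E)) :=
    contDiff_fst.contDiffOn
  have h2 : ContDiffOn ℝ ∞ (fun q : ℝ × E => q.2) (Ioi (0 : ℝ) ×ˢ (univ : Set E)) :=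
    contDiff_snd.contDiffOn
  have hne : ∀ q ∈ Ioi (0 : ℝ) ×ˢ (univ : Set E), q.1 ≠ 0 := fun q hq => (hq.1 : 0 < q.1).ne'
  have h3 : ContDiffOn ℝ ∞ (fun q : ℝ × E => (q.1 ^ Module.finrank ℝ E)⁻¹)
      (Ioi (0 : ℝ) ×ˢ (univ : Set E)) :=
    (h1.pow _).inv (fun q hq => pow_ne_zero _ (hne q hq))
  have h4 : ContDiffOn ℝ ∞ (fun q : ℝ × E => q.1⁻¹ • q.2) (Ioi (0 : ℝ) ×ˢ (univ : Set E)) :=
    (h1.inv hne).smul h2
  exact h3.mul (hρ.comp_contDiffOn h4)

theorem monoDeriv_ker_eq_zero {ρ : E → ℝ} (hsupp : Function.support ρ = ball (0 : E) 1)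
    {s R : ℝ} (hs : 0 < s) (hsR : s ≤ R) {w : E} (hw : w ∉ closedBall (0 : E) R) :
    monoDerivKer ρ s w = 0 := by
  have hw' : R < ‖w‖ := by
    rw [mem_closedBall, dist_zero_right, not_le] at hw
    exact hw
  have h1 : s⁻¹ • w ∉ Function.support ρ := by
    rw [hsupp, mem_ball, dist_zero_right, norm_smul, norm_inv, Real.norm_of_nonneg hs.le, not_lt]
    rw [← div_eq_inv_mul, le_div_iff₀ hs]
    linarith
  rw [Function.mem_support, not_not] at h1
  unfold monoDerivKer
  rw [h1, mul_zero]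

/-- The variable-radius mollification as an integral against the rescaled kernel. -/
theorem monoDeriv_vmoll_eq {F : Type*} [NormedAddCommGroup F] [NormedSpace ℝ F]
    {ρ : E → ℝ} (hsupp : Function.support ρ = ball (0 : E) 1) {Ω : Set E} {f : E → F}
    {ε : E → ℝ} {x : E} (hpos : 0 < ε x) (hball : closedBall x (ε x) ⊆ Ω) :
    vmoll ρ ε f x = ∫ z, monoDerivKer ρ (ε x) (x - z) • Ω.indicator f z := by
  have e1 : ∀ y, ρ y • f (x - ε x • y)
      = (fun z => ρ ((ε x)⁻¹ • (x - z)) • Ω.indicator f z) (x - ε x • y) := by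
    intro y
    have hy : (ε x)⁻¹ • (x - (x - ε x • y)) = y := by
      rw [sub_sub_cancel, inv_smul_smul₀ hpos.ne']
    show ρ y • f (x - ε x • y) = ρ ((ε x)⁻¹ • (x - (x - ε x • y))) • Ω.indicator f (x - ε x • y)
    rw [hy]
    by_cases h0 : ρ y = 0
    · rw [h0, zero_smul, zero_smul]
    · have hy1 : y ∈ ball (0 : E) 1 := by
        rw [← hsupp]
        exact h0
      have hmem : x - ε x • y ∈ Ω := by
        apply hball
        rw [mem_closedBall, dist_eq_norm, sub_sub_cancel_left, norm_neg, norm_smul,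
          Real.norm_of_nonneg hpos.le]
        rw [mem_ball, dist_zero_right] at hy1
        nlinarith
      rw [indicator_of_mem hmem]
  have key := monoDeriv_integral_comp
    (fun z => ρ ((ε x)⁻¹ • (x - z)) • Ω.indicator f z) x hpos
  unfold vmoll
  rw [integral_congr_ae (Eventually.of_forall e1), key, ← integral_smul]
  refine integral_congr_ae (Eventually.of_forall fun z => ?_)
  show (ε x ^ Module.finrank ℝ E)⁻¹ • ρ ((ε x)⁻¹ • (x - z)) • Ω.indicator f z
    = monoDerivKer ρ (ε x) (x - z) • Ω.indicator f z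
  rw [smul_smul]
  rfl

/-- Homogeneity of the kernel. -/
theorem monoDeriv_ker_smul (ρ : E → ℝ) {l : ℝ} (hl : l ≠ 0) (e : ℝ) (w : E) :
    monoDerivKer ρ (l * e) (l • w) = (l ^ Module.finrank ℝ E)⁻¹ * monoDerivKer ρ e w := by
  unfold monoDerivKer
  have h1 : (l * e)⁻¹ • l • w = e⁻¹ • w := by
    rw [smul_smul, mul_inv, mul_comm l⁻¹ e⁻¹, mul_assoc, inv_mul_cancel₀ hl, mul_one]
  rw [h1, mul_pow, mul_inv, mul_assoc]

theorem monoDeriv_ker_differentiableAt {ρ : E → ℝ} (hρ : ContDiff ℝ ∞ ρ) {e : ℝ} (he : 0 < e)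
    (w : E) : DifferentiableAt ℝ (fun q : ℝ × E => monoDerivKer ρ q.1 q.2) (e, w) := by
  have hopen : IsOpen (Ioi (0 : ℝ) ×ˢ (univ : Set E)) := isOpen_Ioi.prod isOpen_univ
  have hmem : ((e, w) : ℝ × E) ∈ Ioi (0 : ℝ) ×ˢ (univ : Set E) := ⟨he, mem_univ w⟩
  exact ((monoDeriv_ker_contDiffOn hρ).differentiableOn (by simp)).differentiableAt
    (hopen.mem_nhds hmem)

/-- Euler's identity for the kernel, which is homogeneous of degree `- dim E`. -/
theorem monoDeriv_ker_euler {ρ : E → ℝ} (hρ : ContDiff ℝ ∞ ρ) {e : ℝ} (he : 0 < e) (w : E) :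
    fderiv ℝ (fun q : ℝ × E => monoDerivKer ρ q.1 q.2) (e, w) (e, w)
      = -(Module.finrank ℝ E : ℝ) * monoDerivKer ρ e w := by
  have hd := (monoDeriv_ker_differentiableAt hρ he w).hasFDerivAt
  have hline : HasDerivAt (fun l : ℝ => l • ((e, w) : ℝ × E)) ((e, w) : ℝ × E) 1 := by
    have := (hasDerivAt_id (1 : ℝ)).smul_const ((e, w) : ℝ × E)
    simpa using this
  have hd' : HasFDerivAt (fun q : ℝ × E => monoDerivKer ρ q.1 q.2)
      (fderiv ℝ (fun q : ℝ × E => monoDerivKer ρ q.1 q.2) (e, w))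
      ((fun l : ℝ => l • ((e, w) : ℝ × E)) 1) := by
    simpa using hd
  have hcomp := hd'.comp_hasDerivAt (1 : ℝ) hline
  have hrhs : HasDerivAt (fun l : ℝ => (l ^ Module.finrank ℝ E)⁻¹ * monoDerivKer ρ e w)
      (-(Module.finrank ℝ E : ℝ) * monoDerivKer ρ e w) 1 := by
    have h1 := ((hasDerivAt_pow (Module.finrank ℝ E) (1 : ℝ)).inv (by simp)).mul_const
      (monoDerivKer ρ e w)
    simpa using h1
  have hev : (fun l : ℝ => (l ^ Module.finrank ℝ E)⁻¹ * monoDerivKer ρ e w) =ᶠ[𝓝 (1 : ℝ)]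
      ((fun q : ℝ × E => monoDerivKer ρ q.1 q.2) ∘ fun l : ℝ => l • ((e, w) : ℝ × E)) := by
    filter_upwards [isOpen_ne.mem_nhds (one_ne_zero : (1 : ℝ) ≠ 0)] with l hl
    show (l ^ Module.finrank ℝ E)⁻¹ * monoDerivKer ρ e w = monoDerivKer ρ (l * e) (l • w)
    rw [monoDeriv_ker_smul ρ hl]
  exact (hcomp.congr_of_eventuallyEq hev).unique hrhs

/-- The derivative of the kernel in the space variable. -/
theorem monoDeriv_ker_slice {ρ : E → ℝ} (hρ : ContDiff ℝ ∞ ρ) {e : ℝ} (he : 0 < e) (w u : E) :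
    fderiv ℝ (fun q : ℝ × E => monoDerivKer ρ q.1 q.2) (e, w) (0, u)
      = fderiv ℝ (monoDerivKer ρ e) w u := by
  have hd := (monoDeriv_ker_differentiableAt hρ he w).hasFDerivAt
  have hin : HasFDerivAt (fun w' : E => ((e, w') : ℝ × E)) (ContinuousLinearMap.inr ℝ ℝ E) w :=
    hasFDerivAt_prodMk_right e w
  have hcomp := hd.comp w hin
  have hfun : ((fun q : ℝ × E => monoDerivKer ρ q.1 q.2) ∘ fun w' : E => ((e, w') : ℝ × E))
      = monoDerivKer ρ e := rfl
  rw [hfun] at hcomp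
  rw [hcomp.fderiv]
  rfl

/-- The full derivative of the kernel in terms of the derivative in the space variable. -/
theorem monoDeriv_ker_fderiv {ρ : E → ℝ} (hρ : ContDiff ℝ ∞ ρ) {e : ℝ} (he : 0 < e)
    (w v : E) (σ : ℝ) :
    fderiv ℝ (fun q : ℝ × E => monoDerivKer ρ q.1 q.2) (e, w) (σ, v)
      = -((Module.finrank ℝ E : ℝ) * (σ / e)) * monoDerivKer ρ e w
        + fderiv ℝ (monoDerivKer ρ e) w (v - (σ / e) • w) := by
  have hsplit : ((σ, v) : ℝ × E) = (σ / e) • ((e, w) : ℝ × E) + ((0, v - (σ / e) • w) : ℝ × E) := by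
    ext
    · simp
      field_simp
    · simp
  rw [hsplit, map_add, map_smul, monoDeriv_ker_euler hρ he, monoDeriv_ker_slice hρ he]
  simp only [smul_eq_mul]
  ring

/-- Differentiation of the variable-radius mollification under the integral sign. -/
theorem monoDeriv_fderiv_vmoll {F : Type*} [NormedAddCommGroup F] [NormedSpace ℝ F]
    [CompleteSpace F] {ρ : E → ℝ} (hρ : IsMollKernel ρ) {Ω : Set E} (hΩ : IsOpen Ω) {f : E → F}
    (hf : IntegrableOn f Ω) {ε : E → ℝ} (hε : ContDiffOn ℝ ∞ ε Ω)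
    (hpos : ∀ x ∈ Ω, 0 < ε x) (hball : ∀ x ∈ Ω, closedBall x (ε x) ⊆ Ω) {x : E} (hx : x ∈ Ω)
    (v : E) :
    fderiv ℝ (vmoll ρ ε f) x v
      = ∫ z, (fderiv ℝ (fun q : ℝ × E => monoDerivKer ρ q.1 q.2) (ε x, x - z)
          (fderiv ℝ ε x v, v)) • Ω.indicator f z := by
  obtain ⟨hρs, hρ0, hρ1, hsupp⟩ := hρ
  have he : 0 < ε x := hpos x hx
  let L : F →L[ℝ] ℝ →L[ℝ] F := (ContinuousLinearMap.lsmul ℝ ℝ).flip
  let k : ℝ × E → ℝ := fun q => monoDerivKer ρ q.1 q.2
  have hfi : Integrable (Ω.indicator f) := (integrable_indicator_iff hΩ.measurableSet).2 hf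
  have hfl : LocallyIntegrable (Ω.indicator f) := hfi.locallyIntegrable
  have hS : IsOpen (Ioo (ε x / 2) (2 * ε x)) := isOpen_Ioo
  have hSsub : Ioo (ε x / 2) (2 * ε x) ×ˢ (univ : Set E) ⊆ Ioi (0 : ℝ) ×ˢ (univ : Set E) := by
    intro q hq
    have h1 : ε x / 2 < q.1 := hq.1.1
    exact ⟨by show 0 < q.1; linarith, mem_univ _⟩
  have hk1 : ContDiffOn ℝ 1 k (Ioo (ε x / 2) (2 * ε x) ×ˢ (univ : Set E)) :=
    ((monoDeriv_ker_contDiffOn hρs).mono hSsub).of_le (by simp)
  have hgs : ∀ p w, p ∈ Ioo (ε x / 2) (2 * ε x) → w ∉ closedBall (0 : E) (2 * ε x) →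
      monoDerivKer ρ p w = 0 := by
    intro p w hp hw
    have h1 : ε x / 2 < p := hp.1
    exact monoDeriv_ker_eq_zero hsupp (by linarith) hp.2.le hw
  have heS : ε x ∈ Ioo (ε x / 2) (2 * ε x) := ⟨by linarith, by linarith⟩
  have hmain := hasFDerivAt_convolution_right_with_param (μ := (volume : Measure E)) L
    (g := monoDerivKer ρ) hS (isCompact_closedBall (0 : E) (2 * ε x)) hgs hfl hk1
    ((ε x, x) : ℝ × E) heS
  have hεd : HasFDerivAt ε (fderiv ℝ ε x) x :=
    ((hε.differentiableOn (by simp)).differentiableAt (hΩ.mem_nhds hx)).hasFDerivAt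
  have hι : HasFDerivAt (fun x' : E => ((ε x', x') : ℝ × E))
      ((fderiv ℝ ε x).prod (ContinuousLinearMap.id ℝ E)) x := hεd.prodMk (hasFDerivAt_id x)
  have hmain' : HasFDerivAt
      (fun q : ℝ × E => convolution (Ω.indicator f) (monoDerivKer ρ q.1) L volume q.2)
      (convolution (Ω.indicator f) (fun w => fderiv ℝ k (ε x, w)) (L.precompR (ℝ × E)) volume x)
      ((fun x' : E => ((ε x', x') : ℝ × E)) x) := hmain
  have hcomp := HasFDerivAt.comp (f := fun x' : E => ((ε x', x') : ℝ × E)) x hmain' hι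
  have hev : vmoll ρ ε f =ᶠ[𝓝 x]
      (fun q : ℝ × E => (convolution (Ω.indicator f) (monoDerivKer ρ q.1) L volume) q.2)
        ∘ (fun x' : E => ((ε x', x') : ℝ × E)) := by
    filter_upwards [hΩ.mem_nhds hx] with x' hx'
    rw [monoDeriv_vmoll_eq hsupp (hpos x' hx') (hball x' hx')]
    rfl
  have hfd := (hcomp.congr_of_eventuallyEq hev).fderiv
  have hopen : IsOpen (Ioo (ε x / 2) (2 * ε x) ×ˢ (univ : Set E)) := hS.prod isOpen_univ
  have hcont : Continuous (fun w : E => fderiv ℝ k (ε x, w)) :=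
    (hk1.continuousOn_fderiv_of_isOpen hopen le_rfl).comp_continuous
      (Continuous.prodMk_right (ε x)) (fun w => ⟨heS, mem_univ w⟩)
  have hcs : HasCompactSupport (fun w : E => fderiv ℝ k (ε x, w)) := by
    refine HasCompactSupport.intro (isCompact_closedBall (0 : E) (2 * ε x)) (fun w hw => ?_)
    have hU : IsOpen (Ioo (ε x / 2) (2 * ε x) ×ˢ (closedBall (0 : E) (2 * ε x))ᶜ) :=
      hS.prod isClosed_closedBall.isOpen_compl
    have hev0 : k =ᶠ[𝓝 ((ε x, w) : ℝ × E)] fun _ => (0 : ℝ) := by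
      filter_upwards [hU.mem_nhds ⟨heS, hw⟩] with q hq
      exact hgs q.1 q.2 hq.1 hq.2
    rw [hev0.fderiv_eq]
    simp
  rw [hfd]
  show ((convolution (Ω.indicator f) (fun w => fderiv ℝ k (ε x, w))
    (L.precompR (ℝ × E)) volume) x) (fderiv ℝ ε x v, v) = _
  rw [convolution_precompR_apply L hfl hcs hcont x]
  rfl

theorem monoDeriv_integral_indicator {F : Type*} [NormedAddCommGroup F] [NormedSpace ℝ F]
    {Ω : Set E} (hΩ : MeasurableSet Ω) (c : E → ℝ) (h : E → F) :
    ∫ z, c z • Ω.indicator h z = ∫ z in Ω, c z • h z := by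
  rw [← integral_indicator hΩ]
  refine integral_congr_ae (Eventually.of_forall fun z => ?_)
  by_cases hz : z ∈ Ω
  · simp [hz]
  · simp [hz]

/-- Integrability of a continuous function supported in the reflected support of a test
function, times a locally integrable function. -/
theorem monoDeriv_integrable_aux {F : Type*} [NormedAddCommGroup F] [NormedSpace ℝ F]
    {Ω : Set E} {h : E → F} (hh : LocallyIntegrableOn h Ω) {θ : E → ℝ}
    (hθs : HasCompactSupport θ) {x : E} (hsub : ∀ z, x - z ∈ tsupport θ → z ∈ Ω) {c : E → ℝ}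
    (hc : Continuous c) (hc0 : ∀ z, x - z ∉ tsupport θ → c z = 0) :
    Integrable (fun z => c z • h z) (volume.restrict Ω) := by
  have hK : IsCompact ((fun w : E => x - w) '' tsupport θ) :=
    hθs.isCompact.image (continuous_const.sub continuous_id)
  have hmemK : ∀ z, z ∈ (fun w : E => x - w) '' tsupport θ ↔ x - z ∈ tsupport θ := by
    intro z
    constructor
    · rintro ⟨w, hw, rfl⟩
      rw [sub_sub_cancel]
      exact hw
    · intro hz
      exact ⟨x - z, hz, sub_sub_cancel x z⟩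
  have hcs : HasCompactSupport c :=
    HasCompactSupport.intro hK (fun z hz => hc0 z (fun h' => hz ((hmemK z).2 h')))
  have htsub : tsupport c ⊆ Ω := by
    have h1 : tsupport c ⊆ (fun w : E => x - w) '' tsupport θ := by
      refine closure_minimal ?_ hK.isClosed
      intro z hz
      by_contra hcon
      exact hz (hc0 z (fun h' => hcon ((hmemK z).2 h')))
    intro z hz
    exact hsub z ((hmemK z).1 (h1 hz))
  exact (integrable_smul_of_tsupport_subset hh hc hcs htsub).restrict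

/-- The weak derivative identity for the reflected translate of a test function, with the
integrability of both sides. -/
theorem monoDeriv_weak {F : Type*} [NormedAddCommGroup F] [NormedSpace ℝ F] [CompleteSpace F]
    {Ω : Set E} {f : E → F} {G : E → E →L[ℝ] F} (hw : IsWeakDeriv Ω f G)
    {θ : E → ℝ} (hθ : ContDiff ℝ ∞ θ) (hθs : HasCompactSupport θ) {x : E}
    (hsub : ∀ z, x - z ∈ tsupport θ → z ∈ Ω) (u : E) :
    Integrable (fun z => (fderiv ℝ θ (x - z) u) • f z) (volume.restrict Ω) ∧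
    Integrable (fun z => θ (x - z) • G z u) (volume.restrict Ω) ∧
    ∫ z in Ω, (fderiv ℝ θ (x - z) u) • f z = ∫ z in Ω, θ (x - z) • G z u := by
  refine ⟨?_, ?_, ?_⟩
  · refine monoDeriv_integrable_aux hw.1 hθs hsub ?_ ?_
    · exact ((hθ.continuous_fderiv (by simp)).clm_apply continuous_const).comp
        (continuous_const.sub continuous_id)
    · intro z hz
      have h0 : fderiv ℝ θ (x - z) = 0 := fderiv_of_notMem_tsupport (𝕜 := ℝ) hz
      rw [h0]
      rfl
  · have h1 : Integrable (fun z => θ (x - z) • G z) (volume.restrict Ω) :=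
      monoDeriv_integrable_aux hw.2.1 hθs hsub
        (hθ.continuous.comp (continuous_const.sub continuous_id))
        (fun z hz => image_eq_zero_of_notMem_tsupport hz)
    exact (ContinuousLinearMap.apply ℝ F u).integrable_comp h1
  · have hψ : ContDiff ℝ ∞ (fun y => θ (x - y)) := hθ.comp (contDiff_const.sub contDiff_id)
    have hψs : HasCompactSupport (fun y => θ (x - y)) :=
      hθs.comp_homeomorph (Homeomorph.subLeft x)
    have hψsub : tsupport (fun y => θ (x - y)) ⊆ Ω := by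
      intro y hy
      apply hsub
      have hcl : IsClosed ((fun y => x - y) ⁻¹' tsupport θ) :=
        (isClosed_tsupport θ).preimage (continuous_const.sub continuous_id)
      have hsub' : Function.support (fun y => θ (x - y)) ⊆ (fun y => x - y) ⁻¹' tsupport θ := by
        intro z hz
        exact subset_tsupport θ hz
      exact closure_minimal hsub' hcl hy
    have hweak := hw.2.2 _ hψ hψs hψsub u
    have e1 : ∀ y, fderiv ℝ (fun y => θ (x - y)) y u = - fderiv ℝ θ (x - y) u := by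
      intro y
      have hd : HasFDerivAt θ (fderiv ℝ θ (x - y)) (x - y) :=
        (hθ.differentiable (by simp) (x - y)).hasFDerivAt
      have hs : HasFDerivAt (fun y : E => x - y) (0 - ContinuousLinearMap.id ℝ E) y :=
        (hasFDerivAt_const x y).sub (hasFDerivAt_id y)
      have hc := hd.comp y hs
      have e : (θ ∘ fun y : E => x - y) = fun y => θ (x - y) := rfl
      rw [e] at hc
      rw [hc.fderiv]
      simp
    simp only [e1, neg_smul, integral_neg, neg_inj] at hweak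
    exact hweak

theorem monoDeriv_kappa_contDiff {ρ : E → ℝ} (hρ : ContDiff ℝ ∞ ρ) (e : ℝ) :
    ContDiff ℝ ∞ (monoDerivKer ρ e) := by
  show ContDiff ℝ ∞ (fun w => (e ^ Module.finrank ℝ E)⁻¹ * ρ (e⁻¹ • w))
  exact contDiff_const.mul (hρ.comp (contDiff_const.smul contDiff_id))

theorem monoDeriv_kappa_hasCompactSupport {ρ : E → ℝ}
    (hsupp : Function.support ρ = ball (0 : E) 1) {e : ℝ} (he : 0 < e) :
    HasCompactSupport (monoDerivKer ρ e) :=
  HasCompactSupport.intro (isCompact_closedBall (0 : E) e)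
    (fun _ hw => monoDeriv_ker_eq_zero hsupp he le_rfl hw)

theorem monoDeriv_kappa_sub {ρ : E → ℝ} (hsupp : Function.support ρ = ball (0 : E) 1) {e : ℝ}
    (he : 0 < e) {Ω : Set E} {x : E} (hball : closedBall x e ⊆ Ω) (z : E)
    (hz : x - z ∈ tsupport (monoDerivKer ρ e)) : z ∈ Ω := by
  have h1 : tsupport (monoDerivKer ρ e) ⊆ closedBall (0 : E) e := by
    refine closure_minimal ?_ isClosed_closedBall
    intro w hw
    by_contra hcon
    exact hw (monoDeriv_ker_eq_zero hsupp he le_rfl hcon)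
  have h2 := h1 hz
  apply hball
  rw [mem_closedBall, dist_zero_right] at h2
  rw [mem_closedBall, dist_eq_norm, ← norm_neg, neg_sub]
  exact h2

/-- The derivative of the kernel as a combination of derivatives of test functions. -/
theorem monoDeriv_pointwise {ρ : E → ℝ} (hρ : ContDiff ℝ ∞ ρ) {e : ℝ} (he : 0 < e)
    (w v : E) (σ : ℝ) :
    fderiv ℝ (fun q : ℝ × E => monoDerivKer ρ q.1 q.2) (e, w) (σ, v)
      = fderiv ℝ (monoDerivKer ρ e) w v
        - (σ / e) * ∑ i, fderiv ℝ (fun w' => (Module.finBasis ℝ E).coord i w' * monoDerivKer ρ e w')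
            w (Module.finBasis ℝ E i) := by
  have hκ : ContDiff ℝ ∞ (monoDerivKer ρ e) := monoDeriv_kappa_contDiff hρ e
  have hθd : ∀ i, fderiv ℝ (fun w' => (Module.finBasis ℝ E).coord i w' * monoDerivKer ρ e w')
      w (Module.finBasis ℝ E i)
      = (Module.finBasis ℝ E).coord i w * fderiv ℝ (monoDerivKer ρ e) w (Module.finBasis ℝ E i)
        + monoDerivKer ρ e w := by
    intro i
    have h1 : HasFDerivAt (fun w' : E => (Module.finBasis ℝ E).coord i w')
        (LinearMap.toContinuousLinearMap ((Module.finBasis ℝ E).coord i)) w :=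
      (LinearMap.toContinuousLinearMap ((Module.finBasis ℝ E).coord i)).hasFDerivAt
    have h2 : HasFDerivAt (monoDerivKer ρ e) (fderiv ℝ (monoDerivKer ρ e) w) w :=
      (hκ.differentiable (by simp) w).hasFDerivAt
    have h3 : HasFDerivAt (fun w' => (Module.finBasis ℝ E).coord i w' * monoDerivKer ρ e w')
        ((Module.finBasis ℝ E).coord i w • fderiv ℝ (monoDerivKer ρ e) w
          + monoDerivKer ρ e w
            • LinearMap.toContinuousLinearMap ((Module.finBasis ℝ E).coord i)) w :=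
      h1.mul h2
    rw [h3.fderiv]
    have hc1 : (Module.finBasis ℝ E).coord i (Module.finBasis ℝ E i) = 1 := by
      rw [Module.Basis.coord_apply, Module.Basis.repr_self, Finsupp.single_eq_same]
    simp only [add_apply, smul_apply,
      LinearMap.coe_toContinuousLinearMap', smul_eq_mul, hc1, mul_one]
  have hsum : ∑ i, (Module.finBasis ℝ E).coord i w
      * fderiv ℝ (monoDerivKer ρ e) w (Module.finBasis ℝ E i)
      = fderiv ℝ (monoDerivKer ρ e) w w := by
    have hw' : fderiv ℝ (monoDerivKer ρ e) w w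
        = fderiv ℝ (monoDerivKer ρ e) w
          (∑ i, (Module.finBasis ℝ E).repr w i • Module.finBasis ℝ E i) :=
      congrArg (fderiv ℝ (monoDerivKer ρ e) w) ((Module.finBasis ℝ E).sum_repr w).symm
    rw [hw', map_sum]
    refine Finset.sum_congr rfl (fun i _ => ?_)
    rw [map_smul, smul_eq_mul]
    rfl
  rw [monoDeriv_ker_fderiv hρ he, Finset.sum_congr rfl (fun i _ => hθd i), Finset.sum_add_distrib,
    hsum, Finset.sum_const, Finset.card_univ, Fintype.card_fin, map_sub, map_smul]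
  simp only [smul_eq_mul, nsmul_eq_mul]
  ring

theorem vmoll_fderiv {F : Type*} [NormedAddCommGroup F] [NormedSpace ℝ F] [CompleteSpace F]
    {ρ : E → ℝ} (hρ : IsMollKernel ρ) {Ω : Set E} (hΩ : IsOpen Ω) {f : E → F}
    {G : E → E →L[ℝ] F} (hw : IsWeakDeriv Ω f G) (hf : IntegrableOn f Ω)
    (hG : IntegrableOn G Ω) {ε : E → ℝ} (hε : ContDiffOn ℝ ∞ ε Ω)
    (hpos : ∀ x ∈ Ω, 0 < ε x) (hball : ∀ x ∈ Ω, closedBall x (ε x) ⊆ Ω) {x : E} (hx : x ∈ Ω)
    (v : E) :
    fderiv ℝ (vmoll ρ ε f) x v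
      = ∫ y, ρ y • (G (x - ε x • y)) (v - (fderiv ℝ ε x v) • y) := by
  have _hGused := hG
  rw [monoDeriv_fderiv_vmoll hρ hΩ hf hε hpos hball hx v]
  obtain ⟨hρs, _, _, hsupp⟩ := hρ
  have he : 0 < ε x := hpos x hx
  have hbx : closedBall x (ε x) ⊆ Ω := hball x hx
  generalize fderiv ℝ ε x v = σ
  generalize ε x = e at he hbx ⊢
  have hκ : ContDiff ℝ ∞ (monoDerivKer ρ e) := monoDeriv_kappa_contDiff hρs e
  have hκs : HasCompactSupport (monoDerivKer ρ e) := monoDeriv_kappa_hasCompactSupport hsupp he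
  have hκsub : ∀ z, x - z ∈ tsupport (monoDerivKer ρ e) → z ∈ Ω :=
    monoDeriv_kappa_sub hsupp he hbx
  have hℓ : ∀ i, ContDiff ℝ ∞ (fun w' : E => (Module.finBasis ℝ E).coord i w') := fun i =>
    (LinearMap.toContinuousLinearMap ((Module.finBasis ℝ E).coord i)).contDiff
  have hθ : ∀ i, ContDiff ℝ ∞
      (fun w' => (Module.finBasis ℝ E).coord i w' * monoDerivKer ρ e w') :=
    fun i => (hℓ i).mul hκ
  have hθs : ∀ i, HasCompactSupport
      (fun w' => (Module.finBasis ℝ E).coord i w' * monoDerivKer ρ e w') :=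
    fun i => hκs.mul_left
  have hθsub : ∀ i z, x - z ∈ tsupport
      (fun w' => (Module.finBasis ℝ E).coord i w' * monoDerivKer ρ e w') → z ∈ Ω :=
    fun i z hz => hκsub z (tsupport_mul_subset_right hz)
  obtain ⟨I0f, I0G, W0⟩ := monoDeriv_weak hw hκ hκs hκsub v
  have Wi := fun i => monoDeriv_weak hw (hθ i) (hθs i) (hθsub i) (Module.finBasis ℝ E i)
  have step1 : ∫ z, (fderiv ℝ (fun q : ℝ × E => monoDerivKer ρ q.1 q.2) (e, x - z) (σ, v))
        • Ω.indicator f z
      = ∫ z in Ω, ((fderiv ℝ (monoDerivKer ρ e) (x - z) v) • f z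
          - (σ / e) • ∑ i, (fderiv ℝ
              (fun w' => (Module.finBasis ℝ E).coord i w' * monoDerivKer ρ e w')
              (x - z) (Module.finBasis ℝ E i)) • f z) := by
    rw [monoDeriv_integral_indicator hΩ.measurableSet]
    refine integral_congr_ae (Eventually.of_forall fun z => ?_)
    show (fderiv ℝ (fun q : ℝ × E => monoDerivKer ρ q.1 q.2) (e, x - z) (σ, v)) • f z = _
    rw [monoDeriv_pointwise hρs he, sub_smul, mul_smul, Finset.sum_smul]
  have step2 : ∫ z in Ω, ((fderiv ℝ (monoDerivKer ρ e) (x - z) v) • f z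
          - (σ / e) • ∑ i, (fderiv ℝ
              (fun w' => (Module.finBasis ℝ E).coord i w' * monoDerivKer ρ e w')
              (x - z) (Module.finBasis ℝ E i)) • f z)
      = (∫ z in Ω, monoDerivKer ρ e (x - z) • G z v)
        - (σ / e) • ∑ i, ∫ z in Ω,
            ((Module.finBasis ℝ E).coord i (x - z) * monoDerivKer ρ e (x - z))
              • G z (Module.finBasis ℝ E i) := by
    have hI2 : Integrable (fun z => (σ / e) • ∑ i, (fderiv ℝ
        (fun w' => (Module.finBasis ℝ E).coord i w' * monoDerivKer ρ e w')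
        (x - z) (Module.finBasis ℝ E i)) • f z) (volume.restrict Ω) :=
      (integrable_finsetSum _ (fun i _ => (Wi i).1)).smul (σ / e)
    rw [integral_sub I0f hI2, integral_smul, integral_finsetSum _ (fun i _ => (Wi i).1), W0]
    congr 2
    exact Finset.sum_congr rfl (fun i _ => (Wi i).2.2)
  have step3 : (∫ z in Ω, monoDerivKer ρ e (x - z) • G z v)
        - (σ / e) • ∑ i, ∫ z in Ω,
            ((Module.finBasis ℝ E).coord i (x - z) * monoDerivKer ρ e (x - z))
              • G z (Module.finBasis ℝ E i)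
      = ∫ z in Ω, monoDerivKer ρ e (x - z) • G z (v - (σ / e) • (x - z)) := by
    have hI3 : Integrable (fun z => (σ / e) • ∑ i,
        ((Module.finBasis ℝ E).coord i (x - z) * monoDerivKer ρ e (x - z))
          • G z (Module.finBasis ℝ E i)) (volume.restrict Ω) :=
      (integrable_finsetSum _ (fun i _ => (Wi i).2.1)).smul (σ / e)
    have hpt : ∀ z, monoDerivKer ρ e (x - z) • G z (v - (σ / e) • (x - z))
        = monoDerivKer ρ e (x - z) • G z v
          - (σ / e) • ∑ i, ((Module.finBasis ℝ E).coord i (x - z) * monoDerivKer ρ e (x - z))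
              • G z (Module.finBasis ℝ E i) := by
      intro z
      have hGw : G z (x - z) = ∑ i, (Module.finBasis ℝ E).coord i (x - z)
          • G z (Module.finBasis ℝ E i) := by
        have h0 : G z (x - z)
            = G z (∑ i, (Module.finBasis ℝ E).repr (x - z) i • Module.finBasis ℝ E i) :=
          congrArg (G z) ((Module.finBasis ℝ E).sum_repr (x - z)).symm
        rw [h0, map_sum]
        refine Finset.sum_congr rfl (fun i _ => ?_)
        rw [map_smul]
        rfl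
      rw [map_sub, map_smul, hGw, smul_sub, Finset.smul_sum, Finset.smul_sum, Finset.smul_sum]
      congr 1
      refine Finset.sum_congr rfl (fun i _ => ?_)
      rw [smul_smul, smul_smul, smul_smul]
      congr 1
      ring
    rw [integral_congr_ae (Eventually.of_forall hpt), integral_sub I0G hI3, integral_smul,
      integral_finsetSum _ (fun i _ => (Wi i).2.1)]
  have step4 : ∫ z in Ω, monoDerivKer ρ e (x - z) • G z (v - (σ / e) • (x - z))
      = ∫ y, ρ y • (G (x - e • y)) (v - σ • y) := by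
    rw [← monoDeriv_integral_indicator hΩ.measurableSet (fun z => monoDerivKer ρ e (x - z))
      (fun z => G z (v - (σ / e) • (x - z)))]
    have h1 := monoDeriv_vmoll_eq (ρ := ρ) hsupp (Ω := Ω)
      (f := fun z => G z (v - (σ / e) • (x - z))) (ε := fun _ => e) (x := x) he hbx
    rw [← h1]
    unfold vmoll
    refine integral_congr_ae (Eventually.of_forall fun y => ?_)
    show ρ y • G (x - e • y) (v - (σ / e) • (x - (x - e • y))) = ρ y • G (x - e • y) (v - σ • y)
    rw [sub_sub_cancel, smul_smul, div_mul_cancel₀ σ he.ne']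
  rw [step1, step2, step3, step4]

end Vale.Agent.Lib.P073

end -- part MonoDeriv

section -- part MonoLp

/-!
# P073: `L^p` boundedness of the variable-radius mollification

For a radius function `ε` which is `1/2`-Lipschitz and whose closed balls stay inside `Ω`, the
maps `x ↦ x - ε x • y` (`‖y‖ ≤ 1`) send `Ω` into itself and expand distances by at least `1/2`,
hence push the volume of `Ω` forward to a measure bounded by `2 ^ n` times the volume of `Ω`.
Jensen and Tonelli then give the `L^p` bound for `vmoll`.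
-/

namespace Vale.Agent.Lib.P073

open MeasureTheory Filter Topology Set Metric
open scoped ContDiff ENNReal NNReal

variable {E : Type*} [NormedAddCommGroup E] [NormedSpace ℝ E] [FiniteDimensional ℝ E]
  [MeasureSpace E] [BorelSpace E] [(volume : Measure E).IsAddHaarMeasure]

/-- Preimages under a map which expands distances by at least `1/2` have volume at most `2 ^ n`
times the volume of the set. -/
theorem volume_preimage_le_of_antilipschitz {T : E → E} (hT : AntilipschitzWith 2 T)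
    (S : Set E) : volume (T ⁻¹' S) ≤ 2 ^ (Module.finrank ℝ E) * volume S := by
  have h := Measure.isAddLeftInvariant_eq_smul (volume : Measure E)
    (μH[(Module.finrank ℝ E : ℝ)] : Measure E)
  have e : ∀ s : Set E, (volume : Measure E) s
      = (Measure.addHaarScalarFactor (volume : Measure E)
          (μH[(Module.finrank ℝ E : ℝ)] : Measure E) : ℝ≥0∞) * μH[(Module.finrank ℝ E : ℝ)] s := by
    intro s
    have h2 : (volume : Measure E) s
        = (Measure.addHaarScalarFactor (volume : Measure E)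
          (μH[(Module.finrank ℝ E : ℝ)] : Measure E)
            • (μH[(Module.finrank ℝ E : ℝ)] : Measure E)) s := by
      rw [← h]
    rw [h2, Measure.smul_apply, ENNReal.smul_def, smul_eq_mul]
  have hpre := hT.hausdorffMeasure_preimage_le (d := (Module.finrank ℝ E : ℝ))
    (Nat.cast_nonneg _) S
  rw [ENNReal.rpow_natCast] at hpre
  rw [e (T ⁻¹' S), e S]
  calc _ ≤ (Measure.addHaarScalarFactor (volume : Measure E)
          (μH[(Module.finrank ℝ E : ℝ)] : Measure E) : ℝ≥0∞)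
          * (((2 : ℝ≥0) : ℝ≥0∞) ^ (Module.finrank ℝ E) * μH[(Module.finrank ℝ E : ℝ)] S) := by
        gcongr
    _ = _ := by
        rw [ENNReal.coe_ofNat]
        ring

omit [FiniteDimensional ℝ E] [MeasureSpace E] [BorelSpace E]
  [(volume : Measure E).IsAddHaarMeasure] in
/-- For `‖y‖ ≤ 1` and a `1/2`-Lipschitz radius function, `x ↦ x - ε x • y` expands distances by
at least `1/2`. -/
theorem antilipschitz_sub_smul {ε : E → ℝ} (hlip : ∀ x y, |ε x - ε y| ≤ (1 / 2) * ‖x - y‖)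
    {y : E} (hy : ‖y‖ ≤ 1) : AntilipschitzWith 2 (fun x : E => x - ε x • y) := by
  refine AntilipschitzWith.of_le_mul_dist fun x x' => ?_
  rw [dist_eq_norm, dist_eq_norm]
  have e : (x - ε x • y) - (x' - ε x' • y) = (x - x') - (ε x - ε x') • y := by
    rw [sub_smul]
    abel
  rw [e]
  have h1 : ‖(ε x - ε x') • y‖ ≤ (1 / 2) * ‖x - x'‖ := by
    rw [norm_smul, Real.norm_eq_abs]
    calc |ε x - ε x'| * ‖y‖ ≤ |ε x - ε x'| * 1 := by gcongr
      _ ≤ (1 / 2) * ‖x - x'‖ := by rw [mul_one]; exact hlip x x'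
  have h2 : ‖x - x'‖ - ‖(ε x - ε x') • y‖ ≤ ‖(x - x') - (ε x - ε x') • y‖ := norm_sub_norm_le _ _
  have h3 : (((2 : ℝ≥0) : ℝ)) = 2 := by norm_num
  rw [h3]
  linarith

omit [FiniteDimensional ℝ E] [BorelSpace E] [(volume : Measure E).IsAddHaarMeasure] in
/-- The kernel, as a density, defines a probability measure. -/
theorem isProbabilityMeasure_withDensity_kernel {ρ : E → ℝ} (hρ : IsMollKernel ρ) :
    IsProbabilityMeasure ((volume : Measure E).withDensity fun y => ENNReal.ofReal (ρ y)) := by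
  have hint : Integrable ρ := by
    by_contra h
    have h0 := integral_undef h
    rw [hρ.2.2.1] at h0
    exact one_ne_zero h0
  constructor
  rw [withDensity_apply _ MeasurableSet.univ, Measure.restrict_univ,
    ← ofReal_integral_eq_lintegral_ofReal hint (Eventually.of_forall hρ.2.1), hρ.2.2.1,
    ENNReal.ofReal_one]

omit [NormedSpace ℝ E] [FiniteDimensional ℝ E] [MeasureSpace E] [BorelSpace E]
  [(volume : Measure E).IsAddHaarMeasure] in
/-- A `1/2`-Lipschitz radius function is continuous. -/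
theorem continuous_of_half_lip {ε : E → ℝ} (hlip : ∀ x y, |ε x - ε y| ≤ (1 / 2) * ‖x - y‖) :
    Continuous ε := by
  have h : LipschitzWith (1 / 2) ε := by
    refine LipschitzWith.of_dist_le_mul fun x y => ?_
    rw [Real.dist_eq, dist_eq_norm]
    have e : (((1 / 2 : ℝ≥0) : ℝ)) = 1 / 2 := by norm_num
    rw [e]
    exact hlip x y
  exact h.continuous

/-- The key measure estimate: the map sending the pair `x, y` to `x - ε x • y` pushes the product
of the volume on `Ω` and the kernel probability measure to a measure bounded by `2 ^ n` times the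
volume on `Ω`. -/
theorem map_vmoll_le {ρ : E → ℝ} (hρ : IsMollKernel ρ) {Ω : Set E} (hΩ : IsOpen Ω) {ε : E → ℝ}
    (hpos : ∀ x ∈ Ω, 0 < ε x) (hball : ∀ x ∈ Ω, closedBall x (ε x) ⊆ Ω)
    (hlip : ∀ x y, |ε x - ε y| ≤ (1 / 2) * ‖x - y‖) :
    Measure.map (fun z : E × E => z.1 - ε z.1 • z.2)
      (((volume : Measure E).restrict Ω).prod
        ((volume : Measure E).withDensity fun y => ENNReal.ofReal (ρ y)))
      ≤ (2 ^ (Module.finrank ℝ E) : ℝ≥0∞) • (volume : Measure E).restrict Ω := by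
  have hνprob := isProbabilityMeasure_withDensity_kernel hρ
  have hεc : Continuous ε := continuous_of_half_lip hlip
  have hΦm : Measurable (fun z : E × E => z.1 - ε z.1 • z.2) :=
    (continuous_fst.sub ((hεc.comp continuous_fst).smul continuous_snd)).measurable
  refine Measure.le_iff.2 fun A hA => ?_
  rw [Measure.map_apply hΦm hA, Measure.prod_apply_symm (hΦm hA), Measure.smul_apply,
    smul_eq_mul]
  have hae : ∀ᵐ y ∂((volume : Measure E).withDensity fun y => ENNReal.ofReal (ρ y)),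
      (volume : Measure E).restrict Ω
        ((fun x => (x, y)) ⁻¹' ((fun z : E × E => z.1 - ε z.1 • z.2) ⁻¹' A))
        ≤ 2 ^ (Module.finrank ℝ E) * (volume : Measure E).restrict Ω A := by
    rw [ae_withDensity_iff hρ.1.continuous.measurable.ennreal_ofReal]
    refine Eventually.of_forall fun y hy => ?_
    have hy1 : ‖y‖ ≤ 1 := by
      have hy' : y ∈ Function.support ρ := by
        rw [Function.mem_support]
        intro h0
        rw [h0] at hy
        simp at hy
      rw [hρ.2.2.2, mem_ball_zero_iff] at hy'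
      exact hy'.le
    rw [Measure.restrict_apply' hΩ.measurableSet, Measure.restrict_apply' hΩ.measurableSet]
    have hsub : (fun x => (x, y)) ⁻¹' ((fun z : E × E => z.1 - ε z.1 • z.2) ⁻¹' A) ∩ Ω
        ⊆ (fun x : E => x - ε x • y) ⁻¹' (A ∩ Ω) := by
      intro x hx
      refine ⟨hx.1, hball x hx.2 ?_⟩
      rw [mem_closedBall, dist_eq_norm]
      have e : x - ε x • y - x = -(ε x • y) := by abel
      rw [e, norm_neg, norm_smul, Real.norm_eq_abs, abs_of_pos (hpos x hx.2)]
      calc ε x * ‖y‖ ≤ ε x * 1 := by gcongr; exact (hpos x hx.2).le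
        _ = ε x := mul_one _
    exact (measure_mono hsub).trans
      (volume_preimage_le_of_antilipschitz (antilipschitz_sub_smul hlip hy1) _)
  calc _ ≤ ∫⁻ _y, 2 ^ (Module.finrank ℝ E) * (volume : Measure E).restrict Ω A
        ∂((volume : Measure E).withDensity fun y => ENNReal.ofReal (ρ y)) := lintegral_mono_ae hae
    _ = 2 ^ (Module.finrank ℝ E) * (volume : Measure E).restrict Ω A := by
        rw [lintegral_const, measure_univ, mul_one]

/-- **`L^p` boundedness of the variable-radius mollification.** -/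
theorem memLp_vmoll {F : Type*} [NormedAddCommGroup F] [NormedSpace ℝ F] [CompleteSpace F]
    {ρ : E → ℝ} (hρ : IsMollKernel ρ) {Ω : Set E} (hΩ : IsOpen Ω) {ε : E → ℝ}
    (hε : ContDiffOn ℝ ∞ ε Ω) (hpos : ∀ x ∈ Ω, 0 < ε x)
    (hball : ∀ x ∈ Ω, closedBall x (ε x) ⊆ Ω)
    (hlip : ∀ x y, |ε x - ε y| ≤ (1 / 2) * ‖x - y‖) {p : ℝ≥0∞} (hp : 1 ≤ p) (hp' : p ≠ ⊤)
    {g : E → F} (hg : MemLp g p (volume.restrict Ω)) :
    MemLp (vmoll ρ ε g) p (volume.restrict Ω) ∧
      eLpNorm (vmoll ρ ε g) p (volume.restrict Ω)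
        ≤ 2 ^ (Module.finrank ℝ E) * eLpNorm g p (volume.restrict Ω) := by
  have _hεsmooth := hε
  have hνprob := isProbabilityMeasure_withDensity_kernel hρ
  have hεc : Continuous ε := continuous_of_half_lip hlip
  have hΦm : Measurable (fun z : E × E => z.1 - ε z.1 • z.2) :=
    (continuous_fst.sub ((hεc.comp continuous_fst).smul continuous_snd)).measurable
  have hmap := map_vmoll_le hρ hΩ hpos hball hlip
  have hgm : AEStronglyMeasurable g (Measure.map (fun z : E × E => z.1 - ε z.1 • z.2)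
      (((volume : Measure E).restrict Ω).prod
        ((volume : Measure E).withDensity fun y => ENNReal.ofReal (ρ y)))) :=
    (hg.1.smul_measure _).mono_measure hmap
  have hK : AEStronglyMeasurable (g ∘ fun z : E × E => z.1 - ε z.1 • z.2)
      (((volume : Measure E).restrict Ω).prod
        ((volume : Measure E).withDensity fun y => ENNReal.ofReal (ρ y))) :=
    hgm.comp_measurable hΦm
  have hv : vmoll ρ ε g = fun x => ∫ y, (g ∘ fun z : E × E => z.1 - ε z.1 • z.2) (x, y)
      ∂((volume : Measure E).withDensity fun y => ENNReal.ofReal (ρ y)) := by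
    funext x
    rw [integral_withDensity_eq_integral_toReal_smul hρ.1.continuous.measurable.ennreal_ofReal
      (Eventually.of_forall fun y => ENNReal.ofReal_lt_top)]
    simp only [vmoll, Function.comp_apply, ENNReal.toReal_ofReal (hρ.2.1 _)]
  have hexp : (2 ^ (Module.finrank ℝ E) : ℝ≥0∞) ^ (1 / p).toReal ≤ 2 ^ (Module.finrank ℝ E) := by
    have h1 : (1 / p).toReal ≤ 1 := by
      have h2 : 1 / p ≤ 1 := by
        rw [one_div]
        exact ENNReal.inv_le_one.2 hp
      have h3 := ENNReal.toReal_mono ENNReal.one_ne_top h2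
      simpa using h3
    have h4 : (1 : ℝ≥0∞) ≤ 2 ^ (Module.finrank ℝ E) := one_le_pow₀ (by norm_num)
    calc (2 ^ (Module.finrank ℝ E) : ℝ≥0∞) ^ (1 / p).toReal
        ≤ (2 ^ (Module.finrank ℝ E) : ℝ≥0∞) ^ (1 : ℝ) := ENNReal.rpow_le_rpow_of_exponent_le h4 h1
      _ = 2 ^ (Module.finrank ℝ E) := ENNReal.rpow_one _
  have hle : eLpNorm (vmoll ρ ε g) p (volume.restrict Ω)
      ≤ 2 ^ (Module.finrank ℝ E) * eLpNorm g p (volume.restrict Ω) := by
    calc eLpNorm (vmoll ρ ε g) p (volume.restrict Ω)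
        = eLpNorm (fun x => ∫ y, (g ∘ fun z : E × E => z.1 - ε z.1 • z.2) (x, y)
            ∂((volume : Measure E).withDensity fun y => ENNReal.ofReal (ρ y))) p
            (volume.restrict Ω) := by rw [hv]
      _ ≤ eLpNorm (g ∘ fun z : E × E => z.1 - ε z.1 • z.2) p
            (((volume : Measure E).restrict Ω).prod
              ((volume : Measure E).withDensity fun y => ENNReal.ofReal (ρ y))) :=
          descent_eLpNorm_integral_le hp hp' hK
      _ = eLpNorm g p (Measure.map (fun z : E × E => z.1 - ε z.1 • z.2)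
            (((volume : Measure E).restrict Ω).prod
              ((volume : Measure E).withDensity fun y => ENNReal.ofReal (ρ y)))) :=
          (eLpNorm_map_measure hgm hΦm.aemeasurable).symm
      _ ≤ eLpNorm g p ((2 ^ (Module.finrank ℝ E) : ℝ≥0∞) • (volume : Measure E).restrict Ω) :=
          eLpNorm_mono_measure g hmap
      _ = (2 ^ (Module.finrank ℝ E) : ℝ≥0∞) ^ (1 / p).toReal
            • eLpNorm g p ((volume : Measure E).restrict Ω) :=
          eLpNorm_smul_measure_of_ne_top hp' g _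
      _ ≤ 2 ^ (Module.finrank ℝ E) * eLpNorm g p (volume.restrict Ω) := by
          rw [smul_eq_mul]
          gcongr
  refine ⟨⟨?_, lt_of_le_of_lt hle (ENNReal.mul_lt_top (by simp) hg.2)⟩, hle⟩
  rw [hv]
  exact hK.integral_prod_right'

end Vale.Agent.Lib.P073

end -- part MonoLp

section -- part MonoConv

namespace Vale.Agent.Lib.P073
open MeasureTheory Filter Topology Set Metric
open scoped ContDiff ENNReal

variable {E : Type*} [NormedAddCommGroup E] [NormedSpace ℝ E] [FiniteDimensional ℝ E]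
  [MeasureSpace E] [BorelSpace E] [(volume : Measure E).IsAddHaarMeasure]

/-- A mollification kernel has compact support. -/
theorem monoConv_hasCompactSupport {ρ : E → ℝ} (hρ : IsMollKernel ρ) : HasCompactSupport ρ := by
  apply HasCompactSupport.of_support_subset_isCompact (isCompact_closedBall (0 : E) 1)
  rw [hρ.2.2.2]
  exact ball_subset_closedBall

/-- A mollification kernel is integrable. -/
theorem monoConv_integrable {ρ : E → ℝ} (hρ : IsMollKernel ρ) : Integrable ρ volume :=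
  hρ.1.continuous.integrable_of_hasCompactSupport (monoConv_hasCompactSupport hρ)

/-- A mollification kernel is bounded. -/
theorem monoConv_bounded {ρ : E → ℝ} (hρ : IsMollKernel ρ) : ∃ C : ℝ, ∀ y, ‖ρ y‖ ≤ C := by
  obtain ⟨C, hC⟩ := hρ.1.continuous.bounded_above_of_compact_support
    (monoConv_hasCompactSupport hρ)
  exact ⟨C, hC⟩

/-- The points sampled by the mollification at `x` lie in `Ω`. -/
theorem monoConv_mem {ρ : E → ℝ} (hρ : IsMollKernel ρ) {Ω : Set E} {ε : E → ℝ} {x : E}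
    (hpos : 0 < ε x) (hball : closedBall x (ε x) ⊆ Ω) {y : E} (hy : ρ y ≠ 0) :
    x - ε x • y ∈ Ω := by
  have hy1 : y ∈ ball (0 : E) 1 := by
    rw [← hρ.2.2.2]
    exact hy
  rw [mem_ball_zero_iff] at hy1
  apply hball
  rw [mem_closedBall, dist_eq_norm]
  have : x - ε x • y - x = -(ε x • y) := by abel
  rw [this, norm_neg, norm_smul, Real.norm_of_nonneg hpos.le]
  nlinarith

/-- Integrability of the integrand of the mollification of an `L^p` function at a point
of `Ω`. -/
theorem monoConv_integrand {F : Type*} [NormedAddCommGroup F] [NormedSpace ℝ F]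
    {ρ : E → ℝ} (hρ : IsMollKernel ρ) {Ω : Set E} (hΩ : IsOpen Ω)
    {ε : E → ℝ} {x : E} (hpos : 0 < ε x) (hball : closedBall x (ε x) ⊆ Ω)
    {g : E → F} (hg : Integrable g (volume.restrict Ω)) :
    Integrable (fun y => ρ y • g (x - ε x • y)) volume := by
  have hG : Integrable (Ω.indicator g) volume :=
    (integrable_indicator_iff hΩ.measurableSet).2 hg
  have hG1 : Integrable (fun t => Ω.indicator g (x - t)) volume := hG.comp_sub_left x
  have hG2 : Integrable (fun y => Ω.indicator g (x - ε x • y)) volume :=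
    hG1.comp_smul hpos.ne'
  obtain ⟨C, hC⟩ := monoConv_bounded hρ
  have heq : (fun y => ρ y • g (x - ε x • y)) = fun y => ρ y • Ω.indicator g (x - ε x • y) := by
    funext y
    by_cases hy : ρ y = 0
    · simp [hy]
    · rw [indicator_of_mem (monoConv_mem hρ hpos hball hy)]
  rw [heq]
  refine (hG2.norm.const_mul C).mono'
    (hρ.1.continuous.aestronglyMeasurable.smul hG2.aestronglyMeasurable) ?_
  refine Eventually.of_forall fun y => ?_
  rw [norm_smul]
  exact mul_le_mul_of_nonneg_right (hC y) (norm_nonneg _)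

/-- Integrability of the integrand of the mollification of a continuous function. -/
theorem monoConv_integrand_cont {F : Type*} [NormedAddCommGroup F] [NormedSpace ℝ F]
    {ρ : E → ℝ} (hρ : IsMollKernel ρ) (c : ℝ) (x : E) {φ : E → F} (hφ : Continuous φ) :
    Integrable (fun y => ρ y • φ (x - c • y)) volume := by
  have hc : Continuous (fun y => ρ y • φ (x - c • y)) :=
    hρ.1.continuous.smul (hφ.comp (continuous_const.sub (continuous_const.smul continuous_id)))
  exact hc.integrable_of_hasCompactSupport (monoConv_hasCompactSupport hρ).smul_right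

/-- Linearity of the mollification at a point of `Ω`. -/
theorem monoConv_sub {F : Type*} [NormedAddCommGroup F] [NormedSpace ℝ F]
    {ρ : E → ℝ} (hρ : IsMollKernel ρ) {Ω : Set E} (hΩ : IsOpen Ω)
    {ε : E → ℝ} {x : E} (hpos : 0 < ε x) (hball : closedBall x (ε x) ⊆ Ω)
    {g : E → F} (hg : Integrable g (volume.restrict Ω)) {φ : E → F} (hφ : Continuous φ) :
    vmoll ρ ε (g - φ) x = vmoll ρ ε g x - vmoll ρ ε φ x := by
  unfold vmoll
  rw [← integral_sub (monoConv_integrand hρ hΩ hpos hball hg)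
    (monoConv_integrand_cont hρ (ε x) x hφ)]
  congr 1
  funext y
  simp [smul_sub]

/-- The mollification of a uniformly continuous function is uniformly close to it. -/
theorem monoConv_close {F : Type*} [NormedAddCommGroup F] [NormedSpace ℝ F]
    [CompleteSpace F] {ρ : E → ℝ} (hρ : IsMollKernel ρ) {ε : E → ℝ} {x : E} (hpos : 0 < ε x)
    {φ : E → F} (hφ : Continuous φ) {r η : ℝ} (hr : ε x ≤ r)
    (hclose : ∀ z, dist z x < r → ‖φ z - φ x‖ ≤ η) :
    ‖vmoll ρ ε φ x - φ x‖ ≤ η := by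
  have hint := monoConv_integrable hρ
  have h1 : φ x = ∫ y, ρ y • φ x := by
    rw [integral_smul_const, hρ.2.2.1, one_smul]
  have h2 : vmoll ρ ε φ x - φ x = ∫ y, ρ y • (φ (x - ε x • y) - φ x) := by
    unfold vmoll
    conv_lhs => rw [h1]
    rw [← integral_sub (monoConv_integrand_cont hρ (ε x) x hφ) (hint.smul_const (φ x))]
    congr 1
    funext y
    simp [smul_sub]
  rw [h2]
  have h3 : ‖∫ y, ρ y • (φ (x - ε x • y) - φ x)‖ ≤ ∫ y, ρ y * η := by
    apply norm_integral_le_of_norm_le (hint.mul_const η)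
    refine Eventually.of_forall fun y => ?_
    rw [norm_smul, Real.norm_of_nonneg (hρ.2.1 y)]
    by_cases hy : ρ y = 0
    · simp [hy]
    · apply mul_le_mul_of_nonneg_left _ (hρ.2.1 y)
      apply hclose
      have hy1 : y ∈ ball (0 : E) 1 := by
        rw [← hρ.2.2.2]
        exact hy
      rw [mem_ball_zero_iff] at hy1
      rw [dist_eq_norm]
      have : x - ε x • y - x = -(ε x • y) := by abel
      rw [this, norm_neg, norm_smul, Real.norm_of_nonneg hpos.le]
      nlinarith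
  rw [integral_mul_const, hρ.2.2.1, one_mul] at h3
  exact h3

theorem tendsto_eLpNorm_vmoll_sub {F : Type*} [NormedAddCommGroup F] [NormedSpace ℝ F]
    [CompleteSpace F] {ρ : E → ℝ} (hρ : IsMollKernel ρ) {Ω : Set E} (hΩ : IsOpen Ω)
    (hb : Bornology.IsBounded Ω)
    {ε : ℕ → E → ℝ} (hε : ∀ j, ContDiffOn ℝ ∞ (ε j) Ω) (hpos : ∀ j, ∀ x ∈ Ω, 0 < ε j x)
    (hball : ∀ j, ∀ x ∈ Ω, closedBall x (ε j x) ⊆ Ω)
    (hlip : ∀ j, ∀ x y, |ε j x - ε j y| ≤ (1 / 2) * ‖x - y‖)
    (hsmall : ∀ j, ∀ x ∈ Ω, ε j x ≤ 1 / ((j : ℝ) + 1))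
    {p : ℝ≥0∞} (hp : 1 ≤ p) (hp' : p ≠ ⊤) {g : E → F} (hg : MemLp g p (volume.restrict Ω)) :
    Tendsto (fun j => eLpNorm (fun x => vmoll ρ (ε j) g x - g x) p (volume.restrict Ω))
      atTop (𝓝 0) := by
  have hfin : IsFiniteMeasure (volume.restrict Ω) :=
    ⟨by rw [Measure.restrict_apply_univ]; exact hb.measure_lt_top⟩
  set μ : Measure E := volume.restrict Ω with hμ
  set n : ℕ := Module.finrank ℝ E with hn
  have hgint : Integrable g μ := hg.integrable hp
  -- key claim: for every finite positive δ, eventually the norm is at most (2^n + 2) δ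
  have key : ∀ δ : ℝ≥0∞, δ ≠ 0 → δ ≠ ⊤ →
      ∀ᶠ j in atTop, eLpNorm (fun x => vmoll ρ (ε j) g x - g x) p μ ≤ (2 ^ n + 2) * δ := by
    intro δ hδ0 hδtop
    obtain ⟨φ, hφcs, hφclose, hφc, hφLp⟩ :=
      hg.exists_hasCompactSupport_eLpNorm_sub_le hp' hδ0
    -- the measure constant
    set M : ℝ≥0∞ := μ Set.univ ^ p.toReal⁻¹ with hM
    have hMtop : M ≠ ⊤ := by
      rw [hM]
      exact ENNReal.rpow_ne_top_of_nonneg (inv_nonneg.2 ENNReal.toReal_nonneg)
        (measure_ne_top μ _)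
    set δ' : ℝ := (δ / (M + 1)).toReal with hδ'
    have hquot_top : δ / (M + 1) ≠ ⊤ := by
      apply ENNReal.div_ne_top hδtop
      simp
    have hquot_pos : δ / (M + 1) ≠ 0 := by
      apply ENNReal.div_ne_zero.2
      exact ⟨hδ0, by simp [hMtop]⟩
    have hδ'pos : 0 < δ' := ENNReal.toReal_pos hquot_pos hquot_top
    have hMδ : M * ENNReal.ofReal δ' ≤ δ := by
      rw [hδ', ENNReal.ofReal_toReal hquot_top]
      calc M * (δ / (M + 1)) ≤ (M + 1) * (δ / (M + 1)) := by gcongr; exact le_self_add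
        _ = δ := by
          rw [mul_comm]
          exact ENNReal.div_mul_cancel (by simp) (by simp [hMtop])
    -- uniform continuity of φ
    have huc : UniformContinuous φ := hφcs.uniformContinuous_of_continuous hφc
    rw [Metric.uniformContinuous_iff] at huc
    obtain ⟨r, hr, hur⟩ := huc δ' hδ'pos
    obtain ⟨J, hJ⟩ := exists_nat_one_div_lt hr
    filter_upwards [eventually_ge_atTop J] with j hj
    have hjr : 1 / ((j : ℝ) + 1) < r := by
      refine lt_of_le_of_lt ?_ hJ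
      apply one_div_le_one_div_of_le (by positivity)
      have : (J : ℝ) ≤ j := by exact_mod_cast hj
      linarith
    -- the three pieces
    have hA := memLp_vmoll hρ hΩ (hε j) (hpos j) (hball j) (hlip j) hp hp' (hg.sub hφLp)
    have hV := memLp_vmoll hρ hΩ (hε j) (hpos j) (hball j) (hlip j) hp hp' hφLp
    have hBmem : MemLp (fun x => vmoll ρ (ε j) φ x - φ x) p μ := hV.1.sub hφLp
    have hCmem : MemLp (fun x => φ x - g x) p μ := hφLp.sub hg
    have hBbound : eLpNorm (fun x => vmoll ρ (ε j) φ x - φ x) p μ ≤ δ := by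
      refine le_trans (eLpNorm_le_of_ae_bound (C := δ') ?_) hMδ
      rw [hμ]
      refine ae_restrict_of_forall_mem hΩ.measurableSet fun x hx => ?_
      apply monoConv_close hρ (hpos j x hx) hφc (le_refl _)
      intro z hz
      have hz' : dist z x < r := lt_of_lt_of_le hz ((hsmall j x hx).trans hjr.le)
      have := hur hz'
      rw [dist_eq_norm] at this
      exact this.le
    have hCbound : eLpNorm (fun x => φ x - g x) p μ ≤ δ := by
      have : (fun x => φ x - g x) = φ - g := rfl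
      rw [this, eLpNorm_sub_comm]
      exact hφclose
    have hAbound : eLpNorm (vmoll ρ (ε j) (g - φ)) p μ ≤ 2 ^ n * δ := by
      refine le_trans hA.2 ?_
      gcongr
    have hae : (fun x => vmoll ρ (ε j) g x - g x) =ᵐ[μ]
        (vmoll ρ (ε j) (g - φ) + (fun x => vmoll ρ (ε j) φ x - φ x)) + fun x => φ x - g x := by
      rw [hμ]
      refine ae_restrict_of_forall_mem hΩ.measurableSet fun x hx => ?_
      have hlin := monoConv_sub hρ hΩ (hpos j x hx) (hball j x hx) hgint hφc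
      simp only [Pi.add_apply]
      rw [hlin]
      abel
    rw [eLpNorm_congr_ae hae]
    calc eLpNorm ((vmoll ρ (ε j) (g - φ) + (fun x => vmoll ρ (ε j) φ x - φ x))
          + fun x => φ x - g x) p μ
        ≤ eLpNorm (vmoll ρ (ε j) (g - φ) + (fun x => vmoll ρ (ε j) φ x - φ x)) p μ
          + eLpNorm (fun x => φ x - g x) p μ :=
          eLpNorm_add_le (hA.1.aestronglyMeasurable.add hBmem.aestronglyMeasurable)
            hCmem.aestronglyMeasurable hp
      _ ≤ (eLpNorm (vmoll ρ (ε j) (g - φ)) p μ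
            + eLpNorm (fun x => vmoll ρ (ε j) φ x - φ x) p μ)
          + eLpNorm (fun x => φ x - g x) p μ := by
          gcongr
          exact eLpNorm_add_le hA.1.aestronglyMeasurable hBmem.aestronglyMeasurable hp
      _ ≤ (2 ^ n * δ + δ) + δ := by gcongr
      _ = (2 ^ n + 2) * δ := by ring
  rw [ENNReal.tendsto_nhds_zero]
  intro η hη
  by_cases hηtop : η = ⊤
  · rw [hηtop]
    exact Eventually.of_forall fun j => le_top
  have hc : (2 ^ n + 2 : ℝ≥0∞) ≠ ⊤ := by
    apply ENNReal.add_ne_top.2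
    exact ⟨ENNReal.pow_ne_top (by simp), by simp⟩
  have hc0 : (2 ^ n + 2 : ℝ≥0∞) ≠ 0 := by simp
  have h1 : η / (2 ^ n + 2) ≠ 0 := ENNReal.div_ne_zero.2 ⟨hη.ne', hc⟩
  have h2 : η / (2 ^ n + 2) ≠ ⊤ := ENNReal.div_ne_top hηtop hc0
  filter_upwards [key (η / (2 ^ n + 2)) h1 h2] with j hj
  refine le_trans hj ?_
  rw [mul_comm]
  exact le_of_eq (ENNReal.div_mul_cancel hc0 hc)

end Vale.Agent.Lib.P073

end -- part MonoConv

section -- part MonoImage

/-!
# P073: a smooth injective nondegenerate map close to a homeomorphism onto `Λ` is a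
diffeomorphism onto `Λ`
-/

namespace Vale.Agent.Lib.P073
open MeasureTheory Filter Topology Set Metric
open scoped ContDiff ENNReal

/-- Distance to the complement is positive exactly on an open set with nonempty complement. -/
theorem monoImage_infDist_pos {E : Type*} [NormedAddCommGroup E] {Λ : Set E} (hΛ : IsOpen Λ)
    (hΛn : Λᶜ.Nonempty) {w : E} : w ∈ Λ ↔ 0 < infDist w Λᶜ := by
  have h := (hΛ.isClosed_compl).notMem_iff_infDist_pos hΛn (x := w)
  rw [← h]
  simp

/-- The derivative of `F` at a point of `Ω` is a continuous linear equivalence. -/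
theorem monoImage_hder {E : Type*} [NormedAddCommGroup E] [NormedSpace ℝ E]
    [FiniteDimensional ℝ E] {Ω : Set E} (hΩ : IsOpen Ω) {F : E → E}
    (hF : ContDiffOn ℝ ∞ F Ω)
    (hnd : ∀ x ∈ Ω, ∀ v, fderiv ℝ F x v = 0 → v = 0) :
    ∀ x ∈ Ω, ∃ f' : E ≃L[ℝ] E, HasFDerivAt F (f' : E →L[ℝ] E) x := by
  intro x hx
  have hd : DifferentiableAt ℝ F x :=
    (hF.contDiffAt (hΩ.mem_nhds hx)).differentiableAt (by simp)
  have hinj : Function.Injective (fderiv ℝ F x : E →ₗ[ℝ] E) := by
    refine (injective_iff_map_eq_zero _).2 ?_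
    intro v hv
    exact hnd x hx v hv
  let e : E ≃L[ℝ] E :=
    (LinearEquiv.ofInjectiveEndo (fderiv ℝ F x : E →ₗ[ℝ] E) hinj).toContinuousLinearEquiv
  refine ⟨e, ?_⟩
  have he : (e : E →L[ℝ] E) = fderiv ℝ F x := by
    ext v
    simp [e]
  rw [he]
  exact hd.hasFDerivAt

theorem isSmoothDiffeo_of_injOn_of_close {E : Type*} [NormedAddCommGroup E] [NormedSpace ℝ E]
    [FiniteDimensional ℝ E] {Ω Λ : Set E} (hΩ : IsOpen Ω) (hΛ : IsOpen Λ)
    (hΛc : IsPreconnected Λ) (hΛn : Λᶜ.Nonempty) {f g F : E → E} (hf : ContinuousOn f Ω)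
    (hbij : BijOn f Ω Λ) (hg : ContinuousOn g Λ) (hgf : ∀ x ∈ Ω, g (f x) = x)
    (hF : ContDiffOn ℝ ∞ F Ω) (hinj : InjOn F Ω)
    (hnd : ∀ x ∈ Ω, ∀ v, fderiv ℝ F x v = 0 → v = 0)
    (hclose : ∀ x ∈ Ω, ‖F x - f x‖ ≤ infDist (f x) Λᶜ / 2) :
    IsSmoothDiffeo F Ω Λ := by
  have : CompleteSpace E := FiniteDimensional.complete ℝ E
  have : ProperSpace E := FiniteDimensional.proper_real E
  have _hfc : ContinuousOn f Ω := hf
  have hder := monoImage_hder hΩ hF hnd
  -- basic distance estimates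
  have hd1 : ∀ x ∈ Ω, infDist (f x) Λᶜ ≤ 2 * infDist (F x) Λᶜ := by
    intro x hx
    have h1 : infDist (f x) Λᶜ ≤ infDist (F x) Λᶜ + dist (f x) (F x) :=
      infDist_le_infDist_add_dist
    have h2 : dist (f x) (F x) ≤ infDist (f x) Λᶜ / 2 := by
      rw [dist_comm, dist_eq_norm]; exact hclose x hx
    linarith
  have hd2 : ∀ x ∈ Ω, infDist (F x) Λᶜ ≤ 3 / 2 * infDist (f x) Λᶜ := by
    intro x hx
    have h1 : infDist (F x) Λᶜ ≤ infDist (f x) Λᶜ + dist (F x) (f x) :=
      infDist_le_infDist_add_dist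
    have h2 : dist (F x) (f x) ≤ infDist (f x) Λᶜ / 2 := by
      rw [dist_eq_norm]; exact hclose x hx
    linarith
  -- (1) F maps Ω into Λ
  have hmaps : MapsTo F Ω Λ := by
    intro x hx
    have h1 : 0 < infDist (f x) Λᶜ := (monoImage_infDist_pos hΛ hΛn).1 (hbij.mapsTo hx)
    have h2 := hd1 x hx
    exact (monoImage_infDist_pos hΛ hΛn).2 (by linarith)
  -- (2) the image is open
  have hopen : IsOpen (F '' Ω) := by
    rw [isOpen_iff_mem_nhds]
    rintro _ ⟨x, hx, rfl⟩
    obtain ⟨f', hf'⟩ := hder x hx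
    have hcd : ContDiffAt ℝ ∞ F x := hF.contDiffAt (hΩ.mem_nhds hx)
    have hs : HasStrictFDerivAt F (f' : E →L[ℝ] E) x := hcd.hasStrictFDerivAt' hf' (by simp)
    have hmap : map F (𝓝 x) = 𝓝 (F x) := hs.map_nhds_eq_of_equiv
    rw [← hmap]
    exact image_mem_map (hΩ.mem_nhds hx)
  -- (3) the image is relatively closed in Λ
  have hclosed : closure (F '' Ω) ∩ Λ ⊆ F '' Ω := by
    rintro z ⟨hz, hzΛ⟩
    obtain ⟨u, hu, hulim⟩ := mem_closure_iff_seq_limit.1 hz
    choose x hxΩ hxu using hu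
    have hdz : 0 < infDist z Λᶜ := (monoImage_infDist_pos hΛ hΛn).1 hzΛ
    set c : ℝ := infDist z Λᶜ / 3 with hc
    set R : ℝ := infDist z Λᶜ + 2 with hR
    set K : Set E := {w | c ≤ infDist w Λᶜ} ∩ closedBall z R with hK
    have hKclosed : IsClosed K := by
      refine IsClosed.inter ?_ isClosed_closedBall
      exact isClosed_le continuous_const (continuous_infDist_pt _)
    have hKcompact : IsCompact K :=
      (isCompact_closedBall z R).of_isClosed_subset hKclosed inter_subset_right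
    have hKΛ : K ⊆ Λ := by
      intro w hw
      refine (monoImage_infDist_pos hΛ hΛn).2 ?_
      have : c ≤ infDist w Λᶜ := hw.1
      have hcpos : 0 < c := by rw [hc]; positivity
      linarith
    have hgK : IsCompact (g '' K) := hKcompact.image_of_continuousOn (hg.mono hKΛ)
    have hgKΩ : g '' K ⊆ Ω := by
      rintro _ ⟨w, hw, rfl⟩
      obtain ⟨y, hy, rfl⟩ := hbij.surjOn (hKΛ hw)
      rw [hgf y hy]; exact hy
    -- eventually the points x k lie in g '' K
    have hdlim : Tendsto (fun k => infDist (u k) Λᶜ) atTop (𝓝 (infDist z Λᶜ)) :=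
      ((continuous_infDist_pt _).tendsto z).comp hulim
    have hev1 : ∀ᶠ k in atTop, infDist z Λᶜ / 2 < infDist (u k) Λᶜ :=
      hdlim.eventually (lt_mem_nhds (by linarith))
    have hev2 : ∀ᶠ k in atTop, dist (u k) z < 1 :=
      (tendsto_iff_dist_tendsto_zero.1 hulim).eventually (gt_mem_nhds zero_lt_one)
    have hev : ∀ᶠ k in atTop, x k ∈ g '' K := by
      filter_upwards [hev1, hev2] with k hk1 hk2
      refine ⟨f (x k), ⟨?_, ?_⟩, hgf (x k) (hxΩ k)⟩
      · have h1 := hd2 (x k) (hxΩ k)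
        rw [hxu k] at h1
        show c ≤ infDist (f (x k)) Λᶜ
        rw [hc]; linarith
      · rw [mem_closedBall]
        have h1 : dist (f (x k)) z ≤ dist (f (x k)) (u k) + dist (u k) z := dist_triangle _ _ _
        have h2 : dist (f (x k)) (u k) ≤ infDist (f (x k)) Λᶜ / 2 := by
          rw [← hxu k, dist_comm, dist_eq_norm]; exact hclose (x k) (hxΩ k)
        have h3 := hd1 (x k) (hxΩ k)
        rw [hxu k] at h3
        have h4 : infDist (u k) Λᶜ ≤ infDist z Λᶜ + dist (u k) z := infDist_le_infDist_add_dist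
        rw [hR]; linarith
    obtain ⟨a, ha, φ, hφ, hφlim⟩ := hgK.tendsto_subseq' hev.frequently
    have haΩ : a ∈ Ω := hgKΩ ha
    have hFcont : ContinuousAt F a := (hF.continuousOn).continuousAt (hΩ.mem_nhds haΩ)
    have hlim1 : Tendsto (fun k => F (x (φ k))) atTop (𝓝 (F a)) := hFcont.tendsto.comp hφlim
    have hlim2 : Tendsto (fun k => F (x (φ k))) atTop (𝓝 z) := by
      have : (fun k => F (x (φ k))) = u ∘ φ := by
        funext k; exact hxu (φ k)
      rw [this]
      exact hulim.comp hφ.tendsto_atTop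
    exact ⟨a, haΩ, tendsto_nhds_unique hlim1 hlim2⟩
  -- (4) surjectivity
  have hsurj : SurjOn F Ω Λ := by
    rcases Λ.eq_empty_or_nonempty with hempty | ⟨w, hw⟩
    · rw [hempty]; exact fun y hy => absurd hy (notMem_empty y)
    · obtain ⟨y, hy, -⟩ := hbij.surjOn hw
      exact hΛc.subset_of_closure_inter_subset hopen ⟨F y, hmaps hy, y, hy, rfl⟩ hclosed
  have hbijF : BijOn F Ω Λ := ⟨hmaps, hinj, hsurj⟩
  refine ⟨hF, hbijF, Function.invFunOn F Ω, ?_, ?_⟩
  · have h := contDiffOn_invFunOn hΩ hF hinj hder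
    rwa [hbijF.image_eq] at h
  · intro y hy
    exact hinj.leftInvOn_invFunOn hy

end Vale.Agent.Lib.P073

end -- part MonoImage
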