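import Vale.Agent.Lib.P073.Defs

/-!
# P073: variable-radius mollification -- definitions

`vmoll ρ ε g x = ∫ ρ(y) g(x - ε(x) y) dy` averages `g` over the ball of radius `ε x` around `x`.
-/

namespace Vale.Agent.Lib.P073

open MeasureTheory Filter Topology Set Metric
open scoped ContDiff ENNReal

/-- Variable-radius mollification of `g` with kernel `ρ` and radius function `ε`. -/
noncomputable def vmoll {E F : Type*} [NormedAddCommGroup E] [NormedSpace ℝ E] [MeasureSpace E]
    [NormedAddCommGroup F] [NormedSpace ℝ F] (ρ : E → ℝ) (ε : E → ℝ) (g : E → F) (x : E) : F :=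
  ∫ y, ρ y • g (x - ε x • y)

/-- A mollification kernel: smooth, nonnegative, of integral one, positive exactly on the open
unit ball. -/
def IsMollKernel {E : Type*} [NormedAddCommGroup E] [NormedSpace ℝ E] [MeasureSpace E]
    (ρ : E → ℝ) : Prop :=
  ContDiff ℝ ∞ ρ ∧ (∀ y, 0 ≤ ρ y) ∧ ∫ y, ρ y = 1 ∧ Function.support ρ = ball (0 : E) 1

theorem exists_isMollKernel (E : Type*) [NormedAddCommGroup E] [NormedSpace ℝ E]
    [FiniteDimensional ℝ E] [MeasureSpace E] [BorelSpace E]
    [(volume : Measure E).IsAddHaarMeasure] : ∃ ρ : E → ℝ, IsMollKernel ρ := by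
  let φ : ContDiffBump (0 : E) := ⟨1 / 2, 1, by norm_num, by norm_num⟩
  refine ⟨φ.normed volume, φ.contDiff_normed, fun y => φ.nonneg_normed y, φ.integral_normed, ?_⟩
  exact φ.support_normed_eq

end Vale.Agent.Lib.P073
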