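import Mathlib

/-!
# P073: merged module MonoLeaves (parts: MonoProfile, MonoExhaust, MonoCompact, MonoRadius)
-/

section -- part MonoProfile

/-!
# A smooth profile below a positive nondecreasing function

Given `m` positive and nondecreasing on the positive half line, we build a function `Φ`, smooth
on the open half line, vanishing at `0`, positive on the open half line, nondecreasing on
`[0, 1]` and with increments bounded by `m t * (t - s)`. The profile is a multiplicative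
mollification of the primitive of a truncation of `m`.
-/

namespace Vale.Agent.Lib.P073

open MeasureTheory Filter Topology Set
open scoped ContDiff

/-- The bump used for the multiplicative mollification: centre `1 / 2`, radii `1 / 4`, `1 / 2`. -/
noncomputable def monoProfile_bump : ContDiffBump (1 / 2 : ℝ) :=
  ⟨1 / 4, 1 / 2, by norm_num, by norm_num⟩

/-- The mollifier: smooth, nonnegative, of integral one, supported in the open unit interval. -/
noncomputable def monoProfile_phi : ℝ → ℝ := monoProfile_bump.normed volume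

lemma monoProfile_phi_contDiff : ContDiff ℝ ∞ monoProfile_phi :=
  monoProfile_bump.contDiff_normed

lemma monoProfile_phi_continuous : Continuous monoProfile_phi :=
  monoProfile_bump.continuous_normed

lemma monoProfile_phi_nonneg (u : ℝ) : 0 ≤ monoProfile_phi u :=
  monoProfile_bump.nonneg_normed u

lemma monoProfile_phi_integral : ∫ u, monoProfile_phi u = 1 :=
  monoProfile_bump.integral_normed

lemma monoProfile_phi_compact : HasCompactSupport monoProfile_phi :=
  monoProfile_bump.hasCompactSupport_normed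

lemma monoProfile_phi_integrable : Integrable monoProfile_phi :=
  monoProfile_bump.integrable_normed

lemma monoProfile_phi_supp {u : ℝ} (h : monoProfile_phi u ≠ 0) : 0 < u ∧ u < 1 := by
  have h1 : u ∈ Function.support monoProfile_phi := h
  rw [monoProfile_phi, ContDiffBump.support_normed_eq, Real.ball_eq_Ioo] at h1
  have h2 : monoProfile_bump.rOut = 1 / 2 := rfl
  rw [h2] at h1
  constructor
  · have := h1.1
    linarith
  · have := h1.2
    linarith

section Prim

variable {g : ℝ → ℝ}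

/-- The primitive of `g` vanishing at `0`. -/
noncomputable def monoProfile_M (g : ℝ → ℝ) (t : ℝ) : ℝ := ∫ s in (0 : ℝ)..t, g s

lemma monoProfile_M_zero (g : ℝ → ℝ) : monoProfile_M g 0 = 0 := by
  unfold monoProfile_M
  exact intervalIntegral.integral_same

lemma monoProfile_M_continuous (hg : Monotone g) : Continuous (monoProfile_M g) :=
  intervalIntegral.continuous_primitive (fun _ _ => hg.intervalIntegrable) 0

lemma monoProfile_M_sub (hg : Monotone g) (a b : ℝ) :
    monoProfile_M g b - monoProfile_M g a = ∫ s in a..b, g s :=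
  intervalIntegral.integral_interval_sub_left hg.intervalIntegrable hg.intervalIntegrable

lemma monoProfile_M_sub_le (hg : Monotone g) {a b : ℝ} (hab : a ≤ b) :
    monoProfile_M g b - monoProfile_M g a ≤ g b * (b - a) := by
  rw [monoProfile_M_sub hg]
  have hc : IntervalIntegrable (fun _ : ℝ => g b) volume a b := intervalIntegrable_const
  have h := intervalIntegral.integral_mono_on hab hg.intervalIntegrable hc
    (fun x hx => hg hx.2)
  rw [intervalIntegral.integral_const, smul_eq_mul] at h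
  linarith

lemma monoProfile_M_sub_ge (hg : Monotone g) {a b : ℝ} (hab : a ≤ b) :
    g a * (b - a) ≤ monoProfile_M g b - monoProfile_M g a := by
  rw [monoProfile_M_sub hg]
  have hc : IntervalIntegrable (fun _ : ℝ => g a) volume a b := intervalIntegrable_const
  have h := intervalIntegral.integral_mono_on hab hc hg.intervalIntegrable
    (fun x hx => hg hx.1)
  rw [intervalIntegral.integral_const, smul_eq_mul] at h
  linarith

lemma monoProfile_M_mono (hg : Monotone g) (hg0 : ∀ x, 0 ≤ g x) : Monotone (monoProfile_M g) := by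
  intro a b hab
  have h := monoProfile_M_sub_ge hg hab
  have h2 : 0 ≤ g a * (b - a) := mul_nonneg (hg0 a) (by linarith)
  linarith

lemma monoProfile_M_pos (hg : Monotone g) (hg0 : ∀ x, 0 ≤ g x) (hgpos : ∀ x, 0 < x → 0 < g x)
    {c : ℝ} (hc : 0 < c) : 0 < monoProfile_M g c := by
  have h1 := monoProfile_M_sub_ge hg (a := c / 2) (b := c) (by linarith)
  have h2 : 0 < g (c / 2) * (c - c / 2) := mul_pos (hgpos _ (by linarith)) (by linarith)
  have h3 : monoProfile_M g 0 ≤ monoProfile_M g (c / 2) :=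
    monoProfile_M_mono hg hg0 (by linarith)
  rw [monoProfile_M_zero] at h3
  linarith

/-- The profile: multiplicative mollification of the primitive. -/
noncomputable def monoProfile_Phi (g : ℝ → ℝ) (t : ℝ) : ℝ :=
  ∫ u, monoProfile_phi u * monoProfile_M g (t * Real.exp (-u))

lemma monoProfile_integrable (hg : Monotone g) (t : ℝ) :
    Integrable (fun u => monoProfile_phi u * monoProfile_M g (t * Real.exp (-u))) := by
  have hc : Continuous (fun u => monoProfile_phi u * monoProfile_M g (t * Real.exp (-u))) :=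
    monoProfile_phi_continuous.mul ((monoProfile_M_continuous hg).comp
      (continuous_const.mul (Real.continuous_exp.comp continuous_neg)))
  exact hc.integrable_of_hasCompactSupport monoProfile_phi_compact.mul_right

lemma monoProfile_Phi_zero (g : ℝ → ℝ) : monoProfile_Phi g 0 = 0 := by
  unfold monoProfile_Phi
  simp [monoProfile_M_zero]

lemma monoProfile_Phi_mono (hg : Monotone g) (hg0 : ∀ x, 0 ≤ g x) {s t : ℝ} (hst : s ≤ t) :
    monoProfile_Phi g s ≤ monoProfile_Phi g t := by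
  refine integral_mono (monoProfile_integrable hg s) (monoProfile_integrable hg t) ?_
  intro u
  have h1 : s * Real.exp (-u) ≤ t * Real.exp (-u) :=
    mul_le_mul_of_nonneg_right hst (Real.exp_pos _).le
  exact mul_le_mul_of_nonneg_left (monoProfile_M_mono hg hg0 h1) (monoProfile_phi_nonneg u)

lemma monoProfile_Phi_sub_le (hg : Monotone g) (hg0 : ∀ x, 0 ≤ g x) {s t : ℝ} (hs : 0 ≤ s)
    (hst : s ≤ t) : monoProfile_Phi g t - monoProfile_Phi g s ≤ g t * (t - s) := by
  have hint : Integrable (fun u => monoProfile_phi u * monoProfile_M g (s * Real.exp (-u))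
      + monoProfile_phi u * (g t * (t - s))) :=
    (monoProfile_integrable hg s).add (monoProfile_phi_integrable.mul_const _)
  have h1 : monoProfile_Phi g t ≤ ∫ u, (monoProfile_phi u * monoProfile_M g (s * Real.exp (-u))
      + monoProfile_phi u * (g t * (t - s))) := by
    refine integral_mono (monoProfile_integrable hg t) hint ?_
    intro u
    by_cases hu : monoProfile_phi u = 0
    · simp [hu]
    · have hu0 := (monoProfile_phi_supp hu).1
      have he1 : Real.exp (-u) ≤ 1 := Real.exp_le_one_iff.2 (by linarith)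
      have he0 : 0 < Real.exp (-u) := Real.exp_pos _
      have ht0 : 0 ≤ t := le_trans hs hst
      have h2 : s * Real.exp (-u) ≤ t * Real.exp (-u) :=
        mul_le_mul_of_nonneg_right hst he0.le
      have h3 := monoProfile_M_sub_le hg h2
      have h4 : g (t * Real.exp (-u)) ≤ g t := hg (by nlinarith)
      have h5 : g (t * Real.exp (-u)) * (t * Real.exp (-u) - s * Real.exp (-u))
          ≤ g t * (t - s) := by
        have h6 : t * Real.exp (-u) - s * Real.exp (-u) ≤ t - s := by nlinarith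
        have h7 : 0 ≤ t * Real.exp (-u) - s * Real.exp (-u) := by linarith
        exact mul_le_mul h4 h6 h7 (hg0 t)
      have h8 : monoProfile_M g (t * Real.exp (-u))
          ≤ monoProfile_M g (s * Real.exp (-u)) + g t * (t - s) := by linarith
      have h9 := mul_le_mul_of_nonneg_left h8 (monoProfile_phi_nonneg u)
      rw [mul_add] at h9
      exact h9
  rw [integral_add (monoProfile_integrable hg s)
    (monoProfile_phi_integrable.mul_const _), integral_mul_const,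
    monoProfile_phi_integral, one_mul] at h1
  unfold monoProfile_Phi at h1 ⊢
  linarith

lemma monoProfile_Phi_pos (hg : Monotone g) (hg0 : ∀ x, 0 ≤ g x) (hgpos : ∀ x, 0 < x → 0 < g x)
    {t : ℝ} (ht : 0 < t) : 0 < monoProfile_Phi g t := by
  have hpos : 0 < monoProfile_M g (t * Real.exp (-1)) :=
    monoProfile_M_pos hg hg0 hgpos (mul_pos ht (Real.exp_pos _))
  have h1 : ∫ u, monoProfile_phi u * monoProfile_M g (t * Real.exp (-1))
      ≤ monoProfile_Phi g t := by
    refine integral_mono (monoProfile_phi_integrable.mul_const _)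
      (monoProfile_integrable hg t) ?_
    intro u
    by_cases hu : monoProfile_phi u = 0
    · simp [hu]
    · have hu1 := (monoProfile_phi_supp hu).2
      have he : Real.exp (-1) ≤ Real.exp (-u) := Real.exp_le_exp.2 (by linarith)
      have h2 : t * Real.exp (-1) ≤ t * Real.exp (-u) := mul_le_mul_of_nonneg_left he ht.le
      exact mul_le_mul_of_nonneg_left (monoProfile_M_mono hg hg0 h2) (monoProfile_phi_nonneg u)
  rw [integral_mul_const, monoProfile_phi_integral, one_mul] at h1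
  linarith

lemma monoProfile_Phi_contDiffOn (hg : Monotone g) :
    ContDiffOn ℝ ∞ (monoProfile_Phi g) (Ioi 0) := by
  have hN : Continuous (fun w : ℝ => monoProfile_M g (Real.exp w)) :=
    (monoProfile_M_continuous hg).comp Real.continuous_exp
  have hΨ : ContDiff ℝ ∞ (convolution monoProfile_phi (fun w : ℝ => monoProfile_M g (Real.exp w))
      (ContinuousLinearMap.lsmul ℝ ℝ) volume) :=
    monoProfile_phi_compact.contDiff_convolution_left _ monoProfile_phi_contDiff
      hN.locallyIntegrable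
  have hlog : ContDiffOn ℝ ∞ Real.log (Ioi 0) :=
    Real.contDiffOn_log.mono (fun x hx => ne_of_gt hx)
  refine (hΨ.comp_contDiffOn hlog).congr ?_
  intro t ht
  have ht0 : (0 : ℝ) < t := ht
  show monoProfile_Phi g t = ∫ u, monoProfile_phi u • monoProfile_M g (Real.exp (Real.log t - u))
  unfold monoProfile_Phi
  congr 1
  funext u
  rw [Real.exp_sub, Real.exp_log ht0, Real.exp_neg, smul_eq_mul, div_eq_mul_inv]

end Prim

/-- The truncation of `m`: `min (m s) 1` on the positive half line, `0` elsewhere. -/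
noncomputable def monoProfile_trunc (m : ℝ → ℝ) (s : ℝ) : ℝ := if 0 < s then min (m s) 1 else 0

lemma monoProfile_trunc_nonneg {m : ℝ → ℝ} (hm : ∀ t, 0 < t → 0 < m t) (s : ℝ) :
    0 ≤ monoProfile_trunc m s := by
  unfold monoProfile_trunc
  split_ifs with h
  · exact le_min (hm s h).le zero_le_one
  · exact le_refl 0

lemma monoProfile_trunc_pos {m : ℝ → ℝ} (hm : ∀ t, 0 < t → 0 < m t) {s : ℝ} (hs : 0 < s) :
    0 < monoProfile_trunc m s := by
  unfold monoProfile_trunc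
  rw [if_pos hs]
  exact lt_min (hm s hs) zero_lt_one

lemma monoProfile_trunc_le {m : ℝ → ℝ} {s : ℝ} (hs : 0 < s) : monoProfile_trunc m s ≤ m s := by
  unfold monoProfile_trunc
  rw [if_pos hs]
  exact min_le_left _ _

lemma monoProfile_trunc_mono {m : ℝ → ℝ} (hm : ∀ t, 0 < t → 0 < m t)
    (hmono : ∀ s t, 0 < s → s ≤ t → m s ≤ m t) : Monotone (monoProfile_trunc m) := by
  intro s t hst
  by_cases hs : 0 < s
  · have ht : 0 < t := lt_of_lt_of_le hs hst
    unfold monoProfile_trunc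
    rw [if_pos hs, if_pos ht]
    exact min_le_min (hmono s t hs hst) (le_refl 1)
  · have h0 : monoProfile_trunc m s = 0 := by
      unfold monoProfile_trunc
      rw [if_neg hs]
    rw [h0]
    exact monoProfile_trunc_nonneg hm t

theorem exists_profile (m : ℝ → ℝ) (hm : ∀ t, 0 < t → 0 < m t)
    (hmono : ∀ s t, 0 < s → s ≤ t → m s ≤ m t) :
    ∃ Φ : ℝ → ℝ, ContDiffOn ℝ ∞ Φ (Ioi 0) ∧ Φ 0 = 0 ∧ (∀ t, 0 < t → 0 < Φ t) ∧
      (∀ t, 0 < t → t ≤ 1 → Φ t ≤ m t) ∧
      (∀ s t, 0 ≤ s → s ≤ t → t ≤ 1 → 0 ≤ Φ t - Φ s ∧ Φ t - Φ s ≤ m t * (t - s)) := by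
  have hg := monoProfile_trunc_mono hm hmono
  have hg0 := monoProfile_trunc_nonneg hm
  have hgpos : ∀ x, 0 < x → 0 < monoProfile_trunc m x := fun x hx => monoProfile_trunc_pos hm hx
  have hinc : ∀ s t, 0 ≤ s → s ≤ t →
      monoProfile_Phi (monoProfile_trunc m) t - monoProfile_Phi (monoProfile_trunc m) s
        ≤ m t * (t - s) := by
    intro s t hs hst
    rcases (le_trans hs hst).eq_or_lt with ht | ht
    · have hs' : s = 0 := le_antisymm (by rw [ht]; exact hst) hs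
      rw [← ht, hs']
      simp
    · exact le_trans (monoProfile_Phi_sub_le hg hg0 hs hst)
        (mul_le_mul_of_nonneg_right (monoProfile_trunc_le ht) (by linarith))
  refine ⟨monoProfile_Phi (monoProfile_trunc m), monoProfile_Phi_contDiffOn hg,
    monoProfile_Phi_zero _, fun t ht => monoProfile_Phi_pos hg hg0 hgpos ht, ?_, ?_⟩
  · intro t ht ht1
    have h := hinc 0 t (le_refl 0) ht.le
    rw [monoProfile_Phi_zero, sub_zero, sub_zero] at h
    have h2 : m t * t ≤ m t := by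
      have := mul_le_mul_of_nonneg_left ht1 (hm t ht).le
      linarith
    linarith
  · intro s t hs hst _
    exact ⟨sub_nonneg.2 (monoProfile_Phi_mono hg hg0 hst), hinc s t hs hst⟩

end Vale.Agent.Lib.P073

end -- part MonoProfile

section -- part MonoExhaust

namespace Vale.Agent.Lib.P073

open MeasureTheory Filter Topology Set Metric
open scoped ContDiff

/-- The admissible values below `1` at the parameter `t`. -/
def monoExhaustSet (A : ℝ → ℝ → Prop) (t : ℝ) : Set ℝ := {μ | 0 < μ ∧ μ ≤ 1 ∧ A t μ}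

theorem monoExhaust_nonempty (A : ℝ → ℝ → Prop)
    (hex : ∀ t, 0 < t → t ≤ 1 → ∃ μ, 0 < μ ∧ A t μ)
    (hdown : ∀ t μ μ', 0 < t → t ≤ 1 → A t μ → 0 < μ' → μ' ≤ μ → A t μ')
    {t : ℝ} (ht : 0 < t) (ht1 : t ≤ 1) : (monoExhaustSet A t).Nonempty := by
  obtain ⟨μ, hμ, hA⟩ := hex t ht ht1
  refine ⟨min μ 1, lt_min hμ one_pos, min_le_right _ _, ?_⟩
  exact hdown t μ (min μ 1) ht ht1 hA (lt_min hμ one_pos) (min_le_left _ _)

theorem monoExhaust_bddAbove (A : ℝ → ℝ → Prop) (t : ℝ) : BddAbove (monoExhaustSet A t) :=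
  ⟨1, fun _ hμ => hμ.2.1⟩

theorem monoExhaust_sSup_pos (A : ℝ → ℝ → Prop)
    (hex : ∀ t, 0 < t → t ≤ 1 → ∃ μ, 0 < μ ∧ A t μ)
    (hdown : ∀ t μ μ', 0 < t → t ≤ 1 → A t μ → 0 < μ' → μ' ≤ μ → A t μ')
    {t : ℝ} (ht : 0 < t) (ht1 : t ≤ 1) : 0 < sSup (monoExhaustSet A t) := by
  obtain ⟨μ, hμ⟩ := monoExhaust_nonempty A hex hdown ht ht1
  exact lt_of_lt_of_le hμ.1 (le_csSup (monoExhaust_bddAbove A t) hμ)

theorem exists_monotone_selection (A : ℝ → ℝ → Prop)
    (hex : ∀ t, 0 < t → t ≤ 1 → ∃ μ, 0 < μ ∧ A t μ)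
    (hdown : ∀ t μ μ', 0 < t → t ≤ 1 → A t μ → 0 < μ' → μ' ≤ μ → A t μ')
    (hmono : ∀ s t μ, 0 < s → s ≤ t → t ≤ 1 → A s μ → A t μ) :
    ∃ m : ℝ → ℝ, (∀ t, 0 < t → 0 < m t) ∧ (∀ t, 0 < t → t ≤ 1 → A t (m t)) ∧
      (∀ s t, 0 < s → s ≤ t → m s ≤ m t) := by
  refine ⟨fun t => sSup (monoExhaustSet A (min t 1)) / 2, ?_, ?_, ?_⟩
  · intro t ht
    have h := monoExhaust_sSup_pos A hex hdown (lt_min ht one_pos) (min_le_right t 1)
    show 0 < sSup (monoExhaustSet A (min t 1)) / 2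
    linarith
  · intro t ht ht1
    show A t (sSup (monoExhaustSet A (min t 1)) / 2)
    rw [min_eq_left ht1]
    have hpos := monoExhaust_sSup_pos A hex hdown ht ht1
    have hlt : sSup (monoExhaustSet A t) / 2 < sSup (monoExhaustSet A t) := by linarith
    obtain ⟨μ, hμ, hμlt⟩ := exists_lt_of_lt_csSup (monoExhaust_nonempty A hex hdown ht ht1) hlt
    exact hdown t μ _ ht ht1 hμ.2.2 (by linarith) hμlt.le
  · intro s t hs hst
    show sSup (monoExhaustSet A (min s 1)) / 2 ≤ sSup (monoExhaustSet A (min t 1)) / 2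
    have hs' : 0 < min s 1 := lt_min hs one_pos
    have hst' : min s 1 ≤ min t 1 := min_le_min hst le_rfl
    have hsub : monoExhaustSet A (min s 1) ⊆ monoExhaustSet A (min t 1) := by
      intro μ hμ
      exact ⟨hμ.1, hμ.2.1, hmono _ _ μ hs' hst' (min_le_right t 1) hμ.2.2⟩
    have hle := csSup_le_csSup (monoExhaust_bddAbove A (min t 1))
      (monoExhaust_nonempty A hex hdown hs' (min_le_right s 1)) hsub
    linarith

theorem exists_exhaustion {E : Type*} [NormedAddCommGroup E] [NormedSpace ℝ E]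
    [FiniteDimensional ℝ E] {Ω : Set E} (hΩ : IsOpen Ω) (hb : Bornology.IsBounded Ω) :
    ∃ h : E → ℝ, ∃ L : ℝ, 0 < L ∧ ContDiff ℝ ∞ h ∧ Function.support h = Ω ∧
      (∀ x, 0 ≤ h x ∧ h x ≤ 1) ∧ (∀ x y, |h x - h y| ≤ L * ‖x - y‖) ∧
      ∀ t, 0 < t → IsCompact {x | t ≤ h x} ∧ {x | t ≤ h x} ⊆ Ω := by
  obtain ⟨h, hsupp, hsmooth, hrange⟩ := hΩ.exists_contDiff_support_eq (n := ⊤)
  have hcs : HasCompactSupport h := by
    show IsCompact (tsupport h)
    have ht : tsupport h = closure Ω := by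
      rw [tsupport, hsupp]
    rw [ht]
    exact Metric.isCompact_of_isClosed_isBounded isClosed_closure hb.closure
  obtain ⟨C, hC⟩ := hsmooth.lipschitzWith_of_hasCompactSupport hcs (by simp)
  refine ⟨h, (C : ℝ) + 1, by positivity, hsmooth, hsupp, ?_, ?_, ?_⟩
  · intro x
    have hx := hrange (Set.mem_range_self x)
    exact ⟨hx.1, hx.2⟩
  · intro x y
    have h1 := hC.dist_le_mul x y
    rw [Real.dist_eq, dist_eq_norm] at h1
    have h2 : (0 : ℝ) ≤ ‖x - y‖ := norm_nonneg _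
    nlinarith
  · intro t ht
    have hsub : {x | t ≤ h x} ⊆ Ω := by
      intro x hx
      rw [← hsupp, Function.mem_support]
      have hx' : t ≤ h x := hx
      intro h0
      rw [h0] at hx'
      linarith
    have hclosed : IsClosed {x | t ≤ h x} := isClosed_le continuous_const hsmooth.continuous
    exact ⟨Metric.isCompact_of_isClosed_isBounded hclosed (hb.subset hsub), hsub⟩

end Vale.Agent.Lib.P073

end -- part MonoExhaust

section -- part MonoCompact

/-!
# P073: three compactness lemmas for the locally monotone approximation theorem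
-/

namespace Vale.Agent.Lib.P073
open MeasureTheory Filter Topology Set Metric
open scoped ContDiff ENNReal

section
variable {E : Type*} [NormedAddCommGroup E] [NormedSpace ℝ E] [FiniteDimensional ℝ E]

omit [FiniteDimensional ℝ E] in
theorem exists_uniform_monotone_radius {Ω : Set E} (hΩ : IsOpen Ω) {f : E → E}
    (hloc : ∀ x₀ ∈ Ω, ∃ r > 0, ∃ β : E →L[ℝ] E →L[ℝ] ℝ, ∃ δ > 0,
      ∀ x ∈ Ω ∩ ball x₀ r, ∀ y ∈ Ω ∩ ball x₀ r,
        δ * ‖f x - f y‖ * ‖x - y‖ ≤ β (f x - f y) (x - y))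
    {K : Set E} (hK : IsCompact K) (hKΩ : K ⊆ Ω) :
    ∃ R > 0, ∀ x ∈ K, closedBall x R ⊆ Ω ∧ ∃ β : E →L[ℝ] E →L[ℝ] ℝ, ∃ δ > 0,
      R * (δ + ‖β‖) ≤ δ ∧ ∀ a ∈ closedBall x R, ∀ b ∈ closedBall x R,
        δ * ‖f a - f b‖ * ‖a - b‖ ≤ β (f a - f b) (a - b) := by
  -- monotonicity of the property in the radius
  have hmonoR : ∀ (x : E) (R R' : ℝ), 0 < R' → R' ≤ R →
      (closedBall x R ⊆ Ω ∧ ∃ β : E →L[ℝ] E →L[ℝ] ℝ, ∃ δ > 0,
        R * (δ + ‖β‖) ≤ δ ∧ ∀ a ∈ closedBall x R, ∀ b ∈ closedBall x R,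
          δ * ‖f a - f b‖ * ‖a - b‖ ≤ β (f a - f b) (a - b)) →
      (closedBall x R' ⊆ Ω ∧ ∃ β : E →L[ℝ] E →L[ℝ] ℝ, ∃ δ > 0,
        R' * (δ + ‖β‖) ≤ δ ∧ ∀ a ∈ closedBall x R', ∀ b ∈ closedBall x R',
          δ * ‖f a - f b‖ * ‖a - b‖ ≤ β (f a - f b) (a - b)) := by
    intro x R R' hR' hle ⟨h1, β, δ, hδ, h2, h3⟩
    have hsub : closedBall x R' ⊆ closedBall x R := closedBall_subset_closedBall hle
    refine ⟨hsub.trans h1, β, δ, hδ, ?_, fun a ha b hb => h3 a (hsub ha) b (hsub hb)⟩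
    have h4 : R' * (δ + ‖β‖) ≤ R * (δ + ‖β‖) :=
      mul_le_mul_of_nonneg_right hle (by positivity)
    linarith
  refine hK.induction_on (p := fun T => ∃ R > 0, ∀ x ∈ T, closedBall x R ⊆ Ω ∧
      ∃ β : E →L[ℝ] E →L[ℝ] ℝ, ∃ δ > 0,
      R * (δ + ‖β‖) ≤ δ ∧ ∀ a ∈ closedBall x R, ∀ b ∈ closedBall x R,
        δ * ‖f a - f b‖ * ‖a - b‖ ≤ β (f a - f b) (a - b)) ?_ ?_ ?_ ?_
  · exact ⟨1, one_pos, fun x hx => absurd hx (notMem_empty x)⟩
  · intro s t hst ⟨R, hR, h⟩
    exact ⟨R, hR, fun x hx => h x (hst hx)⟩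
  · intro s t ⟨R₁, hR₁, h₁⟩ ⟨R₂, hR₂, h₂⟩
    refine ⟨min R₁ R₂, lt_min hR₁ hR₂, ?_⟩
    intro x hx
    rcases hx with hx | hx
    · exact hmonoR x R₁ _ (lt_min hR₁ hR₂) (min_le_left _ _) (h₁ x hx)
    · exact hmonoR x R₂ _ (lt_min hR₁ hR₂) (min_le_right _ _) (h₂ x hx)
  · intro x₀ hx₀
    obtain ⟨r, hr, β, δ, hδ, hmono⟩ := hloc x₀ (hKΩ hx₀)
    obtain ⟨ρ₀, hρ₀, hball⟩ := Metric.isOpen_iff.1 hΩ x₀ (hKΩ hx₀)
    have hden : 0 < δ + ‖β‖ := by positivity
    refine ⟨K ∩ ball x₀ (min (r / 2) (ρ₀ / 2)), ?_,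
      min (min (r / 4) (ρ₀ / 4)) (δ / (δ + ‖β‖)), ?_, ?_⟩
    · exact inter_mem_nhdsWithin K
        (ball_mem_nhds x₀ (lt_min (half_pos hr) (half_pos hρ₀)))
    · exact lt_min (lt_min (by positivity) (by positivity)) (div_pos hδ hden)
    · intro x hx
      have hx1 : dist x x₀ < r / 2 := lt_of_lt_of_le (mem_ball.1 hx.2) (min_le_left _ _)
      have hx2 : dist x x₀ < ρ₀ / 2 := lt_of_lt_of_le (mem_ball.1 hx.2) (min_le_right _ _)
      have hsubΩ : closedBall x (min (min (r / 4) (ρ₀ / 4)) (δ / (δ + ‖β‖))) ⊆ Ω := by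
        intro z hz
        apply hball
        rw [mem_ball]
        have hz1 : dist z x ≤ ρ₀ / 4 :=
          (mem_closedBall.1 hz).trans ((min_le_left _ _).trans (min_le_right _ _))
        have := dist_triangle z x x₀
        linarith
      have hsubr : closedBall x (min (min (r / 4) (ρ₀ / 4)) (δ / (δ + ‖β‖))) ⊆ ball x₀ r := by
        intro z hz
        rw [mem_ball]
        have hz1 : dist z x ≤ r / 4 :=
          (mem_closedBall.1 hz).trans ((min_le_left _ _).trans (min_le_left _ _))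
        have := dist_triangle z x x₀
        linarith
      refine ⟨hsubΩ, β, δ, hδ, ?_, ?_⟩
      · have h1 : min (min (r / 4) (ρ₀ / 4)) (δ / (δ + ‖β‖)) * (δ + ‖β‖)
            ≤ δ / (δ + ‖β‖) * (δ + ‖β‖) :=
          mul_le_mul_of_nonneg_right (min_le_right _ _) hden.le
        rw [div_mul_cancel₀ _ hden.ne'] at h1
        exact h1
      · intro a ha b hb
        exact hmono a ⟨hsubΩ ha, hsubr ha⟩ b ⟨hsubΩ hb, hsubr hb⟩

omit [NormedSpace ℝ E] [FiniteDimensional ℝ E] in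
theorem exists_uniform_separation {Ω Λ : Set E} {f g : E → E} (hf : ContinuousOn f Ω)
    (hfΛ : MapsTo f Ω Λ) (hg : ContinuousOn g Λ) (hgf : ∀ x ∈ Ω, g (f x) = x)
    {K : Set E} (hK : IsCompact K) (hKΩ : K ⊆ Ω) {R : ℝ} (hR : 0 < R) :
    ∃ S > 0, ∀ x ∈ K, ∀ w ∈ Ω, ‖f w - f x‖ < S → ‖w - x‖ < R := by
  refine hK.induction_on (p := fun T => ∃ S > 0, ∀ x ∈ T, ∀ w ∈ Ω,
      ‖f w - f x‖ < S → ‖w - x‖ < R) ?_ ?_ ?_ ?_
  · exact ⟨1, one_pos, fun x hx => absurd hx (notMem_empty x)⟩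
  · intro s t hst ⟨S, hS, h⟩
    exact ⟨S, hS, fun x hx => h x (hst hx)⟩
  · intro s t ⟨S₁, hS₁, h₁⟩ ⟨S₂, hS₂, h₂⟩
    refine ⟨min S₁ S₂, lt_min hS₁ hS₂, ?_⟩
    intro x hx w hw hlt
    rcases hx with hx | hx
    · exact h₁ x hx w hw (lt_of_lt_of_le hlt (min_le_left _ _))
    · exact h₂ x hx w hw (lt_of_lt_of_le hlt (min_le_right _ _))
  · intro x₀ hx₀
    have hx₀Ω : x₀ ∈ Ω := hKΩ hx₀
    have hgc : ContinuousWithinAt g Λ (f x₀) := hg (f x₀) (hfΛ hx₀Ω)
    obtain ⟨η, hη, hgη⟩ := Metric.continuousWithinAt_iff.1 hgc (R / 2) (by positivity)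
    have hfc : ContinuousWithinAt f Ω x₀ := hf x₀ hx₀Ω
    obtain ⟨θ, hθ, hfθ⟩ := Metric.continuousWithinAt_iff.1 hfc (η / 2) (by positivity)
    refine ⟨K ∩ ball x₀ (min θ (R / 2)), ?_, η / 2, by positivity, ?_⟩
    · exact inter_mem_nhdsWithin K (ball_mem_nhds x₀ (lt_min hθ (half_pos hR)))
    · intro x hx w hw hlt
      have hx1 : dist x x₀ < θ := lt_of_lt_of_le (mem_ball.1 hx.2) (min_le_left _ _)
      have hx2 : dist x x₀ < R / 2 := lt_of_lt_of_le (mem_ball.1 hx.2) (min_le_right _ _)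
      have hxΩ : x ∈ Ω := hKΩ hx.1
      have h1 : dist (f x) (f x₀) < η / 2 := hfθ hxΩ hx1
      have h2 : dist (f w) (f x₀) < η := by
        have := dist_triangle (f w) (f x) (f x₀)
        rw [dist_eq_norm (f w) (f x)] at this
        linarith
      have h3 : dist (g (f w)) (g (f x₀)) < R / 2 := hgη (hfΛ hw) h2
      rw [hgf w hw, hgf x₀ hx₀Ω] at h3
      have h4 := dist_triangle w x₀ x
      rw [dist_comm x₀ x] at h4
      rw [← dist_eq_norm]
      linarith

omit [NormedSpace ℝ E] [FiniteDimensional ℝ E] in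
theorem exists_uniform_osc {Ω Λ : Set E} (hΩ : IsOpen Ω) (hΛ : IsOpen Λ) (hΛn : Λᶜ.Nonempty)
    {f : E → E} (hf : ContinuousOn f Ω) (hfΛ : MapsTo f Ω Λ) {K : Set E} (hK : IsCompact K)
    (hKΩ : K ⊆ Ω) {S : ℝ} (hS : 0 < S) :
    ∃ μ > 0, ∀ x ∈ K, closedBall x μ ⊆ Ω ∧ ∀ z ∈ closedBall x μ,
      ‖f z - f x‖ ≤ S ∧ ‖f z - f x‖ ≤ infDist (f x) Λᶜ / 4 := by
  refine hK.induction_on (p := fun T => ∃ μ > 0, ∀ x ∈ T, closedBall x μ ⊆ Ω ∧
      ∀ z ∈ closedBall x μ, ‖f z - f x‖ ≤ S ∧ ‖f z - f x‖ ≤ infDist (f x) Λᶜ / 4) ?_ ?_ ?_ ?_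
  · exact ⟨1, one_pos, fun x hx => absurd hx (notMem_empty x)⟩
  · intro s t hst ⟨μ, hμ, h⟩
    exact ⟨μ, hμ, fun x hx => h x (hst hx)⟩
  · intro s t ⟨μ₁, hμ₁, h₁⟩ ⟨μ₂, hμ₂, h₂⟩
    refine ⟨min μ₁ μ₂, lt_min hμ₁ hμ₂, ?_⟩
    intro x hx
    rcases hx with hx | hx
    · have hsub : closedBall x (min μ₁ μ₂) ⊆ closedBall x μ₁ :=
        closedBall_subset_closedBall (min_le_left _ _)
      exact ⟨hsub.trans (h₁ x hx).1, fun z hz => (h₁ x hx).2 z (hsub hz)⟩
    · have hsub : closedBall x (min μ₁ μ₂) ⊆ closedBall x μ₂ :=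
        closedBall_subset_closedBall (min_le_right _ _)
      exact ⟨hsub.trans (h₂ x hx).1, fun z hz => (h₂ x hx).2 z (hsub hz)⟩
  · intro x₀ hx₀
    have hx₀Ω : x₀ ∈ Ω := hKΩ hx₀
    have hd₀ : 0 < infDist (f x₀) Λᶜ :=
      (IsClosed.notMem_iff_infDist_pos hΛ.isClosed_compl hΛn).1 (fun h => h (hfΛ hx₀Ω))
    have hfc : ContinuousAt f x₀ := hf.continuousAt (hΩ.mem_nhds hx₀Ω)
    have hη : 0 < min (S / 2) (infDist (f x₀) Λᶜ / 9) := lt_min (by positivity) (by positivity)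
    obtain ⟨θ₁, hθ₁, hfθ⟩ := Metric.continuousAt_iff.1 hfc _ hη
    obtain ⟨θ₂, hθ₂, hball⟩ := Metric.isOpen_iff.1 hΩ x₀ hx₀Ω
    refine ⟨K ∩ ball x₀ (min θ₁ θ₂ / 2), ?_, min θ₁ θ₂ / 4, ?_, ?_⟩
    · exact inter_mem_nhdsWithin K (ball_mem_nhds x₀ (half_pos (lt_min hθ₁ hθ₂)))
    · have := lt_min hθ₁ hθ₂
      positivity
    · intro x hx
      have hm : 0 < min θ₁ θ₂ := lt_min hθ₁ hθ₂
      have hx1 : dist x x₀ < min θ₁ θ₂ / 2 := mem_ball.1 hx.2
      have hx2 : dist x x₀ < θ₁ := by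
        have := min_le_left θ₁ θ₂
        linarith
      have hzd : ∀ z ∈ closedBall x (min θ₁ θ₂ / 4), dist z x₀ < min θ₁ θ₂ := by
        intro z hz
        have := dist_triangle z x x₀
        have := mem_closedBall.1 hz
        linarith
      refine ⟨fun z hz => hball (mem_ball.2 (lt_of_lt_of_le (hzd z hz) (min_le_right _ _))), ?_⟩
      intro z hz
      have hz1 : dist z x₀ < θ₁ := lt_of_lt_of_le (hzd z hz) (min_le_left _ _)
      have h1 : dist (f z) (f x₀) < min (S / 2) (infDist (f x₀) Λᶜ / 9) := hfθ hz1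
      have h2 : dist (f x) (f x₀) < min (S / 2) (infDist (f x₀) Λᶜ / 9) := hfθ hx2
      have h3 : ‖f z - f x‖ ≤ dist (f z) (f x₀) + dist (f x) (f x₀) := by
        rw [← dist_eq_norm]
        have := dist_triangle (f z) (f x₀) (f x)
        rw [dist_comm (f x₀) (f x)] at this
        exact this
      have h4 : infDist (f x₀) Λᶜ ≤ infDist (f x) Λᶜ + dist (f x₀) (f x) :=
        infDist_le_infDist_add_dist
      rw [dist_comm (f x₀) (f x)] at h4
      have h5 := min_le_left (S / 2) (infDist (f x₀) Λᶜ / 9)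
      have h6 := min_le_right (S / 2) (infDist (f x₀) Λᶜ / 9)
      constructor
      · linarith
      · linarith

end

end Vale.Agent.Lib.P073

end -- part MonoCompact

section -- part MonoRadius

/-!
# P073: the radius function for the variable-radius mollification of a locally monotone
homeomorphism
-/

namespace Vale.Agent.Lib.P073
open MeasureTheory Filter Topology Set Metric
open scoped ContDiff ENNReal

variable {E : Type*} [NormedAddCommGroup E] [NormedSpace ℝ E] [FiniteDimensional ℝ E]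

/-- The radius function: smooth and positive on `Ω`, with small Lipschitz constant, so small that
the oscillation of `f` on each ball `closedBall x (ε x)` is controlled, and such that any two
points whose images are close, as well as all points near a given point, see a common region on
which `f` is monotone with respect to a fixed bilinear form with a constant that beats the
Lipschitz constant of `ε` between them. -/
theorem exists_good_radius {Ω Λ : Set E} (hΩ : IsOpen Ω) (hΩb : Bornology.IsBounded Ω)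
    (hΛ : IsOpen Λ) (hΛn : Λᶜ.Nonempty) {f g : E → E} (hf : ContinuousOn f Ω)
    (hfΛ : MapsTo f Ω Λ) (hg : ContinuousOn g Λ) (hgf : ∀ x ∈ Ω, g (f x) = x)
    (hloc : ∀ x₀ ∈ Ω, ∃ r > 0, ∃ β : E →L[ℝ] E →L[ℝ] ℝ, ∃ δ > 0,
      ∀ x ∈ Ω ∩ ball x₀ r, ∀ y ∈ Ω ∩ ball x₀ r,
        δ * ‖f x - f y‖ * ‖x - y‖ ≤ β (f x - f y) (x - y))
    {η : ℝ} (hη : 0 < η) :
    ∃ ε σ : E → ℝ,
      ContDiffOn ℝ ∞ ε Ω ∧
      (∀ x ∈ Ω, 0 < ε x ∧ ε x ≤ η ∧ closedBall x (ε x) ⊆ Ω) ∧
      (∀ x y, |ε x - ε y| ≤ η * ‖x - y‖) ∧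
      (∀ x y, |ε x - ε y| ≤ (1 / 2) * ‖x - y‖) ∧
      (∀ x ∈ Ω, ∀ z ∈ closedBall x (ε x),
        ‖f z - f x‖ ≤ infDist (f x) Λᶜ / 4 ∧ ‖f z - f x‖ ≤ σ x) ∧
      (∀ x ∈ Ω, ∀ x' ∈ Ω, ‖f x - f x'‖ ≤ σ x + σ x' →
        ∃ U : Set E, ∃ β : E →L[ℝ] E →L[ℝ] ℝ, ∃ δ κ : ℝ, U ⊆ Ω ∧ 0 < δ ∧ 0 ≤ κ ∧
          0 < δ - κ * (δ + ‖β‖) ∧
          (∀ a ∈ U, ∀ b ∈ U, δ * ‖f a - f b‖ * ‖a - b‖ ≤ β (f a - f b) (a - b)) ∧
          closedBall x (ε x) ⊆ U ∧ closedBall x' (ε x') ⊆ U ∧
          |ε x - ε x'| ≤ κ * ‖x - x'‖) ∧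
      (∀ x₀ ∈ Ω, ∃ r > 0, ∃ U : Set E, ∃ β : E →L[ℝ] E →L[ℝ] ℝ, ∃ δ κ : ℝ, U ⊆ Ω ∧ 0 < δ ∧
          0 ≤ κ ∧ 0 < δ - κ * (δ + ‖β‖) ∧
          (∀ a ∈ U, ∀ b ∈ U, δ * ‖f a - f b‖ * ‖a - b‖ ≤ β (f a - f b) (a - b)) ∧
          (∀ x ∈ ball x₀ r, 0 < ε x ∧ closedBall x (ε x) ⊆ U) ∧
          (∀ x ∈ ball x₀ r, ∀ x' ∈ ball x₀ r, |ε x - ε x'| ≤ κ * ‖x - x'‖)) := by
  obtain ⟨h, L, hL, hh, hsupp, h01, hliph, hK⟩ := exists_exhaustion hΩ hΩb
  have hL1 : 0 < L + 1 := by linarith
  have hpos_of_mem : ∀ x ∈ Ω, 0 < h x := by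
    intro x hx
    have hne : h x ≠ 0 := by
      have : x ∈ Function.support h := by rw [hsupp]; exact hx
      exact this
    exact lt_of_le_of_ne (h01 x).1 (Ne.symm hne)
  have hmem_of_pos : ∀ x, 0 < h x → x ∈ Ω := by
    intro x hx
    have : x ∈ Function.support h := ne_of_gt hx
    rwa [hsupp] at this
  -- selection 1: the monotonicity radius
  obtain ⟨R, hRpos, hRA, hRmono⟩ := exists_monotone_selection
    (fun t ρ₀ => ∀ x, t ≤ h x → closedBall x ρ₀ ⊆ Ω ∧ ∃ β : E →L[ℝ] E →L[ℝ] ℝ, ∃ δ > 0,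
      ρ₀ * (δ + ‖β‖) ≤ δ ∧ ∀ a ∈ closedBall x ρ₀, ∀ b ∈ closedBall x ρ₀,
        δ * ‖f a - f b‖ * ‖a - b‖ ≤ β (f a - f b) (a - b))
    (by
      intro t ht _
      obtain ⟨R, hR, hR'⟩ := exists_uniform_monotone_radius hΩ hloc (hK t ht).1 (hK t ht).2
      exact ⟨R, hR, fun x hx => hR' x hx⟩)
    (by
      intro t μ μ' _ _ hA hμ' hle x hx
      obtain ⟨h1, β, δ, hδ, h2, h3⟩ := hA x hx
      have hsub : closedBall x μ' ⊆ closedBall x μ := closedBall_subset_closedBall hle
      refine ⟨hsub.trans h1, β, δ, hδ, ?_, fun a ha b hb => h3 a (hsub ha) b (hsub hb)⟩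
      have : 0 ≤ δ + ‖β‖ := by positivity
      nlinarith)
    (by
      intro s t μ _ hst _ hA x hx
      exact hA x (hst.trans hx))
  -- selection 2: the separation constant
  obtain ⟨S, hSpos, hSA, hSmono⟩ := exists_monotone_selection
    (fun t s => ∀ x, t ≤ h x → ∀ w ∈ Ω, ‖f w - f x‖ < s → ‖w - x‖ < R t / 4)
    (by
      intro t ht _
      have hR4 : 0 < R t / 4 := by have := hRpos t ht; linarith
      obtain ⟨S, hS, hS'⟩ := exists_uniform_separation hf hfΛ hg hgf (hK t ht).1 (hK t ht).2 hR4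
      exact ⟨S, hS, fun x hx => hS' x hx⟩)
    (by
      intro t μ μ' _ _ hA _ hle x hx w hw hlt
      exact hA x hx w hw (lt_of_lt_of_le hlt hle))
    (by
      intro s t μ hs hst _ hA x hx w hw hlt
      have h1 := hA x (hst.trans hx) w hw hlt
      have h2 := hRmono s t hs hst
      linarith)
  -- selection 3: the radius bound
  obtain ⟨m, hmpos, hmA, hmmono⟩ := exists_monotone_selection
    (fun t μ => μ * (L + 1) ≤ η ∧ μ * (L + 1) ≤ 1 / 2 ∧ μ * (L + 1) * 8 ≤ R t ∧ μ ≤ η ∧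
      ∀ x, t ≤ h x → closedBall x μ ⊆ Ω ∧ ∀ z ∈ closedBall x μ,
        ‖f z - f x‖ ≤ S t / 3 ∧ ‖f z - f x‖ ≤ infDist (f x) Λᶜ / 4)
    (by
      intro t ht _
      have hS3 : 0 < S t / 3 := by have := hSpos t ht; linarith
      obtain ⟨μ₀, hμ₀, hμ₀'⟩ := exists_uniform_osc hΩ hΛ hΛn hf hfΛ (hK t ht).1 (hK t ht).2 hS3
      have hRt := hRpos t ht
      set c : ℝ := min η (min (1 / 2) (R t / 8)) / (L + 1) with hc
      have hc0 : 0 < c := by
        apply div_pos _ hL1
        refine lt_min hη (lt_min (by norm_num) (by linarith))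
      have hcL : c * (L + 1) = min η (min (1 / 2) (R t / 8)) := by
        rw [hc]; field_simp
      have hcle : c ≤ c * (L + 1) := by nlinarith
      refine ⟨min μ₀ c, lt_min hμ₀ hc0, ?_, ?_, ?_, ?_, ?_⟩
      · calc min μ₀ c * (L + 1) ≤ c * (L + 1) :=
              mul_le_mul_of_nonneg_right (min_le_right _ _) hL1.le
          _ ≤ η := by rw [hcL]; exact min_le_left _ _
      · calc min μ₀ c * (L + 1) ≤ c * (L + 1) :=
              mul_le_mul_of_nonneg_right (min_le_right _ _) hL1.le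
          _ ≤ 1 / 2 := by rw [hcL]; exact (min_le_right _ _).trans (min_le_left _ _)
      · have h1 : min μ₀ c * (L + 1) ≤ c * (L + 1) :=
          mul_le_mul_of_nonneg_right (min_le_right _ _) hL1.le
        have h2 : c * (L + 1) ≤ R t / 8 := by
          rw [hcL]; exact (min_le_right _ _).trans (min_le_right _ _)
        linarith
      · calc min μ₀ c ≤ c := min_le_right _ _
          _ ≤ c * (L + 1) := hcle
          _ ≤ η := by rw [hcL]; exact min_le_left _ _
      · intro x hx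
        obtain ⟨h1, h2⟩ := hμ₀' x hx
        have hsub : closedBall x (min μ₀ c) ⊆ closedBall x μ₀ :=
          closedBall_subset_closedBall (min_le_left _ _)
        exact ⟨hsub.trans h1, fun z hz => h2 z (hsub hz)⟩)
    (by
      intro t μ μ' _ _ hA hμ' hle
      obtain ⟨h1, h2, h3, h4, h5⟩ := hA
      have hm : μ' * (L + 1) ≤ μ * (L + 1) := mul_le_mul_of_nonneg_right hle hL1.le
      refine ⟨hm.trans h1, hm.trans h2, by linarith, hle.trans h4, ?_⟩
      intro x hx
      obtain ⟨h6, h7⟩ := h5 x hx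
      have hsub : closedBall x μ' ⊆ closedBall x μ := closedBall_subset_closedBall hle
      exact ⟨hsub.trans h6, fun z hz => h7 z (hsub hz)⟩)
    (by
      intro s t μ hs hst _ hA
      obtain ⟨h1, h2, h3, h4, h5⟩ := hA
      have hR := hRmono s t hs hst
      have hS := hSmono s t hs hst
      refine ⟨h1, h2, by linarith, h4, ?_⟩
      intro x hx
      obtain ⟨h6, h7⟩ := h5 x (hst.trans hx)
      refine ⟨h6, fun z hz => ?_⟩
      obtain ⟨h8, h9⟩ := h7 z hz
      exact ⟨by linarith, h9⟩)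
  obtain ⟨Φ, hΦs, hΦ0, hΦpos, hΦm, hΦd⟩ := exists_profile m hmpos hmmono
  -- the pair estimate
  have hpair : ∀ x y, h y ≤ h x → 0 < h x →
      |Φ (h x) - Φ (h y)| ≤ m (h x) * (L + 1) * ‖x - y‖ ∧ Φ (h y) ≤ Φ (h x) := by
    intro x y hyx hx
    obtain ⟨h1, h2⟩ := hΦd (h y) (h x) (h01 y).1 hyx (h01 x).2
    refine ⟨?_, by linarith⟩
    rw [abs_of_nonneg h1]
    have h3 : h x - h y ≤ L * ‖x - y‖ := (le_abs_self _).trans (hliph x y)
    have h4 : 0 ≤ m (h x) := (hmpos _ hx).le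
    have h5 : 0 ≤ ‖x - y‖ := norm_nonneg _
    nlinarith
  have hmL : ∀ t, 0 < t → m t ≤ m t * (L + 1) := by
    intro t ht
    have := hmpos t ht
    nlinarith
  refine ⟨fun x => Φ (h x), fun x => S (h x) / 3, ?_, ?_, ?_, ?_, ?_, ?_, ?_⟩
  · -- smoothness
    exact hΦs.comp hh.contDiffOn (fun x hx => hpos_of_mem x hx)
  · intro x hx
    have ht := hpos_of_mem x hx
    have ht1 := (h01 x).2
    obtain ⟨-, -, -, h4, h5⟩ := hmA (h x) ht ht1
    have hle : Φ (h x) ≤ m (h x) := hΦm _ ht ht1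
    refine ⟨hΦpos _ ht, hle.trans h4, ?_⟩
    exact (closedBall_subset_closedBall hle).trans (h5 x le_rfl).1
  · -- Lipschitz with constant η
    have key : ∀ x y, h y ≤ h x → |Φ (h x) - Φ (h y)| ≤ η * ‖x - y‖ := by
      intro x y hyx
      rcases (h01 x).1.eq_or_lt with h0 | hx
      · have hy0 : h y = 0 := le_antisymm (h0 ▸ hyx) (h01 y).1
        rw [← h0, hy0, sub_self, abs_zero]
        positivity
      · obtain ⟨h1, -, -, -, -⟩ := hmA (h x) hx (h01 x).2
        exact (hpair x y hyx hx).1.trans (mul_le_mul_of_nonneg_right h1 (norm_nonneg _))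
    intro x y
    rcases le_total (h y) (h x) with hyx | hxy
    · exact key x y hyx
    · rw [abs_sub_comm, norm_sub_rev]
      exact key y x hxy
  · -- Lipschitz with constant 1/2
    have key : ∀ x y, h y ≤ h x → |Φ (h x) - Φ (h y)| ≤ (1 / 2) * ‖x - y‖ := by
      intro x y hyx
      rcases (h01 x).1.eq_or_lt with h0 | hx
      · have hy0 : h y = 0 := le_antisymm (h0 ▸ hyx) (h01 y).1
        rw [← h0, hy0, sub_self, abs_zero]
        positivity
      · obtain ⟨-, h2, -, -, -⟩ := hmA (h x) hx (h01 x).2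
        exact (hpair x y hyx hx).1.trans (mul_le_mul_of_nonneg_right h2 (norm_nonneg _))
    intro x y
    rcases le_total (h y) (h x) with hyx | hxy
    · exact key x y hyx
    · rw [abs_sub_comm, norm_sub_rev]
      exact key y x hxy
  · -- oscillation
    intro x hx z hz
    have ht := hpos_of_mem x hx
    have ht1 := (h01 x).2
    obtain ⟨-, -, -, -, h5⟩ := hmA (h x) ht ht1
    have hle : Φ (h x) ≤ m (h x) := hΦm _ ht ht1
    obtain ⟨h6, h7⟩ := (h5 x le_rfl).2 z (closedBall_subset_closedBall hle hz)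
    exact ⟨h7, h6⟩
  · -- pairs with close images
    have key : ∀ x ∈ Ω, ∀ x' ∈ Ω, h x' ≤ h x → ‖f x - f x'‖ ≤ S (h x) / 3 + S (h x') / 3 →
        ∃ U : Set E, ∃ β : E →L[ℝ] E →L[ℝ] ℝ, ∃ δ κ : ℝ, U ⊆ Ω ∧ 0 < δ ∧ 0 ≤ κ ∧
          0 < δ - κ * (δ + ‖β‖) ∧
          (∀ a ∈ U, ∀ b ∈ U, δ * ‖f a - f b‖ * ‖a - b‖ ≤ β (f a - f b) (a - b)) ∧
          closedBall x (Φ (h x)) ⊆ U ∧ closedBall x' (Φ (h x')) ⊆ U ∧
          |Φ (h x) - Φ (h x')| ≤ κ * ‖x - x'‖ := by
      intro x hx x' hx' hle hclose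
      have ht := hpos_of_mem x hx
      have ht1 := (h01 x).2
      have ht' := hpos_of_mem x' hx'
      have hSle : S (h x') ≤ S (h x) := hSmono _ _ ht' hle
      have hSt := hSpos _ ht
      have hlt : ‖f x' - f x‖ < S (h x) := by
        rw [norm_sub_rev]; linarith
      have hdist : ‖x' - x‖ < R (h x) / 4 := hSA (h x) ht ht1 x le_rfl x' hx' hlt
      obtain ⟨hRΩ, β, δ, hδ, hRδ, hmonoR⟩ := hRA (h x) ht ht1 x le_rfl
      obtain ⟨-, -, h3, -, -⟩ := hmA (h x) ht ht1
      have hmle : Φ (h x) ≤ m (h x) := hΦm _ ht ht1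
      have hmR : m (h x) ≤ R (h x) / 8 := by have := hmL _ ht; linarith
      obtain ⟨hp1, hp2⟩ := hpair x x' hle ht
      have hκ0 : 0 ≤ m (h x) * (L + 1) := mul_nonneg (hmpos _ ht).le hL1.le
      have hδβ : 0 ≤ δ + ‖β‖ := by positivity
      refine ⟨closedBall x (R (h x)), β, δ, m (h x) * (L + 1), hRΩ, hδ, hκ0, ?_, hmonoR, ?_, ?_,
        hp1⟩
      · have h8 : m (h x) * (L + 1) * (δ + ‖β‖) ≤ R (h x) / 8 * (δ + ‖β‖) :=
          mul_le_mul_of_nonneg_right (by linarith) hδβ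
        nlinarith
      · exact closedBall_subset_closedBall (by linarith [hRpos _ ht])
      · intro z hz
        rw [mem_closedBall, dist_eq_norm] at hz ⊢
        have : ‖z - x‖ ≤ ‖z - x'‖ + ‖x' - x‖ := by
          have := norm_add_le (z - x') (x' - x)
          rwa [sub_add_sub_cancel] at this
        linarith [hRpos _ ht]
    intro x hx x' hx' hclose
    rcases le_total (h x') (h x) with hle | hle
    · obtain ⟨U, β, δ, κ, h1, h2, h3, h4, h5, h6, h7, h8⟩ := key x hx x' hx' hle hclose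
      exact ⟨U, β, δ, κ, h1, h2, h3, h4, h5, h6, h7, h8⟩
    · have hclose' : ‖f x' - f x‖ ≤ S (h x') / 3 + S (h x) / 3 := by
        rw [norm_sub_rev]; linarith
      obtain ⟨U, β, δ, κ, h1, h2, h3, h4, h5, h6, h7, h8⟩ := key x' hx' x hx hle hclose'
      refine ⟨U, β, δ, κ, h1, h2, h3, h4, h5, h7, h6, ?_⟩
      rw [abs_sub_comm, norm_sub_rev]
      exact h8
  · -- neighbourhoods
    intro x₀ hx₀
    have ht₀ := hpos_of_mem x₀ hx₀
    have ht₀1 := (h01 x₀).2
    have hR₀ := hRpos _ ht₀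
    obtain ⟨hRΩ₀, -⟩ := hRA (h x₀) ht₀ ht₀1 x₀ le_rfl
    have hsubΩ : closedBall x₀ (R (h x₀) / 8) ⊆ Ω :=
      (closedBall_subset_closedBall (by linarith)).trans hRΩ₀
    obtain ⟨xp, hxp, hmax⟩ := (isCompact_closedBall x₀ (R (h x₀) / 8)).exists_isMaxOn
      ⟨x₀, mem_closedBall_self (by linarith)⟩ hh.continuous.continuousOn
    have hxpΩ : xp ∈ Ω := hsubΩ hxp
    have htp := hpos_of_mem xp hxpΩ
    have htp1 := (h01 xp).2
    have ht₀p : h x₀ ≤ h xp := hmax (mem_closedBall_self (by linarith))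
    have hRle : R (h x₀) ≤ R (h xp) := hRmono _ _ ht₀ ht₀p
    obtain ⟨hRΩ, β, δ, hδ, hRδ, hmonoR⟩ := hRA (h xp) htp htp1 xp le_rfl
    obtain ⟨-, -, h3, -, -⟩ := hmA (h xp) htp htp1
    have hκ0 : 0 ≤ m (h xp) * (L + 1) := mul_nonneg (hmpos _ htp).le hL1.le
    have hδβ : 0 ≤ δ + ‖β‖ := by positivity
    have hmR : m (h xp) ≤ R (h xp) / 8 := by have := hmL _ htp; linarith
    refine ⟨R (h x₀) / 8, by linarith, closedBall xp (R (h xp)), β, δ, m (h xp) * (L + 1), hRΩ,
      hδ, hκ0, ?_, hmonoR, ?_, ?_⟩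
    · have h8 : m (h xp) * (L + 1) * (δ + ‖β‖) ≤ R (h xp) / 8 * (δ + ‖β‖) :=
        mul_le_mul_of_nonneg_right (by linarith) hδβ
      nlinarith
    · intro x hx
      have hxc : x ∈ closedBall x₀ (R (h x₀) / 8) := ball_subset_closedBall hx
      have hxΩ : x ∈ Ω := hsubΩ hxc
      have hxle : h x ≤ h xp := hmax hxc
      have htx := hpos_of_mem x hxΩ
      refine ⟨hΦpos _ htx, ?_⟩
      have hΦle : Φ (h x) ≤ Φ (h xp) := by
        have := (hΦd (h x) (h xp) htx.le hxle htp1).1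
        linarith
      have hΦm' : Φ (h xp) ≤ m (h xp) := hΦm _ htp htp1
      intro z hz
      rw [mem_closedBall, dist_eq_norm] at hz hxc hxp ⊢
      have h1 : ‖z - xp‖ ≤ ‖z - x‖ + ‖x - x₀‖ + ‖x₀ - xp‖ := by
        have e : z - xp = (z - x) + (x - x₀) + (x₀ - xp) := by abel
        rw [e]
        exact (norm_add_le _ _).trans (add_le_add_left (norm_add_le _ _) _)
      rw [norm_sub_rev x₀ xp] at h1
      linarith
    · have key : ∀ x ∈ ball x₀ (R (h x₀) / 8), ∀ x' ∈ ball x₀ (R (h x₀) / 8), h x' ≤ h x →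
          |Φ (h x) - Φ (h x')| ≤ m (h xp) * (L + 1) * ‖x - x'‖ := by
        intro x hx x' _ hle
        have hxc : x ∈ closedBall x₀ (R (h x₀) / 8) := ball_subset_closedBall hx
        have hxΩ : x ∈ Ω := hsubΩ hxc
        have hxle : h x ≤ h xp := hmax hxc
        have htx := hpos_of_mem x hxΩ
        have hmm : m (h x) ≤ m (h xp) := hmmono _ _ htx hxle
        refine (hpair x x' hle htx).1.trans ?_
        exact mul_le_mul_of_nonneg_right (mul_le_mul_of_nonneg_right hmm hL1.le) (norm_nonneg _)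
      intro x hx x' hx'
      rcases le_total (h x') (h x) with hle | hle
      · exact key x hx x' hx' hle
      · rw [abs_sub_comm, norm_sub_rev]
        exact key x' hx' x hx hle

end Vale.Agent.Lib.P073

end -- part MonoRadius
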