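import Vale.Agent.Lib.P073.MonoLeaves
import Vale.Agent.Lib.P073.MonoAnalysis

/-!
# P073: locally monotone Sobolev homeomorphisms are diffeomorphically approximable
-/

namespace Vale.Agent.Lib.P073
open MeasureTheory Filter Topology Set Metric
open scoped ContDiff ENNReal

variable {E : Type*} [NormedAddCommGroup E] [NormedSpace ℝ E] [FiniteDimensional ℝ E]
  [MeasureSpace E] [BorelSpace E] [(volume : Measure E).IsAddHaarMeasure]

omit [BorelSpace E] [(volume : Measure E).IsAddHaarMeasure] in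
theorem IsMollKernel.hasCompactSupport {ρ : E → ℝ} (hρ : IsMollKernel ρ) :
    HasCompactSupport ρ := by
  apply HasCompactSupport.of_support_subset_isCompact (isCompact_closedBall (0 : E) 1)
  rw [hρ.2.2.2]
  exact ball_subset_closedBall

omit [FiniteDimensional ℝ E] [BorelSpace E] [(volume : Measure E).IsAddHaarMeasure] in
theorem IsMollKernel.norm_lt_one {ρ : E → ℝ} (hρ : IsMollKernel ρ) {y : E} (hy : ρ y ≠ 0) :
    ‖y‖ < 1 := by
  have : y ∈ ball (0 : E) 1 := by rw [← hρ.2.2.2]; exact hy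
  simpa using this

omit [FiniteDimensional ℝ E] [BorelSpace E] [(volume : Measure E).IsAddHaarMeasure] in
theorem IsMollKernel.sub_smul_mem {ρ : E → ℝ} (hρ : IsMollKernel ρ) {y : E} (hy : ρ y ≠ 0)
    {x : E} {e : ℝ} (he : 0 ≤ e) : x - e • y ∈ closedBall x e := by
  have h1 := hρ.norm_lt_one hy
  rw [mem_closedBall, dist_eq_norm, sub_sub_cancel_left, norm_neg, norm_smul, Real.norm_eq_abs,
    abs_of_nonneg he]
  nlinarith [norm_nonneg y]

/-- The integrand of the variable-radius mollification is integrable. -/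
theorem integrable_vmoll_integrand {F : Type*} [NormedAddCommGroup F] [NormedSpace ℝ F]
    {ρ : E → ℝ} (hρ : IsMollKernel ρ) {Ω : Set E} (hΩ : MeasurableSet Ω) {g : E → F}
    (hg : IntegrableOn g Ω) {ε : E → ℝ} {x : E} (hpos : 0 < ε x)
    (hball : closedBall x (ε x) ⊆ Ω) : Integrable (fun y => ρ y • g (x - ε x • y)) := by
  have h1 : Integrable (Ω.indicator g) := (integrable_indicator_iff hΩ).mpr hg
  have h2 : Integrable (fun y => Ω.indicator g (x - ε x • y)) :=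
    (h1.comp_sub_left x).comp_smul (ne_of_gt hpos)
  have h3 : Integrable (fun y => ρ y • Ω.indicator g (x - ε x • y)) :=
    integrable_smul_of_tsupport_subset (h2.locallyIntegrable.locallyIntegrableOn univ)
      hρ.1.continuous hρ.hasCompactSupport (subset_univ _)
  refine h3.congr (Eventually.of_forall fun y => ?_)
  by_cases hy : ρ y = 0
  · simp [hy]
  · have hmem : x - ε x • y ∈ Ω := hball (hρ.sub_smul_mem hy hpos.le)
    simp [indicator_of_mem hmem]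

/-- The derivative of the variable-radius mollification of `f` differs from the mollification of
the weak derivative by at most the Lipschitz constant of the radius function times the
mollification of the norm of the weak derivative. -/
theorem norm_fderiv_vmoll_sub_le {ρ : E → ℝ} (hρ : IsMollKernel ρ) {Ω : Set E} (hΩ : IsOpen Ω)
    {f : E → E} {G : E → E →L[ℝ] E} (hw : IsWeakDeriv Ω f G) (hfint : IntegrableOn f Ω)
    (hGint : IntegrableOn G Ω) {ε : E → ℝ} (hεs : ContDiffOn ℝ ∞ ε Ω)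
    (hpos : ∀ x ∈ Ω, 0 < ε x) (hball : ∀ x ∈ Ω, closedBall x (ε x) ⊆ Ω) {η : ℝ} (hη : 0 ≤ η)
    (hlip : ∀ x y, |ε x - ε y| ≤ η * ‖x - y‖) {x : E} (hx : x ∈ Ω) :
    ‖fderiv ℝ (vmoll ρ ε f) x - vmoll ρ ε G x‖ ≤ η * vmoll ρ ε (fun z => ‖G z‖) x := by
  have hI : Integrable (fun y => ρ y • G (x - ε x • y)) :=
    integrable_vmoll_integrand hρ hΩ.measurableSet hGint (hpos x hx) (hball x hx)
  have hIn : Integrable (fun y => ρ y • ‖G (x - ε x • y)‖) :=
    integrable_vmoll_integrand hρ hΩ.measurableSet hGint.norm (hpos x hx) (hball x hx)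
  have hfd : ‖fderiv ℝ ε x‖ ≤ η := by
    have hLip : LipschitzWith (Real.toNNReal η) ε := LipschitzWith.of_dist_le_mul fun a b => by
      rw [Real.dist_eq, dist_eq_norm, Real.coe_toNNReal _ hη]
      exact hlip a b
    have := norm_fderiv_le_of_lipschitz ℝ hLip (x₀ := x)
    rwa [Real.coe_toNNReal _ hη] at this
  have hbound : ∀ y, ‖ρ y • (G (x - ε x • y)) y‖ ≤ ρ y • ‖G (x - ε x • y)‖ := by
    intro y
    by_cases hy : ρ y = 0
    · simp [hy]
    · have h1 := hρ.norm_lt_one hy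
      rw [norm_smul, Real.norm_of_nonneg (hρ.2.1 y), smul_eq_mul]
      refine mul_le_mul_of_nonneg_left ?_ (hρ.2.1 y)
      calc ‖(G (x - ε x • y)) y‖ ≤ ‖G (x - ε x • y)‖ * ‖y‖ := ContinuousLinearMap.le_opNorm _ _
        _ ≤ ‖G (x - ε x • y)‖ * 1 := mul_le_mul_of_nonneg_left h1.le (norm_nonneg _)
        _ = ‖G (x - ε x • y)‖ := mul_one _
  have hwm : AEStronglyMeasurable (fun y => ρ y • (G (x - ε x • y)) y) := by
    have h1 : AEStronglyMeasurable (fun y => ((ρ y • G (x - ε x • y) : E →L[ℝ] E), y)) :=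
      hI.aestronglyMeasurable.prodMk aestronglyMeasurable_id
    have h2 := (isBoundedBilinearMap_apply (𝕜 := ℝ) (E := E) (F := E)).continuous
    exact h2.comp_aestronglyMeasurable h1
  have hwI : Integrable (fun y => ρ y • (G (x - ε x • y)) y) :=
    hIn.mono' hwm (Eventually.of_forall hbound)
  have hwn : ‖∫ y, ρ y • (G (x - ε x • y)) y‖ ≤ vmoll ρ ε (fun z => ‖G z‖) x :=
    norm_integral_le_of_norm_le hIn (Eventually.of_forall hbound)
  have hnn : 0 ≤ vmoll ρ ε (fun z => ‖G z‖) x :=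
    integral_nonneg fun y => smul_nonneg (hρ.2.1 y) (norm_nonneg _)
  refine ContinuousLinearMap.opNorm_le_bound _ (mul_nonneg hη hnn) (fun v => ?_)
  have e : (fderiv ℝ (vmoll ρ ε f) x - vmoll ρ ε G x) v
      = - ((fderiv ℝ ε x v) • ∫ y, ρ y • (G (x - ε x • y)) y) := by
    have e0 : (fderiv ℝ (vmoll ρ ε f) x - vmoll ρ ε G x) v
        = fderiv ℝ (vmoll ρ ε f) x v - vmoll ρ ε G x v := rfl
    rw [e0, vmoll_fderiv hρ hΩ hw hfint hGint hεs hpos hball hx v]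
    have e1 : vmoll ρ ε G x v = ∫ y, (ρ y • G (x - ε x • y)) v :=
      ContinuousLinearMap.integral_apply hI v
    have e2 : (fun y => ρ y • (G (x - ε x • y)) (v - (fderiv ℝ ε x v) • y))
        = fun y => (ρ y • G (x - ε x • y)) v
          - (fderiv ℝ ε x v) • (ρ y • (G (x - ε x • y)) y) := by
      funext y
      have e3 : (ρ y • G (x - ε x • y)) v = ρ y • (G (x - ε x • y)) v := rfl
      rw [map_sub, map_smul, smul_sub, e3, smul_comm]
    have h4 : Integrable (fun y => (ρ y • G (x - ε x • y)) v) := hI.apply_continuousLinearMap v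
    have h5 : Integrable (fun y => (fderiv ℝ ε x v) • (ρ y • (G (x - ε x • y)) y)) :=
      hwI.smul _
    rw [e1, e2, integral_sub h4 h5, integral_smul]
    abel
  rw [e, norm_neg, norm_smul]
  calc ‖fderiv ℝ ε x v‖ * ‖∫ y, ρ y • (G (x - ε x • y)) y‖
      ≤ (‖fderiv ℝ ε x‖ * ‖v‖) * vmoll ρ ε (fun z => ‖G z‖) x :=
        mul_le_mul (ContinuousLinearMap.le_opNorm _ _) hwn (norm_nonneg _)
          (mul_nonneg (norm_nonneg _) (norm_nonneg _))
    _ ≤ (η * ‖v‖) * vmoll ρ ε (fun z => ‖G z‖) x :=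
        mul_le_mul_of_nonneg_right (mul_le_mul_of_nonneg_right hfd (norm_nonneg _)) hnn
    _ = η * vmoll ρ ε (fun z => ‖G z‖) x * ‖v‖ := by ring

/-- The variable-radius mollification with a good radius function is a smooth diffeomorphism of
`Ω` onto the same target `Λ`. -/
theorem vmoll_isSmoothDiffeo {ρ : E → ℝ} (hρ : IsMollKernel ρ) {Ω Λ : Set E} (hΩ : IsOpen Ω)
    (hΛ : IsOpen Λ) (hΛc : IsPreconnected Λ) (hΛn : Λᶜ.Nonempty) {f g : E → E}
    (hf : ContinuousOn f Ω) (hbij : BijOn f Ω Λ) (hg : ContinuousOn g Λ)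
    (hgf : ∀ x ∈ Ω, g (f x) = x) (hfint : IntegrableOn f Ω) {ε σ : E → ℝ}
    (hεs : ContDiffOn ℝ ∞ ε Ω) (hpos : ∀ x ∈ Ω, 0 < ε x)
    (hball : ∀ x ∈ Ω, closedBall x (ε x) ⊆ Ω)
    (hosc : ∀ x ∈ Ω, ∀ z ∈ closedBall x (ε x),
        ‖f z - f x‖ ≤ infDist (f x) Λᶜ / 4 ∧ ‖f z - f x‖ ≤ σ x)
    (hpairs : ∀ x ∈ Ω, ∀ x' ∈ Ω, ‖f x - f x'‖ ≤ σ x + σ x' →
        ∃ U : Set E, ∃ β : E →L[ℝ] E →L[ℝ] ℝ, ∃ δ κ : ℝ, U ⊆ Ω ∧ 0 < δ ∧ 0 ≤ κ ∧
          0 < δ - κ * (δ + ‖β‖) ∧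
          (∀ a ∈ U, ∀ b ∈ U, δ * ‖f a - f b‖ * ‖a - b‖ ≤ β (f a - f b) (a - b)) ∧
          closedBall x (ε x) ⊆ U ∧ closedBall x' (ε x') ⊆ U ∧
          |ε x - ε x'| ≤ κ * ‖x - x'‖)
    (hnbhd : ∀ x₀ ∈ Ω, ∃ r > 0, ∃ U : Set E, ∃ β : E →L[ℝ] E →L[ℝ] ℝ, ∃ δ κ : ℝ, U ⊆ Ω ∧
          0 < δ ∧ 0 ≤ κ ∧ 0 < δ - κ * (δ + ‖β‖) ∧
          (∀ a ∈ U, ∀ b ∈ U, δ * ‖f a - f b‖ * ‖a - b‖ ≤ β (f a - f b) (a - b)) ∧
          (∀ x ∈ ball x₀ r, 0 < ε x ∧ closedBall x (ε x) ⊆ U) ∧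
          (∀ x ∈ ball x₀ r, ∀ x' ∈ ball x₀ r, |ε x - ε x'| ≤ κ * ‖x - x'‖)) :
    IsSmoothDiffeo (vmoll ρ ε f) Ω Λ := by
  have hF : ContDiffOn ℝ ∞ (vmoll ρ ε f) Ω := vmoll_contDiffOn hρ hΩ hfint hεs hpos hball
  have hclose1 : ∀ x ∈ Ω, ‖vmoll ρ ε f x - f x‖ ≤ infDist (f x) Λᶜ / 4 := fun x hx =>
    norm_vmoll_sub_le hρ hf (hpos x hx).le (hball x hx) (fun z hz => (hosc x hx z hz).1)
  have hclose2 : ∀ x ∈ Ω, ‖vmoll ρ ε f x - f x‖ ≤ σ x := fun x hx =>
    norm_vmoll_sub_le hρ hf (hpos x hx).le (hball x hx) (fun z hz => (hosc x hx z hz).2)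
  have hinjf : InjOn f Ω := hbij.injOn
  have hinj : InjOn (vmoll ρ ε f) Ω := by
    intro x hx x' hx' hFF
    by_contra hne
    have h1 : ‖f x - f x'‖ ≤ σ x + σ x' := by
      have e : f x - f x' = (vmoll ρ ε f x' - f x') - (vmoll ρ ε f x - f x) := by
        rw [hFF]; abel
      rw [e]
      exact (norm_sub_le _ _).trans (by linarith [hclose2 x hx, hclose2 x' hx'])
    obtain ⟨U, β, δ, κ, hU, hδ, hκ, hc, hmono, hbx, hbx', hlip⟩ := hpairs x hx x' hx' h1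
    have h2 := vmoll_two_point_pos hρ (hf.mono hU) (hinjf.mono hU) β hδ.le hmono
      (hpos x hx).le (hpos x' hx').le hbx hbx' hlip hc hne
    rw [hFF, sub_self, map_zero] at h2
    simp at h2
  have hnd : ∀ x ∈ Ω, ∀ v, fderiv ℝ (vmoll ρ ε f) x v = 0 → v = 0 := by
    intro x₀ hx₀
    obtain ⟨r, hr, U, β, δ, κ, hU, hδ, hκ, hc, hmono, hb, hlip⟩ := hnbhd x₀ hx₀
    have hA : HasFDerivAt (vmoll ρ ε f) (fderiv ℝ (vmoll ρ ε f) x₀) x₀ :=
      ((hF.differentiableOn (by simp)).differentiableAt (hΩ.mem_nhds hx₀)).hasFDerivAt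
    exact vmoll_fderiv_injective hρ (hf.mono hU) (hinjf.mono hU) β hδ hκ hmono hc hr
      (fun x hx => (hb x hx).1) (fun x hx => (hb x hx).2) hlip hA
  refine isSmoothDiffeo_of_injOn_of_close hΩ hΛ hΛc hΛn hf hbij hg hgf hF hinj hnd ?_
  intro x hx
  have h1 := hclose1 x hx
  have h0 : 0 ≤ infDist (f x) Λᶜ := infDist_nonneg
  linarith

/-- Sobolev estimates for the variable-radius mollification. -/
theorem vmoll_sobolev_estimates {ρ : E → ℝ} (hρ : IsMollKernel ρ) {Ω : Set E} (hΩ : IsOpen Ω)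
    (hΩb : Bornology.IsBounded Ω) {p : ℝ≥0∞} (hp : 1 ≤ p) (hp' : p ≠ ⊤) {f : E → E}
    {G : E → E →L[ℝ] E} (hS : IsSobolevWith p Ω f G) {ε : E → ℝ} (hεs : ContDiffOn ℝ ∞ ε Ω)
    (hpos : ∀ x ∈ Ω, 0 < ε x) (hball : ∀ x ∈ Ω, closedBall x (ε x) ⊆ Ω) {η : ℝ} (hη : 0 ≤ η)
    (hlipη : ∀ x y, |ε x - ε y| ≤ η * ‖x - y‖)
    (hliph : ∀ x y, |ε x - ε y| ≤ (1 / 2) * ‖x - y‖) :
    MemLp (vmoll ρ ε f) p (volume.restrict Ω) ∧
      MemLp (fderiv ℝ (vmoll ρ ε f)) p (volume.restrict Ω) ∧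
      eLpNorm (fun x => fderiv ℝ (vmoll ρ ε f) x - G x) p (volume.restrict Ω)
        ≤ eLpNorm (fun x => vmoll ρ ε G x - G x) p (volume.restrict Ω)
          + ENNReal.ofReal η * (2 ^ (Module.finrank ℝ E) * eLpNorm G p (volume.restrict Ω)) := by
  have : IsFiniteMeasure (volume.restrict Ω) :=
    ⟨by rw [Measure.restrict_apply_univ]; exact hΩb.measure_lt_top⟩
  have hfint : IntegrableOn f Ω := hS.2.1.integrable hp
  have hGint : IntegrableOn G Ω := hS.2.2.integrable hp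
  obtain ⟨hF1, -⟩ := memLp_vmoll hρ hΩ hεs hpos hball hliph hp hp' hS.2.1
  obtain ⟨hV, -⟩ := memLp_vmoll hρ hΩ hεs hpos hball hliph hp hp' hS.2.2
  obtain ⟨hN, hNle⟩ := memLp_vmoll hρ hΩ hεs hpos hball hliph hp hp' hS.2.2.norm
  rw [eLpNorm_norm] at hNle
  have hFs : ContDiffOn ℝ ∞ (vmoll ρ ε f) Ω := vmoll_contDiffOn hρ hΩ hfint hεs hpos hball
  have hmeas : AEStronglyMeasurable (fderiv ℝ (vmoll ρ ε f)) (volume.restrict Ω) :=
    (hFs.continuousOn_fderiv_of_isOpen hΩ (by simp)).aestronglyMeasurable hΩ.measurableSet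
  have hNnn : ∀ x, 0 ≤ vmoll ρ ε (fun z => ‖G z‖) x := fun x =>
    integral_nonneg fun y => smul_nonneg (hρ.2.1 y) (norm_nonneg _)
  have hpt : ∀ᵐ x ∂(volume.restrict Ω),
      ‖fderiv ℝ (vmoll ρ ε f) x - vmoll ρ ε G x‖ ≤ η * vmoll ρ ε (fun z => ‖G z‖) x :=
    (ae_restrict_mem hΩ.measurableSet).mono fun x hx =>
      norm_fderiv_vmoll_sub_le hρ hΩ hS.1 hfint hGint hεs hpos hball hη hlipη hx
  have hηN : MemLp (fun x => η * vmoll ρ ε (fun z => ‖G z‖) x) p (volume.restrict Ω) :=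
    hN.const_mul η
  refine ⟨hF1, ?_, ?_⟩
  · have hsum : MemLp (fun x => ‖vmoll ρ ε G x‖ + η * vmoll ρ ε (fun z => ‖G z‖) x) p
        (volume.restrict Ω) := hV.norm.add hηN
    refine hsum.of_le_mul (c := 1) hmeas (hpt.mono fun x hx => ?_)
    have h1 : ‖fderiv ℝ (vmoll ρ ε f) x‖
        ≤ ‖vmoll ρ ε G x‖ + ‖fderiv ℝ (vmoll ρ ε f) x - vmoll ρ ε G x‖ := by
      have := norm_add_le (vmoll ρ ε G x) (fderiv ℝ (vmoll ρ ε f) x - vmoll ρ ε G x)
      rwa [add_sub_cancel] at this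
    have h2 : 0 ≤ ‖vmoll ρ ε G x‖ + η * vmoll ρ ε (fun z => ‖G z‖) x :=
      add_nonneg (norm_nonneg _) (mul_nonneg hη (hNnn x))
    rw [one_mul, Real.norm_of_nonneg h2]
    linarith
  · have hle : eLpNorm (fun x => fderiv ℝ (vmoll ρ ε f) x - G x) p (volume.restrict Ω)
        ≤ eLpNorm (fun x => ‖vmoll ρ ε G x - G x‖ + η * vmoll ρ ε (fun z => ‖G z‖) x) p
          (volume.restrict Ω) := by
      refine eLpNorm_mono_ae (hpt.mono fun x hx => ?_)
      have h1 : ‖fderiv ℝ (vmoll ρ ε f) x - G x‖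
          ≤ ‖vmoll ρ ε G x - G x‖ + ‖fderiv ℝ (vmoll ρ ε f) x - vmoll ρ ε G x‖ := by
        have := norm_add_le (vmoll ρ ε G x - G x) (fderiv ℝ (vmoll ρ ε f) x - vmoll ρ ε G x)
        have e : vmoll ρ ε G x - G x + (fderiv ℝ (vmoll ρ ε f) x - vmoll ρ ε G x)
            = fderiv ℝ (vmoll ρ ε f) x - G x := by abel
        rwa [e] at this
      have h2 : 0 ≤ ‖vmoll ρ ε G x - G x‖ + η * vmoll ρ ε (fun z => ‖G z‖) x :=
        add_nonneg (norm_nonneg _) (mul_nonneg hη (hNnn x))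
      rw [Real.norm_of_nonneg h2]
      linarith
    have hVG : MemLp (fun x => vmoll ρ ε G x - G x) p (volume.restrict Ω) := hV.sub hS.2.2
    have hadd := eLpNorm_add_le hVG.norm.aestronglyMeasurable hηN.aestronglyMeasurable hp
    have e1 : eLpNorm (fun x => ‖vmoll ρ ε G x - G x‖) p (volume.restrict Ω)
        = eLpNorm (fun x => vmoll ρ ε G x - G x) p (volume.restrict Ω) := eLpNorm_norm _
    have e2 : eLpNorm (fun x => η * vmoll ρ ε (fun z => ‖G z‖) x) p (volume.restrict Ω)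
        = ENNReal.ofReal η * eLpNorm (vmoll ρ ε (fun z => ‖G z‖)) p (volume.restrict Ω) := by
      have := eLpNorm_const_smul η (vmoll ρ ε (fun z => ‖G z‖)) p (volume.restrict Ω)
      rw [Real.enorm_eq_ofReal hη] at this
      exact this
    calc eLpNorm (fun x => fderiv ℝ (vmoll ρ ε f) x - G x) p (volume.restrict Ω)
        ≤ eLpNorm (fun x => ‖vmoll ρ ε G x - G x‖ + η * vmoll ρ ε (fun z => ‖G z‖) x) p
          (volume.restrict Ω) := hle
      _ ≤ eLpNorm (fun x => ‖vmoll ρ ε G x - G x‖) p (volume.restrict Ω)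
          + eLpNorm (fun x => η * vmoll ρ ε (fun z => ‖G z‖) x) p (volume.restrict Ω) := hadd
      _ ≤ eLpNorm (fun x => vmoll ρ ε G x - G x) p (volume.restrict Ω)
          + ENNReal.ofReal η
            * (2 ^ (Module.finrank ℝ E) * eLpNorm G p (volume.restrict Ω)) := by
          rw [e1, e2]
          gcongr

/-- **Locally monotone Sobolev homeomorphisms are diffeomorphically approximable.**  Let `f` be a
homeomorphism of a bounded open set `Ω` onto a connected open set `Λ` with nonempty complement,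
in `W^{1,p}(Ω)`, `1 ≤ p < ∞`, such that every point of `Ω` has a neighbourhood on which `f` is
`δ`-monotone with respect to some bilinear form `β`:
`β (f x - f y, x - y) ≥ δ ‖f x - f y‖ ‖x - y‖`.  Then `f` is a `W^{1,p}` limit of `C^∞`
diffeomorphisms of `Ω` onto the same `Λ`. -/
theorem isDiffeoApproximable_of_locally_monotone {p : ℝ≥0∞} (hp : 1 ≤ p) (hp' : p ≠ ⊤)
    {Ω Λ : Set E} (hΩ : IsOpen Ω) (hΩb : Bornology.IsBounded Ω) (hΛ : IsOpen Λ)
    (hΛc : IsPreconnected Λ) (hΛn : Λᶜ.Nonempty) {f g : E → E} {G : E → E →L[ℝ] E}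
    (hS : IsSobolevWith p Ω f G) (hf : ContinuousOn f Ω) (hbij : BijOn f Ω Λ)
    (hg : ContinuousOn g Λ) (hgf : ∀ x ∈ Ω, g (f x) = x)
    (hloc : ∀ x₀ ∈ Ω, ∃ r > 0, ∃ β : E →L[ℝ] E →L[ℝ] ℝ, ∃ δ > 0,
      ∀ x ∈ Ω ∩ ball x₀ r, ∀ y ∈ Ω ∩ ball x₀ r,
        δ * ‖f x - f y‖ * ‖x - y‖ ≤ β (f x - f y) (x - y)) :
    IsDiffeoApproximable p Ω Λ f := by
  obtain ⟨ρ, hρ⟩ := exists_isMollKernel E
  have : IsFiniteMeasure (volume.restrict Ω) :=
    ⟨by rw [Measure.restrict_apply_univ]; exact hΩb.measure_lt_top⟩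
  have hfint : IntegrableOn f Ω := hS.2.1.integrable hp
  have hη : ∀ j : ℕ, (0 : ℝ) < 1 / ((j : ℝ) + 1) := fun j => by positivity
  choose ε σ hεs hεp hεη hεh hosc hpairs hnbhd using fun j : ℕ =>
    exists_good_radius hΩ hΩb hΛ hΛn hf hbij.mapsTo hg hgf hloc (hη j)
  have hpos : ∀ j, ∀ x ∈ Ω, 0 < ε j x := fun j x hx => (hεp j x hx).1
  have hball : ∀ j, ∀ x ∈ Ω, closedBall x (ε j x) ⊆ Ω := fun j x hx => (hεp j x hx).2.2
  have hsmall : ∀ j, ∀ x ∈ Ω, ε j x ≤ 1 / ((j : ℝ) + 1) := fun j x hx => (hεp j x hx).2.1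
  have hest := fun j => vmoll_sobolev_estimates hρ hΩ hΩb hp hp' hS (hεs j) (hpos j) (hball j)
    (hη j).le (hεη j) (hεh j)
  refine ⟨G, hS, fun j => vmoll ρ (ε j) f, fun j => ⟨?_, (hest j).1, (hest j).2.1⟩, ?_⟩
  · exact vmoll_isSmoothDiffeo hρ hΩ hΛ hΛc hΛn hf hbij hg hgf hfint (hεs j) (hpos j) (hball j)
      (hosc j) (hpairs j) (hnbhd j)
  · have h1 := tendsto_eLpNorm_vmoll_sub hρ hΩ hΩb hεs hpos hball hεh hsmall hp hp' hS.2.1
    have h2 := tendsto_eLpNorm_vmoll_sub hρ hΩ hΩb hεs hpos hball hεh hsmall hp hp' hS.2.2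
    have h3 : Tendsto (fun j : ℕ => ENNReal.ofReal (1 / ((j : ℝ) + 1))
        * (2 ^ (Module.finrank ℝ E) * eLpNorm G p (volume.restrict Ω))) atTop (𝓝 0) := by
      have h4 : Tendsto (fun j : ℕ => ENNReal.ofReal (1 / ((j : ℝ) + 1))) atTop (𝓝 0) := by
        rw [← ENNReal.ofReal_zero]
        exact ENNReal.tendsto_ofReal tendsto_one_div_add_atTop_nhds_zero_nat
      have hne : (2 ^ (Module.finrank ℝ E) * eLpNorm G p (volume.restrict Ω) : ℝ≥0∞) ≠ ⊤ :=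
        ENNReal.mul_ne_top (by simp) hS.2.2.eLpNorm_lt_top.ne
      have h5 := ENNReal.Tendsto.mul_const h4 (Or.inr hne)
      rwa [zero_mul] at h5
    have hsum := h1.add (h2.add h3)
    simp only [add_zero] at hsum
    refine tendsto_of_tendsto_of_tendsto_of_le_of_le tendsto_const_nhds hsum
      (fun j => bot_le) (fun j => ?_)
    exact add_le_add le_rfl (hest j).2.2

end Vale.Agent.Lib.P073
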