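import Vale.Agent.Lib.P073.Common

/-!
# P073: merged module OneDim (parts: OneDimA, OneDimB, OneDimC, OneDimD, OneDimE, OneDimF, OneDimG, Neg, OneDimH)
-/

section -- part OneDimA

/-!
# P073: one-dimensional Sobolev functions are primitives of their weak derivatives
-/

namespace Vale.Agent.Lib.P073

open MeasureTheory Filter Topology Set
open scoped ContDiff ENNReal

variable {α β : ℝ}

/-- A compact subset of an open interval lies in an open subinterval whose closure is still inside,
and which can be taken to contain a prescribed point. -/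
theorem exists_Ioo_of_compact_subset_Ioo {K : Set ℝ} (hK : IsCompact K) (hsub : K ⊆ Ioo α β)
    {x₀ : ℝ} (hx₀ : x₀ ∈ Ioo α β) :
    ∃ c d, α < c ∧ c < x₀ ∧ x₀ < d ∧ d < β ∧ K ⊆ Ioo c d := by
  rcases K.eq_empty_or_nonempty with rfl | hne
  · exact ⟨(α + x₀) / 2, (x₀ + β) / 2, by linarith [hx₀.1], by linarith [hx₀.1],
      by linarith [hx₀.2], by linarith [hx₀.2], empty_subset _⟩
  · have h1 := hK.sInf_mem hne
    have h2 := hK.sSup_mem hne
    have h3 := hsub h1
    have h4 := hsub h2
    have e1 : α < min (sInf K) x₀ := lt_min h3.1 hx₀.1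
    have e2 : min (sInf K) x₀ ≤ x₀ := min_le_right _ _
    have e3 : max (sSup K) x₀ < β := max_lt h4.2 hx₀.2
    have e4 : x₀ ≤ max (sSup K) x₀ := le_max_right _ _
    have e5 : min (sInf K) x₀ ≤ sInf K := min_le_left _ _
    have e6 : sSup K ≤ max (sSup K) x₀ := le_max_left _ _
    refine ⟨(α + min (sInf K) x₀) / 2, (max (sSup K) x₀ + β) / 2, by linarith, by linarith,
      by linarith, by linarith, ?_⟩
    intro x hx
    have hx1 : sInf K ≤ x := csInf_le hK.bddBelow hx
    have hx2 : x ≤ sSup K := le_csSup hK.bddAbove hx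
    constructor <;> linarith

theorem setIntegral_Ioo_eq_intervalIntegral {F : ℝ → ℝ} {c d : ℝ} (hc : α ≤ c) (hcd : c ≤ d)
    (hd : d < β) (hF : ∀ x, x ∉ Ioo c d → F x = 0) :
    ∫ x in Ioo α β, F x = ∫ x in c..d, F x := by
  rw [intervalIntegral.integral_of_le hcd]
  refine setIntegral_eq_of_subset_of_forall_sdiff_eq_zero measurableSet_Ioo ?_ ?_
  · intro x hx
    exact ⟨lt_of_le_of_lt hc hx.1, lt_of_le_of_lt hx.2 hd⟩
  · intro x hx
    apply hF
    intro h'
    exact hx.2 ⟨h'.1, h'.2.le⟩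

/-- Integration by parts against a primitive of a locally integrable function. -/
theorem integral_deriv_mul_primitive {g' : ℝ → ℝ} (hg : LocallyIntegrableOn g' (Ioo α β))
    {x₀ : ℝ} (hx₀ : x₀ ∈ Ioo α β) {φ : ℝ → ℝ} (hφ : ContDiff ℝ ∞ φ) (hφs : HasCompactSupport φ)
    (hsub : tsupport φ ⊆ Ioo α β) :
    ∫ x in Ioo α β, deriv φ x * (∫ t in x₀..x, g' t) = - ∫ x in Ioo α β, φ x * g' x := by
  obtain ⟨c, d, hc, hcx, hxd, hd, hK⟩ := exists_Ioo_of_compact_subset_Ioo hφs hsub hx₀
  have hcd : c ≤ d := by linarith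
  have hφ0 : ∀ x, x ∉ Ioo c d → φ x = 0 := fun x hx => by
    by_contra h
    exact hx (hK (subset_tsupport _ h))
  have hdφ0 : ∀ x, x ∉ Ioo c d → deriv φ x = 0 := fun x hx => by
    by_contra h
    exact hx (hK (tsupport_deriv_subset (subset_tsupport _ h)))
  rw [setIntegral_Ioo_eq_intervalIntegral hc.le hcd hd (fun x hx => by rw [hdφ0 x hx, zero_mul]),
    setIntegral_Ioo_eq_intervalIntegral hc.le hcd hd (fun x hx => by rw [hφ0 x hx, zero_mul])]
  have hint : IntervalIntegrable g' volume c d := by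
    rw [intervalIntegrable_iff_integrableOn_Icc_of_le hcd]
    exact hg.integrableOn_compact_subset
      (fun x hx => ⟨lt_of_lt_of_le hc hx.1, lt_of_le_of_lt hx.2 hd⟩) isCompact_Icc
  have hx₀' : x₀ ∈ uIcc c d := by
    rw [uIcc_of_le hcd]
    exact ⟨hcx.le, hxd.le⟩
  have hA : AbsolutelyContinuousOnInterval (fun x => ∫ t in x₀..x, g' t) c d :=
    hint.absolutelyContinuousOnInterval_intervalIntegral hx₀'
  have hφac : AbsolutelyContinuousOnInterval φ c d :=
    (hφ.of_le (mod_cast le_top)).contDiffOn.absolutelyContinuousOnInterval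
  have key := hA.integral_mul_deriv_eq_deriv_mul hφac
  have hφc : φ c = 0 := hφ0 c (fun h => lt_irrefl _ h.1)
  have hφd : φ d = 0 := hφ0 d (fun h => lt_irrefl _ h.2)
  rw [hφc, hφd, mul_zero, mul_zero, sub_zero, zero_sub] at key
  have h1 : ∫ x in c..d, deriv φ x * (∫ t in x₀..x, g' t)
      = ∫ x in c..d, (∫ t in x₀..x, g' t) * deriv φ x := by
    congr 1
    ext x
    ring
  rw [h1, key]
  congr 1
  refine intervalIntegral.integral_congr_ae ?_
  filter_upwards [hint.ae_hasDerivAt_integral] with x hx hx'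
  have hx'' : x ∈ uIcc c d := uIoc_subset_uIcc hx'
  rw [(hx hx'' x₀ hx₀').deriv]
  ring

end Vale.Agent.Lib.P073

end -- part OneDimA

section -- part OneDimB

/-!
# P073: du Bois-Reymond lemma -- a continuous function with a locally integrable weak derivative
is the primitive of that derivative
-/

namespace Vale.Agent.Lib.P073

open MeasureTheory Filter Topology Set
open scoped ContDiff ENNReal

variable {α β : ℝ}

/-- The primitive of a smooth function vanishing outside `(c, d)` with zero integral is a test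
function with support in `[c, d]`. -/
theorem exists_testFunction_deriv_eq {ψ₀ : ℝ → ℝ} (hψ : ContDiff ℝ ∞ ψ₀) {c d : ℝ}
    (hsupp : ∀ x, x ∉ Ioo c d → ψ₀ x = 0) (hint : ∫ x in c..d, ψ₀ x = 0) :
    ∃ Φ : ℝ → ℝ, ContDiff ℝ ∞ Φ ∧ HasCompactSupport Φ ∧ tsupport Φ ⊆ Icc c d ∧
      ∀ x, deriv Φ x = ψ₀ x := by
  have hcont : Continuous ψ₀ := hψ.continuous
  have hderiv : ∀ x, HasDerivAt (fun u => ∫ t in c..u, ψ₀ t) (ψ₀ x) x := fun x =>
    (hcont.integral_hasStrictDerivAt c x).hasDerivAt
  have hderiv' : deriv (fun u => ∫ t in c..u, ψ₀ t) = ψ₀ := funext fun x => (hderiv x).deriv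
  have hzero : ∀ x, x ∉ Ioo c d → ∫ t in c..x, ψ₀ t = 0 := by
    intro x hx
    rcases le_or_gt x c with h1 | h1
    · have : ∀ t ∈ uIcc c x, ψ₀ t = (fun _ => (0 : ℝ)) t := by
        intro t ht
        rw [uIcc_of_ge h1] at ht
        exact hsupp t (fun h => absurd h.1 (not_lt.2 ht.2))
      rw [intervalIntegral.integral_congr this]
      simp
    · have h2 : d ≤ x := by
        by_contra h
        exact hx ⟨h1, not_le.1 h⟩
      have e1 : ∫ t in c..x, ψ₀ t = (∫ t in c..d, ψ₀ t) + ∫ t in d..x, ψ₀ t :=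
        (intervalIntegral.integral_add_adjacent_intervals (hcont.intervalIntegrable _ _)
          (hcont.intervalIntegrable _ _)).symm
      have : ∀ t ∈ uIcc d x, ψ₀ t = (fun _ => (0 : ℝ)) t := by
        intro t ht
        rw [uIcc_of_le h2] at ht
        exact hsupp t (fun h => absurd h.2 (not_lt.2 ht.1))
      rw [e1, hint, intervalIntegral.integral_congr this]
      simp
  have hsub : Function.support (fun u => ∫ t in c..u, ψ₀ t) ⊆ Icc c d := by
    intro x hx
    by_contra h
    exact hx (hzero x (fun h' => h ⟨h'.1.le, h'.2.le⟩))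
  refine ⟨fun u => ∫ t in c..u, ψ₀ t, ?_, ?_, ?_, fun x => (hderiv x).deriv⟩
  · rw [contDiff_infty_iff_deriv]
    exact ⟨fun x => (hderiv x).differentiableAt, by rw [hderiv']; exact hψ⟩
  · exact HasCompactSupport.of_support_subset_isCompact isCompact_Icc hsub
  · exact closure_minimal hsub isClosed_Icc

/-- **du Bois-Reymond lemma.** If `a` is continuous on `(α, β)` and `g'` is locally integrable
there, and `∫ φ' a = - ∫ φ g'` for all test functions `φ` supported in `(α, β)`, then `a` is the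
primitive of `g'`. -/
theorem eq_add_primitive_of_weakDeriv {a g' : ℝ → ℝ} (hcont : ContinuousOn a (Ioo α β))
    (hg : LocallyIntegrableOn g' (Ioo α β))
    (hweak : ∀ φ : ℝ → ℝ, ContDiff ℝ ∞ φ → HasCompactSupport φ → tsupport φ ⊆ Ioo α β →
      ∫ x in Ioo α β, deriv φ x * a x = - ∫ x in Ioo α β, φ x * g' x)
    {x₀ : ℝ} (hx₀ : x₀ ∈ Ioo α β) :
    ∀ x ∈ Ioo α β, a x = a x₀ + ∫ t in x₀..x, g' t := by
  -- the primitive is continuous on the interval
  have hAcont : ContinuousOn (fun x => ∫ t in x₀..x, g' t) (Ioo α β) := by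
    intro x hx
    obtain ⟨c, d, hc, hcx, hxd, hd, hK⟩ :=
      exists_Ioo_of_compact_subset_Ioo (K := {x}) isCompact_singleton
        (singleton_subset_iff.2 hx) hx₀
    have hcd : c ≤ d := by linarith
    have hint : IntervalIntegrable g' volume c d := by
      rw [intervalIntegrable_iff_integrableOn_Icc_of_le hcd]
      exact hg.integrableOn_compact_subset
        (fun x hx => ⟨lt_of_lt_of_le hc hx.1, lt_of_le_of_lt hx.2 hd⟩) isCompact_Icc
    have hx₀' : x₀ ∈ uIcc c d := by
      rw [uIcc_of_le hcd]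
      exact ⟨hcx.le, hxd.le⟩
    have hA := (hint.absolutelyContinuousOnInterval_intervalIntegral hx₀').continuousOn
    rw [uIcc_of_le hcd] at hA
    have hxcd : x ∈ Ioo c d := hK rfl
    exact (hA.continuousAt (Icc_mem_nhds hxcd.1 hxcd.2)).continuousWithinAt
  -- `w = a - A` is annihilated by derivatives of test functions
  obtain ⟨w, hw_def⟩ : ∃ w : ℝ → ℝ, ∀ x, w x = a x - ∫ t in x₀..x, g' t := ⟨_, fun _ => rfl⟩
  have hwcont : ContinuousOn w (Ioo α β) := by
    have : w = fun x => a x - ∫ t in x₀..x, g' t := funext hw_def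
    rw [this]
    exact hcont.sub hAcont
  have hw : ∀ φ : ℝ → ℝ, ContDiff ℝ ∞ φ → HasCompactSupport φ → tsupport φ ⊆ Ioo α β →
      ∫ x in Ioo α β, deriv φ x * w x = 0 := by
    intro φ hφ hφs hsub
    have hdc : Continuous (deriv φ) := hφ.continuous_deriv (mod_cast le_top)
    have hds : HasCompactSupport (deriv φ) := hφs.deriv
    have hdsub : tsupport (deriv φ) ⊆ Ioo α β := tsupport_deriv_subset.trans hsub
    have i1 : Integrable (fun x => deriv φ x * a x) (volume.restrict (Ioo α β)) :=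
      (integrable_smul_of_tsupport_subset (hcont.locallyIntegrableOn measurableSet_Ioo)
        hdc hds hdsub).integrableOn
    have i2 : Integrable (fun x => deriv φ x * ∫ t in x₀..x, g' t) (volume.restrict (Ioo α β)) :=
      (integrable_smul_of_tsupport_subset (hAcont.locallyIntegrableOn measurableSet_Ioo)
        hdc hds hdsub).integrableOn
    have : ∀ x, deriv φ x * w x
        = deriv φ x * a x - deriv φ x * ∫ t in x₀..x, g' t := fun x => by rw [hw_def]; ring
    simp only [this]
    rw [integral_sub i1 i2, hweak φ hφ hφs hsub, integral_deriv_mul_primitive hg hx₀ hφ hφs hsub]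
    ring
  -- a bump function with integral one
  set r : ℝ := min (x₀ - α) (β - x₀) / 2 with hr
  have hrpos : 0 < r := by
    have : 0 < min (x₀ - α) (β - x₀) := lt_min (by linarith [hx₀.1]) (by linarith [hx₀.2])
    positivity
  have hr1 : r < x₀ - α := by
    have := min_le_left (x₀ - α) (β - x₀)
    have : 0 < min (x₀ - α) (β - x₀) := lt_min (by linarith [hx₀.1]) (by linarith [hx₀.2])
    rw [hr]; linarith
  have hr2 : r < β - x₀ := by
    have := min_le_right (x₀ - α) (β - x₀)
    have : 0 < min (x₀ - α) (β - x₀) := lt_min (by linarith [hx₀.1]) (by linarith [hx₀.2])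
    rw [hr]; linarith
  let bump : ContDiffBump x₀ := ⟨r / 2, r, by positivity, by linarith⟩
  set η : ℝ → ℝ := bump.normed volume with hη
  have hηc : ContDiff ℝ ∞ η := bump.contDiff_normed
  have hηs : HasCompactSupport η := bump.hasCompactSupport_normed
  have hηsub : tsupport η ⊆ Ioo α β := by
    rw [hη, bump.tsupport_normed_eq, Real.closedBall_eq_Icc]
    intro x hx
    have h1 : x₀ - r ≤ x := hx.1
    have h2 : x ≤ x₀ + r := hx.2
    exact ⟨by linarith, by linarith⟩
  have hηint : ∫ x, η x = 1 := bump.integral_normed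
  have hwloc : LocallyIntegrableOn w (Ioo α β) := hwcont.locallyIntegrableOn measurableSet_Ioo
  set κ : ℝ := ∫ x in Ioo α β, η x * w x with hκ
  -- main claim
  have hmain : ∀ ψ : ℝ → ℝ, ContDiff ℝ ∞ ψ → HasCompactSupport ψ → tsupport ψ ⊆ Ioo α β →
      ∫ x, ψ x • (w x - κ) = 0 := by
    intro ψ hψ hψs hψsub
    set m : ℝ := ∫ x, ψ x with hm
    obtain ⟨c, d, hc, hcx, hxd, hd, hK⟩ :=
      exists_Ioo_of_compact_subset_Ioo (hψs.union hηs) (union_subset hψsub hηsub) hx₀
    have hcd : c ≤ d := by linarith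
    have hψ0 : ∀ x, x ∉ Ioo c d → ψ x = 0 := fun x hx => by
      by_contra h
      exact hx (hK (Or.inl (subset_tsupport _ h)))
    have hη0 : ∀ x, x ∉ Ioo c d → η x = 0 := fun x hx => by
      by_contra h
      exact hx (hK (Or.inr (subset_tsupport _ h)))
    have hψ₀ : ContDiff ℝ ∞ (fun x => ψ x - m * η x) := hψ.sub (contDiff_const.mul hηc)
    have hsupp : ∀ x, x ∉ Ioo c d → (fun x => ψ x - m * η x) x = 0 := fun x hx => by
      simp only [hψ0 x hx, hη0 x hx, mul_zero, sub_zero]
    have e1 : ∫ x in c..d, ψ x = m := by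
      rw [hm]
      apply intervalIntegral.integral_eq_integral_of_support_subset
      intro x hx
      by_contra h
      exact hx (hψ0 x (fun h' => h ⟨h'.1, h'.2.le⟩))
    have e2 : ∫ x in c..d, η x = 1 := by
      rw [← hηint]
      apply intervalIntegral.integral_eq_integral_of_support_subset
      intro x hx
      by_contra h
      exact hx (hη0 x (fun h' => h ⟨h'.1, h'.2.le⟩))
    have hint0 : ∫ x in c..d, (fun x => ψ x - m * η x) x = 0 := by
      simp only
      have j1 : IntervalIntegrable ψ volume c d := hψ.continuous.intervalIntegrable _ _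
      have j2 : IntervalIntegrable (fun x => m * η x) volume c d :=
        (continuous_const.mul hηc.continuous).intervalIntegrable _ _
      rw [intervalIntegral.integral_sub j1 j2, intervalIntegral.integral_const_mul, e1, e2]
      ring
    obtain ⟨Φ, hΦ, hΦs, hΦsub, hΦd⟩ := exists_testFunction_deriv_eq hψ₀ hsupp hint0
    have hΦsub' : tsupport Φ ⊆ Ioo α β := hΦsub.trans
      (fun x hx => ⟨lt_of_lt_of_le hc hx.1, lt_of_le_of_lt hx.2 hd⟩)
    have h0 := hw Φ hΦ hΦs hΦsub'
    simp only [hΦd] at h0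
    have i1 : Integrable (fun x => ψ x * w x) (volume.restrict (Ioo α β)) :=
      (integrable_smul_of_tsupport_subset hwloc hψ.continuous hψs hψsub).integrableOn
    have i2 : Integrable (fun x => η x * w x) (volume.restrict (Ioo α β)) :=
      (integrable_smul_of_tsupport_subset hwloc hηc.continuous hηs hηsub).integrableOn
    have e3 : ∫ x in Ioo α β, ψ x * w x = m * κ := by
      have : ∀ x, (ψ x - m * η x) * w x = ψ x * w x - m * (η x * w x) := fun x => by ring
      simp only [this] at h0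
      rw [integral_sub i1 (i2.const_mul m), integral_const_mul] at h0
      linarith
    have e4 : ∫ x in Ioo α β, ψ x = m := by
      rw [hm]
      apply setIntegral_eq_integral_of_forall_compl_eq_zero
      intro x hx
      by_contra h
      exact hx (hψsub (subset_tsupport _ h))
    have e5 : ∫ x, ψ x • (w x - κ) = ∫ x in Ioo α β, ψ x • (w x - κ) := by
      symm
      apply setIntegral_eq_integral_of_forall_compl_eq_zero
      intro x hx
      have : ψ x = 0 := by
        by_contra h
        exact hx (hψsub (subset_tsupport _ h))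
      simp [this]
    rw [e5]
    have : ∀ x, ψ x • (w x - κ) = ψ x * w x - ψ x * κ := fun x => by
      rw [smul_eq_mul]; ring
    simp only [this]
    have i3 : Integrable ψ (volume.restrict (Ioo α β)) :=
      (hψ.continuous.integrable_of_hasCompactSupport hψs).integrableOn
    rw [integral_sub i1 (i3.mul_const κ), integral_mul_const, e3, e4]
    ring
  have hloc : LocallyIntegrableOn (fun x => w x - κ) (Ioo α β) :=
    (hwcont.sub continuousOn_const).locallyIntegrableOn measurableSet_Ioo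
  have hae := isOpen_Ioo.ae_eq_zero_of_integral_contDiff_smul_eq_zero hloc hmain
  have hae' : (fun x => w x - κ) =ᵐ[volume.restrict (Ioo α β)] (fun _ => (0 : ℝ)) := by
    rw [Filter.EventuallyEq, ae_restrict_iff' measurableSet_Ioo]
    exact hae
  have heq := Measure.eqOn_open_of_ae_eq hae' isOpen_Ioo (hwcont.sub continuousOn_const)
    continuousOn_const
  have hκ' : κ = a x₀ := by
    have := heq hx₀
    simp only [hw_def, intervalIntegral.integral_same, sub_zero] at this
    linarith
  intro x hx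
  have := heq hx
  simp only [hw_def] at this
  linarith

end Vale.Agent.Lib.P073

end -- part OneDimB

section -- part OneDimC

/-!
# P073: approximation of a nonnegative `L^p` function on an interval by positive polynomials
-/

namespace Vale.Agent.Lib.P073

open MeasureTheory Filter Topology Set
open scoped ContDiff ENNReal

/-- A nonnegative `L^p` function on a bounded interval can be approximated in `L^p` by
polynomials which are positive on the closed interval. -/
theorem exists_pos_polynomial_approx {p : ℝ≥0∞} (hp : 1 ≤ p) (hp' : p ≠ ⊤) {α β : ℝ}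
    (hαβ : α < β) {g' : ℝ → ℝ} (hg : MemLp g' p (volume.restrict (Ioo α β)))
    (hpos : ∀ᵐ x ∂(volume.restrict (Ioo α β)), 0 ≤ g' x) {ε : ℝ} (hε : 0 < ε) :
    ∃ Q : Polynomial ℝ, (∀ x ∈ Icc α β, 0 < Q.eval x) ∧
      eLpNorm (fun x => Q.eval x - g' x) p (volume.restrict (Ioo α β)) ≤ ENNReal.ofReal ε := by
  set μ : Measure ℝ := volume.restrict (Ioo α β) with hμ
  -- Step 1: continuous approximation
  have hg₀ : MemLp ((Ioo α β).indicator g') p volume :=
    (memLp_indicator_iff_restrict measurableSet_Ioo).2 hg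
  have hε2 : ENNReal.ofReal (ε / 2) ≠ 0 := by
    simp only [ne_eq, ENNReal.ofReal_eq_zero, not_le]; linarith
  obtain ⟨u, -, hu, hucont, -⟩ := hg₀.exists_hasCompactSupport_eLpNorm_sub_le hp' hε2
  have hu' : eLpNorm (fun x => g' x - u x) p μ ≤ ENNReal.ofReal (ε / 2) := by
    have h1 : eLpNorm (fun x => g' x - u x) p μ = eLpNorm ((Ioo α β).indicator g' - u) p μ := by
      apply eLpNorm_congr_ae
      filter_upwards [ae_restrict_mem measurableSet_Ioo] with x hx
      simp [indicator_of_mem hx]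
    rw [h1]
    exact (eLpNorm_mono_measure _ Measure.restrict_le_self).trans hu
  -- Step 2: positive part
  have hupcont : Continuous (fun x => max (u x) 0) := hucont.max continuous_const
  have hup : eLpNorm (fun x => g' x - max (u x) 0) p μ ≤ ENNReal.ofReal (ε / 2) := by
    refine le_trans (eLpNorm_mono_ae ?_) hu'
    filter_upwards [hpos] with x hx
    rw [Real.norm_eq_abs, Real.norm_eq_abs]
    rcases le_total 0 (u x) with h | h
    · rw [max_eq_left h]
    · rw [max_eq_right h, sub_zero, abs_of_nonneg hx, abs_of_nonneg (by linarith)]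
      linarith
  -- Step 3: Weierstrass approximation
  set R : ℝ := (β - α) ^ (p.toReal⁻¹) with hR
  have hRpos : 0 < R := Real.rpow_pos_of_pos (by linarith) _
  set ε₂ : ℝ := ε / (6 * R) with hε₂
  have hε₂pos : 0 < ε₂ := by positivity
  obtain ⟨Q₀, hQ₀⟩ := exists_polynomial_near_of_continuousOn α β (fun x => max (u x) 0)
    hupcont.continuousOn ε₂ hε₂pos
  refine ⟨Q₀ + Polynomial.C (2 * ε₂), ?_, ?_⟩
  · intro x hx
    have h1 := hQ₀ x hx
    rw [abs_lt] at h1
    have h2 : 0 ≤ max (u x) 0 := le_max_right _ _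
    simp only [Polynomial.eval_add, Polynomial.eval_C]
    linarith [h1.1]
  · have hbound : ∀ᵐ x ∂μ, ‖(Q₀ + Polynomial.C (2 * ε₂)).eval x - max (u x) 0‖ ≤ 3 * ε₂ := by
      filter_upwards [ae_restrict_mem measurableSet_Ioo] with x hx
      have h1 := hQ₀ x ⟨hx.1.le, hx.2.le⟩
      rw [abs_lt] at h1
      simp only [Polynomial.eval_add, Polynomial.eval_C, Real.norm_eq_abs]
      rw [abs_le]
      constructor <;> linarith [h1.1, h1.2]
    have h3 : eLpNorm (fun x => (Q₀ + Polynomial.C (2 * ε₂)).eval x - max (u x) 0) p μ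
        ≤ ENNReal.ofReal (ε / 2) := by
      refine (eLpNorm_le_of_ae_bound hbound).trans ?_
      have hμuniv : μ Set.univ = ENNReal.ofReal (β - α) := by
        rw [hμ, Measure.restrict_apply_univ, Real.volume_Ioo]
      rw [hμuniv, ENNReal.ofReal_rpow_of_pos (by linarith), ← ENNReal.ofReal_mul (by positivity)]
      apply ENNReal.ofReal_le_ofReal
      rw [← hR, hε₂]
      have : R * (3 * (ε / (6 * R))) = ε / 2 := by
        field_simp
        ring
      rw [this]
    have hmeas1 : AEStronglyMeasurable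
        (fun x => (Q₀ + Polynomial.C (2 * ε₂)).eval x - max (u x) 0) μ :=
      ((Polynomial.continuous _).sub hupcont).aestronglyMeasurable
    have hmeas2 : AEStronglyMeasurable (fun x => max (u x) 0 - g' x) μ :=
      hupcont.aestronglyMeasurable.sub hg.aestronglyMeasurable
    have hsplit : (fun x => (Q₀ + Polynomial.C (2 * ε₂)).eval x - g' x)
        = (fun x => (Q₀ + Polynomial.C (2 * ε₂)).eval x - max (u x) 0)
          + (fun x => max (u x) 0 - g' x) := by
      ext x
      simp
    rw [hsplit]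
    refine (eLpNorm_add_le hmeas1 hmeas2 hp).trans ?_
    have h4 : eLpNorm (fun x => max (u x) 0 - g' x) p μ ≤ ENNReal.ofReal (ε / 2) := by
      have : (fun x => max (u x) 0 - g' x) = -(fun x => g' x - max (u x) 0) := by
        ext x
        simp
      rw [this, eLpNorm_neg]
      exact hup
    calc _ ≤ ENNReal.ofReal (ε / 2) + ENNReal.ofReal (ε / 2) := add_le_add h3 h4
      _ = ENNReal.ofReal ε := by
        rw [← ENNReal.ofReal_add (by linarith) (by linarith)]
        congr 1
        ring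

end Vale.Agent.Lib.P073

end -- part OneDimC

section -- part OneDimD

/-!
# P073: smooth increasing maps with positive derivative are diffeomorphisms of intervals
-/

namespace Vale.Agent.Lib.P073

open MeasureTheory Filter Topology Set
open scoped ContDiff ENNReal

/-- The primitive `x ↦ γ + ∫_α^x h` of a smooth function `h` which is positive on `[α, β]` is a
`C^∞` diffeomorphism of `(α, β)` onto `(γ, γ + ∫_α^β h)`. -/
theorem isSmoothDiffeo_primitive {α β γ : ℝ} (hαβ : α < β) {h : ℝ → ℝ} (hh : ContDiff ℝ ∞ h)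
    (hpos : ∀ x ∈ Icc α β, 0 < h x) :
    IsSmoothDiffeo (fun x => γ + ∫ t in α..x, h t) (Ioo α β)
      (Ioo γ (γ + ∫ t in α..β, h t)) ∧
    ContDiff ℝ ∞ (fun x => γ + ∫ t in α..x, h t) ∧
    ∀ x, HasDerivAt (fun x => γ + ∫ t in α..x, h t) (h x) x := by
  have hcont : Continuous h := hh.continuous
  have hderiv : ∀ x, HasDerivAt (fun x => γ + ∫ t in α..x, h t) (h x) x := fun x => by
    have := (hcont.integral_hasStrictDerivAt α x).hasDerivAt
    exact this.const_add γ
  have hderiv' : deriv (fun x => γ + ∫ t in α..x, h t) = h := funext fun x => (hderiv x).deriv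
  have hsmooth : ContDiff ℝ ∞ (fun x => γ + ∫ t in α..x, h t) := by
    rw [contDiff_infty_iff_deriv]
    exact ⟨fun x => (hderiv x).differentiableAt, by rw [hderiv']; exact hh⟩
  have hAcont : Continuous (fun x => γ + ∫ t in α..x, h t) := hsmooth.continuous
  have hmono : StrictMonoOn (fun x => γ + ∫ t in α..x, h t) (Icc α β) := by
    apply strictMonoOn_of_deriv_pos (convex_Icc α β) hAcont.continuousOn
    intro x hx
    rw [interior_Icc] at hx
    rw [hderiv']
    exact hpos x ⟨hx.1.le, hx.2.le⟩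
  have hα : (fun x => γ + ∫ t in α..x, h t) α = γ := by simp
  have hαmem : α ∈ Icc α β := ⟨le_refl _, hαβ.le⟩
  have hβmem : β ∈ Icc α β := ⟨hαβ.le, le_refl _⟩
  have hbij : BijOn (fun x => γ + ∫ t in α..x, h t) (Ioo α β) (Ioo γ (γ + ∫ t in α..β, h t)) := by
    refine ⟨?_, ?_, ?_⟩
    · intro x hx
      have hxmem : x ∈ Icc α β := ⟨hx.1.le, hx.2.le⟩
      have h1 := hmono hαmem hxmem hx.1
      have h2 := hmono hxmem hβmem hx.2
      rw [hα] at h1
      exact ⟨h1, h2⟩
    · exact hmono.injOn.mono Ioo_subset_Icc_self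
    · have := intermediate_value_Ioo hαβ.le hAcont.continuousOn
      simp only [intervalIntegral.integral_same, add_zero] at this
      exact this
  refine ⟨⟨hsmooth.contDiffOn, hbij, Function.invFunOn (fun x => γ + ∫ t in α..x, h t) (Ioo α β),
    ?_, ?_⟩, hsmooth, hderiv⟩
  · rw [← hbij.image_eq]
    refine contDiffOn_invFunOn isOpen_Ioo hsmooth.contDiffOn hbij.injOn ?_
    intro x hx
    have hne : h x ≠ 0 := (hpos x ⟨hx.1.le, hx.2.le⟩).ne'
    refine ⟨ContinuousLinearEquiv.unitsEquivAut ℝ (Units.mk0 (h x) hne), ?_⟩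
    have heq : ((ContinuousLinearEquiv.unitsEquivAut ℝ (Units.mk0 (h x) hne) : ℝ ≃L[ℝ] ℝ) :
        ℝ →L[ℝ] ℝ) = ContinuousLinearMap.toSpanSingleton ℝ (h x) := by
      ext
      simp
    rw [heq]
    exact (hderiv x).hasFDerivAt
  · intro x hx
    exact hbij.injOn.leftInvOn_invFunOn hx

end Vale.Agent.Lib.P073

end -- part OneDimD

section -- part OneDimE

/-!
# P073: small helpers for the one-dimensional approximation theorem
-/

namespace Vale.Agent.Lib.P073

open MeasureTheory Filter Topology Set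
open scoped ContDiff ENNReal

/-- The operator norm of a linear map `ℝ → ℝ` is the absolute value of its value at `1`. -/
theorem norm_clm_real (L : ℝ →L[ℝ] ℝ) : ‖L‖ = ‖L 1‖ := by
  have h : L = ContinuousLinearMap.toSpanSingleton ℝ (L 1) := by
    ext
    simp
  calc ‖L‖ = ‖ContinuousLinearMap.toSpanSingleton ℝ (L 1)‖ := by rw [← h]
    _ = ‖L 1‖ := ContinuousLinearMap.norm_toSpanSingleton _

/-- A continuous function is in `L^p` of a bounded open interval. -/
theorem memLp_restrict_Ioo_of_continuous {F : Type*} [NormedAddCommGroup F] {f : ℝ → F}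
    (hf : Continuous f) (p : ℝ≥0∞) (α β : ℝ) : MemLp f p (volume.restrict (Ioo α β)) := by
  obtain ⟨C, hC⟩ := (isCompact_Icc (a := α) (b := β)).exists_bound_of_continuousOn hf.continuousOn
  refine MemLp.of_bound hf.aestronglyMeasurable C ?_
  filter_upwards [ae_restrict_mem measurableSet_Ioo] with x hx
  exact hC x ⟨hx.1.le, hx.2.le⟩

/-- Control of a primitive by the `L^1` norm. -/
theorem enorm_intervalIntegral_le_eLpNorm_one {α β : ℝ} {f : ℝ → ℝ} {x : ℝ}
    (hx : x ∈ Icc α β) :
    ‖∫ t in α..x, f t‖ₑ ≤ eLpNorm f 1 (volume.restrict (Ioo α β)) := by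
  rw [intervalIntegral.integral_of_le hx.1, eLpNorm_one_eq_lintegral_enorm]
  refine (enorm_integral_le_lintegral_enorm _).trans ?_
  have h1 : ∫⁻ t in Ioc α x, ‖f t‖ₑ ≤ ∫⁻ t in Ioc α β, ‖f t‖ₑ :=
    lintegral_mono_set (Ioc_subset_Ioc_right hx.2)
  have h2 : (volume : Measure ℝ).restrict (Ioc α β) = volume.restrict (Ioo α β) :=
    Measure.restrict_congr_set Ioo_ae_eq_Ioc.symm
  rw [h2] at h1
  exact h1

end Vale.Agent.Lib.P073

end -- part OneDimE

section -- part OneDimF

/-!
# P073: structure of increasing Sobolev homeomorphisms of intervals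
-/

namespace Vale.Agent.Lib.P073

open MeasureTheory Filter Topology Set
open scoped ContDiff ENNReal

/-- An increasing `W^{1,p}` homeomorphism `a` of `(α, β)` onto `(γ, δ)` is the primitive of its
weak derivative `g' ≥ 0`, starting from the value `γ` at `α`, and `∫_α^β g' = δ - γ`. -/
theorem structure_of_increasing_sobolev {p : ℝ≥0∞} (hp : 1 ≤ p) {α β γ δ : ℝ} (hαβ : α < β)
    {a : ℝ → ℝ} {G : ℝ → ℝ →L[ℝ] ℝ} (hmono : StrictMonoOn a (Ioo α β))
    (hbij : BijOn a (Ioo α β) (Ioo γ δ)) (hcont : ContinuousOn a (Ioo α β))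
    (hS : IsSobolevWith p (Ioo α β) a G) :
    MemLp (fun t => G t 1) p (volume.restrict (Ioo α β)) ∧
    (∀ᵐ x ∂(volume.restrict (Ioo α β)), 0 ≤ G x 1) ∧
    (∀ x ∈ Ioo α β, a x = γ + ∫ t in α..x, G t 1) ∧
    (∫ t in α..β, G t 1) = δ - γ ∧ γ < δ := by
  obtain ⟨⟨hlocf, hlocG, hweak⟩, hfLp, hGLp⟩ := hS
  obtain ⟨g', hg'⟩ : ∃ g' : ℝ → ℝ, g' = fun t => G t 1 := ⟨_, rfl⟩
  rw [← hg']
  have hg'x : ∀ t, G t 1 = g' t := fun t => by rw [hg']
  simp only [hg'x]
  have hg'Lp : MemLp g' p (volume.restrict (Ioo α β)) := by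
    have := (ContinuousLinearMap.apply ℝ ℝ (1 : ℝ)).comp_memLp' hGLp
    rw [hg']
    exact this
  have hg'int : IntegrableOn g' (Ioo α β) := hg'Lp.integrable hp
  have hg'loc : LocallyIntegrableOn g' (Ioo α β) := hg'int.locallyIntegrableOn
  have hweak' : ∀ φ : ℝ → ℝ, ContDiff ℝ ∞ φ → HasCompactSupport φ → tsupport φ ⊆ Ioo α β →
      ∫ x in Ioo α β, deriv φ x * a x = - ∫ x in Ioo α β, φ x * g' x := by
    intro φ hφ hφs hsub
    have h0 := hweak φ hφ hφs hsub 1
    have e : ∀ x, fderiv ℝ φ x 1 = deriv φ x := fun x => rfl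
    simpa only [e, smul_eq_mul, hg'x] using h0
  have hx₀ : (α + β) / 2 ∈ Ioo α β := ⟨by linarith, by linarith⟩
  have hprim := eq_add_primitive_of_weakDeriv hcont hg'loc hweak' hx₀
  have hII : IntervalIntegrable g' volume α β :=
    (intervalIntegrable_iff_integrableOn_Ioo_of_le hαβ.le).2 hg'int
  have hIIsub : ∀ {c d : ℝ}, c ∈ Icc α β → d ∈ Icc α β → IntervalIntegrable g' volume c d := by
    intro c d hc hd
    refine hII.mono_set ?_
    rw [uIcc_of_le hαβ.le]
    exact uIcc_subset_Icc hc hd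
  have hαmem : α ∈ Icc α β := ⟨le_refl _, hαβ.le⟩
  have hβmem : β ∈ Icc α β := ⟨hαβ.le, le_refl _⟩
  have hx₀' : (α + β) / 2 ∈ Icc α β := ⟨hx₀.1.le, hx₀.2.le⟩
  -- sign of the weak derivative
  have hsign : ∀ᵐ x ∂(volume.restrict (Ioo α β)), 0 ≤ g' x := by
    rw [ae_restrict_iff' measurableSet_Ioo]
    filter_upwards [hII.ae_hasDerivAt_integral] with x hx hxI
    have hxu : x ∈ uIcc α β := by
      rw [uIcc_of_le hαβ.le]
      exact ⟨hxI.1.le, hxI.2.le⟩
    have hx₀u : (α + β) / 2 ∈ uIcc α β := by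
      rw [uIcc_of_le hαβ.le]
      exact hx₀'
    have h1 : HasDerivAt (fun y => ∫ t in (α + β) / 2..y, g' t) (g' x) x := hx hxu _ hx₀u
    have h2 : HasDerivAt a (g' x) x := by
      have h3 : HasDerivAt (fun y => a ((α + β) / 2) + ∫ t in (α + β) / 2..y, g' t) (g' x) x :=
        h1.const_add _
      refine h3.congr_of_eventuallyEq ?_
      filter_upwards [isOpen_Ioo.mem_nhds hxI] with y hy
      exact hprim y hy
    have h4 : 0 ≤ derivWithin a (Ioo α β) x := hmono.monotoneOn.derivWithin_nonneg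
    rwa [h2.hasDerivWithinAt.derivWithin (isOpen_Ioo.uniqueDiffWithinAt hxI)] at h4
  have hsign' : ∀ᵐ x ∂(volume.restrict (Icc α β)), 0 ≤ g' x := by
    have : (volume : Measure ℝ).restrict (Icc α β) = volume.restrict (Ioo α β) :=
      Measure.restrict_congr_set Ioo_ae_eq_Icc.symm
    rw [this]
    exact hsign
  have hnonneg : ∀ {c d : ℝ}, c ∈ Icc α β → d ∈ Icc α β → c ≤ d → 0 ≤ ∫ t in c..d, g' t := by
    intro c d hc hd hcd
    apply intervalIntegral.integral_nonneg_of_ae_restrict hcd
    exact ae_restrict_of_ae_restrict_of_subset (Icc_subset_Icc hc.1 hd.2) hsign'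
  -- the primitive from `α`
  obtain ⟨P, hP⟩ : ∃ P : ℝ → ℝ, P = fun x => ∫ t in α..x, g' t := ⟨_, rfl⟩
  have hPx : ∀ x, (∫ t in α..x, g' t) = P x := fun x => by rw [hP]
  simp only [hPx]
  have hPα : P α = 0 := by rw [hP]; simp
  have hPcont : ContinuousOn P (Icc α β) := by
    have := intervalIntegral.continuousOn_primitive_interval (μ := volume) (f := g') (a := α)
      (b := β) (by rw [uIcc_of_le hαβ.le]; exact (integrableOn_Icc_iff_integrableOn_Ioo (by simp) (by simp)).2 hg'int)
    rw [uIcc_of_le hαβ.le] at this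
    rw [hP]
    exact this
  have hPnonneg : ∀ x ∈ Icc α β, 0 ≤ P x := fun x hx => by
    rw [hP]
    exact hnonneg hαmem hx hx.1
  have hPle : ∀ x ∈ Icc α β, P x ≤ P β := fun x hx => by
    have h1 := hnonneg hx hβmem hx.2
    have h2 := intervalIntegral.integral_interval_sub_left (hIIsub hαmem hβmem) (hIIsub hαmem hx)
    rw [hP]
    linarith
  obtain ⟨L₀, hL₀⟩ : ∃ L₀ : ℝ, L₀ = a ((α + β) / 2) - P ((α + β) / 2) := ⟨_, rfl⟩
  have haP : ∀ x ∈ Ioo α β, a x = L₀ + P x := by
    intro x hx
    have hxI : x ∈ Icc α β := ⟨hx.1.le, hx.2.le⟩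
    have h2 := intervalIntegral.integral_interval_sub_left (hIIsub hαmem hxI) (hIIsub hαmem hx₀')
    rw [hprim x hx, hL₀, hP]
    linarith
  have hγδ : γ < δ := by
    have := hbij.mapsTo hx₀
    exact this.1.trans this.2
  -- endpoint values
  have hne1 : (𝓝[Ioo α β] α).NeBot := by
    rw [← mem_closure_iff_nhdsWithin_neBot, closure_Ioo hαβ.ne]
    exact hαmem
  have hne2 : (𝓝[Ioo α β] β).NeBot := by
    rw [← mem_closure_iff_nhdsWithin_neBot, closure_Ioo hαβ.ne]
    exact hβmem
  have hlim1 : Tendsto P (𝓝[Ioo α β] α) (𝓝 (P α)) :=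
    (hPcont α hαmem).mono_left (nhdsWithin_mono _ Ioo_subset_Icc_self)
  have hlim2 : Tendsto P (𝓝[Ioo α β] β) (𝓝 (P β)) :=
    (hPcont β hβmem).mono_left (nhdsWithin_mono _ Ioo_subset_Icc_self)
  have hL₀γ : L₀ = γ := by
    apply le_antisymm
    · by_contra hcon
      rw [not_le] at hcon
      have hy : (γ + min L₀ δ) / 2 ∈ Ioo γ δ := by
        have h1 : γ < min L₀ δ := lt_min hcon hγδ
        have h2 : min L₀ δ ≤ δ := min_le_right _ _
        exact ⟨by linarith, by linarith⟩
      obtain ⟨x, hx, hxy⟩ := hbij.surjOn hy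
      have h3 := haP x hx
      have h4 := hPnonneg x ⟨hx.1.le, hx.2.le⟩
      have h5 : min L₀ δ ≤ L₀ := min_le_left _ _
      linarith
    · have h1 : γ - L₀ ≤ P α := by
        refine ge_of_tendsto hlim1 ?_
        filter_upwards [self_mem_nhdsWithin] with x hx
        have h2 := haP x hx
        have h3 := (hbij.mapsTo hx).1
        linarith
      linarith
  have hPβ : P β = δ - γ := by
    apply le_antisymm
    · have h1 : P β ≤ δ - L₀ := by
        refine le_of_tendsto hlim2 ?_
        filter_upwards [self_mem_nhdsWithin] with x hx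
        have h2 := haP x hx
        have h3 := (hbij.mapsTo hx).2
        linarith
      linarith
    · by_contra hcon
      rw [not_le] at hcon
      have hy : (max (γ + P β) γ + δ) / 2 ∈ Ioo γ δ := by
        have h1 : max (γ + P β) γ < δ := max_lt (by linarith) hγδ
        have h2 : γ ≤ max (γ + P β) γ := le_max_right _ _
        exact ⟨by linarith, by linarith⟩
      obtain ⟨x, hx, hxy⟩ := hbij.surjOn hy
      have h3 := haP x hx
      have h4 := hPle x ⟨hx.1.le, hx.2.le⟩
      have h5 : γ + P β ≤ max (γ + P β) γ := le_max_left _ _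
      have h1 : max (γ + P β) γ < δ := max_lt (by linarith) hγδ
      linarith
  refine ⟨hg'Lp, hsign, ?_, hPβ, hγδ⟩
  intro x hx
  rw [haP x hx, hL₀γ]

end Vale.Agent.Lib.P073

end -- part OneDimF

section -- part OneDimG

/-!
# P073: increasing Sobolev homeomorphisms of bounded intervals are diffeomorphically approximable
-/

namespace Vale.Agent.Lib.P073

open MeasureTheory Filter Topology Set
open scoped ContDiff ENNReal

theorem isDiffeoApproximable_of_strictMonoOn {p : ℝ≥0∞} (hp : 1 ≤ p) (hp' : p ≠ ⊤)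
    {α β γ δ : ℝ} (hαβ : α < β) {a : ℝ → ℝ} {G : ℝ → ℝ →L[ℝ] ℝ}
    (hmono : StrictMonoOn a (Ioo α β)) (hbij : BijOn a (Ioo α β) (Ioo γ δ))
    (hcont : ContinuousOn a (Ioo α β)) (hS : IsSobolevWith p (Ioo α β) a G) :
    IsDiffeoApproximable p (Ioo α β) (Ioo γ δ) a := by
  obtain ⟨hg'Lp, hsign, haP, hT, hγδ⟩ :=
    structure_of_increasing_sobolev hp hαβ hmono hbij hcont hS
  obtain ⟨g', hg'⟩ : ∃ g' : ℝ → ℝ, g' = fun t => G t 1 := ⟨_, rfl⟩
  have hg'x : ∀ t, G t 1 = g' t := fun t => by rw [hg']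
  simp only [hg'x] at haP hT hsign
  rw [← hg'] at hg'Lp
  obtain ⟨μ, hμ⟩ : ∃ μ : Measure ℝ, μ = volume.restrict (Ioo α β) := ⟨_, rfl⟩
  rw [← hμ] at hg'Lp hsign
  have hfin : IsFiniteMeasure μ := by rw [hμ]; infer_instance
  have hαmem : α ∈ Icc α β := ⟨le_refl _, hαβ.le⟩
  have hβmem : β ∈ Icc α β := ⟨hαβ.le, le_refl _⟩
  have hg'int : IntegrableOn g' (Ioo α β) := by
    have := hg'Lp.integrable hp
    rw [hμ] at this
    exact this
  have hII : IntervalIntegrable g' volume α β :=
    (intervalIntegrable_iff_integrableOn_Ioo_of_le hαβ.le).2 hg'int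
  have hIIsub : ∀ {x : ℝ}, x ∈ Icc α β → IntervalIntegrable g' volume α x := by
    intro x hx
    refine hII.mono_set ?_
    rw [uIcc_of_le hαβ.le]
    exact uIcc_subset_Icc hαmem hx
  -- approximating polynomials
  have hex : ∀ j : ℕ, ∃ Q : Polynomial ℝ, (∀ x ∈ Icc α β, 0 < Q.eval x) ∧
      eLpNorm (fun x => Q.eval x - g' x) p μ ≤ ENNReal.ofReal (1 / ((j : ℝ) + 1)) := by
    intro j
    rw [hμ]
    rw [hμ] at hg'Lp hsign
    exact exists_pos_polynomial_approx hp hp' hαβ hg'Lp hsign (by positivity)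
  choose Q hQpos hQerr using hex
  have hQcont : ∀ j, Continuous (fun x => (Q j).eval x) := fun j => (Q j).continuous
  have hQmeas : ∀ j, AEStronglyMeasurable (fun x => (Q j).eval x) μ :=
    fun j => (hQcont j).aestronglyMeasurable
  have hg'meas : AEStronglyMeasurable g' μ := hg'Lp.aestronglyMeasurable
  obtain ⟨e, he_def⟩ : ∃ e : ℕ → ℝ≥0∞, e = fun j => eLpNorm (fun x => (Q j).eval x - g' x) p μ :=
    ⟨_, rfl⟩
  have he_le : ∀ j, e j ≤ ENNReal.ofReal (1 / ((j : ℝ) + 1)) := fun j => by
    rw [he_def]; exact hQerr j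
  have he : Tendsto e atTop (𝓝 0) := by
    have h1 : Tendsto (fun j : ℕ => ENNReal.ofReal (1 / ((j : ℝ) + 1))) atTop (𝓝 0) := by
      have := ENNReal.tendsto_ofReal (tendsto_one_div_add_atTop_nhds_zero_nat (𝕜 := ℝ))
      simpa using this
    exact tendsto_of_tendsto_of_tendsto_of_le_of_le tendsto_const_nhds h1 (fun _ => zero_le) he_le
  -- comparison of the `L^1` and `L^p` norms
  obtain ⟨Cμ, hCμ_def⟩ : ∃ Cμ : ℝ≥0∞,
      Cμ = μ Set.univ ^ (1 / (1 : ℝ≥0∞).toReal - 1 / p.toReal) := ⟨_, rfl⟩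
  have hCμ : Cμ ≠ ⊤ := by
    rw [hCμ_def]
    apply ENNReal.rpow_ne_top_of_nonneg _ (measure_ne_top μ _)
    have h1 : (1 : ℝ) ≤ p.toReal := by
      have := ENNReal.toReal_mono hp' hp
      simpa using this
    have h2 : 1 / p.toReal ≤ 1 := by
      rw [div_le_one (by linarith)]
      exact h1
    simp only [ENNReal.toReal_one, div_one]
    linarith
  have hL1 : ∀ f : ℝ → ℝ, AEStronglyMeasurable f μ → eLpNorm f 1 μ ≤ eLpNorm f p μ * Cμ := by
    intro f hf
    rw [hCμ_def]
    exact eLpNorm_le_eLpNorm_mul_rpow_measure_univ hp hf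
  have hprim_le : ∀ (f : ℝ → ℝ), AEStronglyMeasurable f μ → ∀ x ∈ Icc α β,
      ‖∫ t in α..x, f t‖ₑ ≤ eLpNorm f p μ * Cμ := by
    intro f hf x hx
    have h1 := enorm_intervalIntegral_le_eLpNorm_one (f := f) hx
    rw [← hμ] at h1
    exact h1.trans (hL1 f hf)
  -- total masses
  obtain ⟨T, hT_def⟩ : ∃ T : ℕ → ℝ, T = fun j => ∫ t in α..β, (Q j).eval t := ⟨_, rfl⟩
  have hTpos : ∀ j, 0 < T j := fun j => by
    rw [hT_def]
    exact intervalIntegral.intervalIntegral_pos_of_pos_on ((hQcont j).intervalIntegrable _ _)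
      (fun x hx => hQpos j x ⟨hx.1.le, hx.2.le⟩) hαβ
  have hTlim : Tendsto T atTop (𝓝 (δ - γ)) := by
    rw [tendsto_iff_edist_tendsto_0]
    have h1 : Tendsto (fun j => e j * Cμ) atTop (𝓝 0) := by
      have := ENNReal.Tendsto.mul_const he (Or.inr hCμ)
      simpa using this
    refine tendsto_of_tendsto_of_tendsto_of_le_of_le tendsto_const_nhds h1 (fun _ => zero_le) ?_
    intro j
    have h2 : T j - (δ - γ) = ∫ t in α..β, ((Q j).eval t - g' t) := by
      rw [intervalIntegral.integral_sub ((hQcont j).intervalIntegrable _ _) hII, hT, hT_def]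
    show edist (T j) (δ - γ) ≤ e j * Cμ
    rw [edist_eq_enorm_sub, h2, he_def]
    exact hprim_le _ ((hQmeas j).sub hg'meas) β hβmem
  have hδγ : δ - γ ≠ 0 := by linarith
  obtain ⟨c, hc_def⟩ : ∃ c : ℕ → ℝ, c = fun j => (δ - γ) / T j := ⟨_, rfl⟩
  have hcpos : ∀ j, 0 < c j := fun j => by
    rw [hc_def]
    exact div_pos (by linarith) (hTpos j)
  have hcT : ∀ j, c j * T j = δ - γ := fun j => by
    rw [hc_def]
    exact div_mul_cancel₀ _ (hTpos j).ne'
  have hclim : Tendsto c atTop (𝓝 1) := by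
    have := (tendsto_const_nhds (x := δ - γ)).div hTlim hδγ
    rw [div_self hδγ] at this
    rw [hc_def]
    exact this
  have hclim' : Tendsto (fun j => ‖c j - 1‖ₑ) atTop (𝓝 0) := by
    have h1 : Tendsto (fun j => |c j - 1|) atTop (𝓝 0) := by
      have := (hclim.sub_const 1).abs
      simpa using this
    have := ENNReal.tendsto_ofReal h1
    simpa [Real.enorm_eq_ofReal_abs] using this
  -- the approximating diffeomorphisms
  have hhsmooth : ∀ j, ContDiff ℝ ∞ (fun t => c j * (Q j).eval t) := fun j => by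
    have : ContDiff ℝ ∞ (fun x : ℝ => Polynomial.aeval x (Q j)) := (Q j).contDiff_aeval ∞
    exact contDiff_const.mul (by simpa using this)
  have hhpos : ∀ j, ∀ x ∈ Icc α β, 0 < c j * (Q j).eval x :=
    fun j x hx => mul_pos (hcpos j) (hQpos j x hx)
  have hend : ∀ j, γ + ∫ t in α..β, c j * (Q j).eval t = δ := fun j => by
    have : ∫ t in α..β, (Q j).eval t = T j := by rw [hT_def]
    rw [intervalIntegral.integral_const_mul, this, hcT j]
    ring
  have hdiffeo := fun j => isSmoothDiffeo_primitive (γ := γ) hαβ (hhsmooth j) (hhpos j)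
  -- the derivative error
  obtain ⟨D, hD_def⟩ : ∃ D : ℕ → ℝ≥0∞,
      D = fun j => eLpNorm (fun x => c j * (Q j).eval x - g' x) p μ := ⟨_, rfl⟩
  obtain ⟨N₀, hN₀_def⟩ : ∃ N₀ : ℝ≥0∞, N₀ = eLpNorm g' p μ := ⟨_, rfl⟩
  have hN₀ : N₀ ≠ ⊤ := by rw [hN₀_def]; exact hg'Lp.eLpNorm_ne_top
  have hQnorm : ∀ j, eLpNorm (fun x => (Q j).eval x) p μ ≤ e j + N₀ := by
    intro j
    have hsplit : (fun x => (Q j).eval x) = (fun x => (Q j).eval x - g' x) + g' := by
      ext x
      simp
    rw [hsplit, he_def, hN₀_def]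
    exact eLpNorm_add_le ((hQmeas j).sub hg'meas) hg'meas hp
  have hDle : ∀ j, D j ≤ ‖c j - 1‖ₑ * (e j + N₀) + e j := by
    intro j
    have hsplit : (fun x => c j * (Q j).eval x - g' x)
        = (c j - 1) • (fun x => (Q j).eval x) + (fun x => (Q j).eval x - g' x) := by
      ext x
      simp only [Pi.add_apply, Pi.smul_apply, smul_eq_mul]
      ring
    rw [hD_def]
    simp only
    rw [hsplit]
    refine (eLpNorm_add_le ((hQmeas j).const_smul _) ((hQmeas j).sub hg'meas) hp).trans ?_
    refine add_le_add ?_ ?_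
    · rw [eLpNorm_const_smul]
      exact mul_le_mul_right (hQnorm j) _
    · rw [he_def]
      exact le_rfl
  have hDlim : Tendsto D atTop (𝓝 0) := by
    have h1 : Tendsto (fun j => ‖c j - 1‖ₑ * (e j + N₀) + e j) atTop (𝓝 (0 * (0 + N₀) + 0)) := by
      refine Tendsto.add ?_ he
      refine ENNReal.Tendsto.mul hclim' (Or.inr (by simpa using hN₀)) (he.add tendsto_const_nhds)
        (Or.inr ENNReal.zero_ne_top)
    simp only [zero_mul, add_zero] at h1
    exact tendsto_of_tendsto_of_tendsto_of_le_of_le tendsto_const_nhds h1 (fun _ => zero_le) hDle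
  have hDmeas : ∀ j, AEStronglyMeasurable (fun x => c j * (Q j).eval x - g' x) μ :=
    fun j => ((hQmeas j).const_mul _).sub hg'meas
  -- the function error
  have hFerr : ∀ j, ∀ x ∈ Ioo α β,
      ‖(γ + ∫ t in α..x, c j * (Q j).eval t) - a x‖ₑ ≤ D j * Cμ := by
    intro j x hx
    have hxI : x ∈ Icc α β := ⟨hx.1.le, hx.2.le⟩
    have j1 : IntervalIntegrable (fun t => c j * (Q j).eval t) volume α x :=
      (continuous_const.mul (hQcont j)).intervalIntegrable _ _
    have h1 : (γ + ∫ t in α..x, c j * (Q j).eval t) - a x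
        = ∫ t in α..x, (c j * (Q j).eval t - g' t) := by
      rw [haP x hx, intervalIntegral.integral_sub j1 (hIIsub hxI)]
      ring
    rw [h1, hD_def]
    exact hprim_le _ (hDmeas j) x hxI
  obtain ⟨M, hM_def⟩ : ∃ M : ℝ≥0∞, M = μ Set.univ ^ p.toReal⁻¹ := ⟨_, rfl⟩
  have hM : M ≠ ⊤ := by
    rw [hM_def]
    exact ENNReal.rpow_ne_top_of_nonneg (inv_nonneg.2 ENNReal.toReal_nonneg) (measure_ne_top μ _)
  have hFnorm : ∀ j, eLpNorm (fun x => (γ + ∫ t in α..x, c j * (Q j).eval t) - a x) p μ
      ≤ D j * Cμ * M := by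
    intro j
    have hae : ∀ᵐ x ∂μ, ‖(γ + ∫ t in α..x, c j * (Q j).eval t) - a x‖ₑ ≤ D j * Cμ := by
      rw [hμ]
      filter_upwards [ae_restrict_mem measurableSet_Ioo] with x hx
      exact hFerr j x hx
    have := eLpNorm_le_of_ae_enorm_bound (p := p) hae
    rw [hM_def]
    simpa [smul_eq_mul] using this
  have hGnorm : ∀ j, eLpNorm (fun x => fderiv ℝ (fun x => γ + ∫ t in α..x, c j * (Q j).eval t) x
      - G x) p μ = D j := by
    intro j
    rw [hD_def]
    apply eLpNorm_congr_norm_ae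
    filter_upwards with x
    rw [norm_clm_real]
    have h1 : fderiv ℝ (fun x => γ + ∫ t in α..x, c j * (Q j).eval t) x 1
        = c j * (Q j).eval x := ((hdiffeo j).2.2 x).deriv
    have h3 : (fderiv ℝ (fun x => γ + ∫ t in α..x, c j * (Q j).eval t) x - G x) 1
        = fderiv ℝ (fun x => γ + ∫ t in α..x, c j * (Q j).eval t) x 1 - G x 1 := rfl
    rw [h3, h1, hg'x]
  -- conclusion
  refine ⟨G, hS, fun j x => γ + ∫ t in α..x, c j * (Q j).eval t, ?_, ?_⟩
  · intro j
    have h1 := (hdiffeo j).1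
    rw [hend j] at h1
    have h2 := (hdiffeo j).2.1
    exact ⟨h1, memLp_restrict_Ioo_of_continuous h2.continuous p α β,
      memLp_restrict_Ioo_of_continuous (h2.continuous_fderiv (by simp)) p α β⟩
  · rw [← hμ]
    have h1 : Tendsto (fun j => D j * Cμ * M + D j) atTop (𝓝 (0 * Cμ * M + 0)) := by
      refine Tendsto.add ?_ hDlim
      exact ENNReal.Tendsto.mul_const (ENNReal.Tendsto.mul_const hDlim (Or.inr hCμ)) (Or.inr hM)
    simp only [zero_mul, add_zero] at h1
    refine tendsto_of_tendsto_of_tendsto_of_le_of_le tendsto_const_nhds h1 (fun _ => zero_le) ?_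
    intro j
    show eLpNorm (fun x => (γ + ∫ t in α..x, c j * (Q j).eval t) - a x) p μ
      + eLpNorm (fun x => fderiv ℝ (fun x => γ + ∫ t in α..x, c j * (Q j).eval t) x - G x) p μ
      ≤ D j * Cμ * M + D j
    rw [hGnorm j]
    exact add_le_add (hFnorm j) le_rfl

end Vale.Agent.Lib.P073

end -- part OneDimG

section -- part Neg

/-!
# P073: diffeomorphic approximability is invariant under negation of the target
-/

namespace Vale.Agent.Lib.P073

open MeasureTheory Filter Topology Set
open scoped ContDiff ENNReal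

variable {E : Type*} [NormedAddCommGroup E] [NormedSpace ℝ E] [MeasureSpace E]
  {F : Type*} [NormedAddCommGroup F] [NormedSpace ℝ F]

theorem IsWeakDeriv.neg {Ω : Set E} {f : E → F} {G : E → E →L[ℝ] F} (h : IsWeakDeriv Ω f G) :
    IsWeakDeriv Ω (fun x => - f x) (fun x => - G x) := by
  obtain ⟨h1, h2, h3⟩ := h
  refine ⟨h1.neg, h2.neg, ?_⟩
  intro φ hφ hφs hsub v
  have := h3 φ hφ hφs hsub v
  simp only [smul_neg, integral_neg, neg_apply]
  rw [this]

theorem IsSobolevWith.neg {p : ℝ≥0∞} {Ω : Set E} {f : E → F} {G : E → E →L[ℝ] F}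
    (h : IsSobolevWith p Ω f G) : IsSobolevWith p Ω (fun x => - f x) (fun x => - G x) :=
  ⟨h.1.neg, h.2.1.neg, h.2.2.neg⟩

omit [MeasureSpace E] in
theorem IsSmoothDiffeo.neg_of {g : E → E} {Ω Λ : Set E}
    (h : IsSmoothDiffeo g Ω (Neg.neg ⁻¹' Λ)) : IsSmoothDiffeo (fun x => - g x) Ω Λ := by
  obtain ⟨h1, h2, k, hk1, hk2⟩ := h
  refine ⟨h1.neg, ⟨?_, ?_, ?_⟩, fun y => k (-y), ?_, ?_⟩
  · intro x hx
    exact h2.mapsTo hx
  · intro x hx y hy hxy
    exact h2.injOn hx hy (neg_injective hxy)
  · intro y hy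
    have : -y ∈ Neg.neg ⁻¹' Λ := by simpa using hy
    obtain ⟨x, hx, hxy⟩ := h2.surjOn this
    exact ⟨x, hx, by simp [hxy]⟩
  · refine hk1.comp contDiff_neg.contDiffOn ?_
    intro y hy
    simpa using hy
  · intro x hx
    simp only [neg_neg]
    exact hk2 x hx

/-- If `-f` is diffeomorphically approximable as a map onto `-Λ`, then `f` is diffeomorphically
approximable as a map onto `Λ`. -/
theorem IsDiffeoApproximable.of_neg {p : ℝ≥0∞} {Ω Λ : Set E} {f : E → E}
    (h : IsDiffeoApproximable p Ω (Neg.neg ⁻¹' Λ) (fun x => - f x)) :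
    IsDiffeoApproximable p Ω Λ f := by
  obtain ⟨G, hS, Fseq, hF, hlim⟩ := h
  refine ⟨fun x => - G x, ?_, fun j x => - Fseq j x, ?_, ?_⟩
  · have := hS.neg
    simpa using this
  · intro j
    obtain ⟨h1, h2, h3⟩ := hF j
    refine ⟨h1.neg_of, h2.neg, ?_⟩
    have : fderiv ℝ (fun x => - Fseq j x) = fun x => - fderiv ℝ (Fseq j) x := by
      ext1 x
      exact fderiv_fun_neg
    rw [this]
    exact h3.neg
  · refine hlim.congr fun j => ?_
    congr 1
    · rw [← eLpNorm_neg]
      congr 1
      ext x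
      simp only [Pi.neg_apply]
      abel
    · rw [← eLpNorm_neg]
      congr 1
      ext1 x
      have : fderiv ℝ (fun x => - Fseq j x) x = - fderiv ℝ (Fseq j) x := fderiv_fun_neg
      simp only [Pi.neg_apply]
      rw [this]
      abel

end Vale.Agent.Lib.P073

end -- part Neg

section -- part OneDimH

/-!
# P073: every Sobolev homeomorphism between bounded open intervals is diffeomorphically
approximable
-/

namespace Vale.Agent.Lib.P073

open MeasureTheory Filter Topology Set
open scoped ContDiff ENNReal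

/-- **One-dimensional case.** Let `a` be continuous and injective on the bounded interval
`(α, β)`, mapping it onto `(γ, δ)`, and assume `a ∈ W^{1,p}(α, β)` with weak derivative `G`,
`1 ≤ p < ∞`.  Then `a` is diffeomorphically approximable in `W^{1,p}`. -/
theorem isDiffeoApproximable_interval {p : ℝ≥0∞} (hp : 1 ≤ p) (hp' : p ≠ ⊤)
    {α β γ δ : ℝ} (hαβ : α < β) {a : ℝ → ℝ} {G : ℝ → ℝ →L[ℝ] ℝ}
    (hcont : ContinuousOn a (Ioo α β)) (hbij : BijOn a (Ioo α β) (Ioo γ δ))
    (hS : IsSobolevWith p (Ioo α β) a G) :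
    IsDiffeoApproximable p (Ioo α β) (Ioo γ δ) a := by
  rcases hcont.strictMonoOn_of_injOn_Ioo hαβ hbij.injOn with hmono | hanti
  · exact isDiffeoApproximable_of_strictMonoOn hp hp' hαβ hmono hbij hcont hS
  · apply IsDiffeoApproximable.of_neg
    have hset : Neg.neg ⁻¹' Ioo γ δ = Ioo (-δ) (-γ) := by
      ext y
      simp only [mem_preimage, mem_Ioo]
      constructor
      · rintro ⟨h1, h2⟩
        exact ⟨by linarith, by linarith⟩
      · rintro ⟨h1, h2⟩
        exact ⟨by linarith, by linarith⟩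
    rw [hset]
    have hbij' : BijOn (fun x => - a x) (Ioo α β) (Ioo (-δ) (-γ)) := by
      refine ⟨?_, ?_, ?_⟩
      · intro x hx
        have := hbij.mapsTo hx
        exact ⟨by simpa using this.2, by simpa using this.1⟩
      · intro x hx y hy hxy
        exact hbij.injOn hx hy (neg_injective hxy)
      · intro y hy
        have : -y ∈ Ioo γ δ := ⟨by linarith [hy.2], by linarith [hy.1]⟩
        obtain ⟨x, hx, hxy⟩ := hbij.surjOn this
        exact ⟨x, hx, by simp [hxy]⟩
    exact isDiffeoApproximable_of_strictMonoOn hp hp' hαβ hanti.neg hbij' hcont.neg hS.neg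

end Vale.Agent.Lib.P073

end -- part OneDimH
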